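import Vale.Agent.Lib.P154.Neg.CkDefs
import Mathlib.Analysis.Complex.ExponentialBounds
import Mathlib.Analysis.Real.Pi.Bounds

/-! The functionals are nonnegative away from the boundary. -/

namespace Vale.Agent.Lib.P154.Neg

namespace CkPos

/-- the term of the functional with `p = 1/2`, `t = 1` -/
noncomputable def g (x y : ℝ) : ℝ := (x * y) ^ ((1 : ℝ) / 2) * Real.cos (Real.log x - Real.log y)

theorem g_symm (x y : ℝ) : g x y = g y x := by
  unfold g
  rw [mul_comm x y, ← Real.cos_neg, neg_sub]

theorem log_sub_le (x y s : ℝ) (hx : 0 < x) (hy : 0 < y) (h : x ≤ y * Real.exp s) :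
    Real.log x - Real.log y ≤ s := by
  have := Real.log_le_log hx h
  rw [Real.log_mul hy.ne' (Real.exp_pos _).ne', Real.log_exp] at this
  linarith

theorem exp3 : (19 : ℝ) ≤ Real.exp 3 := by
  have h : Real.exp 3 = Real.exp 1 ^ 3 := by rw [← Real.exp_nat_mul]; norm_num
  rw [h]
  have h2 := Real.exp_one_gt_d9
  calc (19 : ℝ) ≤ 2.7 ^ 3 := by norm_num
    _ ≤ Real.exp 1 ^ 3 := by gcongr; linarith

theorem exp32 : (4.35 : ℝ) ≤ Real.exp (3 / 2) := by
  have h : Real.exp 3 = Real.exp (3 / 2) ^ 2 := by rw [← Real.exp_nat_mul]; norm_num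
  have h3 := exp3
  rw [h] at h3
  by_contra hcon
  push Not at hcon
  have : Real.exp (3 / 2) ^ 2 < 4.35 ^ 2 := by
    have := Real.exp_pos (3 / 2)
    gcongr
  norm_num at this
  linarith

theorem cos_nonneg_of_ratio (x y t : ℝ) (hx : 0 < x) (hy : 0 < y) (ht : 0 ≤ t) (ht2 : t ≤ 1 / 2)
    (h1 : x ≤ 14 * y) (h2 : y ≤ 14 * x) : 0 ≤ Real.cos (t * (Real.log x - Real.log y)) := by
  have he := exp3
  have a1 := log_sub_le x y 3 hx hy (by nlinarith)
  have a2 := log_sub_le y x 3 hy hx (by nlinarith)
  have hpi := Real.pi_gt_three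
  apply Real.cos_nonneg_of_neg_pi_div_two_le_of_le
  · nlinarith
  · nlinarith

theorem g_ge (x y κ : ℝ) (hx : 0 < x) (hy : 0 < y) (hκ : 0 ≤ κ)
    (hcos : -κ ≤ Real.cos (Real.log x - Real.log y)) : -(κ * (x / 4 + y)) ≤ g x y := by
  unfold g
  rw [← Real.sqrt_eq_rpow]
  have h1 : Real.sqrt (x * y) ≤ x / 4 + y := by
    apply Real.sqrt_le_iff.mpr
    constructor
    · positivity
    · nlinarith [sq_nonneg (x / 4 - y)]
  have h0 := Real.sqrt_nonneg (x * y)
  nlinarith

theorem gab_ge (a b δ : ℝ) (hb : 0 < b) (hab : b ≤ a) (hδ : a ≤ (1 + δ) * b) (hδ0 : 0 ≤ δ)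
    (hδ1 : δ ≤ 1) :
    b * (1 - δ ^ 2 / 2) ≤ g a b := by
  have ha : 0 < a := by linarith
  unfold g
  rw [← Real.sqrt_eq_rpow]
  have h1 : b ≤ Real.sqrt (a * b) := by
    apply Real.le_sqrt_of_sq_le
    nlinarith
  have hl0 : 0 ≤ Real.log a - Real.log b := by
    have := Real.log_le_log hb hab
    linarith
  have hl1 : Real.log a - Real.log b ≤ δ := by
    rw [← Real.log_div ha.ne' hb.ne']
    have h2 : a / b ≤ 1 + δ := by rw [div_le_iff₀ hb]; exact hδ
    have h3 := Real.log_le_sub_one_of_pos (div_pos ha hb)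
    linarith
  have hc := Real.one_sub_sq_div_two_le_cos (x := Real.log a - Real.log b)
  have hc2 : 1 - δ ^ 2 / 2 ≤ Real.cos (Real.log a - Real.log b) := by nlinarith
  have hδ3 : 0 ≤ 1 - δ ^ 2 / 2 := by nlinarith
  calc b * (1 - δ ^ 2 / 2) ≤ Real.sqrt (a * b) * Real.cos (Real.log a - Real.log b) := by
        apply mul_le_mul h1 hc2 hδ3 (Real.sqrt_nonneg _)

theorem core (a b c : ℝ) (hc : 0 < c) (hbc : c ≤ b) (hab : b ≤ a) (hM : a ≤ 741 / 512)
    (hs : a + b + c = 3) : 0 ≤ g a b + g b c + g a c := by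
  have hb : 0 < b := by linarith
  have ha : 0 < a := by linarith
  have hpi := Real.pi_gt_d2
  have h32 := exp32
  by_cases h1 : a ≤ 4.35 * c
  · -- all cosines are nonnegative
    have key : ∀ x y : ℝ, 0 < x → 0 < y → y ≤ x → x ≤ 4.35 * y → 0 ≤ g x y := by
      intro x y hx hy hyx hxy
      have a1 := log_sub_le x y (3 / 2) hx hy (by nlinarith)
      have a2 := Real.log_le_log hy hyx
      unfold g
      apply mul_nonneg (Real.rpow_nonneg (by positivity) _)
      apply Real.cos_nonneg_of_neg_pi_div_two_le_of_le <;> linarith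
    have k1 := key a b ha hb hab (by linarith)
    have k2 := key b c hb hc hbc (by linarith)
    have k3 := key a c ha hc (by linarith) h1
    linarith
  · push Not at h1
    by_cases h2 : a ≤ 8 * c
    · -- cosines at least -1/2
      have hl2 := Real.log_two_lt_d9
      have key : ∀ x y : ℝ, 0 < x → 0 < y → y ≤ x → x ≤ 8 * y →
          -(1 / 2) ≤ Real.cos (Real.log x - Real.log y) := by
        intro x y hx hy hyx hxy
        have a2 := Real.log_le_log hy hyx
        have a1 : Real.log x - Real.log y ≤ 2.0795 := by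
          have := Real.log_le_log hx hxy
          rw [Real.log_mul (by norm_num) hy.ne', show (8 : ℝ) = 2 ^ 3 by norm_num,
            Real.log_pow] at this
          push_cast at this
          linarith
        have h3 : Real.cos (2 * Real.pi / 3) ≤ Real.cos (Real.log x - Real.log y) := by
          apply Real.cos_le_cos_of_nonneg_of_le_pi
          · linarith
          · linarith
          · have := Real.pi_gt_d4
            linarith
        have h4 : Real.cos (2 * Real.pi / 3) = -(1 / 2) := by
          rw [show 2 * Real.pi / 3 = Real.pi - Real.pi / 3 by ring, Real.cos_pi_sub,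
            Real.cos_pi_div_three]
        rw [h4] at h3
        exact h3
      have k1 := gab_ge a b 0.2 hb hab (by linarith) (by norm_num) (by norm_num)
      have k2 := g_ge b c (1 / 2) hb hc (by norm_num) (key b c hb hc hbc (by linarith))
      have k3 := g_ge a c (1 / 2) ha hc (by norm_num) (key a c ha hc (by linarith) h2)
      linarith
    · push Not at h2
      have k1 := gab_ge a b 0.1 hb hab (by linarith) (by norm_num) (by norm_num)
      have k2 := g_ge b c 1 hb hc (by norm_num) (Real.neg_one_le_cos _)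
      have k3 := g_ge a c 1 ha hc (by norm_num) (Real.neg_one_le_cos _)
      linarith

theorem core' (a b c : ℝ) (ha : 0 < a) (hb : 0 < b) (hc : 0 < c) (hMa : a ≤ 741 / 512)
    (hMb : b ≤ 741 / 512) (hMc : c ≤ 741 / 512)
    (hs : a + b + c = 3) : 0 ≤ g a b + g b c + g a c := by
  rcases le_total a b with h1 | h1 <;> rcases le_total b c with h2 | h2 <;>
    rcases le_total a c with h3 | h3
  · have := core c b a ha h1 h2 hMc (by linarith)
    rw [g_symm a b, g_symm b c, g_symm a c]; linarith
  · have := core c b a ha h1 h2 hMc (by linarith)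
    rw [g_symm a b, g_symm b c, g_symm a c]; linarith
  · have := core b c a ha h3 h2 hMb (by linarith)
    rw [g_symm a b, g_symm a c]; linarith
  · have := core b a c hc h3 h1 hMb (by linarith)
    rw [g_symm a b]; linarith
  · have := core c a b hb h1 h3 hMc (by linarith)
    rw [g_symm a c, g_symm b c]; linarith
  · have := core a c b hb h2 h3 hMa (by linarith)
    rw [g_symm b c]; linarith
  · have := core a b c hc h2 h1 hMa (by linarith)
    linarith
  · have := core a b c hc h2 h1 hMa (by linarith)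
    linarith

end CkPos

theorem Fn_nonneg (a : ℕ × ℕ) (ha : a ∈ [(8, 0), (8, 4), (8, 8), (8, 16), (7, 8), (6, 8)])
    (y : Fin 3 → ℝ) (hy : Sx y) (h : ∀ i, y i ≤ 1 + 229 / 512) : 0 ≤ Fn a y := by
  have hs := hy.2
  rw [Fin.sum_univ_three] at hs
  have h0 := h 0
  have h1 := h 1
  have h2 := h 2
  have p0 : 27 / 256 ≤ y 0 := by linarith
  have p1 : 27 / 256 ≤ y 1 := by linarith
  have p2 : 27 / 256 ≤ y 2 := by linarith
  have hlow : ∀ i, 27 / 256 ≤ y i := by
    intro i; fin_cases i
    · exact p0
    · exact p1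
    · exact p2
  have easy : ∀ p t : ℝ, 0 ≤ t → t ≤ 1 / 2 → 0 ≤ Fc p t y := by
    intro p t ht ht2
    unfold Fc
    apply mul_nonneg (by norm_num)
    apply Finset.sum_nonneg
    intro k _
    have q0 := hlow k
    have q1 := hlow (k + 1)
    have q2 := hlow (k + 2)
    have r1 := h (k + 1)
    have r2 := h (k + 2)
    have hc := CkPos.cos_nonneg_of_ratio (y (k + 1)) (y (k + 2)) t (by linarith) (by linarith)
      ht ht2 (by linarith) (by linarith)
    have e1 : 0 ≤ (y (k + 1) * y (k + 2)) ^ p := Real.rpow_nonneg (by nlinarith) _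
    have e2 : 0 ≤ (y k) ^ (1 - 2 * p) := Real.rpow_nonneg (by linarith) _
    positivity
  simp only [List.mem_cons, List.not_mem_nil, or_false] at ha
  rcases ha with rfl | rfl | rfl | rfl | rfl | rfl
  · exact easy _ _ (by norm_num) (by norm_num)
  · exact easy _ _ (by norm_num) (by norm_num)
  · exact easy _ _ (by norm_num) (by norm_num)
  · have hcore := CkPos.core' (y 0) (y 1) (y 2) (by linarith) (by linarith) (by linarith)
      (by linarith) (by linarith) (by linarith) hs
    have hF : Fn (8, 16) y = (1 / 3) * (CkPos.g (y 0) (y 1) + CkPos.g (y 1) (y 2)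
        + CkPos.g (y 0) (y 2)) := by
      unfold Fn Fc
      rw [Fin.sum_univ_three]
      simp only [show (0 : Fin 3) + 1 = 1 from rfl, show (0 : Fin 3) + 2 = 2 from rfl,
        show (1 : Fin 3) + 1 = 2 from rfl, show (1 : Fin 3) + 2 = 0 from rfl,
        show (2 : Fin 3) + 1 = 0 from rfl, show (2 : Fin 3) + 2 = 1 from rfl]
      rw [CkPos.g_symm (y 0) (y 2)]
      unfold CkPos.g
      norm_num
      ring
    rw [hF]
    positivity
  · exact easy _ _ (by norm_num) (by norm_num)
  · exact easy _ _ (by norm_num) (by norm_num)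

end Vale.Agent.Lib.P154.Neg
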