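import Vale.Agent.Lib.P154.Neg.CkNodes

/-! Kernel evaluation of the scalar check. -/

namespace Vale.Agent.Lib.P154.Neg.Ck

set_option maxRecDepth 100000

theorem sc_gw : scOk 0 0 ndG true tb_gw Bst = true := by decide +kernel

theorem sc_r5 : scOk 5 5 ndR true tb_r5 Bst = true := by decide +kernel

theorem sc_r6 : scOk 6 6 ndR true tb_r6 Bst = true := by decide +kernel

theorem sc_r7 : scOk 7 7 ndR true tb_r7 Bst = true := by decide +kernel

theorem sc_r8 : scOk 8 8 ndR true tb_r8 Bst = true := by decide +kernel

theorem sc_r9 : scOk 9 9 ndR true tb_r9 Bst = true := by decide +kernel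

theorem sc_r10 : scOk 10 10 ndR true tb_r10 Bst = true := by decide +kernel

theorem sc_r11 : scOk 11 11 ndR true tb_r11 Bst = true := by decide +kernel

theorem sc_r12 : scOk 12 12 ndR true tb_r12 Bst = true := by decide +kernel

theorem sc_r13 : scOk 13 13 ndR true tb_r13 Bst = true := by decide +kernel

theorem sc_r14 : scOk 14 14 ndR true tb_r14 Bst = true := by decide +kernel

theorem sc_r15 : scOk 15 15 ndR true tb_r15 Bst = true := by decide +kernel

theorem sc_r16 : scOk 16 16 ndR true tb_r16 Bst = true := by decide +kernel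

theorem sc_r17 : scOk 17 17 ndR true tb_r17 Bst = true := by decide +kernel

theorem sc_r18 : scOk 18 18 ndR true tb_r18 Bst = true := by decide +kernel

theorem sc_r19 : scOk 19 19 ndR true tb_r19 Bst = true := by decide +kernel

theorem sc_r20 : scOk 20 24 ndR true tb_r20 Bst = true := by decide +kernel

theorem sc_r25 : scOk 25 32 ndR true tb_r25 Bst = true := by decide +kernel

theorem sc_r33 : scOk 33 50 ndR true tb_r33 Bst = true := by decide +kernel

theorem sc_r51 : scOk 51 0 ndR true tb_r51 Bst = true := by decide +kernel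

theorem sc_s4 : scOk 4 4 ndS false tb_s4 Bst = true := by decide +kernel

theorem sc_d4 : scOk 4 4 nd4 true tb_d4 Bst4 = true := by decide +kernel

theorem sc_t4 : tail4 nd4 pc_t4 = true := by decide +kernel

end Vale.Agent.Lib.P154.Neg.Ck
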