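import Vale.Agent.Lib.P154.Neg.CkPhi

/-! Soundness of the scalar check. -/

namespace Vale.Agent.Lib.P154.Neg.Ck

open scoped BigOperators

/-- `x < 4` -/
def lt4 (x : Nat) : Bool := Nat.ble (Nat.add x 1) 73786976294838206464

/-- range of the tangent points and end points of a piece -/
def pcRng (p : Pc) : Bool :=
  and (and (and (lt4 p.B) (lt4 p.x0)) (and (lt4 p.x1) (lt4 p.x2))) (and (lt4 p.x3) (lt4 p.x4))

def rngOk (tb : List Pc) (B0 : Nat) : Bool := and (lt4 B0) (tb.all pcRng)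

theorem lt4_iff {x : ℕ} (h : lt4 x = true) : x < 73786976294838206464 := by
  have := Nat.ble_eq.mp h
  have h2 : Nat.add x 1 = x + 1 := rfl
  omega

theorem mem_expN {x : ℕ} (h : lt4 x = true) : (expN x).Mem (Real.exp (-((x : ℝ) / 2 ^ 64))) := by
  have hx := lt4_iff h
  have h0 : (Bl.mk 0 (Nat.div x 16) 1).Mem (-((x : ℝ) / 2 ^ 64) / 16) := by
    unfold Bl.Mem
    have e : Nat.div x 16 = x / 16 := rfl
    rw [e]
    obtain ⟨h1, h2⟩ := div_bounds x 16 (by norm_num)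
    have e2 : -((x : ℝ) / 2 ^ 64) / 16 * 2 ^ 64 = -((x : ℝ) / (16 : ℕ)) := by
      push_cast; ring
    dsimp only
    rw [e2, abs_le]
    push_cast at h1 h2 ⊢
    constructor <;> linarith
  have hs : (Bl.mk 0 (Nat.div x 16) 1).small = true := by
    unfold Bl.small
    dsimp only
    have e : Nat.div x 16 = x / 16 := rfl
    rw [e]
    apply Nat.ble_eq.mpr
    have e3 : Nat.add (Nat.add 0 (x / 16)) 1 = 0 + x / 16 + 1 := rfl
    rw [e3]
    omega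
  have h1 := mem_sq (mem_sq (mem_sq (mem_sq (mem_exps h0 hs))))
  have e4 : Real.exp (-((x : ℝ) / 2 ^ 64)) =
      Real.exp (-((x : ℝ) / 2 ^ 64) / 16) * Real.exp (-((x : ℝ) / 2 ^ 64) / 16) *
            (Real.exp (-((x : ℝ) / 2 ^ 64) / 16) * Real.exp (-((x : ℝ) / 2 ^ 64) / 16)) *
          (Real.exp (-((x : ℝ) / 2 ^ 64) / 16) * Real.exp (-((x : ℝ) / 2 ^ 64) / 16) *
            (Real.exp (-((x : ℝ) / 2 ^ 64) / 16) * Real.exp (-((x : ℝ) / 2 ^ 64) / 16))) *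
        (Real.exp (-((x : ℝ) / 2 ^ 64) / 16) * Real.exp (-((x : ℝ) / 2 ^ 64) / 16) *
            (Real.exp (-((x : ℝ) / 2 ^ 64) / 16) * Real.exp (-((x : ℝ) / 2 ^ 64) / 16)) *
          (Real.exp (-((x : ℝ) / 2 ^ 64) / 16) * Real.exp (-((x : ℝ) / 2 ^ 64) / 16) *
            (Real.exp (-((x : ℝ) / 2 ^ 64) / 16) * Real.exp (-((x : ℝ) / 2 ^ 64) / 16)))) := by
    simp only [← Real.exp_add]
    congr 1
    ring
  rw [e4]
  exact h1

/-- the point of the domain represented by `x` -/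
noncomputable def yv (d x : ℕ) : ℝ :=
  if d = 0 then (x : ℝ) / 2 ^ 64 else min ((x : ℝ) / 2 ^ 64) ((d : ℝ) - 1)

theorem yv_dom {d : ℕ} (hd : Adm d) (x : ℕ) : Dom d (yv d x) := by
  unfold yv Dom
  have h0 : (0 : ℝ) ≤ (x : ℝ) / 2 ^ 64 := by positivity
  split
  · rename_i h
    exact ⟨h0, fun h' => absurd h h'⟩
  · rename_i h
    have h2 : (2 : ℝ) ≤ d := by
      rcases hd with h' | h'
      · contradiction
      · exact_mod_cast h'
    exact ⟨le_min h0 (by linarith), fun _ => min_le_right _ _⟩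

theorem yv_le {d : ℕ} (x : ℕ) : yv d x ≤ (x : ℝ) / 2 ^ 64 := by
  unfold yv
  split
  · exact le_rfl
  · exact min_le_left _ _

/-- the base of the powers -/
theorem mem_base {d : ℕ} (hd : Adm d) (h0 : d ≠ 0) (x : ℕ) :
    (base x (Nat.sub d 1)).Mem (1 - yv d x / ((d : ℝ) - 1)) := by
  have h2 : 2 ≤ d := by
    rcases hd with h' | h'
    · contradiction
    · exact h'
  obtain ⟨n, rfl⟩ : ∃ n, d = n + 1 := ⟨d - 1, by omega⟩
  have e0 : Nat.sub (n + 1) 1 = n := rfl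
  have e1 : ((n + 1 : ℕ) : ℝ) - 1 = n := by push_cast; ring
  have hn0 : 0 < n := by omega
  have hn : (0 : ℝ) < n := by exact_mod_cast hn0
  rw [e0, e1]
  unfold base Bl.Mem
  dsimp only
  have e2 : Nat.sub 18446744073709551616 (Nat.div x n) = 2 ^ 64 - x / n := rfl
  rw [e2]
  obtain ⟨q1, q2⟩ := div_bounds x n hn0
  have hy : yv (n + 1) x = min ((x : ℝ) / 2 ^ 64) (n : ℝ) := by
    unfold yv
    rw [if_neg h0, e1]
  rw [hy]
  have hU : (0 : ℝ) < 2 ^ 64 := by positivity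
  rcases le_total (x / n) (2 ^ 64) with h | h
  · rw [Nat.cast_sub h]
    rcases le_total ((x : ℝ) / 2 ^ 64) (n : ℝ) with h3 | h3
    · rw [min_eq_left h3]
      have e3 : (1 - (x : ℝ) / 2 ^ 64 / n) * 2 ^ 64 = 2 ^ 64 - (x : ℝ) / n := by
        field_simp
      rw [e3, abs_le]
      push_cast
      constructor <;> linarith
    · rw [min_eq_right h3, div_self hn.ne', sub_self, zero_mul]
      have h4 : (n : ℝ) * 2 ^ 64 ≤ x := by rwa [le_div_iff₀ hU] at h3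
      have h5 : (2 : ℝ) ^ 64 ≤ (x : ℝ) / n := by rw [le_div_iff₀ hn]; linarith
      have h6 : ((x / n : ℕ) : ℝ) ≤ 2 ^ 64 := by exact_mod_cast h
      rw [abs_le]
      push_cast
      constructor <;> linarith
  · rw [Nat.sub_eq_zero_of_le h]
    have h6 : (2 : ℝ) ^ 64 ≤ ((x / n : ℕ) : ℝ) := by exact_mod_cast h
    have h5 : (2 : ℝ) ^ 64 ≤ (x : ℝ) / n := h6.trans q1
    have h3 : (n : ℝ) ≤ (x : ℝ) / 2 ^ 64 := by
      rw [le_div_iff₀ hU]
      rw [le_div_iff₀ hn] at h5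
      linarith
    rw [min_eq_right h3, div_self hn.ne', sub_self, zero_mul]
    simp

theorem mem_dphi {d : ℕ} (hd : Adm d) (hd2 : d ≤ 60) {x : ℕ} (hx : d = 0 → lt4 x = true) :
    (dphi d x).Mem (dPhi d (yv d x)) := by
  unfold dphi dPhi
  rcases hb : Nat.beq d 0 with _ | _
  · have h0 : d ≠ 0 := by
      intro h; subst h; simp at hb
    simp only [cond_false]
    rw [if_neg h0]
    have h2 : 2 ≤ d := by
      rcases hd with h' | h'
      · contradiction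
      · exact h'
    have e0 : Nat.sub d 1 = d - 1 := rfl
    have h3 := mem_pw (mem_base hd h0 x) 8 (d - 1) (by omega) (by norm_num; omega)
    rw [e0] at h3 ⊢
    exact h3
  · have h0 : d = 0 := Nat.eq_of_beq_eq_true hb
    simp only [cond_true]
    rw [if_pos h0]
    unfold yv
    rw [if_pos h0]
    exact mem_expN (hx h0)

theorem slope_sound {d : ℕ} (hd : Adm d) (hd2 : d ≤ 60) {x W G : ℕ}
    (hx : d = 0 → lt4 x = true) (h : slopeOk d W G x = true) :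
    (W : ℝ) * dPhi d (yv d x) ≤ G := by
  have hm := mem_dphi hd hd2 hx
  unfold slopeOk at h
  have h1 := Nat.ble_eq.mp h
  have h2 : Nat.mul W (Nat.add (dphi d x).p (dphi d x).e) = W * ((dphi d x).p + (dphi d x).e) := rfl
  have h3 : Nat.shiftLeft G 64 = G * 2 ^ 64 := Nat.shiftLeft_eq G 64
  rw [h2, h3] at h1
  have h4 : (W : ℝ) * (((dphi d x).p : ℝ) + (dphi d x).e) ≤ G * 2 ^ 64 := by exact_mod_cast h1
  unfold Bl.Mem at hm
  rw [abs_le] at hm
  have hn : (0 : ℝ) ≤ (dphi d x).n := Nat.cast_nonneg _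
  have hW : (0 : ℝ) ≤ W := Nat.cast_nonneg _
  have h5 : dPhi d (yv d x) * 2 ^ 64 ≤ ((dphi d x).p : ℝ) + (dphi d x).e := by linarith [hm.2]
  have h6 := mul_le_mul_of_nonneg_left h5 hW
  have h7 : (W : ℝ) * dPhi d (yv d x) * 2 ^ 64 ≤ G * 2 ^ 64 := by linarith
  exact le_of_mul_le_mul_right h7 (by positivity)

theorem icpt_sound {d : ℕ} (hd : Adm d) (hd2 : d ≤ 60) {x W : ℕ}
    (hx : d = 0 → lt4 x = true) :
    (W : ℝ) * (1 - dPhi d (yv d x) * (1 + yv d x)) * 2 ^ 64 ≤ icpt d W x := by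
  have hm := mem_dphi hd hd2 hx
  have hy := yv_dom hd x
  have hd0 := dPhi_nonneg hd hy
  unfold Bl.Mem at hm
  rw [abs_le] at hm
  have hW : (0 : ℝ) ≤ W := Nat.cast_nonneg _
  set E := dphi d x with hE
  set q : ℕ := E.p - (E.n + E.e) with hq
  have hU : (0 : ℝ) < 2 ^ 64 := by positivity
  have hq1 : (q : ℝ) ≤ dPhi d (yv d x) * 2 ^ 64 := by
    rcases le_total (E.n + E.e) E.p with h | h
    · rw [hq, Nat.cast_sub h]
      push_cast
      linarith [hm.1]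
    · rw [hq, Nat.sub_eq_zero_of_le h]
      simp only [Nat.cast_zero]
      positivity
  -- the product
  have hprod : (q : ℝ) * (2 ^ 64 + x) ≤ dPhi d (yv d x) * 2 ^ 64 * ((1 + yv d x) * 2 ^ 64) := by
    by_cases hc : yv d x = (x : ℝ) / 2 ^ 64
    · have e : (1 + yv d x) * 2 ^ 64 = 2 ^ 64 + x := by
        rw [hc]; field_simp
      rw [e]
      apply mul_le_mul_of_nonneg_right hq1
      positivity
    · -- then `yv = d - 1` and the derivative vanishes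
      have h0 : d ≠ 0 := by
        intro h; apply hc; unfold yv; rw [if_pos h]
      have h1 : yv d x = (d : ℝ) - 1 := by
        unfold yv at hc ⊢
        rw [if_neg h0] at hc ⊢
        rcases le_total ((x : ℝ) / 2 ^ 64) ((d : ℝ) - 1) with h | h
        · exact absurd (min_eq_left h) hc
        · exact min_eq_right h
      have h2 : dPhi d (yv d x) = 0 := by
        have h3 : 2 ≤ d := by
          rcases hd with h' | h'
          · contradiction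
          · exact h'
        have h3' : (2 : ℝ) ≤ d := by exact_mod_cast h3
        unfold dPhi
        rw [if_neg h0, h1, div_self (by linarith), sub_self]
        apply zero_pow
        omega
      have h4 : (q : ℝ) = 0 := by
        rw [h2, zero_mul] at hq1
        have : (0 : ℝ) ≤ q := Nat.cast_nonneg _
        linarith
      rw [h4, h2]
      simp
  obtain ⟨s1, s2⟩ := shr_bounds (q * (2 ^ 64 + x))
  set r : ℕ := Nat.shiftRight (q * (2 ^ 64 + x)) 64 with hr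
  have hr1 : (r : ℝ) ≤ dPhi d (yv d x) * (1 + yv d x) * 2 ^ 64 := by
    refine s1.trans ?_
    have hp : ((q * (2 ^ 64 + x) : ℕ) : ℝ) = (q : ℝ) * (2 ^ 64 + x) := by
      rw [Nat.cast_mul, Nat.cast_add, Nat.cast_pow, Nat.cast_ofNat]
    rw [div_le_iff₀ hU, hp]
    refine hprod.trans (le_of_eq ?_)
    ring
  have e5 : icpt d W x = W * ((2 ^ 64 - r) + 1) := rfl
  rw [e5]
  have h6 : (2 : ℝ) ^ 64 - r ≤ ((2 ^ 64 - r : ℕ) : ℝ) := by
    have h7 : (2 ^ 64 : ℕ) ≤ (2 ^ 64 - r) + r := le_tsub_add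
    have h8 : ((2 ^ 64 : ℕ) : ℝ) ≤ ((2 ^ 64 - r + r : ℕ) : ℝ) := Nat.cast_le.mpr h7
    rw [Nat.cast_add, Nat.cast_pow, Nat.cast_ofNat] at h8
    linarith
  rw [Nat.cast_mul, Nat.cast_add, Nat.cast_one]
  have h9 : (W : ℝ) * (1 - dPhi d (yv d x) * (1 + yv d x)) * 2 ^ 64
      = W * ((1 - dPhi d (yv d x) * (1 + yv d x)) * 2 ^ 64) := by ring
  rw [h9]
  apply mul_le_mul_of_nonneg_left _ hW
  have h10 : (1 - dPhi d (yv d x) * (1 + yv d x)) * 2 ^ 64
      = 2 ^ 64 - dPhi d (yv d x) * (1 + yv d x) * 2 ^ 64 := by ring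
  rw [h10]
  linarith

theorem sub_ge (a b : ℕ) : (a : ℝ) - b ≤ ((a - b : ℕ) : ℝ) := by
  have h7 : a ≤ (a - b) + b := le_tsub_add
  have h8 : (a : ℝ) ≤ ((a - b + b : ℕ) : ℝ) := Nat.cast_le.mpr h7
  rw [Nat.cast_add] at h8
  linarith

theorem fu_ge {d : ℕ} (hd : Adm d) (x : ℕ) : fac1 d * x ≤ fu d x := by
  unfold fu fac1
  rcases hb : Nat.beq d 0 with _ | _
  · have h0 : d ≠ 0 := by
      intro h; subst h; simp at hb
    have h2 : 2 ≤ d := by
      rcases hd with h' | h'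
      · contradiction
      · exact h'
    simp only [cond_false]
    rw [if_neg h0]
    have e : Nat.add (Nat.div (Nat.mul (Nat.sub d 1) x) d) 1 = (d - 1) * x / d + 1 := rfl
    rw [e]
    obtain ⟨_, q2⟩ := div_bounds ((d - 1) * x) d (by omega)
    rw [Nat.cast_mul, Nat.cast_sub (by omega : 1 ≤ d), Nat.cast_one] at q2
    rw [Nat.cast_add, Nat.cast_one]
    have e2 : ((d : ℝ) - 1) / d * x = ((d : ℝ) - 1) * x / d := by ring
    rw [e2]
    exact q2.le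
  · have h0 : d = 0 := Nat.eq_of_beq_eq_true hb
    simp only [cond_true]
    rw [if_pos h0, one_mul]

theorem fd_le {d : ℕ} (hd : Adm d) (x : ℕ) : (fd d x : ℝ) ≤ fac1 d * x := by
  unfold fd fac1
  rcases hb : Nat.beq d 0 with _ | _
  · have h0 : d ≠ 0 := by
      intro h; subst h; simp at hb
    have h2 : 2 ≤ d := by
      rcases hd with h' | h'
      · contradiction
      · exact h'
    simp only [cond_false]
    rw [if_neg h0]
    have e : Nat.div (Nat.mul (Nat.sub d 1) x) d = (d - 1) * x / d := rfl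
    rw [e]
    obtain ⟨q1, _⟩ := div_bounds ((d - 1) * x) d (by omega)
    rw [Nat.cast_mul, Nat.cast_sub (by omega : 1 ≤ d), Nat.cast_one] at q1
    have e2 : ((d : ℝ) - 1) / d * x = ((d : ℝ) - 1) * x / d := by ring
    rw [e2]
    exact q1
  · have h0 : d = 0 := Nat.eq_of_beq_eq_true hb
    simp only [cond_true]
    rw [if_pos h0, one_mul]

theorem mul_fac {d : ℕ} (_hd : Adm d) (y : ℝ) :
    Phi d y = fac1 d * (1 - (if d = 0 then Real.exp (-y) else (1 - y / ((d : ℝ) - 1)) ^ d)) := by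
  unfold Phi fac1
  split
  · ring
  · rfl

theorem tail_ge {d : ℕ} (hd : Adm d) (hd2 : d ≤ 60) {x : ℕ} (hx : d = 0 → lt4 x = true) :
    (if d = 0 then Real.exp (-(yv d x)) else (1 - yv d x / ((d : ℝ) - 1)) ^ d) * 2 ^ 64
      ≤ tail d x := by
  unfold tail
  rcases hb : Nat.beq d 0 with _ | _
  · have h0 : d ≠ 0 := by
      intro h; subst h; simp at hb
    simp only [cond_false]
    rw [if_neg h0]
    have h2 : 2 ≤ d := by
      rcases hd with h' | h'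
      · contradiction
      · exact h'
    have h3 := mem_pw (mem_base hd h0 x) 8 d (by omega) (by norm_num; omega)
    set b := Bl.pw (base x (Nat.sub d 1)) 8 d with hbd
    have e : Nat.add b.p b.e = b.p + b.e := rfl
    rw [e, Nat.cast_add]
    unfold Bl.Mem at h3
    rw [abs_le] at h3
    have hn : (0 : ℝ) ≤ b.n := Nat.cast_nonneg _
    linarith [h3.2]
  · have h0 : d = 0 := Nat.eq_of_beq_eq_true hb
    simp only [cond_true]
    rw [if_pos h0]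
    have h3 := mem_expN (hx h0)
    have e1 : yv d x = (x : ℝ) / 2 ^ 64 := by unfold yv; rw [if_pos h0]
    rw [e1]
    have e : Nat.add (expN x).p (expN x).e = (expN x).p + (expN x).e := rfl
    rw [e, Nat.cast_add]
    unfold Bl.Mem at h3
    rw [abs_le] at h3
    have hn : (0 : ℝ) ≤ (expN x).n := Nat.cast_nonneg _
    linarith [h3.2]

theorem fd_tail {d : ℕ} (hd : Adm d) (hd2 : d ≤ 60) {x : ℕ} (hx : d = 0 → lt4 x = true) :
    (fd d (Nat.sub 18446744073709551616 (tail d x)) : ℝ) ≤ Phi d (yv d x) * 2 ^ 64 := by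
  refine (fd_le hd _).trans ?_
  rw [mul_fac hd, mul_assoc]
  apply mul_le_mul_of_nonneg_left _ (fac1_nonneg hd)
  have h1 := tail_ge hd hd2 hx
  have hy := yv_dom hd x
  set z := (if d = 0 then Real.exp (-(yv d x)) else (1 - yv d x / ((d : ℝ) - 1)) ^ d) with hz
  have hz1 : z ≤ 1 := by
    rw [hz]
    split
    · rw [Real.exp_le_one_iff]; linarith [hy.1]
    · rename_i h0
      have h2 : (2 : ℝ) ≤ d := by
        rcases hd with h' | h'
        · contradiction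
        · exact_mod_cast h'
      apply pow_le_one₀
      · rw [sub_nonneg, div_le_one (by linarith)]; exact hy.2 h0
      · have : 0 ≤ yv d x / ((d : ℝ) - 1) := div_nonneg hy.1 (by linarith)
        linarith
  have e : Nat.sub 18446744073709551616 (tail d x) = 18446744073709551616 - tail d x := rfl
  rw [e]
  rcases le_total (tail d x) 18446744073709551616 with h | h
  · rw [Nat.cast_sub h]
    have : ((18446744073709551616 : ℕ) : ℝ) = 2 ^ 64 := by norm_num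
    rw [this]
    linarith
  · rw [Nat.sub_eq_zero_of_le h, Nat.cast_zero]
    have : 0 ≤ 1 - z := by linarith
    positivity

/-- real version of the inequality at an end point (`c` scaled by `2^35`) -/
theorem end_sound {d1 d2 : ℕ} (h1 : Adm d1) (h12 : d1 ≤ 60) (h2 : Adm d2) {c : Nd} {K B : ℕ}
    (hx : d1 = 0 → lt4 B = true) (hB : d1 ≠ 0 → (B : ℝ) / 2 ^ 64 ≤ (d1 : ℝ) - 1)
    (h : endOk d1 d2 c K B = true) :
    fac1 d2 * (c.m0 / 2 ^ 35) + (K : ℝ) / 2 ^ 99 <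
      Phi d1 ((B : ℝ) / 2 ^ 64) - ((c.nup : ℝ) - c.nun) / 2 ^ 35 * ((B : ℝ) / 2 ^ 64) := by
  unfold endOk at h
  have h3 := Nat.ble_eq.mp h
  have e1 : Nat.add (Nat.add (Nat.mul c.nup B) (Nat.add (fu d2 (Nat.shiftLeft c.m0 64)) K)) 1
    = c.nup * B + (fu d2 (c.m0 * 2 ^ 64) + K) + 1 := by
    have : Nat.shiftLeft c.m0 64 = c.m0 * 2 ^ 64 := Nat.shiftLeft_eq c.m0 64
    rw [this]; rfl
  have e2 : Nat.add (Nat.mul 34359738368 (fd d1 (Nat.sub 18446744073709551616 (tail d1 B))))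
      (Nat.mul c.nun B) = 34359738368 * (fd d1 (Nat.sub 18446744073709551616 (tail d1 B)))
        + c.nun * B := rfl
  rw [e1, e2] at h3
  have h4 := fu_ge h2 (c.m0 * 2 ^ 64)
  have h5 := fd_tail h1 h12 hx
  set F := fd d1 (Nat.sub 18446744073709551616 (tail d1 B)) with hF
  set M := fu d2 (c.m0 * 2 ^ 64) with hM
  have h6 : (c.nup : ℝ) * B + (M + K) + 1 ≤ 34359738368 * (F : ℝ) + c.nun * B := by
    exact_mod_cast h3
  have hy : yv d1 B = (B : ℝ) / 2 ^ 64 := by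
    unfold yv
    split
    · rfl
    · rename_i h0
      exact min_eq_left (hB h0)
  rw [hy] at h5
  rw [Nat.cast_mul, Nat.cast_pow, Nat.cast_ofNat] at h4
  have h7 : fac1 d2 * (c.m0 * 2 ^ 64) + K + ((c.nup : ℝ) - c.nun) * B + 1 ≤
      2 ^ 35 * (Phi d1 ((B : ℝ) / 2 ^ 64) * 2 ^ 64) := by
    have h8 : (34359738368 : ℝ) * F ≤ 34359738368 * (Phi d1 ((B : ℝ) / 2 ^ 64) * 2 ^ 64) :=
      mul_le_mul_of_nonneg_left h5 (by norm_num)
    have e3 : (2 : ℝ) ^ 35 = 34359738368 := by norm_num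
    rw [e3]
    linarith
  set P := Phi d1 ((B : ℝ) / 2 ^ 64) with hP
  have e4 : fac1 d2 * (c.m0 / 2 ^ 35) + (K : ℝ) / 2 ^ 99 =
      (fac1 d2 * (c.m0 * 2 ^ 64) + K) / 2 ^ 99 := by
    have : (2 : ℝ) ^ 99 = 2 ^ 35 * 2 ^ 64 := by norm_num
    rw [this]
    field_simp
  have e5 : P - ((c.nup : ℝ) - c.nun) / 2 ^ 35 * ((B : ℝ) / 2 ^ 64) =
      (2 ^ 35 * (P * 2 ^ 64) - ((c.nup : ℝ) - c.nun) * B) / 2 ^ 99 := by
    have : (2 : ℝ) ^ 99 = 2 ^ 35 * 2 ^ 64 := by norm_num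
    rw [this]
    field_simp
  rw [e4, e5]
  apply div_lt_div_of_pos_right _ (by positivity)
  linarith

/-- the mixed certificate as a real certificate -/
theorem mix_ct (n m : Nd) (k : ℕ) (hk : k ≤ 32) :
    (∀ a : Fin 5, (Ct.mix ((k : ℝ) / 32) n.ct m.ct).W a =
      ((![(Nd.mix n m k).W0, (Nd.mix n m k).W1, (Nd.mix n m k).W2, (Nd.mix n m k).W3,
        (Nd.mix n m k).W4] a : ℕ) : ℝ) / 2 ^ 35) ∧
    (∀ a : Fin 5, (Ct.mix ((k : ℝ) / 32) n.ct m.ct).G a =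
      ((![(Nd.mix n m k).G0, (Nd.mix n m k).G1, (Nd.mix n m k).G2, (Nd.mix n m k).G3,
        (Nd.mix n m k).G4] a : ℕ) : ℝ) / 2 ^ 35) ∧
    (Ct.mix ((k : ℝ) / 32) n.ct m.ct).nu =
      (((Nd.mix n m k).nup : ℝ) - (Nd.mix n m k).nun) / 2 ^ 35 ∧
    (Ct.mix ((k : ℝ) / 32) n.ct m.ct).m0 = ((Nd.mix n m k).m0 : ℝ) / 2 ^ 35 := by
  have key : ∀ a b : ℕ, ((Nat.add (Nat.mul (Nat.sub 32 k) a) (Nat.mul k b) : ℕ) : ℝ) / 2 ^ 35
      = (1 - (k : ℝ) / 32) * ((a : ℝ) / 2 ^ 30) + (k : ℝ) / 32 * ((b : ℝ) / 2 ^ 30) := by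
    intro a b
    have e : Nat.add (Nat.mul (Nat.sub 32 k) a) (Nat.mul k b) = (32 - k) * a + k * b := rfl
    rw [e, Nat.cast_add, Nat.cast_mul, Nat.cast_mul, Nat.cast_sub hk]
    have : (2 : ℝ) ^ 35 = 32 * 2 ^ 30 := by norm_num
    rw [this]
    push_cast
    field_simp
  refine ⟨?_, ?_, ?_, ?_⟩
  · intro a
    fin_cases a
    · exact (key n.W0 m.W0).symm
    · exact (key n.W1 m.W1).symm
    · exact (key n.W2 m.W2).symm
    · exact (key n.W3 m.W3).symm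
    · exact (key n.W4 m.W4).symm
  · intro a
    fin_cases a
    · exact (key n.G0 m.G0).symm
    · exact (key n.G1 m.G1).symm
    · exact (key n.G2 m.G2).symm
    · exact (key n.G3 m.G3).symm
    · exact (key n.G4 m.G4).symm
  · have h1 := key n.nup m.nup
    have h2 := key n.nun m.nun
    have h3 : (((Nd.mix n m k).nup : ℝ) - (Nd.mix n m k).nun) / 2 ^ 35 =
      ((Nat.add (Nat.mul (Nat.sub 32 k) n.nup) (Nat.mul k m.nup) : ℕ) : ℝ) / 2 ^ 35
      - ((Nat.add (Nat.mul (Nat.sub 32 k) n.nun) (Nat.mul k m.nun) : ℕ) : ℝ) / 2 ^ 35 := by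
      rw [sub_div]; rfl
    rw [h3, h1, h2]
    unfold Ct.mix Nd.ct
    dsimp only
    ring
  · exact (key n.m0 m.m0).symm

theorem vec5 {P : Fin 5 → Prop} (h0 : P 0) (h1 : P 1) (h2 : P 2) (h3 : P 3) (h4 : P 4) :
    ∀ a, P a := by
  intro a
  fin_cases a
  · exact h0
  · exact h1
  · exact h2
  · exact h3
  · exact h4

/-- the tangent points of a piece -/
noncomputable def tpt (d2 : ℕ) (p : Pc) (a : Fin 5) : ℝ :=
  yv d2 ((![p.x0, p.x1, p.x2, p.x3, p.x4] a : ℕ))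

/-- total intercept, as in the code -/
def icptSum (d2 : ℕ) (c : Nd) (p : Pc) : ℕ :=
  fu d2 (Nat.add (Nat.add (Nat.add (icpt d2 c.W0 p.x0) (icpt d2 c.W1 p.x1))
    (Nat.add (icpt d2 c.W2 p.x2) (icpt d2 c.W3 p.x3))) (icpt d2 c.W4 p.x4))

theorem icptSum_ge {d2 : ℕ} (h2 : Adm d2) (h22 : d2 ≤ 60) (c : Nd) (p : Pc)
    (hx : d2 = 0 → pcRng p = true) (Wr : Fin 5 → ℝ)
    (hW : ∀ a, Wr a = ((![c.W0, c.W1, c.W2, c.W3, c.W4] a : ℕ) : ℝ) / 2 ^ 35) :
    ∑ a, Wr a * ipt d2 (tpt d2 p a) ≤ (icptSum d2 c p : ℝ) / 2 ^ 99 := by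
  have hr : d2 = 0 → lt4 p.x0 = true ∧ lt4 p.x1 = true ∧ lt4 p.x2 = true ∧ lt4 p.x3 = true ∧
      lt4 p.x4 = true := by
    intro h
    have := hx h
    unfold pcRng at this
    simp only [Bool.and_eq_true] at this
    obtain ⟨⟨⟨_, a0⟩, ⟨a1, a2⟩⟩, ⟨a3, a4⟩⟩ := this
    exact ⟨a0, a1, a2, a3, a4⟩
  have i0 := icpt_sound h2 h22 (x := p.x0) (W := c.W0) (fun h => (hr h).1)
  have i1 := icpt_sound h2 h22 (x := p.x1) (W := c.W1) (fun h => (hr h).2.1)
  have i2 := icpt_sound h2 h22 (x := p.x2) (W := c.W2) (fun h => (hr h).2.2.1)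
  have i3 := icpt_sound h2 h22 (x := p.x3) (W := c.W3) (fun h => (hr h).2.2.2.1)
  have i4 := icpt_sound h2 h22 (x := p.x4) (W := c.W4) (fun h => (hr h).2.2.2.2)
  set S : ℕ := Nat.add (Nat.add (Nat.add (icpt d2 c.W0 p.x0) (icpt d2 c.W1 p.x1))
    (Nat.add (icpt d2 c.W2 p.x2) (icpt d2 c.W3 p.x3))) (icpt d2 c.W4 p.x4) with hS
  have hS2 : (S : ℝ) = (icpt d2 c.W0 p.x0 : ℝ) + icpt d2 c.W1 p.x1 +
    (icpt d2 c.W2 p.x2 + icpt d2 c.W3 p.x3) + icpt d2 c.W4 p.x4 := by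
    have : S = icpt d2 c.W0 p.x0 + icpt d2 c.W1 p.x1 +
      (icpt d2 c.W2 p.x2 + icpt d2 c.W3 p.x3) + icpt d2 c.W4 p.x4 := rfl
    rw [this]
    push_cast
    ring
  have h5 := fu_ge h2 S
  have e1 : (icptSum d2 c p : ℝ) = (fu d2 S : ℝ) := rfl
  rw [e1]
  have hf := fac1_nonneg h2
  rw [Fin.sum_univ_five]
  rw [hW 0, hW 1, hW 2, hW 3, hW 4]
  have y0 : tpt d2 p 0 = yv d2 p.x0 := rfl
  have y1 : tpt d2 p 1 = yv d2 p.x1 := rfl
  have y2 : tpt d2 p 2 = yv d2 p.x2 := rfl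
  have y3 : tpt d2 p 3 = yv d2 p.x3 := rfl
  have y4 : tpt d2 p 4 = yv d2 p.x4 := rfl
  rw [y0, y1, y2, y3, y4]
  rw [ipt_eq h2, ipt_eq h2, ipt_eq h2, ipt_eq h2, ipt_eq h2]
  have w0 : ((![c.W0, c.W1, c.W2, c.W3, c.W4] (0 : Fin 5) : ℕ) : ℝ) = c.W0 := rfl
  have w1 : ((![c.W0, c.W1, c.W2, c.W3, c.W4] (1 : Fin 5) : ℕ) : ℝ) = c.W1 := rfl
  have w2 : ((![c.W0, c.W1, c.W2, c.W3, c.W4] (2 : Fin 5) : ℕ) : ℝ) = c.W2 := rfl
  have w3 : ((![c.W0, c.W1, c.W2, c.W3, c.W4] (3 : Fin 5) : ℕ) : ℝ) = c.W3 := rfl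
  have w4 : ((![c.W0, c.W1, c.W2, c.W3, c.W4] (4 : Fin 5) : ℕ) : ℝ) = c.W4 := rfl
  rw [w0, w1, w2, w3, w4]
  have e99 : (2 : ℝ) ^ 99 = 2 ^ 35 * 2 ^ 64 := by norm_num
  have h6 : fac1 d2 * ((c.W0 : ℝ) * (1 - dPhi d2 (yv d2 p.x0) * (1 + yv d2 p.x0)) * 2 ^ 64
      + (c.W1 : ℝ) * (1 - dPhi d2 (yv d2 p.x1) * (1 + yv d2 p.x1)) * 2 ^ 64
      + (c.W2 : ℝ) * (1 - dPhi d2 (yv d2 p.x2) * (1 + yv d2 p.x2)) * 2 ^ 64
      + (c.W3 : ℝ) * (1 - dPhi d2 (yv d2 p.x3) * (1 + yv d2 p.x3)) * 2 ^ 64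
      + (c.W4 : ℝ) * (1 - dPhi d2 (yv d2 p.x4) * (1 + yv d2 p.x4)) * 2 ^ 64) ≤ fu d2 S := by
    refine le_trans ?_ h5
    apply mul_le_mul_of_nonneg_left _ hf
    rw [hS2]
    linarith
  rw [e99, le_div_iff₀ (by positivity)]
  refine le_trans (le_of_eq ?_) h6
  field_simp

/-- the ranges of `d` -/
def DRange (d1 d2 d : ℕ) : Prop :=
  (d1 = 0 ∧ d2 = 0 ∧ d = 0) ∨ (2 ≤ d1 ∧ d1 ≤ d ∧ (d2 = 0 ∨ d ≤ d2) ∧ d2 ≤ 60 ∧ d1 ≤ 60)

theorem DRange.facts {d1 d2 d : ℕ} (h : DRange d1 d2 d) :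
    Adm d1 ∧ Adm d2 ∧ Adm d ∧ Lei d1 d ∧ Lei d d2 ∧ d1 ≤ 60 ∧ d2 ≤ 60 ∧ (d1 = 0 ↔ d = 0) := by
  unfold Adm Lei
  rcases h with ⟨a, b, c⟩ | ⟨a, b, c, e, f⟩
  · subst a; subst b; subst c
    refine ⟨Or.inl rfl, Or.inl rfl, Or.inl rfl, Or.inl rfl, Or.inl rfl, by norm_num, by norm_num,
      Iff.rfl⟩
  · refine ⟨Or.inr a, ?_, Or.inr (by omega), Or.inr ⟨by omega, b⟩, ?_, f, e, by omega⟩
    · rcases c with c | c
      · exact Or.inl c
      · exact Or.inr (by omega)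
    · rcases c with c | c
      · exact Or.inl c
      · exact Or.inr ⟨by omega, c⟩

/-- one piece, with the value at the right end (used for the extension) -/
theorem pc_sound {d1 d2 d : ℕ} (hd : DRange d1 d2 d) {L : List Nd} {B0 : ℕ} {p : Pc}
    (h : pcOk d1 d2 L B0 p = true) (hr : pcRng p = true) (hr0 : lt4 B0 = true)
    (hpB : d1 ≠ 0 → (p.B : ℝ) / 2 ^ 64 ≤ (d1 : ℝ) - 1) :
    ∃ c, Hull L c ∧ c.nu = (((Nd.mix (nthN L p.i) (nthN L (p.i + 1)) p.k).nup : ℝ)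
        - (Nd.mix (nthN L p.i) (nthN L (p.i + 1)) p.k).nun) / 2 ^ 35 ∧
      (∀ B : ℝ, (B0 : ℝ) / 2 ^ 64 ≤ B → B ≤ (p.B : ℝ) / 2 ^ 64 → Kills d B c) ∧
      (c.nu ≤ 0 → ∀ B : ℝ, (p.B : ℝ) / 2 ^ 64 ≤ B → (d ≠ 0 → B ≤ (d : ℝ) - 1) → Kills d B c) := by
  obtain ⟨a1, a2, a, l1, l2, s1, s2, hz⟩ := hd.facts
  unfold pcOk at h
  simp only [Bool.and_eq_true] at h
  obtain ⟨⟨⟨q0, q1⟩, ⟨q2, ⟨q3, q4⟩⟩⟩, ⟨⟨hBB, ⟨hk, hi⟩⟩, ⟨e1, e2⟩⟩⟩ := h
  have ei : Nat.add p.i 1 = p.i + 1 := rfl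
  rw [ei] at q0 q1 q2 q3 q4 e1 e2
  have hk' := Nat.ble_eq.mp hk
  have hi' := Nat.ble_eq.mp hi
  have hBB' := Nat.ble_eq.mp hBB
  have ei2 : Nat.add p.i 2 = p.i + 2 := rfl
  rw [ei2] at hi'
  obtain ⟨m1, m2, m3, m4⟩ := mix_ct (nthN L p.i) (nthN L (p.i + 1)) p.k hk'
  set cn := Nd.mix (nthN L p.i) (nthN L (p.i + 1)) p.k with hcn
  set cr := Ct.mix ((p.k : ℝ) / 32) (nthN L p.i).ct (nthN L (p.i + 1)).ct with hcr
  have hk32 : (p.k : ℝ) / 32 ≤ 1 := by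
    rw [div_le_one (by norm_num)]
    exact_mod_cast hk'
  have hull : Hull L cr := ⟨p.i, (p.k : ℝ) / 32, by omega, by positivity, hk32, hcr⟩
  have hr' := hr
  unfold pcRng at hr'
  simp only [Bool.and_eq_true] at hr'
  obtain ⟨⟨⟨rB, r0⟩, ⟨r1, r2⟩⟩, ⟨r3, r4⟩⟩ := hr'
  have hsum := icptSum_ge a2 s2 cn p (fun _ => hr) cr.W m1
  -- end points
  have E2 := end_sound a1 s1 a2 (fun _ => rB) hpB e2
  have hB0p : (B0 : ℝ) / 2 ^ 64 ≤ (p.B : ℝ) / 2 ^ 64 := by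
    apply div_le_div_of_nonneg_right _ (by positivity)
    exact_mod_cast hBB'
  have E1 := end_sound a1 s1 a2 (fun _ => hr0) (fun h0 => hB0p.trans (hpB h0)) e1
  have eK : (fu d2 (Nat.add (Nat.add (Nat.add (icpt d2 cn.W0 p.x0) (icpt d2 cn.W1 p.x1))
    (Nat.add (icpt d2 cn.W2 p.x2) (icpt d2 cn.W3 p.x3))) (icpt d2 cn.W4 p.x4))) = icptSum d2 cn p :=
    rfl
  rw [eK] at E1 E2
  rw [← m3, ← m4] at E1 E2
  have hW : ∀ a, 0 ≤ cr.W a := by intro a; rw [m1 a]; positivity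
  have hG : ∀ a, 0 ≤ cr.G a := by intro a; rw [m2 a]; positivity
  have hm0 : 0 ≤ cr.m0 := by rw [m4]; positivity
  have hs : ∀ a, cr.W a * dPhi d2 (tpt d2 p a) ≤ cr.G a := by
    have conv : ∀ (w g x : ℕ), lt4 x = true → slopeOk d2 w g x = true →
        (w : ℝ) / 2 ^ 35 * dPhi d2 (yv d2 x) ≤ (g : ℝ) / 2 ^ 35 := by
      intro w g x hx hsl
      have := slope_sound a2 s2 (fun _ => hx) hsl
      rw [div_mul_eq_mul_div]
      exact div_le_div_of_nonneg_right this (by positivity)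
    apply vec5
    · rw [m1 0, m2 0]; exact conv _ _ _ r0 q0
    · rw [m1 1, m2 1]; exact conv _ _ _ r1 q1
    · rw [m1 2, m2 2]; exact conv _ _ _ r2 q2
    · rw [m1 3, m2 3]; exact conv _ _ _ r3 q3
    · rw [m1 4, m2 4]; exact conv _ _ _ r4 q4
  have hy : ∀ a, Dom d2 (tpt d2 p a) := fun a => yv_dom a2 _
  have d1B0 : Dom d1 ((B0 : ℝ) / 2 ^ 64) := ⟨by positivity, fun h0 => hB0p.trans (hpB h0)⟩
  have d1pB : Dom d1 ((p.B : ℝ) / 2 ^ 64) := ⟨by positivity, hpB⟩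
  have hf : fac1 d * cr.m0 ≤ fac1 d2 * cr.m0 :=
    mul_le_mul_of_nonneg_right (fac1_mono a a2 l2) hm0
  refine ⟨cr, hull, m3, ?_, ?_⟩
  · intro B hB1 hB2
    have dB : Dom d1 B := ⟨d1B0.1.trans hB1, fun h0 => hB2.trans (hpB h0)⟩
    have h5 := Phi_interp a1 d1B0 d1pB hB1 hB2 cr.nu _ E1 E2
    have h6 := Phi_mono_d a1 a l1 dB
    apply kills_of a a2 l2 cr hW hG (tpt d2 p) hy hs B
    linarith
  · intro hnu B hB1 hB2
    have dpB : Dom d ((p.B : ℝ) / 2 ^ 64) := ⟨d1pB.1, fun h0 => hB1.trans (hB2 h0)⟩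
    have dB : Dom d B := ⟨d1pB.1.trans hB1, hB2⟩
    have h6 := Phi_mono_d a1 a l1 d1pB
    have h7 := Phi_mono_x a dpB dB hB1
    have h8 : cr.nu * B ≤ cr.nu * ((p.B : ℝ) / 2 ^ 64) := mul_le_mul_of_nonpos_left hB1 hnu
    apply kills_of a a2 l2 cr hW hG (tpt d2 p) hy hs B
    linarith

theorem le_lastB {d1 d2 : ℕ} {L : List Nd} {fin : Bool} (tb : List Pc) :
    ∀ B0 : ℕ, scOk d1 d2 L fin tb B0 = true → B0 ≤ lastB tb B0 := by
  induction tb with
  | nil => intro B0 _; exact le_rfl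
  | cons p l ih =>
    intro B0 h
    unfold scOk at h
    simp only [Bool.and_eq_true] at h
    obtain ⟨h1, _, h3⟩ := h
    have h4 := ih p.B h3
    unfold pcOk at h1
    simp only [Bool.and_eq_true] at h1
    have h5 := Nat.ble_eq.mp h1.2.1.1
    have e : lastB (p :: l) B0 = lastB l p.B := rfl
    rw [e]
    omega

/-- Soundness: the table with parameters `d1, d2` covers all `d` between (`d2 = 0`: infinity). -/
theorem sc_sound (d1 d2 : ℕ) (L : List Nd) (fin : Bool) (tb : List Pc) (B0 : ℕ)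
    (h : scOk d1 d2 L fin tb B0 = true) (htb : tb ≠ []) (hr : rngOk tb B0 = true) (d : ℕ)
    (hd : (d1 = 0 ∧ d2 = 0 ∧ d = 0) ∨ (2 ≤ d1 ∧ d1 ≤ d ∧ (d2 = 0 ∨ d ≤ d2) ∧ d2 ≤ 60 ∧ d1 ≤ 60))
    (B : ℝ) (hB0 : (B0 : ℝ) / 2 ^ 64 ≤ B) (hB1 : fin = false → B ≤ (lastB tb B0 : ℝ) / 2 ^ 64)
    (hB2 : d ≠ 0 → B ≤ (d : ℝ) - 1)
    (hB3 : d1 ≠ 0 → (lastB tb B0 : ℝ) / 2 ^ 64 ≤ (d1 : ℝ) - 1) :
    ∃ c, Hull L c ∧ Kills d B c := by
  have hD : DRange d1 d2 d := hd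
  clear hd
  induction tb generalizing B0 with
  | nil => exact absurd rfl htb
  | cons p l ih =>
    have hfull := h
    unfold scOk at h
    simp only [Bool.and_eq_true] at h
    obtain ⟨h1, h2, h3⟩ := h
    have e : lastB (p :: l) B0 = lastB l p.B := rfl
    rw [e] at hB1 hB3
    unfold rngOk at hr
    simp only [Bool.and_eq_true, List.all_cons] at hr
    obtain ⟨rB0, rp, rl⟩ := hr
    have hle := le_lastB l p.B h3
    have hle' : (p.B : ℝ) / 2 ^ 64 ≤ (lastB l p.B : ℝ) / 2 ^ 64 := by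
      apply div_le_div_of_nonneg_right _ (by positivity)
      exact_mod_cast hle
    obtain ⟨c, c1, c2, c3, c4⟩ := pc_sound hD h1 rp rB0 (fun h0 => hle'.trans (hB3 h0))
    rcases le_total B ((p.B : ℝ) / 2 ^ 64) with hc | hc
    · exact ⟨c, c1, c3 B hB0 hc⟩
    · cases l with
      | nil =>
        have e2 : lastB [] p.B = p.B := rfl
        rw [e2] at hB1
        cases fin with
        | false =>
          exact ⟨c, c1, c3 B hB0 (hB1 rfl)⟩
        | true =>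
          refine ⟨c, c1, c4 ?_ B hc hB2⟩
          dsimp only at h2
          simp only [Bool.not_true, Bool.false_or] at h2
          unfold lastOk at h2
          have h6 := Nat.ble_eq.mp h2
          have ei : Nat.add p.i 1 = p.i + 1 := rfl
          rw [ei] at h6
          rw [c2]
          apply div_nonpos_of_nonpos_of_nonneg _ (by positivity)
          have : ((Nd.mix (nthN L p.i) (nthN L (p.i + 1)) p.k).nup : ℝ)
            ≤ (Nd.mix (nthN L p.i) (nthN L (p.i + 1)) p.k).nun := by exact_mod_cast h6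
          linarith
      | cons p' l' =>
        apply ih p.B h3 (by simp) _ hc hB1 hB3
        unfold rngOk
        simp only [Bool.and_eq_true]
        refine ⟨?_, rl⟩
        unfold pcRng at rp
        simp only [Bool.and_eq_true] at rp
        exact rp.1.1.1

/-- tail for `d = 4` -/
theorem tail4_sound (L : List Nd) (p : Pc) (h : tail4 L p = true) (B : ℝ) (hB0 : 3 ≤ B)
    (hB : B ≤ 4) : ∃ c, Hull L c ∧ Kills 4 B c := by
  have a4 : Adm 4 := Or.inr (by norm_num)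
  unfold tail4 at h
  simp only [Bool.and_eq_true] at h
  obtain ⟨⟨⟨q0, q1⟩, ⟨q2, ⟨q3, q4⟩⟩⟩, ⟨⟨hk, hi⟩, ⟨hnu, hend⟩⟩⟩ := h
  have ei : Nat.add p.i 1 = p.i + 1 := rfl
  rw [ei] at q0 q1 q2 q3 q4 hnu hend
  have hk' := Nat.ble_eq.mp hk
  have hi' := Nat.ble_eq.mp hi
  have hnu' := Nat.ble_eq.mp hnu
  have hend' := Nat.ble_eq.mp hend
  have ei2 : Nat.add p.i 2 = p.i + 2 := rfl
  rw [ei2] at hi'
  obtain ⟨m1, m2, m3, m4⟩ := mix_ct (nthN L p.i) (nthN L (p.i + 1)) p.k hk'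
  set cn := Nd.mix (nthN L p.i) (nthN L (p.i + 1)) p.k with hcn
  set cr := Ct.mix ((p.k : ℝ) / 32) (nthN L p.i).ct (nthN L (p.i + 1)).ct with hcr
  have hk32 : (p.k : ℝ) / 32 ≤ 1 := by
    rw [div_le_one (by norm_num)]
    exact_mod_cast hk'
  have hull : Hull L cr := ⟨p.i, (p.k : ℝ) / 32, by omega, by positivity, hk32, hcr⟩
  have hsum := icptSum_ge a4 (by norm_num) cn p (fun h => absurd h (by norm_num)) cr.W m1
  have eK : (fu 4 (Nat.add (Nat.add (Nat.add (icpt 4 cn.W0 p.x0) (icpt 4 cn.W1 p.x1))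
    (Nat.add (icpt 4 cn.W2 p.x2) (icpt 4 cn.W3 p.x3))) (icpt 4 cn.W4 p.x4))) = icptSum 4 cn p :=
    rfl
  rw [eK] at hend'
  set K := icptSum 4 cn p with hK
  have e1 : Nat.add (Nat.add (Nat.mul cn.nup 55340232221128654848)
          (Nat.add (fu 4 (Nat.shiftLeft cn.m0 64)) K)) 1
    = cn.nup * 55340232221128654848 + (fu 4 (cn.m0 * 2 ^ 64) + K) + 1 := by
    have : Nat.shiftLeft cn.m0 64 = cn.m0 * 2 ^ 64 := Nat.shiftLeft_eq cn.m0 64
    rw [this]; rfl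
  have e2 : Nat.add (Nat.mul 34359738368 13664254869414482678)
          (Nat.mul cn.nun 55340232221128654848)
    = 34359738368 * 13664254869414482678 + cn.nun * 55340232221128654848 := rfl
  rw [e1, e2] at hend'
  have h4 := fu_ge a4 (cn.m0 * 2 ^ 64)
  rw [Nat.cast_mul, Nat.cast_pow, Nat.cast_ofNat] at h4
  set M := fu 4 (cn.m0 * 2 ^ 64) with hM
  have h6 : (cn.nup : ℝ) * 55340232221128654848 + (M + K) + 1 ≤
      34359738368 * 13664254869414482678 + cn.nun * 55340232221128654848 := by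
    exact_mod_cast hend'
  have hW : ∀ a, 0 ≤ cr.W a := by intro a; rw [m1 a]; positivity
  have hG : ∀ a, 0 ≤ cr.G a := by intro a; rw [m2 a]; positivity
  have hs : ∀ a, cr.W a * dPhi 4 (tpt 4 p a) ≤ cr.G a := by
    have conv : ∀ (w g x : ℕ), slopeOk 4 w g x = true →
        (w : ℝ) / 2 ^ 35 * dPhi 4 (yv 4 x) ≤ (g : ℝ) / 2 ^ 35 := by
      intro w g x hsl
      have := slope_sound a4 (by norm_num) (fun h => absurd h (by norm_num)) hsl
      rw [div_mul_eq_mul_div]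
      exact div_le_div_of_nonneg_right this (by positivity)
    apply vec5
    · rw [m1 0, m2 0]; exact conv _ _ _ q0
    · rw [m1 1, m2 1]; exact conv _ _ _ q1
    · rw [m1 2, m2 2]; exact conv _ _ _ q2
    · rw [m1 3, m2 3]; exact conv _ _ _ q3
    · rw [m1 4, m2 4]; exact conv _ _ _ q4
  have hy : ∀ a, Dom 4 (tpt 4 p a) := fun a => yv_dom a4 _
  have hPhi : 3 / 4 * (80 / 81) ≤ Phi 4 B := by
    unfold Phi
    rw [if_neg (by norm_num)]
    have h8 : (1 - B / (((4 : ℕ) : ℝ) - 1)) ^ 4 ≤ (1 / 3) ^ 4 := by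
      have h9 : |1 - B / (((4 : ℕ) : ℝ) - 1)| ≤ 1 / 3 := by
        rw [abs_le]
        push_cast
        constructor <;> linarith
      have := pow_le_pow_left₀ (abs_nonneg _) h9 4
      rwa [Even.pow_abs (by decide)] at this
    push_cast at h8 ⊢
    linarith
  have hnu2 : cr.nu ≤ 0 := by
    rw [m3]
    apply div_nonpos_of_nonpos_of_nonneg _ (by positivity)
    have : (cn.nup : ℝ) ≤ cn.nun := by exact_mod_cast hnu'
    linarith
  refine ⟨cr, hull, ?_⟩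
  apply kills_of a4 a4 (Or.inr ⟨by norm_num, le_rfl⟩) cr hW hG (tpt 4 p) hy hs B
  have h10 : cr.nu * B ≤ cr.nu * 3 := mul_le_mul_of_nonpos_left hB0 hnu2
  have e99 : (2 : ℝ) ^ 99 = 2 ^ 35 * 2 ^ 64 := by norm_num
  have h11 : fac1 4 * cr.m0 + (K : ℝ) / 2 ^ 99 + cr.nu * 3 < 3 / 4 * (80 / 81) := by
    rw [m3, m4]
    have e5 : fac1 4 * ((cn.m0 : ℝ) / 2 ^ 35) + (K : ℝ) / 2 ^ 99
        + ((cn.nup : ℝ) - cn.nun) / 2 ^ 35 * 3 =
        (fac1 4 * (cn.m0 * 2 ^ 64) + K + ((cn.nup : ℝ) - cn.nun) * (3 * 2 ^ 64)) / 2 ^ 99 := by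
      rw [e99]
      field_simp
    rw [e5, div_lt_iff₀ (by positivity)]
    have e6 : (3 : ℝ) * 2 ^ 64 = 55340232221128654848 := by norm_num
    rw [e6]
    have e7 : (34359738368 : ℝ) * 13664254869414482678 ≤ 3 / 4 * (80 / 81) * 2 ^ 99 := by norm_num
    linarith
  linarith

end Vale.Agent.Lib.P154.Neg.Ck
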