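import Vale.Agent.Lib.P154.Neg.CkScChk
import Vale.Agent.Lib.P154.Neg.CkScalS

/-! Range checks for `sc_sound`. -/

namespace Vale.Agent.Lib.P154.Neg.Ck

set_option maxRecDepth 100000

theorem rng_gw : rngOk tb_gw Bst = true := by decide +kernel

theorem rng_r5 : rngOk tb_r5 Bst = true := by decide +kernel

theorem rng_r6 : rngOk tb_r6 Bst = true := by decide +kernel

theorem rng_r7 : rngOk tb_r7 Bst = true := by decide +kernel

theorem rng_r8 : rngOk tb_r8 Bst = true := by decide +kernel

theorem rng_r9 : rngOk tb_r9 Bst = true := by decide +kernel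

theorem rng_r10 : rngOk tb_r10 Bst = true := by decide +kernel

theorem rng_r11 : rngOk tb_r11 Bst = true := by decide +kernel

theorem rng_r12 : rngOk tb_r12 Bst = true := by decide +kernel

theorem rng_r13 : rngOk tb_r13 Bst = true := by decide +kernel

theorem rng_r14 : rngOk tb_r14 Bst = true := by decide +kernel

theorem rng_r15 : rngOk tb_r15 Bst = true := by decide +kernel

theorem rng_r16 : rngOk tb_r16 Bst = true := by decide +kernel

theorem rng_r17 : rngOk tb_r17 Bst = true := by decide +kernel

theorem rng_r18 : rngOk tb_r18 Bst = true := by decide +kernel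

theorem rng_r19 : rngOk tb_r19 Bst = true := by decide +kernel

theorem rng_r20 : rngOk tb_r20 Bst = true := by decide +kernel

theorem rng_r25 : rngOk tb_r25 Bst = true := by decide +kernel

theorem rng_r33 : rngOk tb_r33 Bst = true := by decide +kernel

theorem rng_r51 : rngOk tb_r51 Bst = true := by decide +kernel

theorem rng_s4 : rngOk tb_s4 Bst = true := by decide +kernel

theorem rng_d4 : rngOk tb_d4 Bst4 = true := by decide +kernel

end Vale.Agent.Lib.P154.Neg.Ck
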