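import Vale.Agent.Lib.P154.Neg.CkScalS

/-! The scalar inequality for the small-`B` family. -/

namespace Vale.Agent.Lib.P154.Neg.Ck

open scoped BigOperators

noncomputable def sbW : Fin 5 → ℝ := ![0, 238902 / 100000, 13530 / 100000, 4550 / 100000, 0]
noncomputable def sbc : Fin 5 → ℝ := ![0, 54 / 100, 865 / 1000, 216 / 100, 0]
noncomputable def sbNu : ℝ := 10326 / 10000

/-- derivative of the link function of the regular tree -/
theorem sb_hasDerivAt {d : ℕ} (hd : 2 ≤ d) (x : ℝ) :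
    HasDerivAt (Phi d) ((1 - x / ((d : ℝ) - 1)) ^ (d - 1)) x := by
  have h0 : d ≠ 0 := by omega
  have h2 : (2 : ℝ) ≤ d := by exact_mod_cast hd
  have h1 : (d : ℝ) - 1 ≠ 0 := by linarith
  have h3 : (d : ℝ) ≠ 0 := by linarith
  have hfun : Phi d = fun x : ℝ => ((d : ℝ) - 1) / d * (1 - (1 - x / ((d : ℝ) - 1)) ^ d) := by
    funext y; unfold Phi; rw [if_neg h0]
  rw [hfun]
  have e1 : HasDerivAt (fun x : ℝ => 1 - x / ((d : ℝ) - 1)) (-(1 / ((d : ℝ) - 1))) x := by
    simpa using ((hasDerivAt_id x).div_const ((d : ℝ) - 1)).const_sub 1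
  have e2 := ((e1.pow d).const_sub 1).const_mul (((d : ℝ) - 1) / d)
  refine e2.congr_deriv ?_
  field_simp

theorem sb_phi_zero (d : ℕ) : Phi d 0 = 0 := by
  unfold Phi; split_ifs <;> simp

/-- `Phi d x ≤ 1 - exp (-x)` on the domain -/
theorem sb_phi_le {d : ℕ} (hd : d = 0 ∨ 2 ≤ d) {x : ℝ} (hx : 0 ≤ x)
    (hdom : d = 0 ∨ Even d ∨ x ≤ (d : ℝ) - 1) : Phi d x ≤ 1 - Real.exp (-x) := by
  rcases hd with h0 | h2
  · subst h0; unfold Phi; simp
  have h2' : (2 : ℝ) ≤ d := by exact_mod_cast h2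
  have hd1 : (0 : ℝ) < (d : ℝ) - 1 := by linarith
  have hcast : ((d - 1 : ℕ) : ℝ) = (d : ℝ) - 1 := by
    rw [Nat.cast_sub (by omega)]; simp
  have hkey : ∀ y : ℝ, 0 ≤ y → y ≤ x → (1 - y / ((d : ℝ) - 1)) ^ (d - 1) ≤ Real.exp (-y) := by
    intro y hy0 hyx
    rcases le_or_gt y ((d : ℝ) - 1) with h | h
    · have h1 : 0 ≤ 1 - y / ((d : ℝ) - 1) := by
        rw [sub_nonneg, div_le_one hd1]; exact h
      have h3 : 1 - y / ((d : ℝ) - 1) ≤ Real.exp (-(y / ((d : ℝ) - 1))) := by
        have := Real.add_one_le_exp (-(y / ((d : ℝ) - 1)))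
        linarith
      calc (1 - y / ((d : ℝ) - 1)) ^ (d - 1)
          ≤ (Real.exp (-(y / ((d : ℝ) - 1)))) ^ (d - 1) := pow_le_pow_left₀ h1 h3 _
        _ = Real.exp (-y) := by
          rw [← Real.exp_nat_mul, hcast]
          congr 1
          field_simp
    · have heven : Even d := by
        rcases hdom with h' | h' | h'
        · omega
        · exact h'
        · exfalso; linarith
      have hodd : Odd (d - 1) := by
        obtain ⟨k, hk⟩ := heven
        exact ⟨k - 1, by omega⟩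
      have h1 : 1 - y / ((d : ℝ) - 1) ≤ 0 := by
        rw [sub_nonpos, one_le_div hd1]; exact h.le
      exact (hodd.pow_nonpos h1).trans (Real.exp_pos _).le
  have hmono : MonotoneOn (fun y => 1 - Real.exp (-y) - Phi d y) (Set.Icc 0 x) := by
    have hder : ∀ y : ℝ, HasDerivAt (fun y => 1 - Real.exp (-y) - Phi d y)
        (Real.exp (-y) - (1 - y / ((d : ℝ) - 1)) ^ (d - 1)) y := by
      intro y
      have e1 : HasDerivAt (fun y : ℝ => Real.exp (-y)) (-Real.exp (-y)) y := by
        simpa using (hasDerivAt_id y).neg.exp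
      exact ((e1.const_sub 1).sub (sb_hasDerivAt h2 y)).congr_deriv (by ring)
    apply monotoneOn_of_deriv_nonneg (convex_Icc 0 x)
    · intro y _; exact (hder y).continuousAt.continuousWithinAt
    · intro y _; exact (hder y).differentiableAt.differentiableWithinAt
    · intro y hy
      rw [interior_Icc] at hy
      rw [(hder y).deriv]
      linarith [hkey y hy.1.le hy.2.le]
  have h := hmono ⟨le_refl _, hx⟩ ⟨hx, le_refl _⟩ hx
  simp only [sb_phi_zero, neg_zero, Real.exp_zero] at h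
  linarith

/-- `Phi d B ≥ B - B^2/2` -/
theorem sb_phi_ge {d : ℕ} (hd : d = 0 ∨ 2 ≤ d) {B : ℝ} (hB0 : 0 ≤ B) (hB1 : B ≤ 1) :
    B - B ^ 2 / 2 ≤ Phi d B := by
  have hsq : ∀ y : ℝ, HasDerivAt (fun y : ℝ => y - y ^ 2 / 2) (1 - y) y := by
    intro y
    have := (hasDerivAt_id y).sub (((hasDerivAt_id y).pow 2).div_const 2)
    refine this.congr_deriv ?_
    simp
  rcases hd with h0 | h2
  · subst h0
    have hmono : MonotoneOn (fun y => 1 - Real.exp (-y) - (y - y ^ 2 / 2)) (Set.Icc 0 B) := by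
      have hder : ∀ y : ℝ, HasDerivAt (fun y => 1 - Real.exp (-y) - (y - y ^ 2 / 2))
          (Real.exp (-y) - (1 - y)) y := by
        intro y
        have e1 : HasDerivAt (fun y : ℝ => Real.exp (-y)) (-Real.exp (-y)) y := by
          simpa using (hasDerivAt_id y).neg.exp
        exact ((e1.const_sub 1).sub (hsq y)).congr_deriv (by ring)
      apply monotoneOn_of_deriv_nonneg (convex_Icc 0 B)
      · intro y _; exact (hder y).continuousAt.continuousWithinAt
      · intro y _; exact (hder y).differentiableAt.differentiableWithinAt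
      · intro y _
        rw [(hder y).deriv]
        have := Real.add_one_le_exp (-y)
        linarith
    have h := hmono ⟨le_refl _, hB0⟩ ⟨hB0, le_refl _⟩ hB0
    unfold Phi
    norm_num at h ⊢
    linarith
  · have h2' : (2 : ℝ) ≤ d := by exact_mod_cast h2
    have hd1 : (0 : ℝ) < (d : ℝ) - 1 := by linarith
    have hcast : ((d - 1 : ℕ) : ℝ) = (d : ℝ) - 1 := by
      rw [Nat.cast_sub (by omega)]; simp
    have hmono : MonotoneOn (fun y => Phi d y - (y - y ^ 2 / 2)) (Set.Icc 0 B) := by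
      have hder : ∀ y : ℝ, HasDerivAt (fun y => Phi d y - (y - y ^ 2 / 2))
          ((1 - y / ((d : ℝ) - 1)) ^ (d - 1) - (1 - y)) y := fun y =>
        (sb_hasDerivAt h2 y).sub (hsq y)
      apply monotoneOn_of_deriv_nonneg (convex_Icc 0 B)
      · intro y _; exact (hder y).continuousAt.continuousWithinAt
      · intro y _; exact (hder y).differentiableAt.differentiableWithinAt
      · intro y hy
        rw [interior_Icc] at hy
        rw [(hder y).deriv]
        have h3 : -2 ≤ -(y / ((d : ℝ) - 1)) := by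
          have : y / ((d : ℝ) - 1) ≤ 1 := by
            rw [div_le_one hd1]; linarith [hy.2]
          linarith
        have h4 := one_add_mul_le_pow h3 (d - 1)
        rw [hcast] at h4
        have h5 : ((d : ℝ) - 1) * -(y / ((d : ℝ) - 1)) = -y := by field_simp
        rw [h5] at h4
        have h6 : 1 + -(y / ((d : ℝ) - 1)) = 1 - y / ((d : ℝ) - 1) := by ring
        rw [h6] at h4
        linarith
    have h := hmono ⟨le_refl _, hB0⟩ ⟨hB0, le_refl _⟩ hB0
    simp only [sb_phi_zero] at h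
    linarith

/-- maximum of `1 - exp (-x) - (1 - s) x` -/
theorem sb_conj {s x : ℝ} (hs0 : 0 ≤ s) (hs1 : s < 1) :
    1 - Real.exp (-x) - (1 - s) * x ≤ s ^ 2 / 2 + s ^ 3 / 6 + s ^ 4 / 3 := by
  have h1 : 0 < 1 - s := by linarith
  set L := Real.log (1 - s) with hL
  have hexp : Real.exp L = 1 - s := Real.exp_log h1
  have h2 : (1 - s) * (1 + (-x - L)) ≤ Real.exp (-x) := by
    have h3 := Real.add_one_le_exp (-x - L)
    have h4 : Real.exp (-x) = Real.exp L * Real.exp (-x - L) := by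
      rw [← Real.exp_add]; congr 1; ring
    rw [h4, hexp]
    apply mul_le_mul_of_nonneg_left _ h1.le
    linarith
  have h5 : L ≤ -s - s ^ 2 / 2 - s ^ 3 / 3 := by
    have h6 := Real.hasSum_pow_div_log_of_abs_lt_one (x := s) (by rw [abs_of_nonneg hs0]; exact hs1)
    have h7 := sum_le_hasSum (Finset.range 3) (fun i _ => by positivity) h6
    simp only [Finset.sum_range_succ, Finset.sum_range_zero] at h7
    norm_num at h7
    linarith
  have h8 := mul_le_mul_of_nonneg_left h5 h1.le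
  nlinarith

/-- `A1^2/(4 rho) = 49/3200` with `A1 = 7/100`, `rho = 8/100` -/
theorem small_kills (d : ℕ) (hd : d = 0 ∨ 2 ≤ d) (B : ℝ) (hB0 : 0 < B) (hB1 : B ≤ 19 / 1000) :
    Kills d B ⟨sbW, fun a => sbW a * (1 - sbc a * B), 1 - sbNu * B, 49 / 3200 * B ^ 2⟩ := by
  intro X hX hdom
  have hterm : ∀ a : Fin 5, Phi d (X a) - (1 - sbc a * B) * X a
      ≤ (sbc a * B) ^ 2 / 2 + (sbc a * B) ^ 3 / 6 + (sbc a * B) ^ 4 / 3 := by
    intro a
    have hc0 : 0 ≤ sbc a := by
      fin_cases a <;> simp [sbc] <;> norm_num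
    have hc1 : sbc a ≤ 3 := by
      fin_cases a <;> simp [sbc] <;> norm_num
    have hs0 : 0 ≤ sbc a * B := mul_nonneg hc0 hB0.le
    have hs1 : sbc a * B < 1 := by nlinarith
    have h1 := sb_phi_le hd (hX a) (by
      rcases hdom with h | h | h
      · exact Or.inl h
      · exact Or.inr (Or.inl h)
      · exact Or.inr (Or.inr (h a)))
    have h2 := sb_conj (x := X a) hs0 hs1
    linarith
  have hge := sb_phi_ge hd hB0.le (by linarith : B ≤ 1)
  have hfac : fac1 d ≤ 1 := by
    unfold fac1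
    split_ifs with h
    · exact le_refl _
    · have : (0 : ℝ) < d := by
        have : 0 < d := Nat.pos_of_ne_zero h
        exact_mod_cast this
      rw [div_le_one this]; linarith
  simp only [Fin.sum_univ_five]
  have t1 := hterm 1
  have t2 := hterm 2
  have t3 := hterm 3
  have w0 : sbW 0 = 0 := rfl
  have w4 : sbW 4 = 0 := rfl
  have w1 : sbW 1 = 238902 / 100000 := rfl
  have w2 : sbW 2 = 13530 / 100000 := rfl
  have w3 : sbW 3 = 4550 / 100000 := rfl
  have c1 : sbc 1 = 54 / 100 := rfl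
  have c2 : sbc 2 = 865 / 1000 := rfl
  have c3 : sbc 3 = 216 / 100 := rfl
  rw [c1] at t1
  rw [c2] at t2
  rw [c3] at t3
  rw [w0, w1, w2, w3, w4, c1, c2, c3]
  have hm : fac1 d * (49 / 3200 * B ^ 2) ≤ 49 / 3200 * B ^ 2 := by
    have : 0 ≤ 49 / 3200 * B ^ 2 := by positivity
    nlinarith
  unfold sbNu
  have hB2 : 0 < B ^ 2 := by positivity
  have hB3 : B ^ 3 ≤ 19 / 1000 * B ^ 2 := by nlinarith
  have hB4 : B ^ 4 ≤ (19 / 1000) ^ 2 * B ^ 2 := by nlinarith
  nlinarith
end Vale.Agent.Lib.P154.Neg.Ck
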