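import Vale.Agent.Lib.P154.Neg.NDefs
import Vale.Agent.Lib.P154.Pot2GW

/-! N-ORDGW. The same monotonicity in the number of levels on the Galton-Watson tree. -/

namespace Vale.Agent.Lib.P154.Neg

open scoped BigOperators ENNReal
open Filter Topology
open GWAux

namespace OrdGW

theorem chan_add (lam : ℝ) (x y : Fin 3 → ℝ) :
    chan 3 lam (fun i => x i + y i) = fun i => chan 3 lam x i + chan 3 lam y i := by
  funext i
  unfold chan
  rw [← Finset.sum_add_distrib]
  exact Finset.sum_congr rfl fun j _ => by ring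

theorem chan_smul (lam c : ℝ) (x : Fin 3 → ℝ) :
    chan 3 lam (fun i => c * x i) = fun i => c * chan 3 lam x i := by
  funext i
  unfold chan
  rw [Finset.mul_sum]
  exact Finset.sum_congr rfl fun j _ => by ring

theorem chan_nn {lam : ℝ} (hp : ∀ i j : Fin 3, 0 ≤ potts 3 lam i j) {W : Fin 3 → ℝ}
    (h : ∀ i, 0 ≤ W i) (i : Fin 3) : 0 ≤ chan 3 lam W i :=
  Finset.sum_nonneg fun j _ => mul_nonneg (hp i j) (h j)

/-- nonnegative concave homogeneous functional -/
def Nn (G : (Fin 3 → ℝ) → ℝ) : Prop := ∀ x : Fin 3 → ℝ, (∀ i, 0 ≤ x i) → 0 ≤ G x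

theorem concH_chan {lam : ℝ} (hp : ∀ i j : Fin 3, 0 ≤ potts 3 lam i j) {G : (Fin 3 → ℝ) → ℝ}
    (hG : ConcH G) : ConcH (fun y => G (chan 3 lam y)) := by
  refine ⟨fun c x hc hx => ?_, fun x y hx hy => ?_⟩
  · rw [chan_smul]
    exact hG.hom c _ hc (chan_nn hp hx)
  · rw [chan_add]
    exact hG.add _ _ (chan_nn hp hx) (chan_nn hp hy)

theorem concH_mul {G : (Fin 3 → ℝ) → ℝ} (hG : ConcH G) {z : Fin 3 → ℝ} (hz : ∀ i, 0 ≤ z i) :
    ConcH (fun y => G (fun i => y i * z i)) := by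
  refine ⟨fun c x hc hx => ?_, fun x y hx hy => ?_⟩
  · have h := hG.hom c (fun i => x i * z i) hc (fun i => mul_nonneg (hx i) (hz i))
    have e : (fun i => c * x i * z i) = fun i => c * (x i * z i) := by funext i; ring
    rw [e]
    exact h
  · have h := hG.add (fun i => x i * z i) (fun i => y i * z i)
      (fun i => mul_nonneg (hx i) (hz i)) (fun i => mul_nonneg (hy i) (hz i))
    have e : (fun i => (x i + y i) * z i) = fun i => x i * z i + y i * z i := by funext i; ring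
    rw [e]
    exact h

/-- the order between two weighted families of nonnegative vectors -/
def Le {α β : Type} (wa : α → ℝ≥0∞) (u : α → Fin 3 → ℝ) (wb : β → ℝ≥0∞) (v : β → Fin 3 → ℝ) :
    Prop :=
  ∀ G : (Fin 3 → ℝ) → ℝ, ConcH G → Nn G →
    ∑' a, wa a * ENNReal.ofReal (G (u a)) ≤ ∑' b, wb b * ENNReal.ofReal (G (v b))

theorem le_pow {α β : Type} {wa : α → ℝ≥0∞} {u : α → Fin 3 → ℝ} {wb : β → ℝ≥0∞}
    {v : β → Fin 3 → ℝ} (hu : ∀ a i, 0 ≤ u a i) (hv : ∀ b i, 0 ≤ v b i) (h : Le wa u wb v) :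
    ∀ k : ℕ, Le (fun g : Fin k → α => ∏ c, wa (g c)) (fun g i => ∏ c, u (g c) i)
      (fun g : Fin k → β => ∏ c, wb (g c)) (fun g i => ∏ c, v (g c) i)
  | 0, G, _, _ => by
    rw [tsum_fintype, tsum_fintype]
    simp
  | k + 1, G, hG, hN => by
    have ih := le_pow hu hv h k
    rw [← (Fin.consEquiv (fun _ : Fin (k + 1) => α)).tsum_eq,
      ← (Fin.consEquiv (fun _ : Fin (k + 1) => β)).tsum_eq]
    have eA : ∀ c : α × (Fin k → α),
        (∏ i, wa ((Fin.consEquiv fun _ : Fin (k + 1) => α) c i)) *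
          ENNReal.ofReal (G (fun i => ∏ j, u ((Fin.consEquiv fun _ : Fin (k + 1) => α) c j) i))
        = (∏ i, wa (c.2 i)) *
          (wa c.1 * ENNReal.ofReal (G (fun i => u c.1 i * ∏ j, u (c.2 j) i))) := by
      intro c
      rw [Fin.prod_univ_succ]
      have e1 : (fun i => ∏ j, u ((Fin.consEquiv fun _ : Fin (k + 1) => α) c j) i)
          = fun i => u c.1 i * ∏ j, u (c.2 j) i := by
        funext i
        rw [Fin.prod_univ_succ]
        simp [Fin.consEquiv]
      rw [e1]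
      simp only [Fin.consEquiv, Equiv.coe_fn_mk, Fin.cons_zero, Fin.cons_succ]
      ring
    have eB : ∀ c : β × (Fin k → β),
        (∏ i, wb ((Fin.consEquiv fun _ : Fin (k + 1) => β) c i)) *
          ENNReal.ofReal (G (fun i => ∏ j, v ((Fin.consEquiv fun _ : Fin (k + 1) => β) c j) i))
        = wb c.1 * ((∏ i, wb (c.2 i)) *
          ENNReal.ofReal (G (fun i => v c.1 i * ∏ j, v (c.2 j) i))) := by
      intro c
      rw [Fin.prod_univ_succ]
      have e1 : (fun i => ∏ j, v ((Fin.consEquiv fun _ : Fin (k + 1) => β) c j) i)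
          = fun i => v c.1 i * ∏ j, v (c.2 j) i := by
        funext i
        rw [Fin.prod_univ_succ]
        simp [Fin.consEquiv]
      rw [e1]
      simp only [Fin.consEquiv, Equiv.coe_fn_mk, Fin.cons_zero, Fin.cons_succ]
      ring
    rw [tsum_congr eA, tsum_congr eB]
    rw [ENNReal.tsum_prod (f := fun a (g : Fin k → α) => (∏ i, wa (g i)) *
          (wa a * ENNReal.ofReal (G (fun i => u a i * ∏ j, u (g j) i)))),
      ENNReal.tsum_prod (f := fun b (g : Fin k → β) => wb b * ((∏ i, wb (g i)) *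
          ENNReal.ofReal (G (fun i => v b i * ∏ j, v (g j) i)))),
      ENNReal.tsum_comm]
    calc ∑' (g : Fin k → α) (a : α), (∏ i, wa (g i)) *
            (wa a * ENNReal.ofReal (G (fun i => u a i * ∏ j, u (g j) i)))
        = ∑' g : Fin k → α, (∏ i, wa (g i)) *
            ∑' a : α, wa a * ENNReal.ofReal (G (fun i => u a i * ∏ j, u (g j) i)) := by
          simp only [ENNReal.tsum_mul_left]
      _ ≤ ∑' g : Fin k → α, (∏ i, wa (g i)) *
            ∑' b : β, wb b * ENNReal.ofReal (G (fun i => v b i * ∏ j, u (g j) i)) := by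
          refine ENNReal.tsum_le_tsum fun g => mul_le_mul_right ?_ _
          have hz : ∀ i, 0 ≤ ∏ j, u (g j) i := fun i => Finset.prod_nonneg fun j _ => hu _ _
          exact h (fun y => G (fun i => y i * ∏ j, u (g j) i)) (concH_mul hG hz)
            (fun x hx => hN _ fun i => mul_nonneg (hx i) (hz i))
      _ = ∑' b : β, wb b * ∑' g : Fin k → α, (∏ i, wa (g i)) *
            ENNReal.ofReal (G (fun i => v b i * ∏ j, u (g j) i)) := by
          simp only [← ENNReal.tsum_mul_left]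
          rw [ENNReal.tsum_comm]
          refine tsum_congr fun b => tsum_congr fun g => ?_
          ring
      _ ≤ ∑' b : β, wb b * ∑' g : Fin k → β, (∏ i, wb (g i)) *
            ENNReal.ofReal (G (fun i => v b i * ∏ j, v (g j) i)) := by
          refine ENNReal.tsum_le_tsum fun b => mul_le_mul_right ?_ _
          have h2 := ih (fun y => G (fun i => v b i * y i)) (by
            have h3 := concH_mul hG (hv b)
            simpa only [mul_comm] using h3)
            (fun x hx => hN _ fun i => mul_nonneg (hv b i) (hx i))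
          exact h2
      _ = ∑' (b : β) (g : Fin k → β), wb b * ((∏ i, wb (g i)) *
            ENNReal.ofReal (G (fun i => v b i * ∏ j, v (g j) i))) := by
          simp only [ENNReal.tsum_mul_left]

/-- the weighted family of likelihood vectors of the Galton-Watson tree -/
abbrev Fam (n : ℕ) : Type := Σ T : Tr n, (Lvl n T → Fin 3)

noncomputable def wF (D : ℝ) (n : ℕ) (a : Fam n) : ℝ≥0∞ := w D n a.1

noncomputable def uF (lam : ℝ) (n : ℕ) (a : Fam n) : Fin 3 → ℝ := likL 3 lam n a.1 a.2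

theorem tsum_fam (lam D : ℝ) (n : ℕ) (G : (Fin 3 → ℝ) → ℝ) :
    ∑' a : Fam n, wF D n a * ENNReal.ofReal (G (uF lam n a))
      = EE D n (fun T => ∑ s, ENNReal.ofReal (G (likL 3 lam n T s))) := by
  unfold EE
  rw [ENNReal.tsum_sigma']
  refine tsum_congr fun T => ?_
  rw [Finset.mul_sum, tsum_fintype]
  rfl

/-- choice of a child together with its spins -/
def piSig (n k : ℕ) : (Fin k → Fam n) ≃ (Σ f : Fin k → Tr n, ∀ c, (Lvl n (f c) → Fin 3)) where
  toFun g := ⟨fun c => (g c).1, fun c => (g c).2⟩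
  invFun p := fun c => ⟨p.1 c, p.2 c⟩
  left_inv _ := rfl
  right_inv _ := rfl

theorem tsum_fam_succ {D : ℝ} (hD : 0 ≤ D) (lam : ℝ) (n : ℕ) (G : (Fin 3 → ℝ) → ℝ) :
    ∑' a : Fam (n + 1), wF D (n + 1) a * ENNReal.ofReal (G (uF lam (n + 1) a))
      = ∑' k, ENNReal.ofReal (pois D k) * ∑' g : Fin k → Fam n, (∏ c, wF D n (g c)) *
          ENNReal.ofReal (G (fun i => ∏ c, chan 3 lam (uF lam n (g c)) i)) := by
  rw [tsum_fam]
  have h1 : ∀ T : Tr (n + 1), ∑ s, ENNReal.ofReal (G (likL 3 lam (n + 1) T s))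
      = ∑ s : (∀ c : Fin T.1, (Lvl n (T.2 c) → Fin 3)),
        ENNReal.ofReal (G (fun i => ∏ c : Fin T.1, chan 3 lam (likL 3 lam n (T.2 c) (s c)) i)) :=
    fun T => (Fintype.sum_equiv (spinEquiv 3 n T).symm _ _ fun s => by rw [likL_prod]).symm
  have h2 : (fun T : Tr (n + 1) => ∑ s, ENNReal.ofReal (G (likL 3 lam (n + 1) T s)))
      = fun T : Tr (n + 1) => (fun (k : ℕ) (f : Fin k → Tr n) =>
        ∑ s : (∀ c : Fin k, (Lvl n (f c) → Fin 3)),
        ENNReal.ofReal (G (fun i => ∏ c : Fin k, chan 3 lam (likL 3 lam n (f c) (s c)) i)))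
          T.1 T.2 := by
    funext T
    exact h1 T
  have h3 := EE_succ hD n (fun (k : ℕ) (f : Fin k → Tr n) =>
        ∑ s : (∀ c : Fin k, (Lvl n (f c) → Fin 3)),
        ENNReal.ofReal (G (fun i => ∏ c : Fin k, chan 3 lam (likL 3 lam n (f c) (s c)) i)))
  refine (congrArg (EE D (n + 1)) h2).trans (h3.trans ?_)
  refine tsum_congr fun k => ?_
  congr 1
  rw [← (piSig n k).symm.tsum_eq, ENNReal.tsum_sigma']
  refine tsum_congr fun f => ?_
  rw [Finset.mul_sum, tsum_fintype]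
  rfl

theorem le_leaves {G : (Fin 3 → ℝ) → ℝ} (hG : ConcH G) {x : Fin 3 → ℝ} (hx : ∀ i, 0 ≤ x i) :
    ∑ j : Fin 3, x j * G (fun i => if j = i then 1 else 0) ≤ G x := by
  have hn : ∀ j i : Fin 3, 0 ≤ x j * (if j = i then (1 : ℝ) else 0) := fun j i =>
    mul_nonneg (hx j) (by split_ifs <;> norm_num)
  have hh : ∀ j : Fin 3, x j * G (fun i => if j = i then 1 else 0)
      = G (fun i => x j * (if j = i then (1 : ℝ) else 0)) := fun j =>
    (hG.hom (x j) _ (hx j) (fun i => by split_ifs <;> norm_num)).symm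
  rw [Fin.sum_univ_three, hh 0, hh 1, hh 2]
  have h1 := hG.add (fun i => x 0 * (if (0 : Fin 3) = i then (1 : ℝ) else 0))
    (fun i => x 1 * (if (1 : Fin 3) = i then (1 : ℝ) else 0)) (hn 0) (hn 1)
  have h2 := hG.add (fun i => x 0 * (if (0 : Fin 3) = i then (1 : ℝ) else 0)
    + x 1 * (if (1 : Fin 3) = i then (1 : ℝ) else 0))
    (fun i => x 2 * (if (2 : Fin 3) = i then (1 : ℝ) else 0))
    (fun i => add_nonneg (hn 0 i) (hn 1 i)) (hn 2)
  have e : (fun i => x 0 * (if (0 : Fin 3) = i then (1 : ℝ) else 0)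
    + x 1 * (if (1 : Fin 3) = i then (1 : ℝ) else 0)
    + x 2 * (if (2 : Fin 3) = i then (1 : ℝ) else 0)) = x := by
    funext i
    fin_cases i <;> simp
  rw [e] at h2
  linarith

theorem leaves_le_val {lam : ℝ} (hp : ∀ i j : Fin 3, 0 ≤ potts 3 lam i j)
    {G : (Fin 3 → ℝ) → ℝ} (hG : ConcH G) (n : ℕ) (T : Tr n) :
    ∑ j : Fin 3, G (fun i => if j = i then 1 else 0) ≤ ∑ s, G (likL 3 lam n T s) := by
  have h1 : ∑ s, ∑ j : Fin 3, likL 3 lam n T s j * G (fun i => if j = i then 1 else 0)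
      ≤ ∑ s, G (likL 3 lam n T s) :=
    Finset.sum_le_sum fun s _ => le_leaves hG fun i => Subcrit.lik_nonneg hp n T i s
  refine le_trans (le_of_eq ?_) h1
  rw [Finset.sum_comm]
  refine Finset.sum_congr rfl fun j _ => ?_
  rw [← Finset.sum_mul]
  have h2 : ∑ s, likL 3 lam n T s j = 1 := Subcrit.lik_sum (by norm_num) n T j
  rw [h2, one_mul]

theorem sum_zero (lam : ℝ) (T : Tr 0) (G : (Fin 3 → ℝ) → ℝ) :
    ∑ s, G (likL 3 lam 0 T s) = ∑ j : Fin 3, G (fun i => if j = i then 1 else 0) := by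
  let e : Fin 3 ≃ (Lvl 0 T → Fin 3) :=
    { toFun := fun j _ => j
      invFun := fun s => s ()
      left_inv := fun _ => rfl
      right_inv := fun s => by funext u; cases u; rfl }
  exact (Fintype.sum_equiv e (fun j : Fin 3 => G (fun i => if j = i then (1 : ℝ) else 0)) _
    (fun j => rfl)).symm

theorem uF_nonneg {lam : ℝ} (hp : ∀ i j : Fin 3, 0 ≤ potts 3 lam i j) (n : ℕ) (a : Fam n)
    (i : Fin 3) : 0 ≤ uF lam n a i := Subcrit.lik_nonneg hp n a.1 i a.2

theorem chan_uF_nonneg {lam : ℝ} (hp : ∀ i j : Fin 3, 0 ≤ potts 3 lam i j) (n : ℕ) (a : Fam n)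
    (i : Fin 3) : 0 ≤ chan 3 lam (uF lam n a) i := chan_nn hp (uF_nonneg hp n a) i

theorem le_fam {lam : ℝ} (hp : ∀ i j : Fin 3, 0 ≤ potts 3 lam i j) {D : ℝ} (hD : 0 ≤ D) :
    ∀ n : ℕ, Le (wF D n) (uF lam n) (wF D (n + 1)) (uF lam (n + 1)) := by
  intro n
  induction n with
  | zero =>
    intro G hG hN
    rw [tsum_fam, tsum_fam]
    have hl : ∀ (n : ℕ) (T : Tr n), ∑ s, ENNReal.ofReal (G (likL 3 lam n T s))
        = ENNReal.ofReal (∑ s, G (likL 3 lam n T s)) := fun n T =>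
      (ENNReal.ofReal_sum_of_nonneg fun s _ =>
        hN _ fun i => Subcrit.lik_nonneg hp n T i s).symm
    simp only [hl]
    have h0 : EE D 0 (fun T => ENNReal.ofReal (∑ s, G (likL 3 lam 0 T s)))
        = ENNReal.ofReal (∑ j : Fin 3, G (fun i => if j = i then 1 else 0)) := by
      unfold EE
      simp only [sum_zero]
      rw [ENNReal.tsum_mul_right, tsum_w hD, one_mul]
    have h1 : EE D 1 (fun _ => ENNReal.ofReal (∑ j : Fin 3, G (fun i => if j = i then 1 else 0)))
        = ENNReal.ofReal (∑ j : Fin 3, G (fun i => if j = i then 1 else 0)) := by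
      unfold EE
      rw [ENNReal.tsum_mul_right, tsum_w hD, one_mul]
    rw [h0, ← h1]
    exact EE_mono fun T => ENNReal.ofReal_le_ofReal (leaves_le_val hp hG 1 T)
  | succ n ih =>
    intro G hG hN
    rw [tsum_fam_succ hD, tsum_fam_succ hD]
    refine ENNReal.tsum_le_tsum fun k => mul_le_mul_right ?_ _
    have hch : Le (wF D n) (fun a => chan 3 lam (uF lam n a)) (wF D (n + 1))
        (fun a => chan 3 lam (uF lam (n + 1) a)) := fun G' hG' hN' =>
      ih (fun y => G' (chan 3 lam y)) (concH_chan hp hG')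
        (fun x hx => hN' _ (chan_nn hp hx))
    exact le_pow (chan_uF_nonneg hp n) (chan_uF_nonneg hp (n + 1)) hch k G hG hN

end OrdGW

open OrdGW in
/-- Hint: work in `ℝ≥0∞` (`EE_succ`, `tsum_pi_dep`). Abstract step: for two countable weighted
families of ensembles `A`, `B` with `∑' wB ∑ G B ≤ ∑' wA ∑ G A` for every nonnegative `ConcH G`,
the same holds for the products of `k` independent copies (replace the factors one at a time). -/
theorem gw_mono (lam : ℝ) (h0 : -(1 / 2) ≤ lam) (h1 : lam ≤ 1) (D : ℝ) (hD : 0 ≤ D) (n : ℕ)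
    {G : (Fin 3 → ℝ) → ℝ} (hG : ConcH G) (M : ℝ)
    (hG0 : ∀ x : Fin 3 → ℝ, (∀ i, 0 ≤ x i) → 0 ≤ G x ∧ G x ≤ M * mean 3 x) :
    Ex D n (fun T => val 3 lam n T G) ≤ Ex D (n + 1) (fun T => val 3 lam (n + 1) T G) := by
  have hp : ∀ i j : Fin 3, 0 ≤ potts 3 lam i j :=
    Subcrit.potts_nonneg' (by norm_num) (by norm_num; linarith) h1
  have hN : Nn G := fun x hx => (hG0 x hx).1
  have hv0 : ∀ (m : ℕ) (T : Tr m), 0 ≤ val 3 lam m T G := fun m T =>
    Finset.sum_nonneg fun s _ => hN _ fun i => Subcrit.lik_nonneg hp m T i s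
  have hv1 : ∀ (m : ℕ) (T : Tr m), val 3 lam m T G ≤ M := by
    intro m T
    have h2 : val 3 lam m T G ≤ ∑ s, M * mean 3 (likL 3 lam m T s) :=
      Finset.sum_le_sum fun s _ => (hG0 _ fun i => Subcrit.lik_nonneg hp m T i s).2
    refine h2.trans (le_of_eq ?_)
    rw [← Finset.mul_sum]
    have h3 : ∑ s, mean 3 (likL 3 lam m T s) = 1 := by
      unfold mean
      rw [← Finset.sum_div, Finset.sum_comm]
      have h4 : ∀ j : Fin 3, ∑ s, likL 3 lam m T s j = 1 := fun j =>
        Subcrit.lik_sum (by norm_num) m T j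
      simp only [h4]
      norm_num
    rw [h3, mul_one]
  have hE : ∀ m : ℕ, ENNReal.ofReal (Ex D m (fun T => val 3 lam m T G))
      = ∑' a : Fam m, wF D m a * ENNReal.ofReal (G (uF lam m a)) := by
    intro m
    rw [ofReal_Ex hD (hv0 m) (hv1 m), tsum_fam]
    unfold EE
    refine tsum_congr fun T => ?_
    congr 1
    exact ENNReal.ofReal_sum_of_nonneg fun s _ => hN _ fun i => Subcrit.lik_nonneg hp m T i s
  have key := le_fam hp hD n G hG hN
  rw [← hE, ← hE] at key
  exact (ENNReal.ofReal_le_ofReal_iff (Ex_nonneg hD (hv0 (n + 1)))).mp key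

end Vale.Agent.Lib.P154.Neg
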