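import Vale.Agent.Lib.P154.Neg.NLimAux
import Vale.Agent.Lib.P154.Neg.NOrdGW

/-! N-LIMGW. The limit law on Galton-Watson trees. -/

namespace Vale.Agent.Lib.P154.Neg

open scoped BigOperators
open Filter Topology
open GWAux

/-! ### signed averages over the Galton-Watson tree -/

theorem summable_signed {d : ℝ} (hd : 0 ≤ d) {n : ℕ} {F : Tr n → ℝ} {M : ℝ}
    (h : ∀ T, |F T| ≤ M) : Summable (fun T => gwProb d n T * F T) := by
  have h2 : Summable (fun T => gwProb d n T * |F T|) :=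
    summable_mul hd n (fun T => abs_nonneg _) h
  refine Summable.of_abs (h2.congr fun T => ?_)
  rw [abs_mul, abs_of_nonneg (gwProb_nonneg hd n T)]

theorem Ex_add {d : ℝ} (hd : 0 ≤ d) {n : ℕ} {F G : Tr n → ℝ} {M M' : ℝ}
    (hF : ∀ T, |F T| ≤ M) (hG : ∀ T, |G T| ≤ M') :
    Ex d n (fun T => F T + G T) = Ex d n F + Ex d n G := by
  unfold Ex
  rw [← Summable.tsum_add (summable_signed hd hF) (summable_signed hd hG)]
  refine tsum_congr fun T => ?_
  ring

theorem Ex_const {d : ℝ} (hd : 0 ≤ d) (n : ℕ) (c : ℝ) : Ex d n (fun _ => c) = c := by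
  unfold Ex
  rw [tsum_mul_right, tsum_gw hd n, one_mul]

theorem Ex_sum {d : ℝ} (hd : 0 ≤ d) {n : ℕ} {ι : Type} [Fintype ι] {F : ι → Tr n → ℝ}
    {M : ι → ℝ} (hF : ∀ a T, |F a T| ≤ M a) :
    Ex d n (fun T => ∑ a, F a T) = ∑ a, Ex d n (F a) := by
  unfold Ex
  rw [← Summable.tsum_finsetSum (fun a _ => summable_signed hd (hF a))]
  refine tsum_congr fun T => ?_
  rw [Finset.mul_sum]

theorem summable_pi_real {α : Type} {u : α → ℝ} (hu : Summable fun a => |u a|) :
    ∀ k : ℕ, Summable (fun f : Fin k → α => |∏ i, u (f i)|)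
  | 0 => (hasSum_fintype _).summable
  | k + 1 => by
    rw [← (Fin.consEquiv (fun _ : Fin (k + 1) => α)).summable_iff]
    have h := hu.mul_of_nonneg (summable_pi_real hu k) (fun _ => abs_nonneg _)
      (fun _ => abs_nonneg _)
    refine h.congr fun c => ?_
    simp [Fin.prod_univ_succ, abs_mul, Fin.consEquiv]

theorem tsum_pi_real {α : Type} {u : α → ℝ} (hu : Summable fun a => |u a|) :
    ∀ k : ℕ, ∑' f : Fin k → α, ∏ i, u (f i) = (∑' a, u a) ^ k
  | 0 => by
    rw [tsum_fintype, pow_zero]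
    simp
  | k + 1 => by
    rw [← (Fin.consEquiv (fun _ : Fin (k + 1) => α)).tsum_eq, pow_succ', ← tsum_pi_real hu k,
      tsum_mul_tsum_of_summable_norm (f := u) (g := fun f : Fin k → α => ∏ i, u (f i))
        hu (summable_pi_real hu k)]
    refine tsum_congr fun c => ?_
    rw [Fin.prod_univ_succ]
    simp [Fin.consEquiv]

theorem Ex_prod_signed {d : ℝ} (hd : 0 ≤ d) {n : ℕ} {g : Tr n → ℝ} (h : ∀ T, |g T| ≤ 1) :
    Ex d (n + 1) (fun T => ∏ i, g (T.2 i)) = Real.exp (-(d * (1 - Ex d n g))) := by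
  have hp : ∀ T : Tr (n + 1), |∏ i, g (T.2 i)| ≤ 1 := fun T => by
    rw [Finset.abs_prod]
    exact Finset.prod_le_one (fun i _ => abs_nonneg _) (fun i _ => h _)
  have hs := summable_signed hd hp
  have hu : Summable fun T : Tr n => |gwProb d n T * g T| := (summable_signed hd h).abs
  unfold Ex
  rw [← (hasSum_pois_pow d (∑' T : Tr n, gwProb d n T * g T)).tsum_eq]
  have h2 : ∑' T : Tr (n + 1), gwProb d (n + 1) T * ∏ i, g (T.2 i)
      = ∑' T : (Σ k : ℕ, (Fin k → Tr n)), pois d T.1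
          * ∏ i, (gwProb d n (T.2 i) * g (T.2 i)) := by
    apply tsum_congr
    intro T
    rw [Finset.prod_mul_distrib, ← mul_assoc]
    rfl
  have hs2 : Summable (fun T : (Σ k : ℕ, (Fin k → Tr n)) => pois d T.1
          * ∏ i, (gwProb d n (T.2 i) * g (T.2 i))) := by
    refine hs.congr fun T => ?_
    rw [Finset.prod_mul_distrib, ← mul_assoc]
    rfl
  rw [h2, hs2.tsum_sigma]
  refine tsum_congr fun k => ?_
  show ∑' f : Fin k → Tr n, pois d k * ∏ i, (gwProb d n (f i) * g (f i)) = _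
  rw [tsum_mul_left, tsum_pi_real hu k]

/-- Cauchy-Schwarz for averages over the tree -/
theorem Ex_sqrt_sq_le {d : ℝ} (hd : 0 ≤ d) {n : ℕ} {X : Tr n → ℝ} {M : ℝ}
    (h0 : ∀ T, 0 ≤ X T) (h1 : ∀ T, X T ≤ M) :
    Ex d n (fun T => Real.sqrt (X T)) ≤ Real.sqrt (Ex d n X) := by
  obtain ⟨s, hs⟩ : ∃ s, s = Ex d n (fun T => Real.sqrt (X T)) := ⟨_, rfl⟩
  rw [← hs]
  have hM : ∀ T, Real.sqrt (X T) ≤ Real.sqrt M := fun T => Real.sqrt_le_sqrt (h1 T)
  have h2 : 0 ≤ Ex d n (fun T => (X T + (-(2 * s)) * Real.sqrt (X T)) + s ^ 2) := by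
    refine Ex_nonneg hd fun T => ?_
    have h3 := Real.sq_sqrt (h0 T)
    nlinarith [sq_nonneg (Real.sqrt (X T) - s)]
  have hbX : ∀ T, |X T| ≤ M := fun T => by rw [abs_of_nonneg (h0 T)]; exact h1 T
  have hbS : ∀ T, |(-(2 * s)) * Real.sqrt (X T)| ≤ |(-(2 * s))| * Real.sqrt M := fun T => by
    rw [abs_mul, abs_of_nonneg (Real.sqrt_nonneg _)]
    exact mul_le_mul_of_nonneg_left (hM T) (abs_nonneg _)
  rw [Ex_add hd (M := M + |(-(2 * s))| * Real.sqrt M) (M' := s ^ 2)
      (fun T => (abs_add_le _ _).trans (add_le_add (hbX T) (hbS T)))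
      (fun T => by rw [abs_of_nonneg (sq_nonneg s)]),
    Ex_add hd hbX hbS, Ex_const_mul, Ex_const hd, ← hs] at h2
  exact Real.le_sqrt_of_sq_le (by linarith)

theorem abs_val_le' {p t lam : ℝ} (hp0 : 0 < p) (hp1 : p ≤ 1 / 2) (h0 : -(1 / 2) ≤ lam)
    (h1 : lam ≤ 1) (n : ℕ) (T : Tr n) : |val 3 lam n T (Fc p t)| ≤ 1 := by
  unfold val
  refine (Finset.abs_sum_le_sum_abs _ _).trans ?_
  rw [← val_mean lam n T]
  refine Finset.sum_le_sum fun s _ => ?_
  have hW := fun i => lik3_nonneg h0 h1 n T s i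
  exact (Fc_abs_le p t _ hW).trans (Fc0_le_mean p hp0 hp1 _ hW)

theorem gw_lim (p t : ℝ) (hp0 : 0 < p) (hp1 : p ≤ 1 / 2) (lam : ℝ) (h0 : -(1 / 2) ≤ lam)
    (h1 : lam ≤ 1) (D : ℝ) (hD : 0 ≤ D) :
    ∃ l, Tendsto (fun n => Ex D n (fun T => val 3 lam n T (fun W => Fc p t (chan 3 lam W))))
      atTop (𝓝 l) := by
  obtain ⟨C, hC, hG⟩ := Fc_concH p t hp0 hp1
  have hG1 := hG.chan lam h0 h1
  have hG0 := (Fc0_concH p hp0 hp1).chan lam h0 h1
  have hb0 : ∀ n (T : Tr n), |val 3 lam n T (fun W => Fc p 0 (chan 3 lam W))| ≤ 1 := fun n T =>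
    abs_val_le hp0 hp1 h0 h1 n T
  have hbt : ∀ n (T : Tr n), |val 3 lam n T (fun W => Fc p t (chan 3 lam W))| ≤ 1 := fun n T =>
    abs_val_le hp0 hp1 h0 h1 n T
  have hC0 : (0 : ℝ) ≤ C := by linarith
  have hbC : ∀ n (T : Tr n), |C * val 3 lam n T (fun W => Fc p 0 (chan 3 lam W))| ≤ C * 1 :=
    fun n T => by
      rw [abs_mul, abs_of_nonneg hC0]
      exact mul_le_mul_of_nonneg_left (hb0 n T) hC0
  have hlin : ∀ n, Ex D n (fun T => val 3 lam n T
      (fun W => Fc p t (chan 3 lam W) + C * Fc p 0 (chan 3 lam W)))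
      = Ex D n (fun T => val 3 lam n T (fun W => Fc p t (chan 3 lam W)))
        + C * Ex D n (fun T => val 3 lam n T (fun W => Fc p 0 (chan 3 lam W))) := fun n => by
    rw [← Ex_const_mul, ← Ex_add hD (hbt n) (hbC n)]
    congr 1
    funext T
    rw [val_add lam n T (fun W => Fc p t (chan 3 lam W))
      (fun W => C * Fc p 0 (chan 3 lam W)), val_cmul]
  have hle : ∀ n (F : Tr n → ℝ), (∀ T, |F T| ≤ 1) → Ex D n F ≤ 1 := fun n F hF => by
    have h2 := Ex_nonneg (F := fun T => 1 + (-1) * F T) hD (n := n)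
      (fun T => by have := (abs_le.1 (hF T)).2; linarith)
    rw [Ex_add hD (M := 1) (M' := 1) (fun T => by simp) (fun T => by simpa using hF T),
      Ex_const hD, Ex_const_mul] at h2
    linarith
  have hp0n : ∀ x : Fin 3 → ℝ, (∀ i, 0 ≤ x i) → 0 ≤ Fc p 0 (chan 3 lam x) := fun x hx =>
    (abs_nonneg _).trans (Fc_abs_le p 0 _ fun i => chan_nonneg' h0 h1 hx i)
  obtain ⟨l0, hl0⟩ := exists_lim_of_mono (M := 1)
    (fun n => gw_mono lam h0 h1 D hD n hG0 1 fun x hx =>
      ⟨hp0n x hx, by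
        have := (abs_le.1 (Fc_chan_le (t := 0) hp0 hp1 h0 h1 x hx)).2
        linarith⟩) (fun n => hle n _ (hb0 n))
  obtain ⟨l1, hl1⟩ := exists_lim_of_mono (M := 1 + C * 1)
    (fun n => gw_mono lam h0 h1 D hD n hG1 (1 + C) fun x hx => by
      have h2 := (abs_le.1 (Fc_chan_le (t := t) hp0 hp1 h0 h1 x hx)).2
      have h3 := (abs_le.1 (Fc_chan_le (t := 0) hp0 hp1 h0 h1 x hx)).2
      have h4 := (abs_le.1 (Fc_abs_le p t _ fun i => chan_nonneg' h0 h1 hx i)).1
      have h5 := hp0n x hx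
      constructor
      · show 0 ≤ Fc p t (chan 3 lam x) + C * Fc p 0 (chan 3 lam x)
        have h6 := mul_le_mul_of_nonneg_right hC h5
        linarith
      · show Fc p t (chan 3 lam x) + C * Fc p 0 (chan 3 lam x) ≤ (1 + C) * mean 3 x
        have h6 := mul_le_mul_of_nonneg_left h3 hC0
        linarith) (fun n => by
      have h2 := mul_le_mul_of_nonneg_left (hle n _ (hb0 n)) hC0
      have h3 := hle n _ (hbt n)
      have h4 := hlin n
      linarith)
  refine ⟨l1 - C * l0, (hl1.sub (hl0.const_mul C)).congr fun n => ?_⟩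
  have h4 := hlin n
  linarith

/-- Same as `limit_reg` with `b a n = D (1 - Ex D n (fun T => val 3 lam n T (Fc a ∘ chan)))` and
`1 - Ex D (n+1) (fun T => val 3 lam (n+1) T (Fc a)) = 1 - exp (- b a n)` (from `val_Fc_succ`; note
that `val n T (Fc a ∘ chan)` lies in `[-1,1]` and may be negative: the product formula for the
average over the tree needs a signed version of `Ex_prod`, with absolute summability). -/
theorem limit_gw {ι : Type} [Fintype ι] (p t : ι → ℝ) (hp : ∀ a, 0 < p a ∧ p a ≤ 1 / 2)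
    (lam : ℝ) (hl0 : -(1 / 2) ≤ lam) (hl1 : lam < 0) (D : ℝ) (hD : 0 < D) :
    Tendsto (aGW 3 lam D) atTop (𝓝 0) ∨ ∃ L : ι → ℝ, (∀ a, 0 < L a) ∧
      ∀ (α β : ι → ℝ) (m : ℝ), (∀ y : Fin 3 → ℝ, (∀ i, 0 ≤ y i) → ∑ i, y i = 3 →
        0 ≤ ∑ a, (α a * (1 - Fc (p a) (t a) y)
          + β a * (D * (1 - Fc (p a) (t a) (chan 3 lam y)))) + m) →
      0 ≤ ∑ a, (α a * (1 - Real.exp (-L a)) + β a * L a) + m := by
  have h1 : lam ≤ 1 := by linarith
  choose l hl using fun a : ι => gw_lim (p a) (t a) (hp a).1 (hp a).2 lam hl0 h1 D hD.le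
  have hbt : ∀ a n (T : Tr n), |val 3 lam n T (fun W => Fc (p a) (t a) (chan 3 lam W))| ≤ 1 :=
    fun a n T => abs_val_le (hp a).1 (hp a).2 hl0 h1 n T
  have hbt' : ∀ a n (T : Tr n), |val 3 lam n T (Fc (p a) (t a))| ≤ 1 :=
    fun a n T => abs_val_le' (hp a).1 (hp a).2 hl0 h1 n T
  have hsub : ∀ n (F : Tr n → ℝ), (∀ T, |F T| ≤ 1) →
      Ex D n (fun T => 1 - F T) = 1 - Ex D n F := fun n F hF => by
    have h2 : (fun T => 1 - F T) = fun T => 1 + (-1) * F T := by funext T; ring
    rw [h2, Ex_add hD.le (M := 1) (M' := 1) (fun T => by simp) (fun T => by simpa using hF T),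
      Ex_const hD.le, Ex_const_mul]
    ring
  by_cases hex : ∃ a, l a = 1
  · left
    obtain ⟨a, ha⟩ := hex
    obtain ⟨C, hC, htv⟩ := tv_le (p a) (t a) (hp a).1 (hp a).2 lam hl0 hl1
    have hX2 : ∀ n (T : Tr n), 1 - val 3 lam n T (fun W => Fc (p a) (t a) (chan 3 lam W)) ≤ 2 :=
      fun n T => by have := (abs_le.1 (hbt a n T)).1; linarith
    have h2 : Tendsto (fun n => C * Real.sqrt (Ex D n (fun T => 1 - val 3 lam n T
        (fun W => Fc (p a) (t a) (chan 3 lam W))))) atTop (𝓝 0) := by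
      have h3 := ((tendsto_const_nhds (x := (1 : ℝ)) (f := atTop)).sub (hl a)).sqrt.const_mul C
      rw [ha, sub_self, Real.sqrt_zero, mul_zero] at h3
      refine h3.congr fun n => ?_
      rw [hsub n _ (hbt a n)]
    refine squeeze_zero (fun n => ?_) (fun n => ?_) h2
    · exact tsum_nonneg fun T => mul_nonneg (gwProb_nonneg hD.le n T)
        (Subcrit.tvTree_nonneg' (potts3_nonneg hl0 h1) n T)
    · have h4 : aGW 3 lam D n ≤ Ex D n (fun T => C * Real.sqrt (1 - val 3 lam n T
          (fun W => Fc (p a) (t a) (chan 3 lam W)))) :=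
        Ex_mono hD.le (M := C * Real.sqrt 2)
          (fun T => Subcrit.tvTree_nonneg' (potts3_nonneg hl0 h1) n T)
          (fun T => (htv n T).2)
          (fun T => mul_le_mul_of_nonneg_left (Real.sqrt_le_sqrt (hX2 n T)) hC)
      rw [Ex_const_mul] at h4
      exact h4.trans (mul_le_mul_of_nonneg_left
        (Ex_sqrt_sq_le hD.le (fun T => (htv n T).1) (hX2 n)) hC)
  · right
    push Not at hex
    refine ⟨fun a => D * (1 - l a), fun a => ?_, ?_⟩
    · have h2 : l a ≤ 1 := le_of_tendsto' (hl a) fun n => by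
        have h3 := Ex_nonneg (F := fun T => 1 - val 3 lam n T
          (fun W => Fc (p a) (t a) (chan 3 lam W))) hD.le (n := n)
          (fun T => by have := (abs_le.1 (hbt a n T)).2; linarith)
        rw [hsub n _ (hbt a n)] at h3
        linarith
      have h3 : l a < 1 := lt_of_le_of_ne h2 (hex a)
      exact mul_pos hD (by linarith)
    · intro α β m h
      have key : ∀ n, 0 ≤ ∑ a, (α a * (1 - Real.exp (-(D * (1 - Ex D n (fun T => val 3 lam n T
            (fun W => Fc (p a) (t a) (chan 3 lam W)))))))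
          + β a * (D * (1 - Ex D (n + 1) (fun T => val 3 lam (n + 1) T
            (fun W => Fc (p a) (t a) (chan 3 lam W)))))) + m := by
        intro n
        have h2 := Ex_nonneg (d := D) hD.le (n := n + 1)
          (fun T => pw_val p t hp hl0 h1 D α β m h (n + 1) T)
        have b1 : ∀ a (T : Tr (n + 1)), |1 - val 3 lam (n + 1) T (Fc (p a) (t a))| ≤ 2 :=
          fun a T => by
            have := abs_le.1 (hbt' a (n + 1) T)
            rw [abs_le]; constructor <;> linarith [this.1, this.2]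
        have b2 : ∀ a (T : Tr (n + 1)), |1 - val 3 lam (n + 1) T
            (fun W => Fc (p a) (t a) (chan 3 lam W))| ≤ 2 :=
          fun a T => by
            have := abs_le.1 (hbt a (n + 1) T)
            rw [abs_le]; constructor <;> linarith [this.1, this.2]
        have b3 : ∀ a (T : Tr (n + 1)), |α a * (1 - val 3 lam (n + 1) T (Fc (p a) (t a)))|
            ≤ |α a| * 2 := fun a T => by
          rw [abs_mul]; exact mul_le_mul_of_nonneg_left (b1 a T) (abs_nonneg _)
        have b4 : ∀ a (T : Tr (n + 1)), |(β a * D) * (1 - val 3 lam (n + 1) T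
            (fun W => Fc (p a) (t a) (chan 3 lam W)))| ≤ |β a * D| * 2 := fun a T => by
          rw [abs_mul]; exact mul_le_mul_of_nonneg_left (b2 a T) (abs_nonneg _)
        have b5 : ∀ a (T : Tr (n + 1)), |α a * (1 - val 3 lam (n + 1) T (Fc (p a) (t a)))
            + (β a * D) * (1 - val 3 lam (n + 1) T
            (fun W => Fc (p a) (t a) (chan 3 lam W)))| ≤ |α a| * 2 + |β a * D| * 2 := fun a T =>
          (abs_add_le _ _).trans (add_le_add (b3 a T) (b4 a T))
        have e1 : ∀ T : Tr (n + 1), ∑ a, (α a * (1 - val 3 lam (n + 1) T (Fc (p a) (t a)))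
            + β a * (D * (1 - val 3 lam (n + 1) T
              (fun W => Fc (p a) (t a) (chan 3 lam W))))) + m
            = ∑ a, (α a * (1 - val 3 lam (n + 1) T (Fc (p a) (t a)))
            + (β a * D) * (1 - val 3 lam (n + 1) T
              (fun W => Fc (p a) (t a) (chan 3 lam W)))) + m := fun T => by
          congr 1
          refine Finset.sum_congr rfl fun a _ => ?_
          ring
        rw [funext e1, Ex_add hD.le (M := ∑ a, (|α a| * 2 + |β a * D| * 2)) (M' := |m|)
          (fun T => (Finset.abs_sum_le_sum_abs _ _).trans (Finset.sum_le_sum fun a _ => b5 a T))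
          (fun T => le_refl _), Ex_const hD.le, Ex_sum hD.le b5] at h2
        refine le_of_le_of_eq h2 ?_
        congr 1
        refine Finset.sum_congr rfl fun a _ => ?_
        rw [Ex_add hD.le (b3 a) (b4 a), Ex_const_mul, Ex_const_mul, hsub _ _ (hbt a (n + 1)),
          hsub _ _ (hbt' a (n + 1)), mul_assoc]
        congr 3
        have e2 : (fun T : Tr (n + 1) => val 3 lam (n + 1) T (Fc (p a) (t a)))
            = fun T => ∏ c, (fun T' => val 3 lam n T'
              (fun W => Fc (p a) (t a) (chan 3 lam W))) (T.2 c) := by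
          funext T
          exact val_Fc_succ (p a) (t a) (hp a).1 (hp a).2 lam hl0 h1 n T
        rw [e2, Ex_prod_signed hD.le (hbt a n)]
      have hlim : Tendsto (fun n => ∑ a, (α a * (1 - Real.exp (-(D * (1 - Ex D n
            (fun T => val 3 lam n T (fun W => Fc (p a) (t a) (chan 3 lam W)))))))
          + β a * (D * (1 - Ex D (n + 1) (fun T => val 3 lam (n + 1) T
            (fun W => Fc (p a) (t a) (chan 3 lam W)))))) + m) atTop
          (𝓝 (∑ a, (α a * (1 - Real.exp (-(D * (1 - l a)))) + β a * (D * (1 - l a))) + m)) := by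
        refine Tendsto.add_const m (tendsto_finsetSum _ fun a _ => ?_)
        refine Tendsto.add ?_ ?_
        · refine (Tendsto.const_sub 1 ?_).const_mul (α a)
          exact (Real.continuous_exp.tendsto _).comp (((hl a).const_sub 1).const_mul D).neg
        · exact ((((tendsto_add_atTop_iff_nat 1).mpr (hl a)).const_sub 1).const_mul _).const_mul _
      exact ge_of_tendsto' hlim key

end Vale.Agent.Lib.P154.Neg
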