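import Vale.Agent.Lib.P154.Neg.NDefs

/-! N-ORD. Degradation order. -/

namespace Vale.Agent.Lib.P154.Neg

open scoped BigOperators
open Filter Topology

namespace NOrdAux

/-- `A` is a degradation of `B` -/
def Deg {S S' : Type} [Fintype S] [Fintype S'] (A : S → Fin 3 → ℝ) (B : S' → Fin 3 → ℝ) : Prop :=
  ∀ G : (Fin 3 → ℝ) → ℝ, ConcH G → ∑ s, G (B s) ≤ ∑ s, G (A s)

theorem hzero {G : (Fin 3 → ℝ) → ℝ} (hG : ConcH G) : G (fun _ => 0) = 0 := by
  have h := hG.hom 0 (fun _ => 0) le_rfl (fun _ => le_rfl)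
  simpa using h

theorem hsum {G : (Fin 3 → ℝ) → ℝ} (hG : ConcH G) {ι : Type} (s : Finset ι)
    (x : ι → Fin 3 → ℝ) (hx : ∀ j i, 0 ≤ x j i) :
    ∑ j ∈ s, G (x j) ≤ G (fun i => ∑ j ∈ s, x j i) := by
  classical
  induction s using Finset.induction_on with
  | empty => simp [hzero hG]
  | insert a s ha ih =>
    rw [Finset.sum_insert ha]
    have h := hG.add (x a) (fun i => ∑ j ∈ s, x j i) (hx a)
      (fun i => Finset.sum_nonneg fun j _ => hx j i)
    have e : (fun i => ∑ j ∈ insert a s, x j i) = fun i => x a i + ∑ j ∈ s, x j i := by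
      funext i
      rw [Finset.sum_insert ha]
    rw [e]
    linarith

theorem mulLeft {G : (Fin 3 → ℝ) → ℝ} (hG : ConcH G) (c : Fin 3 → ℝ) (hc : ∀ i, 0 ≤ c i) :
    ConcH (fun x => G (fun i => c i * x i)) := by
  refine ⟨fun a x ha hx => ?_, fun x y hx hy => ?_⟩
  · have h := hG.hom a (fun i => c i * x i) ha (fun i => mul_nonneg (hc i) (hx i))
    rw [← h]
    congr 1
    funext i
    ring
  · have h := hG.add (fun i => c i * x i) (fun i => c i * y i)
      (fun i => mul_nonneg (hc i) (hx i)) (fun i => mul_nonneg (hc i) (hy i))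
    refine h.trans (le_of_eq ?_)
    congr 1
    funext i
    ring

theorem mulRight {G : (Fin 3 → ℝ) → ℝ} (hG : ConcH G) (c : Fin 3 → ℝ) (hc : ∀ i, 0 ≤ c i) :
    ConcH (fun x => G (fun i => x i * c i)) := by
  have h := mulLeft hG c hc
  have e : (fun x : Fin 3 → ℝ => G (fun i => x i * c i)) = fun x => G (fun i => c i * x i) := by
    funext x
    congr 1
    funext i
    ring
  rw [e]
  exact h

theorem pn {lam : ℝ} (h0 : -(1 / 2) ≤ lam) (h1 : lam ≤ 1) (i j : Fin 3) :
    0 ≤ potts 3 lam i j := by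
  refine Subcrit.potts_nonneg' (by norm_num) ?_ h1 i j
  norm_num at h0 ⊢
  linarith

theorem chan_nn {lam : ℝ} (h0 : -(1 / 2) ≤ lam) (h1 : lam ≤ 1) {W : Fin 3 → ℝ}
    (h : ∀ i, 0 ≤ W i) (i : Fin 3) : 0 ≤ chan 3 lam W i :=
  Finset.sum_nonneg fun j _ => mul_nonneg (pn h0 h1 i j) (h j)

theorem concH_chan {G : (Fin 3 → ℝ) → ℝ} (hG : ConcH G) {lam : ℝ} (h0 : -(1 / 2) ≤ lam)
    (h1 : lam ≤ 1) : ConcH (fun y => G (chan 3 lam y)) := by
  refine ⟨fun a x ha hx => ?_, fun x y hx hy => ?_⟩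
  · have h := hG.hom a (chan 3 lam x) ha (chan_nn h0 h1 hx)
    rw [← h]
    congr 1
    funext i
    unfold chan
    rw [Finset.mul_sum]
    refine Finset.sum_congr rfl fun j _ => ?_
    ring
  · have h := hG.add (chan 3 lam x) (chan 3 lam y) (chan_nn h0 h1 hx) (chan_nn h0 h1 hy)
    refine h.trans (le_of_eq ?_)
    congr 1
    funext i
    unfold chan
    rw [← Finset.sum_add_distrib]
    refine Finset.sum_congr rfl fun j _ => ?_
    ring

theorem Deg.refl {S : Type} [Fintype S] (A : S → Fin 3 → ℝ) : Deg A A := fun _ _ => le_rfl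

theorem Deg.trans {S S' S'' : Type} [Fintype S] [Fintype S'] [Fintype S'']
    {A : S → Fin 3 → ℝ} {B : S' → Fin 3 → ℝ} {C : S'' → Fin 3 → ℝ} (h : Deg A B) (h' : Deg B C) :
    Deg A C := fun G hG => (h' G hG).trans (h G hG)

theorem Deg.of_equiv {S S' : Type} [Fintype S] [Fintype S'] (e : S ≃ S')
    {A : S → Fin 3 → ℝ} {B : S' → Fin 3 → ℝ} (h : ∀ s, A s = B (e s)) : Deg A B := fun G _ =>
  le_of_eq (Fintype.sum_equiv e (fun s => G (A s)) (fun s => G (B s))
    (fun s => by rw [h])).symm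

theorem Deg.of_equiv' {S S' : Type} [Fintype S] [Fintype S'] (e : S ≃ S')
    {A : S → Fin 3 → ℝ} {B : S' → Fin 3 → ℝ} (h : ∀ s, A s = B (e s)) : Deg B A := fun G _ =>
  le_of_eq (Fintype.sum_equiv e (fun s => G (A s)) (fun s => G (B s))
    (fun s => by rw [h]))

theorem Deg.chan {S S' : Type} [Fintype S] [Fintype S'] {A : S → Fin 3 → ℝ}
    {B : S' → Fin 3 → ℝ} (h : Deg A B) {lam : ℝ} (h0 : -(1 / 2) ≤ lam) (h1 : lam ≤ 1) :
    Deg (fun s => chan 3 lam (A s)) (fun s => Vale.Agent.Lib.P154.chan 3 lam (B s)) :=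
  fun _ hG => h _ (concH_chan hG h0 h1)

theorem Deg.merge {S S' T T' : Type} [Fintype S] [Fintype S'] [Fintype T] [Fintype T']
    {A : S → Fin 3 → ℝ} {B : S' → Fin 3 → ℝ} {C : T → Fin 3 → ℝ} {D : T' → Fin 3 → ℝ}
    (h : Deg A B) (h' : Deg C D) (hA : ∀ s i, 0 ≤ A s i) (hD : ∀ s i, 0 ≤ D s i) :
    Deg (mergeL A C) (mergeL B D) := by
  intro G hG
  simp only [mergeL_eq]
  rw [Fintype.sum_prod_type, Fintype.sum_prod_type]
  have h1 : ∑ s, ∑ t', G (fun i => B s i * D t' i) ≤ ∑ s, ∑ t', G (fun i => A s i * D t' i) := by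
    rw [Finset.sum_comm]
    conv_rhs => rw [Finset.sum_comm]
    exact Finset.sum_le_sum fun t' _ => h _ (mulRight hG (D t') (hD t'))
  exact h1.trans (Finset.sum_le_sum fun s _ => h' _ (mulLeft hG (A s) (hA s)))

/-- an ensemble with total mass one in each coordinate -/
theorem Deg.drop {S T : Type} [Fintype S] [Fintype T] {A : S → Fin 3 → ℝ} {C : T → Fin 3 → ℝ}
    (hA : ∀ s i, 0 ≤ A s i) (hC : ∀ s i, 0 ≤ C s i) (h1 : ∀ i, ∑ t, C t i = 1) :
    Deg A (mergeL C A) := by
  intro G hG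
  simp only [mergeL_eq]
  rw [Fintype.sum_prod_type, Finset.sum_comm]
  refine Finset.sum_le_sum fun s _ => ?_
  refine (hsum hG Finset.univ (fun t i => C t i * A s i)
    (fun t i => mul_nonneg (hC t i) (hA s i))).trans (le_of_eq ?_)
  congr 1
  funext i
  rw [← Finset.sum_mul, h1, one_mul]

/-- products of finitely many ensembles -/
theorem deg_pi {S S' : Type} [Fintype S] [Fintype S'] {A : S → Fin 3 → ℝ} {B : S' → Fin 3 → ℝ}
    (h : Deg A B) (hA : ∀ s i, 0 ≤ A s i) (hB : ∀ s i, 0 ≤ B s i) : ∀ k : ℕ,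
    Deg (fun (s : Fin k → S) (i : Fin 3) => ∏ c, A (s c) i)
      (fun (s : Fin k → S') (i : Fin 3) => ∏ c, B (s c) i)
  | 0 => by
    intro G _
    simp
  | k + 1 => by
    have ih := deg_pi h hA hB k
    have hm := h.merge ih hA (fun s i => Finset.prod_nonneg fun c _ => hB (s c) i)
    have e1 : Deg (fun (s : Fin (k + 1) → S) (i : Fin 3) => ∏ c, A (s c) i)
        (mergeL A (fun (s : Fin k → S) (i : Fin 3) => ∏ c, A (s c) i)) := by
      refine Deg.of_equiv' (Fin.consEquiv (fun _ => S)) (fun p => ?_)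
      funext i
      rw [Fin.prod_univ_succ]
      rfl
    have e2 : Deg (mergeL B (fun (s : Fin k → S') (i : Fin 3) => ∏ c, B (s c) i))
        (fun (s : Fin (k + 1) → S') (i : Fin 3) => ∏ c, B (s c) i) := by
      refine Deg.of_equiv (Fin.consEquiv (fun _ => S')) (fun p => ?_)
      funext i
      rw [Fin.prod_univ_succ]
      rfl
    exact (e1.trans hm).trans e2

theorem deg_pi_succ {S : Type} [Fintype S] {A : S → Fin 3 → ℝ} (hA : ∀ s i, 0 ≤ A s i)
    (h1 : ∀ i, ∑ t, A t i = 1) (k : ℕ) :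
    Deg (fun (s : Fin k → S) (i : Fin 3) => ∏ c, A (s c) i)
      (fun (s : Fin (k + 1) → S) (i : Fin 3) => ∏ c, A (s c) i) := by
  have hd := Deg.drop (A := fun (s : Fin k → S) (i : Fin 3) => ∏ c, A (s c) i)
    (fun s i => Finset.prod_nonneg fun c _ => hA (s c) i) hA h1
  have e1 : Deg (mergeL A (fun (s : Fin k → S) (i : Fin 3) => ∏ c, A (s c) i))
      (fun (s : Fin (k + 1) → S) (i : Fin 3) => ∏ c, A (s c) i) := by
    refine Deg.of_equiv (Fin.consEquiv (fun _ => S)) (fun p => ?_)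
    funext i
    rw [Fin.prod_univ_succ]
    rfl
  exact hd.trans e1

theorem deg_pi_le {S : Type} [Fintype S] {A : S → Fin 3 → ℝ} (hA : ∀ s i, 0 ≤ A s i)
    (h1 : ∀ i, ∑ t, A t i = 1) {k k' : ℕ} (hk : k ≤ k') :
    Deg (fun (s : Fin k → S) (i : Fin 3) => ∏ c, A (s c) i)
      (fun (s : Fin k' → S) (i : Fin 3) => ∏ c, A (s c) i) := by
  induction k', hk using Nat.le_induction with
  | base => exact Deg.refl _
  | succ k' hk ih => exact ih.trans (deg_pi_succ hA h1 k')

/-! ### trees -/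

theorem lik_perm (lam : ℝ) (g : Equiv.Perm (Fin 3)) : ∀ (n : ℕ) (T : Tr n) (i : Fin 3)
    (s : Lvl n T → Fin 3), lik 3 lam n T (g i) (fun v => g (s v)) = lik 3 lam n T i s := by
  intro n
  induction n with
  | zero =>
    intro T i s
    show (if g (s ()) = g i then (1 : ℝ) else 0) = if s () = i then 1 else 0
    simp [g.injective.eq_iff]
  | succ n ih =>
    intro T i s
    unfold lik
    refine Finset.prod_congr rfl fun c _ => ?_
    rw [← Equiv.sum_comp g (fun j => potts 3 lam (g i) j *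
      lik 3 lam n (T.2 c) j (fun v => g (s ⟨c, v⟩)))]
    refine Finset.sum_congr rfl fun j _ => ?_
    rw [potts_perm, ih (T.2 c) j (fun v => s ⟨c, v⟩)]

theorem likL_symm (lam : ℝ) (n : ℕ) (T : Tr n) (G : (Fin 3 → ℝ) → ℝ) (g : Equiv.Perm (Fin 3)) :
    ∑ s, G (likL 3 lam n T s) = ∑ s, G (fun i => likL 3 lam n T s (g i)) := by
  refine Fintype.sum_equiv (Equiv.piCongrRight (fun _ => g)) _ _ fun s => ?_
  congr 1
  funext i
  exact (lik_perm lam g n T i s).symm

theorem likL_nn {lam : ℝ} (h0 : -(1 / 2) ≤ lam) (h1 : lam ≤ 1) (n : ℕ) (T : Tr n)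
    (s : Lvl n T → Fin 3) (i : Fin 3) : 0 ≤ likL 3 lam n T s i :=
  Subcrit.lik_nonneg (pn h0 h1) n T i s

theorem likL_one (lam : ℝ) (n : ℕ) (T : Tr n) (i : Fin 3) : ∑ s, likL 3 lam n T s i = 1 :=
  Subcrit.lik_sum (by norm_num) n T i

theorem chan_one (lam : ℝ) (n : ℕ) (T : Tr n) (i : Fin 3) :
    ∑ s, chan 3 lam (likL 3 lam n T s) i = 1 := by
  unfold chan
  rw [Finset.sum_comm]
  simp only [← Finset.mul_sum, likL_one, mul_one]
  exact potts_sum (by norm_num) i

/-- the product form of the likelihood vectors of a regular tree -/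
noncomputable def prodL (lam : ℝ) (d n k : ℕ)
    (s : Fin k → (Lvl n (regTree d n) → Fin 3)) : Fin 3 → ℝ :=
  fun i => ∏ c, chan 3 lam (likL 3 lam n (regTree d n) (s c)) i

theorem deg_succ (lam : ℝ) (d n : ℕ) :
    Deg (prodL lam d n d) (likL 3 lam (n + 1) (regTree d (n + 1))) :=
  Deg.of_equiv (spinEquiv 3 n (regTree d (n + 1))).symm
    (fun s => likL_prod n (regTree d (n + 1)) s)

theorem deg_succ' (lam : ℝ) (d n : ℕ) :
    Deg (likL 3 lam (n + 1) (regTree d (n + 1))) (prodL lam d n d) :=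
  Deg.of_equiv' (spinEquiv 3 n (regTree d (n + 1))).symm
    (fun s => likL_prod n (regTree d (n + 1)) s)

theorem lower {G : (Fin 3 → ℝ) → ℝ} (hG : ConcH G) (x : Fin 3 → ℝ) (hx : ∀ i, 0 ≤ x i) :
    ∑ j, x j * G (fun i => if j = i then 1 else 0) ≤ G x := by
  have h := hsum hG Finset.univ (fun j i => x j * (if j = i then 1 else 0))
    (fun j i => mul_nonneg (hx j) (by split_ifs <;> norm_num))
  have e : ∀ j : Fin 3, G (fun i => x j * (if j = i then (1 : ℝ) else 0))
      = x j * G (fun i => if j = i then 1 else 0) := fun j =>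
    hG.hom (x j) (fun i => if j = i then 1 else 0) (hx j) (fun i => by split_ifs <;> norm_num)
  simp only [e] at h
  refine h.trans (le_of_eq ?_)
  congr 1
  funext i
  simp

theorem deg_zero (lam lam' : ℝ) (h0 : -(1 / 2) ≤ lam) (h1 : lam ≤ 1) (n : ℕ) (T : Tr n)
    (T0 : Tr 0) : Deg (likL 3 lam n T) (likL 3 lam' 0 T0) := by
  intro G hG
  let e : Fin 3 ≃ (Lvl 0 T0 → Fin 3) :=
    { toFun := fun j _ => j
      invFun := fun s => s ()
      left_inv := fun _ => rfl
      right_inv := fun s => by funext u; cases u; rfl }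
  have e1 : ∑ s, G (likL 3 lam' 0 T0 s) = ∑ j : Fin 3, G (fun i => if j = i then 1 else 0) :=
    (Fintype.sum_equiv e _ _ fun j => rfl).symm
  rw [e1]
  have h2 : ∑ s, ∑ j, likL 3 lam n T s j * G (fun i => if j = i then 1 else 0)
      ≤ ∑ s, G (likL 3 lam n T s) :=
    Finset.sum_le_sum fun s _ => lower hG _ (likL_nn h0 h1 n T s)
  refine le_trans (le_of_eq ?_) h2
  rw [Finset.sum_comm]
  refine Finset.sum_congr rfl fun j _ => ?_
  rw [← Finset.sum_mul, likL_one, one_mul]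

theorem deg_n (lam : ℝ) (h0 : -(1 / 2) ≤ lam) (h1 : lam ≤ 1) (d : ℕ) : ∀ n : ℕ,
    Deg (likL 3 lam (n + 1) (regTree d (n + 1))) (likL 3 lam n (regTree d n))
  | 0 => deg_zero lam lam h0 h1 _ _ _
  | n + 1 => by
    have ih := (deg_n lam h0 h1 d n).chan h0 h1
    have h2 := deg_pi ih (fun s => chan_nn h0 h1 (likL_nn h0 h1 _ _ s))
      (fun s => chan_nn h0 h1 (likL_nn h0 h1 _ _ s)) d
    exact ((deg_succ' lam d (n + 1)).trans h2).trans (deg_succ lam d n)

theorem chan_comp (mu lam : ℝ) (W : Fin 3 → ℝ) :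
    chan 3 mu (chan 3 lam W) = chan 3 (mu * lam) W := by
  funext i
  unfold chan potts
  simp only [Fin.sum_univ_three]
  fin_cases i <;> simp <;> ring

theorem chan_conv (mu : ℝ) (W : Fin 3 → ℝ) :
    chan 3 mu W = fun i => mu * W i + ∑ k : Fin 3, (1 - mu) / 3 * W (i + k) := by
  funext i
  unfold chan potts
  simp only [Fin.sum_univ_three]
  fin_cases i <;> simp <;> ring

theorem deg_chan {S : Type} [Fintype S] {B : S → Fin 3 → ℝ} (hB : ∀ s i, 0 ≤ B s i)
    (hs : ∀ (G : (Fin 3 → ℝ) → ℝ) (g : Equiv.Perm (Fin 3)),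
      ∑ s, G (B s) = ∑ s, G (fun i => B s (g i))) {mu : ℝ} (h0 : 0 ≤ mu) (h1 : mu ≤ 1) :
    Deg (fun s => chan 3 mu (B s)) B := by
  intro G hG
  have h2 : ∀ s, mu * G (B s) + ∑ k : Fin 3, (1 - mu) / 3 * G (fun i => B s (i + k))
      ≤ G (chan 3 mu (B s)) := by
    intro s
    have hk : 0 ≤ (1 - mu) / 3 := by linarith
    have h3 := hG.add (fun i => mu * B s i) (fun i => ∑ k : Fin 3, (1 - mu) / 3 * B s (i + k))
      (fun i => mul_nonneg h0 (hB s i))
      (fun i => Finset.sum_nonneg fun k _ => mul_nonneg hk (hB s _))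
    have h4 := hsum hG Finset.univ (fun (k : Fin 3) i => (1 - mu) / 3 * B s (i + k))
      (fun k i => mul_nonneg hk (hB s _))
    rw [hG.hom mu (B s) h0 (hB s)] at h3
    have e : ∀ k : Fin 3, G (fun i => (1 - mu) / 3 * B s (i + k))
        = (1 - mu) / 3 * G (fun i => B s (i + k)) := fun k =>
      hG.hom ((1 - mu) / 3) (fun i => B s (i + k)) hk (fun i => hB s _)
    simp only [e] at h4
    rw [chan_conv]
    linarith
  have h3 := Finset.sum_le_sum fun s (_ : s ∈ Finset.univ) => h2 s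
  refine le_trans (le_of_eq ?_) h3
  rw [Finset.sum_add_distrib, Finset.sum_comm, ← Finset.mul_sum]
  simp only [← Finset.mul_sum]
  have h5 : ∀ k : Fin 3, ∑ s, G (fun i => B s (i + k)) = ∑ s, G (B s) := fun k =>
    (hs G (Equiv.addRight k)).symm
  simp only [h5]
  rw [Finset.sum_const, Finset.card_univ, Fintype.card_fin, nsmul_eq_mul]
  push_cast
  ring

theorem deg_lam {lam lam' : ℝ} (h0 : -(1 / 2) ≤ lam') (h1 : lam' ≤ lam) (h2 : lam ≤ 0)
    (n : ℕ) (T : Tr n) :
    Deg (fun s => chan 3 lam (likL 3 lam n T s)) (fun s => chan 3 lam' (likL 3 lam n T s)) := by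
  rcases eq_or_lt_of_le (h1.trans h2) with h3 | h3
  · have : lam = lam' := by linarith
    rw [← this]
    exact Deg.refl _
  · have hm0 : 0 ≤ lam / lam' := div_nonneg_of_nonpos h2 h3.le
    have hm1 : lam / lam' ≤ 1 := by
      rw [div_le_one_of_neg h3]
      exact h1
    have e : lam / lam' * lam' = lam := div_mul_cancel₀ _ h3.ne
    have hl0 : -(1 / 2) ≤ lam := h0.trans h1
    have hd := deg_chan (B := fun s => chan 3 lam' (likL 3 lam n T s))
      (fun s => chan_nn h0 (by linarith) (likL_nn hl0 (by linarith) n T s))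
      (fun G g => by
        have h4 := likL_symm lam n T (fun W => G (chan 3 lam' W)) g
        rw [h4]
        refine Finset.sum_congr rfl fun s _ => ?_
        rw [chan_perm]) hm0 hm1
    simp only [chan_comp, e] at hd
    exact hd

theorem deg_cmp {lam lam' : ℝ} (h0 : -(1 / 2) ≤ lam') (h1 : lam' ≤ lam) (h2 : lam ≤ 0)
    {d d' : ℕ} (hd : d ≤ d') : ∀ n : ℕ,
    Deg (likL 3 lam n (regTree d n)) (likL 3 lam' n (regTree d' n))
  | 0 => deg_zero lam lam' (h0.trans h1) (by linarith) _ _ _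
  | n + 1 => by
    have hl0 : -(1 / 2) ≤ lam := h0.trans h1
    have hl1 : lam ≤ 1 := by linarith
    have hl1' : lam' ≤ 1 := by linarith
    have ih := (deg_lam h0 h1 h2 n (regTree d n)).trans
      ((deg_cmp h0 h1 h2 hd n).chan h0 hl1')
    have h3 := deg_pi ih (fun s => chan_nn hl0 hl1 (likL_nn hl0 hl1 _ _ s))
      (fun s => chan_nn h0 hl1' (likL_nn h0 hl1' _ _ s)) d
    have h4 := deg_pi_le (A := fun s => chan 3 lam' (likL 3 lam' n (regTree d' n) s))
      (fun s => chan_nn h0 hl1' (likL_nn h0 hl1' _ _ s))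
      (fun i => chan_one lam' n (regTree d' n) i) hd
    exact (((deg_succ' lam d n).trans h3).trans h4).trans (deg_succ lam' d' n)

theorem concH_tv : ConcH (fun W => -∑ i, |W i - mean 3 W|) := by
  refine ⟨fun c x hc _ => ?_, fun x y _ _ => ?_⟩
  · have e : mean 3 (fun i => c * x i) = c * mean 3 x := by
      unfold mean
      rw [← Finset.mul_sum]
      ring
    show -∑ i, |c * x i - mean 3 (fun i => c * x i)| = c * -∑ i, |x i - mean 3 x|
    rw [e, mul_neg, Finset.mul_sum]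
    congr 1
    refine Finset.sum_congr rfl fun i _ => ?_
    rw [← mul_sub, abs_mul, abs_of_nonneg hc]
  · have e : mean 3 (fun i => x i + y i) = mean 3 x + mean 3 y := by
      unfold mean
      rw [Finset.sum_add_distrib]
      ring
    show -∑ i, |x i - mean 3 x| + -∑ i, |y i - mean 3 y|
      ≤ -∑ i, |x i + y i - mean 3 (fun i => x i + y i)|
    rw [e, ← neg_add, ← Finset.sum_add_distrib]
    refine neg_le_neg (Finset.sum_le_sum fun i _ => ?_)
    have : x i + y i - (mean 3 x + mean 3 y) = (x i - mean 3 x) + (y i - mean 3 y) := by ring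
    rw [this]
    exact abs_add_le _ _

end NOrdAux

open NOrdAux

/-- `regTree`: more levels, less information. Prove by induction on `n` for all `ConcH` functionals:
the order `∑ G (B) ≤ ∑ G (A)` (for every `ConcH G`) is kept by `chan` and by products with a third
ensemble (replace the factors one at a time); the base case `n = 0` is `G x ≥ ∑ x_i G (e_i)`. -/
theorem reg_mono (lam : ℝ) (h0 : -(1 / 2) ≤ lam) (h1 : lam ≤ 1) (d n : ℕ)
    {G : (Fin 3 → ℝ) → ℝ} (hG : ConcH G) :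
    val 3 lam n (regTree d n) G ≤ val 3 lam (n + 1) (regTree d (n + 1)) G :=
  deg_n lam h0 h1 d n G hG

/-- Fewer children and a weaker channel of the same sign: less information
(`chan lam = chan mu ∘ chan lam'`, `mu = lam / lam' ∈ [0,1]`, and `chan mu` is a convex combination
of colour permutations, under which the ensembles are symmetric). -/
theorem reg_compare {lam lam' : ℝ} (h0 : -(1 / 2) ≤ lam') (h1 : lam' ≤ lam) (h2 : lam ≤ 0)
    {d d' : ℕ} (hd : d ≤ d') (n : ℕ) {G : (Fin 3 → ℝ) → ℝ} (hG : ConcH G) :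
    val 3 lam' n (regTree d' n) G ≤ val 3 lam n (regTree d n) G :=
  deg_cmp h0 h1 h2 hd n G hG

/-- apply `reg_compare` to minus the total variation functional -/
theorem aReg_compare {lam lam' : ℝ} (h0 : -(1 / 2) ≤ lam') (h1 : lam' ≤ lam) (h2 : lam ≤ 0)
    {d d' : ℕ} (hd : d ≤ d') (n : ℕ) : aReg 3 lam d n ≤ aReg 3 lam' d' n := by
  have h := deg_cmp h0 h1 h2 hd n _ concH_tv
  rw [Finset.sum_neg_distrib, Finset.sum_neg_distrib, neg_le_neg_iff] at h
  unfold aReg
  rw [tvTree_eq' (by norm_num) n _ (likL_nn (h0.trans h1) (by linarith) n _),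
    tvTree_eq' (by norm_num) n _ (likL_nn h0 (by linarith) n _)]
  exact mul_le_mul_of_nonneg_left h (by norm_num)

end Vale.Agent.Lib.P154.Neg
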