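import Vale.Agent.Lib.P154.Neg.NLimAux
import Vale.Agent.Lib.P154.Neg.NOrd

/-! N-LIMREG. The limit law on regular trees. -/

namespace Vale.Agent.Lib.P154.Neg

open scoped BigOperators
open Filter Topology

theorem reg_lim (p t : ℝ) (hp0 : 0 < p) (hp1 : p ≤ 1 / 2) (lam : ℝ) (h0 : -(1 / 2) ≤ lam)
    (h1 : lam ≤ 1) (d : ℕ) :
    ∃ l, Tendsto (fun n => val 3 lam n (regTree d n) (fun W => Fc p t (chan 3 lam W)))
      atTop (𝓝 l) := by
  obtain ⟨C, hC, hG⟩ := Fc_concH p t hp0 hp1
  have hG1 := hG.chan lam h0 h1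
  have hG0 := (Fc0_concH p hp0 hp1).chan lam h0 h1
  have hb0 : ∀ n, val 3 lam n (regTree d n) (fun W => Fc p 0 (chan 3 lam W)) ≤ 1 := fun n =>
    (abs_le.1 (abs_val_le hp0 hp1 h0 h1 n (regTree d n))).2
  have hbt : ∀ n, val 3 lam n (regTree d n) (fun W => Fc p t (chan 3 lam W)) ≤ 1 := fun n =>
    (abs_le.1 (abs_val_le hp0 hp1 h0 h1 n (regTree d n))).2
  have hlin : ∀ n, val 3 lam n (regTree d n)
      (fun W => Fc p t (chan 3 lam W) + C * Fc p 0 (chan 3 lam W))
      = val 3 lam n (regTree d n) (fun W => Fc p t (chan 3 lam W))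
        + C * val 3 lam n (regTree d n) (fun W => Fc p 0 (chan 3 lam W)) := fun n => by
    rw [val_add lam n (regTree d n) (fun W => Fc p t (chan 3 lam W))
      (fun W => C * Fc p 0 (chan 3 lam W)), val_cmul]
  obtain ⟨l0, hl0⟩ := exists_lim_of_mono (M := 1)
    (fun n => reg_mono lam h0 h1 d n hG0) hb0
  obtain ⟨l1, hl1⟩ := exists_lim_of_mono (M := 1 + C * 1)
    (fun n => reg_mono lam h0 h1 d n hG1) (fun n => by
      have h2 := mul_le_mul_of_nonneg_left (hb0 n) (by linarith : (0:ℝ) ≤ C)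
      have h3 := hbt n
      have h4 := hlin n
      linarith)
  refine ⟨l1 - C * l0, (hl1.sub (hl0.const_mul C)).congr fun n => ?_⟩
  have h4 := hlin n
  linarith

theorem val_reg_succ (p t : ℝ) (hp0 : 0 < p) (hp1 : p ≤ 1 / 2) (lam : ℝ) (h0 : -(1 / 2) ≤ lam)
    (h1 : lam ≤ 1) (d n : ℕ) :
    val 3 lam (n + 1) (regTree d (n + 1)) (Fc p t)
      = (val 3 lam n (regTree d n) (fun W => Fc p t (chan 3 lam W))) ^ d := by
  rw [val_Fc_succ p t hp0 hp1 lam h0 h1 n]
  change ∏ _c : Fin d, val 3 lam n (regTree d n) (fun W => Fc p t (chan 3 lam W)) = _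
  rw [Finset.prod_const, Finset.card_univ, Fintype.card_fin]

/-- Regular trees: either nonreconstruction, or the functionals have a positive limit `L` which
satisfies every linear inequality valid pointwise on the simplex.
Proof: `b a n = d (1 - val n (Fc a ∘ chan))` on `regTree d n` converges: `val n (G ∘ chan)` is
monotone in `n` (`reg_mono`) and bounded for `G = Fc p t + C Fc p 0` and `G = Fc p 0`
(`Fc_concH`, `ConcH.chan`). If some limit is `0` then `tv_le` gives the first alternative.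
`1 - val (n+1) (Fc a) = 1 - (1 - b a n / d)^d` by `val_Fc_succ`. The ensembles consist of
unnormalised vectors `W` with `∑ mean W = 1` (`Ens.sum_mean`); by homogeneity (`Fc_hom`) the
inequality at `y = W / mean W` gives one for `W` (if `mean W = 0` then `W = 0`); sum it over the
ensemble `likL 3 lam (n+1) (regTree d (n+1))` and let `n → ∞`. -/
theorem limit_reg {ι : Type} [Fintype ι] (p t : ι → ℝ) (hp : ∀ a, 0 < p a ∧ p a ≤ 1 / 2)
    (lam : ℝ) (hl0 : -(1 / 2) ≤ lam) (hl1 : lam < 0) (d : ℕ) (hd : 0 < d) :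
    Tendsto (aReg 3 lam d) atTop (𝓝 0) ∨ ∃ L : ι → ℝ, (∀ a, 0 < L a) ∧
      ∀ (α β : ι → ℝ) (m : ℝ), (∀ y : Fin 3 → ℝ, (∀ i, 0 ≤ y i) → ∑ i, y i = 3 →
        0 ≤ ∑ a, (α a * (1 - Fc (p a) (t a) y)
          + β a * (d * (1 - Fc (p a) (t a) (chan 3 lam y)))) + m) →
      0 ≤ ∑ a, (α a * (1 - (1 - L a / d) ^ d) + β a * L a) + m := by
  have h1 : lam ≤ 1 := by linarith
  have hd' : (0 : ℝ) < d := by exact_mod_cast hd
  choose l hl using fun a : ι => reg_lim (p a) (t a) (hp a).1 (hp a).2 lam hl0 h1 d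
  by_cases hex : ∃ a, l a = 1
  · left
    obtain ⟨a, ha⟩ := hex
    obtain ⟨C, hC, htv⟩ := tv_le (p a) (t a) (hp a).1 (hp a).2 lam hl0 hl1
    have h2 : Tendsto (fun n => C * Real.sqrt (1 - val 3 lam n (regTree d n)
        (fun W => Fc (p a) (t a) (chan 3 lam W)))) atTop (𝓝 0) := by
      have h3 := ((tendsto_const_nhds (x := (1 : ℝ)) (f := atTop)).sub (hl a)).sqrt.const_mul C
      rw [ha, sub_self, Real.sqrt_zero, mul_zero] at h3
      exact h3
    refine squeeze_zero (fun n => ?_) (fun n => (htv n (regTree d n)).2) h2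
    exact Subcrit.tvTree_nonneg' (potts3_nonneg hl0 h1) n _
  · right
    push Not at hex
    refine ⟨fun a => d * (1 - l a), fun a => ?_, ?_⟩
    · have h2 : l a ≤ 1 := le_of_tendsto' (hl a) fun n =>
        (abs_le.1 (abs_val_le (hp a).1 (hp a).2 hl0 h1 n (regTree d n))).2
      have h3 : l a < 1 := lt_of_le_of_ne h2 (hex a)
      exact mul_pos hd' (by linarith)
    · intro α β m h
      have key : ∀ n, 0 ≤ ∑ a, (α a * (1 - (val 3 lam n (regTree d n)
            (fun W => Fc (p a) (t a) (chan 3 lam W))) ^ d)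
          + β a * (d * (1 - val 3 lam (n + 1) (regTree d (n + 1))
            (fun W => Fc (p a) (t a) (chan 3 lam W))))) + m := by
        intro n
        have h2 := pw_val p t hp hl0 h1 d α β m h (n + 1) (regTree d (n + 1))
        simp only [fun a => val_reg_succ (p a) (t a) (hp a).1 (hp a).2 lam hl0 h1 d n] at h2
        exact h2
      have hlim : Tendsto (fun n => ∑ a, (α a * (1 - (val 3 lam n (regTree d n)
            (fun W => Fc (p a) (t a) (chan 3 lam W))) ^ d)
          + β a * (d * (1 - val 3 lam (n + 1) (regTree d (n + 1))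
            (fun W => Fc (p a) (t a) (chan 3 lam W))))) + m) atTop
          (𝓝 (∑ a, (α a * (1 - (l a) ^ d) + β a * (d * (1 - l a))) + m)) := by
        refine Tendsto.add_const m (tendsto_finsetSum _ fun a _ => ?_)
        refine Tendsto.add ?_ ?_
        · exact (((hl a).pow d).const_sub 1).const_mul (α a)
        · exact ((((tendsto_add_atTop_iff_nat 1).mpr (hl a)).const_sub 1).const_mul _).const_mul _
      have h5 := ge_of_tendsto' hlim key
      refine le_of_le_of_eq h5 ?_
      congr 1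
      refine Finset.sum_congr rfl fun a _ => ?_
      congr 3
      rw [mul_div_cancel_left₀ _ hd'.ne']
      ring

end Vale.Agent.Lib.P154.Neg
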