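import Vale.Agent.Lib.P154.Neg.CkFacts
import Vale.Agent.Lib.P154.Neg.CkSmallB
import Vale.Agent.Lib.P154.Neg.CkScChk
import Vale.Agent.Lib.P154.Neg.CkScRng
import Vale.Agent.Lib.P154.Neg.CkPos
import Vale.Agent.Lib.P154.Neg.NLimReg
import Vale.Agent.Lib.P154.Neg.NLimGW
import Vale.Agent.Lib.P154.Neg.NOrd

/-! Assembly: from the certificate inequalities to nonreconstruction. -/

namespace Vale.Agent.Lib.P154.Neg.Ck

open scoped BigOperators
open Filter Topology

/-- what the kernel evaluations give -/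
structure Facts : Prop where
  g : ∀ n ∈ ndG, GoodC (1 / 2) n.ct
  five : ∀ n ∈ nd5, GoodC (229 / 512) n.ct
  small : ∀ B : ℝ, 0 ≤ B → B ≤ 19 / 1000 →
    GoodC (1 / 2) ⟨sbW, fun a => sbW a * (1 - sbc a * B), 1 - sbNu * B, 49 / 3200 * B ^ 2⟩
  four : ∀ n ∈ nd4, Good4 n.ct
  link : ∀ y : Fin 3 → ℝ, Sx y → (∀ i, y i ≤ 3 / 2) →
    88 / 100 * (1 - Fn (6, 8) y) ≤ 1 - Fn (6, 7) y ∧ -(1 / 3) ≤ Fn (6, 7) y

theorem chan_ev (lam : ℝ) {y : Fin 3 → ℝ} (hy : ∑ i, y i = 3) (i : Fin 3) :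
    chan 3 lam y i = 1 + lam * (y i - 1) := by
  unfold chan potts
  simp only [add_mul, Finset.sum_add_distrib, ite_mul, zero_mul, Finset.sum_ite_eq,
    Finset.mem_univ, if_true]
  rw [← Finset.mul_sum, hy]
  push_cast
  ring

theorem chan_Sx {lam : ℝ} (h0 : -(1 / 2) ≤ lam) (h1 : lam ≤ 0) {y : Fin 3 → ℝ} (hy : Sx y) :
    Sx (chan 3 lam y) := by
  have hs := hy.2
  refine ⟨fun i => ?_, ?_⟩
  · rw [chan_ev lam hs]
    have hi : y i ≤ 3 := by
      rw [← hs]; exact Finset.single_le_sum (fun j _ => hy.1 j) (Finset.mem_univ i)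
    nlinarith [hy.1 i]
  · simp only [chan_ev lam hs]
    rw [Fin.sum_univ_three] at hs ⊢
    linear_combination lam * hs

theorem chan_le {s lam : ℝ} (h0 : -s ≤ lam) (h1 : lam ≤ 0) {y : Fin 3 → ℝ} (hy : Sx y) (i : Fin 3) :
    chan 3 lam y i ≤ 1 + s := by
  rw [chan_ev lam hy.2]
  nlinarith [hy.1 i]

/-- index family: the reference functional and the five tangent functionals -/
def fam (o : Option (Fin 5)) : ℕ × ℕ := o.elim fR fT

theorem fam_p (o : Option (Fin 5)) : 0 < ((fam o).1 : ℝ) / 16 ∧ ((fam o).1 : ℝ) / 16 ≤ 1 / 2 := by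
  rcases o with _ | a
  · constructor <;> norm_num [fam, fR]
  · fin_cases a <;> constructor <;> norm_num [fam, fT]

theorem fam_mem (o : Option (Fin 5)) :
    fam o ∈ [(8, 0), (8, 4), (8, 8), (8, 16), (7, 8), (6, 8)] := by
  rcases o with _ | a
  · simp [fam, fR]
  · fin_cases a <;> simp [fam, fT]

/-- Galton-Watson trees -/
theorem gw_zero (F : Facts) (lam : ℝ) (h0 : -(1 / 2) ≤ lam) (h1 : lam < 0) (D : ℝ) (hD : 0 < D)
    (hDl : D * lam ^ 2 ≤ 1) : Tendsto (aGW 3 lam D) atTop (𝓝 0) := by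
  rcases limit_gw (fun o => ((fam o).1 : ℝ) / 16) (fun o => ((fam o).2 : ℝ) / 16) fam_p lam h0 h1
    D hD with h | ⟨L, hL, H⟩
  · exact h
  exfalso
  have key : ∀ c : Ct, GoodC (1 / 2) c → Kills 0 (L none) c → False := by
    intro c hc hk
    have h2 := H (fun o => o.elim (-1) c.W) (fun o => o.elim c.nu (fun a => -c.G a)) c.m0
      (fun y hy0 hy3 => by
        have h3 := hc lam D (by linarith) h1.le hD hDl y ⟨hy0, hy3⟩
        rw [Fintype.sum_option]
        refine le_of_le_of_eq h3 ?_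
        simp only [Option.elim, fam, Fn, Fin.sum_univ_five]
        ring)
    have h4 := hk (fun a => L (some a)) (fun a => (hL _).le) (Or.inl rfl)
    rw [Fintype.sum_option] at h2
    simp only [Option.elim, Fin.sum_univ_five] at h2
    simp only [Phi, fac1, Fin.sum_univ_five, if_true] at h4
    linarith
  rcases le_or_gt (L none) (19 / 1000) with hs | hs
  · exact key _ (F.small _ (hL none).le hs) (small_kills 0 (Or.inl rfl) _ (hL none) hs)
  · obtain ⟨c, hc, hk⟩ := sc_sound 0 0 ndG true tb_gw Bst sc_gw (by decide) rng_gw 0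
      (Or.inl ⟨rfl, rfl, rfl⟩) (L none)
      (le_trans (by norm_num [Bst]) hs.le) (by simp) (by simp) (by simp)
    exact key c (good_hull F.g hc) hk

theorem mem_ndR {n : Nd} (h : n ∈ ndR) : n ∈ ndG ∨ n ∈ nd5 := by
  unfold ndR at h
  unfold ndG
  rcases List.mem_append.1 h with h | h
  · exact Or.inl (List.mem_append_left _ (List.mem_of_mem_take h))
  · exact Or.inr h

theorem Facts.r (F : Facts) : ∀ n ∈ ndR, GoodC (229 / 512) n.ct := by
  intro n hn
  rcases mem_ndR hn with h | h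
  · exact (F.g n h).mono (by norm_num)
  · exact F.five n h

/-- the tables for `d ≥ 5` -/
theorem tab_reg (d : ℕ) (hd : 5 ≤ d) (B : ℝ) (hB0 : 19 / 1000 < B) (hB1 : B ≤ (d : ℝ) - 1) :
    ∃ c, Hull ndR c ∧ Kills d B c := by
  have hb : (Bst : ℝ) / 2 ^ 64 ≤ B := le_trans (by norm_num [Bst]) hB0.le
  have go : ∀ (d1 d2 : ℕ) (tb : List Pc), scOk d1 d2 ndR true tb Bst = true → tb ≠ [] →
      rngOk tb Bst = true →
      5 ≤ d1 → d1 ≤ d → (d2 = 0 ∨ d ≤ d2) → d2 ≤ 60 → d1 ≤ 60 →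
      (lastB tb Bst ≤ 4 * 2 ^ 64) → ∃ c, Hull ndR c ∧ Kills d B c := by
    intro d1 d2 tb h htb hr h5 h1 h2 h3 h4 hl
    refine sc_sound d1 d2 ndR true tb Bst h htb hr d (Or.inr ⟨by omega, h1, h2, h3, h4⟩) B hb
      (by simp) (fun _ => hB1) (fun _ => ?_)
    have e1 : (lastB tb Bst : ℝ) ≤ 4 * 2 ^ 64 := by exact_mod_cast hl
    have e2 : (5 : ℝ) ≤ d1 := by exact_mod_cast h5
    rw [div_le_iff₀ (by positivity)]
    nlinarith
  by_cases h51 : 51 ≤ d
  · exact go 51 0 tb_r51 sc_r51 (by decide) rng_r51 (by omega) h51 (Or.inl rfl) (by omega) (by omega)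
      (by decide)
  by_cases h33 : 33 ≤ d
  · exact go 33 50 tb_r33 sc_r33 (by decide) rng_r33 (by omega) h33 (Or.inr (by omega)) (by omega)
      (by omega) (by decide)
  by_cases h25 : 25 ≤ d
  · exact go 25 32 tb_r25 sc_r25 (by decide) rng_r25 (by omega) h25 (Or.inr (by omega)) (by omega)
      (by omega) (by decide)
  by_cases h20 : 20 ≤ d
  · exact go 20 24 tb_r20 sc_r20 (by decide) rng_r20 (by omega) h20 (Or.inr (by omega)) (by omega)
      (by omega) (by decide)
  have hd20 : d < 20 := by omega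
  interval_cases d
  · exact go 5 5 tb_r5 sc_r5 (by decide) rng_r5 (by omega) (by omega) (by omega) (by omega) (by omega)
      (by decide)
  · exact go 6 6 tb_r6 sc_r6 (by decide) rng_r6 (by omega) (by omega) (by omega) (by omega) (by omega)
      (by decide)
  · exact go 7 7 tb_r7 sc_r7 (by decide) rng_r7 (by omega) (by omega) (by omega) (by omega) (by omega)
      (by decide)
  · exact go 8 8 tb_r8 sc_r8 (by decide) rng_r8 (by omega) (by omega) (by omega) (by omega) (by omega)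
      (by decide)
  · exact go 9 9 tb_r9 sc_r9 (by decide) rng_r9 (by omega) (by omega) (by omega) (by omega) (by omega)
      (by decide)
  · exact go 10 10 tb_r10 sc_r10 (by decide) rng_r10 (by omega) (by omega) (by omega) (by omega) (by omega)
      (by decide)
  · exact go 11 11 tb_r11 sc_r11 (by decide) rng_r11 (by omega) (by omega) (by omega) (by omega) (by omega)
      (by decide)
  · exact go 12 12 tb_r12 sc_r12 (by decide) rng_r12 (by omega) (by omega) (by omega) (by omega) (by omega)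
      (by decide)
  · exact go 13 13 tb_r13 sc_r13 (by decide) rng_r13 (by omega) (by omega) (by omega) (by omega) (by omega)
      (by decide)
  · exact go 14 14 tb_r14 sc_r14 (by decide) rng_r14 (by omega) (by omega) (by omega) (by omega) (by omega)
      (by decide)
  · exact go 15 15 tb_r15 sc_r15 (by decide) rng_r15 (by omega) (by omega) (by omega) (by omega) (by omega)
      (by decide)
  · exact go 16 16 tb_r16 sc_r16 (by decide) rng_r16 (by omega) (by omega) (by omega) (by omega) (by omega)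
      (by decide)
  · exact go 17 17 tb_r17 sc_r17 (by decide) rng_r17 (by omega) (by omega) (by omega) (by omega) (by omega)
      (by decide)
  · exact go 18 18 tb_r18 sc_r18 (by decide) rng_r18 (by omega) (by omega) (by omega) (by omega) (by omega)
      (by decide)
  · exact go 19 19 tb_r19 sc_r19 (by decide) rng_r19 (by omega) (by omega) (by omega) (by omega) (by omega)
      (by decide)

theorem phi_reg (d : ℕ) (hd : 2 ≤ d) (L : ℝ) :
    Phi d (((d : ℝ) - 1) / d * L) = ((d : ℝ) - 1) / d * (1 - (1 - L / d) ^ d) := by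
  have h2 : (2 : ℝ) ≤ d := by exact_mod_cast hd
  have h3 : (d : ℝ) - 1 ≠ 0 := by linarith
  have h4 : (d : ℝ) ≠ 0 := by linarith
  unfold Phi
  rw [if_neg (by omega)]
  congr 4
  field_simp

/-- regular trees with at least five children -/
theorem reg_zero (F : Facts) (lam : ℝ) (h0 : -(1 / 2) ≤ lam) (h1 : lam < 0) (d : ℕ) (hd : 5 ≤ d)
    (hDl : (d : ℝ) * lam ^ 2 ≤ 1) : Tendsto (aReg 3 lam d) atTop (𝓝 0) := by
  have h5 : (5 : ℝ) ≤ d := by exact_mod_cast hd
  have hs : -(229 / 512) ≤ lam := by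
    by_contra hcon
    push Not at hcon
    nlinarith [sq_nonneg lam]
  have hd0 : (0 : ℝ) < d := by linarith
  rcases limit_reg (fun o => ((fam o).1 : ℝ) / 16) (fun o => ((fam o).2 : ℝ) / 16) fam_p lam h0 h1
    d (by omega) with h | ⟨L, hL, H⟩
  · exact h
  exfalso
  have hr : 0 < ((d : ℝ) - 1) / d := div_pos (by linarith) hd0
  have hdom : ∀ o, ((d : ℝ) - 1) / d * L o ≤ (d : ℝ) - 1 := by
    intro o
    have h2 := H (fun _ => 0) (fun o' => if o' = o then -1 else 0) d
      (fun y hy0 hy3 => by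
        have h3 := Fn_nonneg (fam o) (fam_mem o) (chan 3 lam y) (chan_Sx h0 h1.le ⟨hy0, hy3⟩)
          (chan_le hs h1.le ⟨hy0, hy3⟩)
        simp only [zero_mul, zero_add, ite_mul, Finset.sum_ite_eq', Finset.mem_univ, if_true]
        unfold Fn at h3
        nlinarith [mul_nonneg hd0.le h3])
    simp only [zero_mul, zero_add, ite_mul, Finset.sum_ite_eq', Finset.mem_univ, if_true] at h2
    rw [div_mul_eq_mul_div, div_le_iff₀ hd0]
    exact mul_le_mul_of_nonneg_left (by linarith) (by linarith)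
  have key : ∀ c : Ct, GoodC (229 / 512) c → Kills d (((d : ℝ) - 1) / d * L none) c → False := by
    intro c hc hk
    have h2 := H (fun o => o.elim (-1) c.W) (fun o => o.elim c.nu (fun a => -c.G a)) c.m0
      (fun y hy0 hy3 => by
        have h3 := hc lam d hs h1.le hd0 hDl y ⟨hy0, hy3⟩
        rw [Fintype.sum_option]
        refine le_of_le_of_eq h3 ?_
        simp only [Option.elim, fam, Fn, Fin.sum_univ_five]
        ring)
    have h4 := hk (fun a => ((d : ℝ) - 1) / d * L (some a))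
      (fun a => mul_nonneg hr.le (hL _).le) (Or.inr (Or.inr fun a => hdom _))
    rw [Fintype.sum_option] at h2
    simp only [phi_reg d (by omega)] at h4
    simp only [Option.elim, Fin.sum_univ_five] at h2
    simp only [fac1, if_neg (by omega : ¬ d = 0), Fin.sum_univ_five] at h4
    have h6 := mul_nonneg hr.le h2
    linarith
  have hB : 0 < ((d : ℝ) - 1) / d * L none := mul_pos hr (hL none)
  rcases le_or_gt (((d : ℝ) - 1) / d * L none) (19 / 1000) with hc | hc
  · exact key _ ((F.small _ hB.le hc).mono (by norm_num))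
      (small_kills d (Or.inr (by omega)) _ hB hc)
  · obtain ⟨c, h2, h3⟩ := tab_reg d hd _ hc (hdom none)
    exact key c (good_hull F.r h2) h3

/-- index family for four children -/
def fam4 : Fin 8 → ℕ × ℕ :=
  ![(8, 0), (8, 4), (8, 8), (8, 16), (7, 8), (6, 8), (8, 6), (6, 7)]

theorem fam4_p (o : Fin 8) : 0 < ((fam4 o).1 : ℝ) / 16 ∧ ((fam4 o).1 : ℝ) / 16 ≤ 1 / 2 := by
  fin_cases o <;> constructor <;> norm_num [fam4]

/-- the 4-ary tree at `lam = -1/2` -/
theorem four_zero (F : Facts) : Tendsto (aReg 3 (-(1 / 2)) 4) atTop (𝓝 0) := by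
  rcases limit_reg (fun o => ((fam4 o).1 : ℝ) / 16) (fun o => ((fam4 o).2 : ℝ) / 16) fam4_p
    (-(1 / 2)) (le_refl _) (by norm_num) 4 (by norm_num) with h | ⟨L, hL, H⟩
  · exact h
  exfalso
  have e4 : ((4 : ℕ) : ℝ) = 4 := by norm_num
  have hphi : ∀ x : ℝ, Phi 4 (3 / 4 * x) = 3 / 4 * (1 - (1 - x / 4) ^ 4) := by
    intro x
    have := phi_reg 4 (by norm_num) x
    rw [e4] at this
    norm_num at this ⊢
    exact this
  -- certificates relative to (6, 8)
  have key8 : ∀ c : Ct, GoodC (1 / 2) c → Kills 4 (3 / 4 * L 5) c → False := by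
    intro c hc hk
    have h2 := H ![c.W 0, c.W 1, c.W 2, c.W 3, c.W 4, -1, 0, 0]
      ![-c.G 0, -c.G 1, -c.G 2, -c.G 3, -c.G 4, c.nu, 0, 0] c.m0
      (fun y hy0 hy3 => by
        have h3 := hc (-(1 / 2)) 4 (le_refl _) (by norm_num) (by norm_num) (by norm_num) y
          ⟨hy0, hy3⟩
        refine le_of_le_of_eq h3 ?_
        simp [Fin.sum_univ_eight, Fin.sum_univ_five, fam4, fT, fR, Fn]
        ring)
    have h4 := hk ![3 / 4 * L 0, 3 / 4 * L 1, 3 / 4 * L 2, 3 / 4 * L 3, 3 / 4 * L 4]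
      (by
        intro a
        fin_cases a <;> simp <;> exact (hL _).le) (Or.inr (Or.inl (by decide)))
    simp [Fin.sum_univ_eight] at h2
    simp [fac1, Fin.sum_univ_five, hphi] at h4
    linarith
  -- certificates relative to (6, 7)
  have key7 : ∀ c : Ct, Good4 c → Kills 4 (3 / 4 * L 7) c → False := by
    intro c hc hk
    have h2 := H ![0, c.W 0, 0, c.W 2, c.W 4, c.W 3, c.W 1, -1]
      ![0, -c.G 0, 0, -c.G 2, -c.G 4, -c.G 3, -c.G 1, c.nu] c.m0
      (fun y hy0 hy3 => by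
        have h3 := hc y ⟨hy0, hy3⟩
        refine le_of_le_of_eq h3 ?_
        simp [Fin.sum_univ_eight, Fin.sum_univ_five, fam4, f4, Fn]
        ring)
    have h4 := hk ![3 / 4 * L 1, 3 / 4 * L 6, 3 / 4 * L 3, 3 / 4 * L 5, 3 / 4 * L 4]
      (by
        intro a
        fin_cases a <;> simp <;> exact (hL _).le) (Or.inr (Or.inl (by decide)))
    simp [Fin.sum_univ_eight] at h2
    simp [fac1, Fin.sum_univ_five, hphi] at h4
    linarith
  have hc2 : ∀ y : Fin 3 → ℝ, (∀ i, 0 ≤ y i) → ∑ i, y i = 3 →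
      88 / 100 * (1 - Fn (6, 8) (chan 3 (-(1 / 2)) y)) ≤ 1 - Fn (6, 7) (chan 3 (-(1 / 2)) y) ∧
      -(1 / 3) ≤ Fn (6, 7) (chan 3 (-(1 / 2)) y) := fun y hy0 hy3 =>
    F.link _ (chan_Sx (le_refl _) (by norm_num) ⟨hy0, hy3⟩)
      (fun i => (chan_le (s := 1 / 2) (le_refl _) (by norm_num) ⟨hy0, hy3⟩ i).trans (by norm_num))
  have hl1 : 88 / 100 * L 5 ≤ L 7 := by
    have h2 := H ![0, 0, 0, 0, 0, 0, 0, 0] ![0, 0, 0, 0, 0, -(88 / 100), 0, 1] 0
      (fun y hy0 hy3 => by
        have h3 := (hc2 y hy0 hy3).1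
        simp [Fin.sum_univ_eight, fam4, Fn] at h3 ⊢
        linarith)
    simp [Fin.sum_univ_eight] at h2
    linarith
  have hl2 : L 7 ≤ 16 / 3 := by
    have h2 := H ![0, 0, 0, 0, 0, 0, 0, 0] ![0, 0, 0, 0, 0, 0, 0, -1] (16 / 3)
      (fun y hy0 hy3 => by
        have h3 := (hc2 y hy0 hy3).2
        simp [Fin.sum_univ_eight, fam4, Fn] at h3 ⊢
        linarith)
    simp [Fin.sum_univ_eight] at h2
    linarith
  have h5 := hL 5
  have h7 := hL 7
  rcases le_or_gt (3 / 4 * L 5) (19 / 1000) with hs | hs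
  · exact key8 _ (F.small _ (by linarith) hs)
      (small_kills 4 (Or.inr (by norm_num)) _ (by linarith) hs)
  have hlast : (lastB tb_s4 Bst : ℝ) / 2 ^ 64 ≤ 3 ∧ 689 / 1000 ≤ (lastB tb_s4 Bst : ℝ) / 2 ^ 64 := by
    have e1 : lastB tb_s4 Bst ≤ 3 * 2 ^ 64 := by decide
    have e2 : 689 * 2 ^ 64 ≤ 1000 * lastB tb_s4 Bst := by decide
    have e1' : (lastB tb_s4 Bst : ℝ) ≤ 3 * 2 ^ 64 := by exact_mod_cast e1
    have e2' : (689 : ℝ) * 2 ^ 64 ≤ 1000 * lastB tb_s4 Bst := by exact_mod_cast e2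
    constructor
    · rw [div_le_iff₀ (by positivity)]
      exact e1'
    · rw [le_div_iff₀ (by positivity)]
      linarith
  rcases le_or_gt (3 / 4 * L 5) (689 / 1000) with hm | hm
  · obtain ⟨c, hc, hk⟩ := sc_sound 4 4 ndS false tb_s4 Bst sc_s4 (by decide) rng_s4 4
      (Or.inr ⟨by omega, by omega, by omega, by omega, by omega⟩) (3 / 4 * L 5)
      (le_trans (by norm_num [Bst]) hs.le) (fun _ => hm.trans hlast.2)
      (fun _ => by rw [e4]; linarith) (fun _ => by rw [e4]; linarith [hlast.1])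
    exact key8 c (good_hull (fun n hn => F.g n (List.mem_append_left _ hn)) hc) hk
  rcases le_or_gt (3 / 4 * L 7) 3 with hb | hb
  · have hlast2 : (lastB tb_d4 Bst4 : ℝ) / 2 ^ 64 ≤ 3 := by
      have e1 : lastB tb_d4 Bst4 ≤ 3 * 2 ^ 64 := by decide
      have e1' : (lastB tb_d4 Bst4 : ℝ) ≤ 3 * 2 ^ 64 := by exact_mod_cast e1
      rw [div_le_iff₀ (by positivity)]
      exact e1'
    obtain ⟨c, hc, hk⟩ := sc_sound 4 4 nd4 true tb_d4 Bst4 sc_d4 (by decide) rng_d4 4
      (Or.inr ⟨by omega, by omega, by omega, by omega, by omega⟩) (3 / 4 * L 7)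
      (le_trans (by norm_num [Bst4] : (Bst4 : ℝ) / 2 ^ 64 ≤ 6 / 10) (by linarith)) (by simp)
      (fun _ => by rw [e4]; linarith) (fun _ => by rw [e4]; linarith)
    exact key7 c (good4_hull F.four hc) hk
  · obtain ⟨c, hc, hk⟩ := tail4_sound nd4 pc_t4 sc_t4 (3 / 4 * L 7) hb.le (by linarith)
    exact key7 c (good4_hull F.four hc) hk

theorem aReg_nn (lam : ℝ) (h0 : -(1 / 2) ≤ lam) (h1 : lam ≤ 1) (d n : ℕ) :
    0 ≤ aReg 3 lam d n :=
  Subcrit.tvTree_nonneg' (potts3_nonneg h0 h1) n _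

/-- regular trees -/
theorem reg_all (F : Facts) (lam : ℝ) (h0 : -(1 / 2) ≤ lam) (h1 : lam < 0) (d : ℕ)
    (hDl : (d : ℝ) * lam ^ 2 ≤ 1) : Tendsto (aReg 3 lam d) atTop (𝓝 0) := by
  by_cases hd : 5 ≤ d
  · exact reg_zero F lam h0 h1 d hd hDl
  · exact squeeze_zero (fun n => aReg_nn lam h0 (by linarith) d n)
      (fun n => aReg_compare (le_refl _) h0 h1.le (by omega : d ≤ 4) n) (four_zero F)

end Vale.Agent.Lib.P154.Neg.Ck
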