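import Vale.Agent.Lib.P154.Neg.CkDefs
import Vale.Agent.Lib.P154.Neg.CkCell

/-! Soundness of the ball arithmetic. -/

namespace Vale.Agent.Lib.P154.Neg.Ck

/-- `x` lies in the ball -/
def Bl.Mem (x : ℝ) (b : Bl) : Prop := |x * 2 ^ 64 - ((b.p : ℝ) - (b.n : ℝ))| ≤ (b.e : ℝ)

/-- `x + i y` lies in the complex ball -/
def Cx.Mem (x y : ℝ) (c : Cx) : Prop := c.re.Mem x ∧ c.im.Mem y

theorem mem_zero : Bl.zero.Mem 0 := by
  unfold Bl.Mem Bl.zero
  norm_num

theorem mem_one : Bl.one.Mem 1 := by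
  unfold Bl.Mem Bl.one
  norm_num

theorem mem_add {x y : ℝ} {a b : Bl} (ha : a.Mem x) (hb : b.Mem y) : (Bl.add a b).Mem (x + y) := by
  obtain ⟨p, n, e⟩ := a
  obtain ⟨p', n', e'⟩ := b
  unfold Bl.Mem Bl.add at *
  dsimp only [Nat.add_eq] at *
  push_cast
  rw [abs_le] at *
  constructor <;> linarith [ha.1, ha.2, hb.1, hb.2]

theorem mem_sub {x y : ℝ} {a b : Bl} (ha : a.Mem x) (hb : b.Mem y) : (Bl.sub a b).Mem (x - y) := by
  obtain ⟨p, n, e⟩ := a
  obtain ⟨p', n', e'⟩ := b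
  unfold Bl.Mem Bl.sub at *
  dsimp only [Nat.add_eq] at *
  push_cast
  rw [abs_le] at *
  constructor <;> linarith [ha.1, ha.2, hb.1, hb.2]

theorem mem_neg {x : ℝ} {a : Bl} (ha : a.Mem x) : (Bl.neg a).Mem (-x) := by
  obtain ⟨p, n, e⟩ := a
  unfold Bl.Mem Bl.neg at *
  dsimp only at *
  rw [abs_le] at *
  constructor <;> linarith [ha.1, ha.2]

theorem mem_norm {x : ℝ} {a : Bl} (ha : a.Mem x) : (Bl.norm a).Mem x := by
  obtain ⟨p, n, e⟩ := a
  unfold Bl.Mem Bl.norm at *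
  dsimp only [Nat.sub_eq] at *
  have h : ((p - n : ℕ) : ℝ) - ((n - p : ℕ) : ℝ) = (p : ℝ) - n := by
    rcases le_total n p with h | h
    · rw [Nat.sub_eq_zero_of_le h, Nat.cast_sub h]
      simp
    · rw [Nat.sub_eq_zero_of_le h, Nat.cast_sub h]
      simp
  rw [h]
  exact ha

theorem shr_bounds (m : ℕ) : ((Nat.shiftRight m 64 : ℕ) : ℝ) ≤ (m : ℝ) / 2 ^ 64 ∧
    (m : ℝ) / 2 ^ 64 < ((Nat.shiftRight m 64 : ℕ) : ℝ) + 1 := by
  have h0 : Nat.shiftRight m 64 = m / 2 ^ 64 := Nat.shiftRight_eq_div_pow m 64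
  rw [h0]
  have hp : (0 : ℝ) < 2 ^ 64 := by positivity
  have hpn : 0 < 2 ^ 64 := by positivity
  constructor
  · rw [le_div_iff₀ hp]
    have := Nat.div_mul_le_self m (2 ^ 64)
    exact_mod_cast this
  · rw [div_lt_iff₀ hp]
    have : m < (m / 2 ^ 64 + 1) * 2 ^ 64 := Nat.lt_mul_of_div_lt (Nat.lt_succ_self _) hpn
    exact_mod_cast this

theorem mul_core {X Y A B a b U : ℝ} (hX : |X - A| ≤ a) (hY : |Y - B| ≤ b) {s t : ℝ}
    (hs : |A| ≤ s) (ht : |B| ≤ t) (hU : 0 < U) : |X * Y / U - A * B / U| ≤ ((s + a) * b + t * a) / U := by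
  have h1 : X * Y / U - A * B / U = (X * Y - A * B) / U := by ring
  rw [h1, abs_div, abs_of_pos hU]
  apply div_le_div_of_nonneg_right _ hU.le
  have h2 : X * Y - A * B = (X - A) * (Y - B) + A * (Y - B) + (X - A) * B := by ring
  rw [h2]
  have ha : 0 ≤ a := (abs_nonneg _).trans hX
  have hb : 0 ≤ b := (abs_nonneg _).trans hY
  have h3 : |(X - A) * (Y - B)| ≤ a * b := by
    rw [abs_mul]; exact mul_le_mul hX hY (abs_nonneg _) ha
  have h4 : |A * (Y - B)| ≤ s * b := by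
    rw [abs_mul]; exact mul_le_mul hs hY (abs_nonneg _) ((abs_nonneg _).trans hs)
  have h5 : |(X - A) * B| ≤ a * t := by
    rw [abs_mul]; exact mul_le_mul hX ht (abs_nonneg _) ha
  calc |(X - A) * (Y - B) + A * (Y - B) + (X - A) * B|
      ≤ |(X - A) * (Y - B)| + |A * (Y - B)| + |(X - A) * B| := abs_add_three _ _ _
    _ ≤ a * b + s * b + a * t := by linarith
    _ = (s + a) * b + t * a := by ring

theorem mem_mul {x y : ℝ} {a b : Bl} (ha : a.Mem x) (hb : b.Mem y) : (Bl.mul a b).Mem (x * y) := by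
  obtain ⟨p, n, e⟩ := a
  obtain ⟨p', n', e'⟩ := b
  unfold Bl.Mem Bl.mul at *
  dsimp only [Nat.add_eq, Nat.mul_eq] at *
  obtain ⟨P1, P2⟩ := shr_bounds (p * p' + n * n')
  obtain ⟨N1, N2⟩ := shr_bounds (p * n' + n * p')
  obtain ⟨E1, E2⟩ := shr_bounds ((p + n + e) * e' + (p' + n') * e)
  push_cast at P1 P2 N1 N2 E1 E2 ⊢
  have hU : (0 : ℝ) < 2 ^ 64 := by positivity
  have hA : |((p : ℝ) - n)| ≤ (p : ℝ) + n := by
    rw [abs_le]; constructor <;> linarith [(Nat.cast_nonneg p : (0 : ℝ) ≤ p), (Nat.cast_nonneg n : (0 : ℝ) ≤ n)]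
  have hB : |((p' : ℝ) - n')| ≤ (p' : ℝ) + n' := by
    rw [abs_le]; constructor <;> linarith [(Nat.cast_nonneg p' : (0 : ℝ) ≤ p'), (Nat.cast_nonneg n' : (0 : ℝ) ≤ n')]
  have h := mul_core ha hb hA hB hU
  have e1 : x * 2 ^ 64 * (y * 2 ^ 64) / 2 ^ 64 = x * y * 2 ^ 64 := by
    field_simp
  rw [e1] at h
  have e2 : ((p : ℝ) - n) * (p' - n') / 2 ^ 64 = (p * p' + n * n') / 2 ^ 64
      - (p * n' + n * p') / 2 ^ 64 := by ring
  rw [e2] at h
  rw [abs_le] at h ⊢
  constructor <;> linarith [h.1, h.2]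

theorem mem_smul {x : ℝ} {a : Bl} (k : ℕ) (ha : a.Mem x) : (Bl.smul k a).Mem (k * x) := by
  obtain ⟨p, n, e⟩ := a
  unfold Bl.Mem Bl.smul at *
  dsimp only [Nat.mul_eq] at *
  push_cast
  have h : (k : ℝ) * x * 2 ^ 64 - (k * p - k * n) = k * (x * 2 ^ 64 - (p - n)) := by ring
  rw [h, abs_mul, abs_of_nonneg (Nat.cast_nonneg k)]
  exact mul_le_mul_of_nonneg_left ha (Nat.cast_nonneg k)

theorem div_bounds (m k : ℕ) (hk : 0 < k) : ((m / k : ℕ) : ℝ) ≤ (m : ℝ) / k ∧
    (m : ℝ) / k < ((m / k : ℕ) : ℝ) + 1 := by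
  have hp : (0 : ℝ) < k := by exact_mod_cast hk
  constructor
  · rw [le_div_iff₀ hp]
    have := Nat.div_mul_le_self m k
    exact_mod_cast this
  · rw [div_lt_iff₀ hp]
    have : m < (m / k + 1) * k := Nat.lt_mul_of_div_lt (Nat.lt_succ_self _) hk
    exact_mod_cast this

theorem mem_sdiv {x : ℝ} {a : Bl} (k : ℕ) (hk : 0 < k) (ha : a.Mem x) :
    (Bl.sdiv k a).Mem (x / k) := by
  obtain ⟨p, n, e⟩ := a
  unfold Bl.Mem Bl.sdiv at *
  dsimp only at *
  have h1 : Nat.div p k = p / k := rfl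
  have h2 : Nat.div n k = n / k := rfl
  have h3 : Nat.add (Nat.div e k) 2 = e / k + 2 := rfl
  rw [h1, h2, h3]
  obtain ⟨P1, P2⟩ := div_bounds p k hk
  obtain ⟨N1, N2⟩ := div_bounds n k hk
  obtain ⟨E1, E2⟩ := div_bounds e k hk
  have hp : (0 : ℝ) < k := by exact_mod_cast hk
  push_cast
  have h4 : |x / k * 2 ^ 64 - ((p : ℝ) / k - n / k)| ≤ (e : ℝ) / k := by
    have : x / k * 2 ^ 64 - ((p : ℝ) / k - n / k) = (x * 2 ^ 64 - (p - n)) / k := by ring
    rw [this, abs_div, abs_of_pos hp]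
    exact div_le_div_of_nonneg_right ha hp.le
  rw [abs_le] at h4 ⊢
  constructor <;> linarith [h4.1, h4.2]

theorem mem_infl {x y : ℝ} {a : Bl} {d : ℕ} (ha : a.Mem x) (h : |y - x| * 2 ^ 64 ≤ d) :
    (Bl.infl a d).Mem y := by
  obtain ⟨p, n, e⟩ := a
  unfold Bl.Mem Bl.infl at *
  dsimp only [Nat.add_eq] at *
  push_cast
  have h1 : y * 2 ^ 64 - ((p : ℝ) - n) = (y - x) * 2 ^ 64 + (x * 2 ^ 64 - (p - n)) := by ring
  rw [h1]
  refine (abs_add_le _ _).trans ?_
  rw [abs_mul, abs_of_pos (by positivity : (0 : ℝ) < 2 ^ 64)]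
  linarith

theorem mem_ab {x : ℝ} {a : Bl} (ha : a.Mem x) : |x| * 2 ^ 64 ≤ (a.ab : ℝ) := by
  obtain ⟨p, n, e⟩ := a
  unfold Bl.Mem Bl.ab at *
  dsimp only [Nat.add_eq] at *
  push_cast
  have h1 : |x| * 2 ^ 64 = |x * 2 ^ 64| := by
    rw [abs_mul, abs_of_pos (by positivity : (0 : ℝ) < 2 ^ 64)]
  rw [h1]
  have hp : (0 : ℝ) ≤ p := Nat.cast_nonneg p
  have hn : (0 : ℝ) ≤ n := Nat.cast_nonneg n
  rw [abs_le] at ha ⊢
  constructor <;> linarith [ha.1, ha.2]

theorem mem_sq {x : ℝ} {a : Bl} (ha : a.Mem x) : (Bl.sq a).Mem (x * x) := mem_mul ha ha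

theorem mem_pw {x : ℝ} {a : Bl} (ha : a.Mem x) (f : ℕ) : ∀ T : ℕ, 1 ≤ T → T < 2 ^ (f + 1) →
    (a.pw f T).Mem (x ^ T) := by
  induction f with
  | zero =>
    intro T h1 h2
    have : T = 1 := by omega
    subst this
    rw [pow_one]
    exact ha
  | succ f ih =>
    intro T h1 h2
    unfold Bl.pw
    rcases hb : Nat.ble T 1 with _ | _
    · simp only [cond_false]
      have hT : 2 ≤ T := by
        by_contra h
        have : T ≤ 1 := by omega
        rw [Nat.ble_eq.mpr this] at hb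
        simp at hb
      have e1 : Nat.div T 2 = T / 2 := rfl
      have e2 : Nat.mod T 2 = T % 2 := rfl
      have h3 := ih (T / 2) (by omega) (by rw [pow_succ] at h2; omega)
      have h4 := mem_sq h3
      rw [← pow_add] at h4
      rcases hm : Nat.beq (Nat.mod T 2) 1 with _ | _
      · simp only [cond_false]
        have : T % 2 ≠ 1 := by
          intro h
          rw [← e2] at h
          rw [h] at hm
          simp at hm
        have h5 : T / 2 + T / 2 = T := by omega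
        rw [h5] at h4
        exact h4
      · simp only [cond_true]
        have : T % 2 = 1 := by
          rw [← e2]
          exact Nat.eq_of_beq_eq_true hm
        have h5 : T = 1 + (T / 2 + T / 2) := by omega
        have h6 := mem_mul ha h4
        have h7 : x * x ^ (T / 2 + T / 2) = x ^ T := by
          conv_rhs => rw [h5, pow_add, pow_one]
        rw [h7] at h6
        exact h6
    · simp only [cond_true]
      have : T = 1 := by
        have := Nat.ble_eq.mp hb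
        omega
      subst this
      rw [pow_one]
      exact ha

theorem mem_pow {x : ℝ} {a : Bl} (T : ℕ) (hT : T ≤ 31) (ha : a.Mem x) :
    (a.pow T).Mem (x ^ T) := by
  unfold Bl.pow
  rcases h0 : Nat.beq T 0 with _ | _
  · simp only [cond_false]
    have : T ≠ 0 := by
      intro h
      rw [h] at h0
      simp at h0
    exact mem_pw ha 5 T (by omega) (by omega)
  · simp only [cond_true]
    rw [Nat.eq_of_beq_eq_true h0, pow_zero]
    exact mem_one

theorem cmem_mul {x y u v : ℝ} {a b : Cx} (ha : a.Mem x y) (hb : b.Mem u v) :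
    (Cx.mul a b).Mem (x * u - y * v) (x * v + y * u) :=
  ⟨mem_norm (mem_sub (mem_mul ha.1 hb.1) (mem_mul ha.2 hb.2)),
    mem_norm (mem_add (mem_mul ha.1 hb.2) (mem_mul ha.2 hb.1))⟩

theorem cmem_conj {x y : ℝ} {a : Cx} (ha : a.Mem x y) : a.conj.Mem x (-y) :=
  ⟨ha.1, mem_neg ha.2⟩

theorem cmem_sq {x y : ℝ} {a : Cx} (ha : a.Mem x y) :
    (Cx.sq a).Mem (x * x - y * y) (2 * (x * y)) := by
  refine ⟨mem_norm (mem_sub (mem_mul ha.1 ha.1) (mem_mul ha.2 ha.2)), ?_⟩
  have := mem_smul 2 (mem_mul ha.1 ha.2)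
  exact_mod_cast this

theorem cmem_one : Cx.one.Mem 1 0 := ⟨mem_one, mem_zero⟩

theorem cmem_pw {th : ℝ} {a : Cx} (ha : a.Mem (Real.cos th) (Real.sin th)) (f : ℕ) :
    ∀ T : ℕ, 1 ≤ T → T < 2 ^ (f + 1) →
    (a.pw f T).Mem (Real.cos (T * th)) (Real.sin (T * th)) := by
  induction f with
  | zero =>
    intro T h1 h2
    have : T = 1 := by omega
    subst this
    simp only [Nat.cast_one, one_mul]
    exact ha
  | succ f ih =>
    intro T h1 h2
    unfold Cx.pw
    rcases hb : Nat.ble T 1 with _ | _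
    · simp only [cond_false]
      have hT : 2 ≤ T := by
        by_contra h
        have : T ≤ 1 := by omega
        rw [Nat.ble_eq.mpr this] at hb
        simp at hb
      have e1 : Nat.div T 2 = T / 2 := rfl
      have e2 : Nat.mod T 2 = T % 2 := rfl
      have h3 := ih (T / 2) (by omega) (by rw [pow_succ] at h2; omega)
      have h4 := cmem_sq h3
      have hc : Real.cos (((T / 2 : ℕ) : ℝ) * th) * Real.cos (((T / 2 : ℕ) : ℝ) * th)
          - Real.sin (((T / 2 : ℕ) : ℝ) * th) * Real.sin (((T / 2 : ℕ) : ℝ) * th)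
          = Real.cos (((T / 2 : ℕ) : ℝ) * th + ((T / 2 : ℕ) : ℝ) * th) := (Real.cos_add _ _).symm
      have hs : 2 * (Real.cos (((T / 2 : ℕ) : ℝ) * th) * Real.sin (((T / 2 : ℕ) : ℝ) * th))
          = Real.sin (((T / 2 : ℕ) : ℝ) * th + ((T / 2 : ℕ) : ℝ) * th) := by
        rw [Real.sin_add]; ring
      rw [hc, hs] at h4
      rcases hm : Nat.beq (Nat.mod T 2) 1 with _ | _
      · simp only [cond_false]
        have : T % 2 ≠ 1 := by
          intro h
          rw [← e2] at h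
          rw [h] at hm
          simp at hm
        have h5 : (T : ℝ) * th = ((T / 2 : ℕ) : ℝ) * th + ((T / 2 : ℕ) : ℝ) * th := by
          have : ((T : ℕ) : ℝ) = ((T / 2 : ℕ) : ℝ) + ((T / 2 : ℕ) : ℝ) := by
            have : T = T / 2 + T / 2 := by omega
            exact_mod_cast this
          rw [this]; ring
        rw [h5]
        exact h4
      · simp only [cond_true]
        have : T % 2 = 1 := by
          rw [← e2]
          exact Nat.eq_of_beq_eq_true hm
        have h5 : (T : ℝ) * th = th + (((T / 2 : ℕ) : ℝ) * th + ((T / 2 : ℕ) : ℝ) * th) := by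
          have : ((T : ℕ) : ℝ) = 1 + (((T / 2 : ℕ) : ℝ) + ((T / 2 : ℕ) : ℝ)) := by
            have : T = 1 + (T / 2 + T / 2) := by omega
            exact_mod_cast this
          rw [this]; ring
        have h6 := cmem_mul ha h4
        rw [h5]
        generalize ((T / 2 : ℕ) : ℝ) * th + ((T / 2 : ℕ) : ℝ) * th = S at h6 ⊢
        have s1 : Real.cos th * Real.sin S + Real.sin th * Real.cos S = Real.sin (th + S) := by
          rw [Real.sin_add th S]; ring
        rw [← Real.cos_add th S, s1] at h6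
        exact h6
    · simp only [cond_true]
      have : T = 1 := by
        have := Nat.ble_eq.mp hb
        omega
      subst this
      simp only [Nat.cast_one, one_mul]
      exact ha

/-- powers of a rotation -/
theorem cmem_pow {th : ℝ} {a : Cx} (T : ℕ) (hT : T ≤ 31)
    (ha : a.Mem (Real.cos th) (Real.sin th)) :
    (a.pow T).Mem (Real.cos (T * th)) (Real.sin (T * th)) := by
  unfold Cx.pow
  rcases h0 : Nat.beq T 0 with _ | _
  · simp only [cond_false]
    have : T ≠ 0 := by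
      intro h
      rw [h] at h0
      simp at h0
    exact cmem_pw ha 5 T (by omega) (by omega)
  · simp only [cond_true]
    rw [Nat.eq_of_beq_eq_true h0]
    simp only [Nat.cast_zero, zero_mul, Real.cos_zero, Real.sin_zero]
    exact cmem_one

end Vale.Agent.Lib.P154.Neg.Ck
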