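import Vale.Agent.Lib.P154.Neg.CkBall

/-! Soundness of the series for `exp`, `cos`, `sin` in ball arithmetic. -/

namespace Vale.Agent.Lib.P154.Neg.Ck

/-- the ball is contained in `[-1/4, 1/4]` when `small` -/
theorem small_le {x : ℝ} {a : Bl} (ha : a.Mem x) (hs : a.small = true) : |x| ≤ 1 / 4 := by
  have h1 : a.p + a.n + a.e ≤ 4611686018427387904 := Nat.le_of_ble_eq_true hs
  have h2 : (a.p : ℝ) + a.n + a.e ≤ 4611686018427387904 := by exact_mod_cast h1
  have ha' : |x * 2 ^ 64 - ((a.p : ℝ) - (a.n : ℝ))| ≤ (a.e : ℝ) := ha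
  have hp : (0 : ℝ) ≤ a.p := Nat.cast_nonneg _
  have hn : (0 : ℝ) ≤ a.n := Nat.cast_nonneg _
  rw [abs_le] at ha' ⊢
  obtain ⟨h3, h4⟩ := ha'
  norm_num at h3 h4
  constructor <;> linarith

/-- real Horner form of the exponential series -/
noncomputable def expR (x : ℝ) : ℕ → ℕ → ℝ
  | 0, _ => 1
  | n + 1, k => 1 + x * expR x n (k + 1) / (k : ℝ)

/-- real Horner form of the alternating series -/
noncomputable def trR (u : ℝ) : ℕ → ℕ → ℝ
  | 0, _ => 1
  | n + 1, k => 1 - u * trR u n (k + 2) / ((k * (k + 1) : ℕ) : ℝ)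

theorem mem_expH {x : ℝ} {a : Bl} (ha : a.Mem x) :
    ∀ n k : ℕ, 0 < k → (Bl.expH a n k).Mem (expR x n k) := by
  intro n
  induction n with
  | zero => intro k _; exact mem_one
  | succ n ih =>
    intro k hk
    exact mem_norm (mem_add mem_one (mem_sdiv k hk (mem_mul ha (ih (k + 1) (Nat.succ_pos k)))))

theorem mem_trH {u : ℝ} {a : Bl} (ha : a.Mem u) :
    ∀ n k : ℕ, 0 < k → (Bl.trH a n k).Mem (trR u n k) := by
  intro n
  induction n with
  | zero => intro k _; exact mem_one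
  | succ n ih =>
    intro k hk
    exact mem_norm (mem_sub mem_one (mem_sdiv (k * (k + 1)) (by positivity)
      (mem_mul ha (ih (k + 2) (by positivity)))))

theorem expR_eq (x : ℝ) : expR x 14 1 = ∑ m ∈ Finset.range 15, x ^ m / (m.factorial : ℝ) := by
  simp only [expR, Finset.sum_range_succ, Finset.sum_range_zero, Nat.factorial]
  push_cast
  ring

theorem exp_rem {x : ℝ} (hx : |x| ≤ 1 / 4) : |Real.exp x - expR x 14 1| * 2 ^ 64 ≤ (2 : ℝ) := by
  rw [expR_eq]
  have h := Real.exp_bound (x := x) (by linarith) (n := 15) (by norm_num)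
  have h2 : |x| ^ 15 ≤ (1 / 4 : ℝ) ^ 15 := pow_le_pow_left₀ (abs_nonneg x) hx 15
  have h3 : |Real.exp x - ∑ m ∈ Finset.range 15, x ^ m / (m.factorial : ℝ)| ≤
      (1 / 4 : ℝ) ^ 15 * ((Nat.succ 15 : ℕ) / ((Nat.factorial 15 : ℕ) * (15 : ℕ))) :=
    h.trans (mul_le_mul_of_nonneg_right h2 (by positivity))
  have h4 : (1 / 4 : ℝ) ^ 15 * ((Nat.succ 15 : ℕ) / ((Nat.factorial 15 : ℕ) * (15 : ℕ))) * 2 ^ 64
      ≤ 2 := by
    norm_num [Nat.factorial]
  nlinarith [h3, h4]

theorem mem_exps {x : ℝ} {a : Bl} (ha : a.Mem x) (hs : a.small = true) :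
    (Bl.exps a).Mem (Real.exp x) :=
  mem_infl (mem_expH ha 14 1 one_pos) (by
    have := exp_rem (small_le ha hs)
    exact_mod_cast this)

/-- the two real Taylor polynomials inside the complex exponential -/
theorem cexp_sum (x : ℝ) :
    ∑ m ∈ Finset.range 16, ((x : ℂ) * Complex.I) ^ m / (m.factorial : ℂ)
      = ((trR (x * x) 7 1 : ℝ) : ℂ) + ((x * trR (x * x) 7 2 : ℝ) : ℂ) * Complex.I := by
  have h2 : Complex.I ^ 2 = -1 := Complex.I_sq
  have h3 : Complex.I ^ 3 = -Complex.I := by rw [pow_succ, h2]; ring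
  have h4 : Complex.I ^ 4 = 1 := Complex.I_pow_four
  have h5 : Complex.I ^ 5 = Complex.I := by rw [pow_succ, h4]; ring
  have h6 : Complex.I ^ 6 = -1 := by rw [show 6 = 4 + 2 from rfl, pow_add, h4, h2]; ring
  have h7 : Complex.I ^ 7 = -Complex.I := by rw [show 7 = 4 + 3 from rfl, pow_add, h4, h3]; ring
  have h8 : Complex.I ^ 8 = 1 := by rw [show 8 = 4 + 4 from rfl, pow_add, h4]; ring
  have h9 : Complex.I ^ 9 = Complex.I := by rw [pow_succ, h8]; ring
  have h10 : Complex.I ^ 10 = -1 := by rw [show 10 = 8 + 2 from rfl, pow_add, h8, h2]; ring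
  have h11 : Complex.I ^ 11 = -Complex.I := by
    rw [show 11 = 8 + 3 from rfl, pow_add, h8, h3]; ring
  have h12 : Complex.I ^ 12 = 1 := by rw [show 12 = 8 + 4 from rfl, pow_add, h8, h4]; ring
  have h13 : Complex.I ^ 13 = Complex.I := by rw [pow_succ, h12]; ring
  have h14 : Complex.I ^ 14 = -1 := by rw [show 14 = 12 + 2 from rfl, pow_add, h12, h2]; ring
  have h15 : Complex.I ^ 15 = -Complex.I := by
    rw [show 15 = 12 + 3 from rfl, pow_add, h12, h3]; ring
  simp only [trR, Finset.sum_range_succ, Finset.sum_range_zero, Nat.factorial, mul_pow, h2, h3, h4,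
    h5, h6, h7, h8, h9, h10, h11, h12, h13, h14, h15, pow_zero, pow_one]
  push_cast
  ring

theorem tr_rem {x : ℝ} (hx : |x| ≤ 1 / 4) :
    |Real.cos x - trR (x * x) 7 1| * 2 ^ 64 ≤ (2 : ℝ) ∧
      |Real.sin x - x * trR (x * x) 7 2| * 2 ^ 64 ≤ (2 : ℝ) := by
  have hn : ‖(x : ℂ) * Complex.I‖ = |x| := by
    rw [norm_mul, Complex.norm_I, mul_one, Complex.norm_real, Real.norm_eq_abs]
  have h := Complex.exp_bound (x := (x : ℂ) * Complex.I) (by rw [hn]; linarith) (n := 16)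
    (by norm_num)
  rw [hn, cexp_sum, Complex.exp_mul_I] at h
  have h2 : |x| ^ 16 ≤ (1 / 4 : ℝ) ^ 16 := pow_le_pow_left₀ (abs_nonneg x) hx 16
  have h3 := h.trans (mul_le_mul_of_nonneg_right h2 (by positivity))
  have h4 : (1 / 4 : ℝ) ^ 16 * ((Nat.succ 16 : ℕ) * ((Nat.factorial 16 : ℕ) * (16 : ℕ) : ℝ)⁻¹)
      * 2 ^ 64 ≤ 2 := by
    norm_num [Nat.factorial]
  have key : Complex.cos x + Complex.sin x * Complex.I
      - (((trR (x * x) 7 1 : ℝ) : ℂ) + ((x * trR (x * x) 7 2 : ℝ) : ℂ) * Complex.I)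
      = ((Real.cos x - trR (x * x) 7 1 : ℝ) : ℂ)
        + ((Real.sin x - x * trR (x * x) 7 2 : ℝ) : ℂ) * Complex.I := by
    push_cast
    ring
  rw [key] at h3
  have hre := (Complex.abs_re_le_norm _).trans h3
  have him := (Complex.abs_im_le_norm _).trans h3
  simp only [Complex.add_re, Complex.ofReal_re, Complex.mul_re, Complex.I_re, mul_zero,
    Complex.ofReal_im, Complex.I_im, sub_zero, add_zero, Complex.add_im, Complex.mul_im,
    mul_one, zero_add] at hre him
  constructor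
  · nlinarith [hre, h4]
  · nlinarith [him, h4]

theorem mem_coss {x : ℝ} {a : Bl} (ha : a.Mem x) (hs : a.small = true) :
    (Bl.coss a).Mem (Real.cos x) :=
  mem_infl (mem_trH (mem_mul ha ha) 7 1 one_pos) (by
    have := (tr_rem (small_le ha hs)).1
    exact_mod_cast this)

theorem mem_sins {x : ℝ} {a : Bl} (ha : a.Mem x) (hs : a.small = true) :
    (Bl.sins a).Mem (Real.sin x) :=
  mem_infl (mem_mul ha (mem_trH (mem_mul ha ha) 7 2 two_pos)) (by
    have := (tr_rem (small_le ha hs)).2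
    exact_mod_cast this)

end Vale.Agent.Lib.P154.Neg.Ck
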