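import Vale.Agent.Lib.P154.Neg.CkFunE

/-! Soundness of the cells. -/

namespace Vale.Agent.Lib.P154.Neg.Ck

open scoped BigOperators

open Bl

/-- the point of the box m2, h2, m3, h3 with parameters `u`, `v` -/
noncomputable def bx (m2 h2 m3 h3 : ℕ) (u v : ℝ) : Fin 3 → ℝ :=
  ![3 - ((m2 : ℝ) + h2 * u) / 2 ^ 64 - ((m3 : ℝ) + h3 * v) / 2 ^ 64,
    ((m2 : ℝ) + h2 * u) / 2 ^ 64, ((m3 : ℝ) + h3 * v) / 2 ^ 64]

/-! ### rational balls -/

theorem cell_rat_mem (h m : ℕ) (hm : 0 < m) : (rat h m).Mem ((h : ℝ) / m) := by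
  unfold Bl.Mem rat
  have h0 : Nat.div (Nat.shiftLeft h 64) m = (h * 2 ^ 64) / m := by
    show (h <<< 64) / m = _
    rw [Nat.shiftLeft_eq]
  dsimp only
  rw [h0]
  have hb := div_bounds (h * 2 ^ 64) m hm
  push_cast at hb ⊢
  have e : (h : ℝ) / m * 2 ^ 64 = (h : ℝ) * 2 ^ 64 / m := by ring
  rw [e, sub_zero, abs_le]
  constructor <;> linarith [hb.1, hb.2]

theorem cell_ratU_le (h m : ℕ) (hm : 0 < m) : (h : ℝ) / m ≤ (ratU h m : ℝ) / 2 ^ 64 := by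
  unfold ratU
  have h0 : Nat.div (Nat.shiftLeft h 64) m = (h * 2 ^ 64) / m := by
    show (h <<< 64) / m = _
    rw [Nat.shiftLeft_eq]
  rw [h0, Nat.add_eq]
  have hb := div_bounds (h * 2 ^ 64) m hm
  push_cast at hb ⊢
  rw [le_div_iff₀ (by positivity)]
  have e : (h : ℝ) / m * 2 ^ 64 = (h : ℝ) * 2 ^ 64 / m := by ring
  rw [e]
  have h2 := hb.2.le
  norm_num at h2 ⊢
  linarith

theorem cell_abs_rat (h m : ℕ) : |((h : ℝ) / m)| = (h : ℝ) / m := abs_of_nonneg (by positivity)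

theorem cell_abs_neg_rat (h m : ℕ) : |-((h : ℝ) / m)| = (h : ℝ) / m := by rw [abs_neg, cell_abs_rat]

/-! ### crude bound near a corner -/

theorem cell_Fn_corner (P T : ℕ) (h6 : 6 ≤ P) (h8 : P ≤ 8) (y : Fin 3 → ℝ) (h0 : 0 ≤ y 0)
    (h0' : y 0 ≤ 3) (h1 : 0 ≤ y 1) (h1' : y 1 ≤ 1 / 2 ^ 24) (h2 : 0 ≤ y 2)
    (h2' : y 2 ≤ 1 / 2 ^ 24) : |Fn (P, T) y| ≤ 1 / 2 ^ 11 := by
  unfold Fn Fc
  simp only [Fin.sum_univ_three, Fin.isValue]
  have e1 : (0 : Fin 3) + 1 = 1 := rfl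
  have e2 : (0 : Fin 3) + 2 = 2 := rfl
  have e3 : (1 : Fin 3) + 1 = 2 := rfl
  have e4 : (1 : Fin 3) + 2 = 0 := rfl
  have e5 : (2 : Fin 3) + 1 = 0 := rfl
  have e6 : (2 : Fin 3) + 2 = 1 := rfl
  rw [e1, e2, e3, e4, e5, e6]
  set p : ℝ := (P : ℝ) / 16 with hp
  have hP6 : (6 : ℝ) ≤ P := by exact_mod_cast h6
  have hP8 : (P : ℝ) ≤ 8 := by exact_mod_cast h8
  have hp1 : 3 / 8 ≤ p := by rw [hp]; linarith
  have hp2 : p ≤ 1 / 2 := by rw [hp]; linarith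
  set ε : ℝ := 1 / 2 ^ 24 with hε
  have hε0 : 0 < ε := by rw [hε]; positivity
  have hε1 : ε ≤ 1 := by rw [hε]; norm_num
  have h3p : (3 : ℝ) ^ p ≤ 2 := by
    calc (3 : ℝ) ^ p ≤ (3 : ℝ) ^ (1 / 2 : ℝ) :=
          Real.rpow_le_rpow_of_exponent_le (by norm_num) hp2
      _ = Real.sqrt 3 := by rw [← Real.sqrt_eq_rpow]
      _ ≤ 2 := by rw [Real.sqrt_le_left (by norm_num)]; norm_num
  have hεp : ε ^ (1 - p) ≤ 1 / 2 ^ 12 := by
    calc ε ^ (1 - p) ≤ ε ^ (1 / 2 : ℝ) :=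
          Real.rpow_le_rpow_of_exponent_ge hε0 hε1 (by linarith)
      _ = 1 / 2 ^ 12 := by
          rw [← Real.sqrt_eq_rpow, hε]
          rw [show (1 / 2 ^ 24 : ℝ) = (1 / 2 ^ 12) ^ 2 by norm_num]
          exact Real.sqrt_sq (by norm_num)
  -- the side terms
  have side : ∀ a b c : ℝ, 0 ≤ a → a ≤ ε → 0 ≤ b → b ≤ 3 → 0 ≤ c → c ≤ ε →
      (a * b) ^ p * c ^ (1 - 2 * p) ≤ 2 * (1 / 2 ^ 12) := by
    intro a b c ha ha' hb hb' hc hc'
    have t1 : (a * b) ^ p ≤ (ε * 3) ^ p :=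
      Real.rpow_le_rpow (by positivity) (mul_le_mul ha' hb' hb hε0.le) (by linarith)
    have t2 : c ^ (1 - 2 * p) ≤ ε ^ (1 - 2 * p) := Real.rpow_le_rpow hc hc' (by linarith)
    have t3 : (ε * 3) ^ p = ε ^ p * 3 ^ p := Real.mul_rpow hε0.le (by norm_num)
    have t4 : ε ^ p * ε ^ (1 - 2 * p) = ε ^ (1 - p) := by
      rw [← Real.rpow_add hε0]; congr 1; ring
    calc (a * b) ^ p * c ^ (1 - 2 * p) ≤ (ε * 3) ^ p * ε ^ (1 - 2 * p) :=
          mul_le_mul t1 t2 (Real.rpow_nonneg hc _) (by positivity)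
      _ = 3 ^ p * ε ^ (1 - p) := by rw [t3, ← t4]; ring
      _ ≤ 2 * (1 / 2 ^ 12) := mul_le_mul h3p hεp (by positivity) (by norm_num)
  have main : ∀ a b c : ℝ, 0 ≤ a → a ≤ ε → 0 ≤ b → b ≤ ε → 0 ≤ c → c ≤ 3 →
      (a * b) ^ p * c ^ (1 - 2 * p) ≤ 3 * (1 / 2 ^ 18) := by
    intro a b c ha ha' hb hb' hc hc'
    have t1 : (a * b) ^ p ≤ (ε * ε) ^ p :=
      Real.rpow_le_rpow (by positivity) (mul_le_mul ha' hb' hb hε0.le) (by linarith)
    have t2 : c ^ (1 - 2 * p) ≤ 3 ^ (1 - 2 * p) := Real.rpow_le_rpow hc hc' (by linarith)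
    have t3 : (3 : ℝ) ^ (1 - 2 * p) ≤ 3 := by
      calc (3 : ℝ) ^ (1 - 2 * p) ≤ (3 : ℝ) ^ (1 : ℝ) :=
            Real.rpow_le_rpow_of_exponent_le (by norm_num) (by linarith)
        _ = 3 := Real.rpow_one 3
    have t4 : (ε * ε) ^ p ≤ 1 / 2 ^ 18 := by
      calc (ε * ε) ^ p ≤ (ε * ε) ^ (3 / 8 : ℝ) := by
            apply Real.rpow_le_rpow_of_exponent_ge (by positivity) _ hp1
            nlinarith
        _ = 1 / 2 ^ 18 := by
            have : ε * ε = (1 / 2 ^ 6 : ℝ) ^ (8 : ℝ) := by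
              rw [hε, show (8 : ℝ) = ((8 : ℕ) : ℝ) by norm_num, Real.rpow_natCast]; norm_num
            rw [this, ← Real.rpow_mul (by norm_num)]
            rw [show (8 : ℝ) * (3 / 8) = ((3 : ℕ) : ℝ) by norm_num, Real.rpow_natCast]
            norm_num
    calc (a * b) ^ p * c ^ (1 - 2 * p) ≤ (1 / 2 ^ 18) * 3 :=
          mul_le_mul (t1.trans t4) (t2.trans t3) (Real.rpow_nonneg hc _) (by norm_num)
      _ = 3 * (1 / 2 ^ 18) := by ring
  have b0 := main (y 1) (y 2) (y 0) h1 h1' h2 h2' h0 h0'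
  have b1 := side (y 2) (y 0) (y 1) h2 h2' h0 h0' h1 h1'
  have b2 := side (y 1) (y 0) (y 2) h1 h1' h0 h0' h2 h2'
  rw [mul_comm (y 1) (y 0)] at b2
  have cosb : ∀ A t : ℝ, 0 ≤ A → |A * Real.cos t| ≤ A := by
    intro A t hA
    rw [abs_mul, abs_of_nonneg hA]
    have := Real.abs_cos_le_one t
    nlinarith
  have n0 : 0 ≤ (y 1 * y 2) ^ p * y 0 ^ (1 - 2 * p) := by positivity
  have n1 : 0 ≤ (y 2 * y 0) ^ p * y 1 ^ (1 - 2 * p) := by positivity
  have n2 : 0 ≤ (y 0 * y 1) ^ p * y 2 ^ (1 - 2 * p) := by positivity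
  have c0 := cosb _ ((T : ℝ) / 16 * (Real.log (y 1) - Real.log (y 2))) n0
  have c1 := cosb _ ((T : ℝ) / 16 * (Real.log (y 2) - Real.log (y 0))) n1
  have c2 := cosb _ ((T : ℝ) / 16 * (Real.log (y 0) - Real.log (y 1))) n2
  rw [abs_mul, abs_of_pos (show (0:ℝ) < 1 / 3 by norm_num)]
  have tri : ∀ a b c : ℝ, |a + b + c| ≤ |a| + |b| + |c| := fun a b c => abs_add_three a b c
  have := tri ((y 1 * y 2) ^ p * y 0 ^ (1 - 2 * p) *
      Real.cos ((T : ℝ) / 16 * (Real.log (y 1) - Real.log (y 2))))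
    ((y 2 * y 0) ^ p * y 1 ^ (1 - 2 * p) *
      Real.cos ((T : ℝ) / 16 * (Real.log (y 2) - Real.log (y 0))))
    ((y 0 * y 1) ^ p * y 2 ^ (1 - 2 * p) *
      Real.cos ((T : ℝ) / 16 * (Real.log (y 0) - Real.log (y 1))))
  norm_num at b0 b1 b2 ⊢
  linarith

theorem cell_fs_ok {D : Dict} (hD : D.ok = true) {s : FS} (hs : s ∈ D.fs) : 6 ≤ s.P ∧ s.P ≤ 8 := by
  unfold Dict.ok at hD
  rw [List.all_eq_true] at hD
  have := hD s hs
  simp only [Bool.and_eq_true, FS.ok, decide_eq_true_eq] at this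
  exact ⟨this.1.1.1.1.1.1.1, this.1.1.1.1.1.1.2⟩

theorem cell_forall2_map_mem {α β : Type} {R : α → β → Prop} (l : List α) (f : α → β)
    (h : ∀ a ∈ l, R a (f a)) : List.Forall₂ R l (l.map f) := by
  induction l with
  | nil => exact List.Forall₂.nil
  | cons a l ih =>
    rw [List.map_cons]
    exact List.Forall₂.cons (h a (by simp)) (ih (fun b hb => h b (by simp [hb])))

/-- common data of the cells for `F(y)` -/
theorem cell_m1_facts (m2 m3 k : ℕ) (h : m2 + m3 + (k + 1) ≤ three) :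
    0 < Nat.sub three (Nat.add m2 m3) ∧
      ((Nat.sub three (Nat.add m2 m3) : ℕ) : ℝ) = 3 * 2 ^ 64 - m2 - m3 := by
  have hthree : three = 3 * 2 ^ 64 := by norm_num [three]
  rw [Nat.sub_eq, Nat.add_eq]
  rw [hthree] at h ⊢
  refine ⟨by omega, ?_⟩
  rw [Nat.cast_sub (by omega)]
  push_cast
  ring

theorem cell_bx_fst (m1 m2 h2 m3 h3 : ℕ) (p1 : 0 < m1) (hm1R : (m1 : ℝ) = 3 * 2 ^ 64 - m2 - m3)
    (u v : ℝ) : 3 - ((m2 : ℝ) + h2 * u) / 2 ^ 64 - ((m3 : ℝ) + h3 * v) / 2 ^ 64 =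
      (m1 : ℝ) / 2 ^ 64 * (1 + (-((h2 : ℝ) / m1) * u + -((h3 : ℝ) / m1) * v)) := by
  have q1 : (0 : ℝ) < m1 := by exact_mod_cast p1
  have : (m1 : ℝ) / 2 ^ 64 * (1 + (-((h2 : ℝ) / m1) * u + -((h3 : ℝ) / m1) * v)) =
      ((m1 : ℝ) - h2 * u - h3 * v) / 2 ^ 64 := by
    field_simp; ring
  rw [this, hm1R]; field_simp; ring

theorem cell_bx_snd (m h : ℕ) (p : 0 < m) (u : ℝ) :
    ((m : ℝ) + h * u) / 2 ^ 64 = (m : ℝ) / 2 ^ 64 * (1 + (h : ℝ) / m * u) := by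
  have q : (0 : ℝ) < m := by exact_mod_cast p
  field_simp

theorem cellY_C (D : Dict) (hD : D.ok = true) (m1 m2 h2 m3 h3 : ℕ) (p1 : 0 < m1)
    (hm1R : (m1 : ℝ) = 3 * 2 ^ 64 - m2 - m3) (p2 : 0 < m2) (p3 : 0 < m3)
    (o1 : (rr m1).ok = true) (o2 : (rr m2).ok = true) (o3 : (rr m3).ok = true)
    (c4 : ratU (h2 + h3) m1 ≤ 17446744073709551616) (c5 : ratU h2 m2 ≤ 17446744073709551616)
    (c6 : ratU h3 m3 ≤ 17446744073709551616) :
    List.Forall₂ (fun (s : FS) (j : Jv) => j.Mem (fun u v => Fn (s.P, s.T) (bx m2 h2 m3 h3 u v)))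
      D.fs (jetsI D (rr m1) (rr m2) (rr m3) (mkAff (Bl.neg (rat h2 m1)) (rat h2 m2)
        (Bl.neg (rat h3 m1)) (rat h3 m3) (ratU (Nat.add h2 h3) m1) (ratU h2 m2) (ratU h3 m3))) := by
  have hAM : (mkAff (Bl.neg (rat h2 m1)) (rat h2 m2) (Bl.neg (rat h3 m1)) (rat h3 m3)
      (ratU (Nat.add h2 h3) m1) (ratU h2 m2) (ratU h3 m3)).Mem (-((h2 : ℝ) / m1))
      ((h2 : ℝ) / m2) (-((h3 : ℝ) / m1)) ((h3 : ℝ) / m3) := by
    apply mkAff_sound (mem_neg (cell_rat_mem _ _ p1)) (cell_rat_mem _ _ p2) (mem_neg (cell_rat_mem _ _ p1))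
      (cell_rat_mem _ _ p3)
    · rw [cell_abs_neg_rat, cell_abs_neg_rat, ← add_div]
      have := cell_ratU_le (h2 + h3) m1 p1
      rw [Nat.add_eq]
      push_cast at this
      exact this
    · rw [cell_abs_rat]; exact cell_ratU_le _ _ p2
    · rw [cell_abs_rat]; exact cell_ratU_le _ _ p3
  have hmain := jetsI_sound D hD _ _ _ (rr m1) (rr m2) (rr m3) (rr_sound m1 o1) (rr_sound m2 o2)
    (rr_sound m3 o3) _ _ _ _ _ hAM c4 c5 c6
  have hb : ∀ u v : ℝ, bx m2 h2 m3 h3 u v =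
      ![(m1 : ℝ) / 2 ^ 64 * (1 + (-((h2 : ℝ) / m1) * u + -((h3 : ℝ) / m1) * v)),
        (m2 : ℝ) / 2 ^ 64 * (1 + (h2 : ℝ) / m2 * u),
        (m3 : ℝ) / 2 ^ 64 * (1 + (h3 : ℝ) / m3 * v)] := by
    intro u v
    unfold bx
    rw [cell_bx_fst m1 m2 h2 m3 h3 p1 hm1R u v, cell_bx_snd m2 h2 p2 u, cell_bx_snd m3 h3 p3 v]
  simp only [hb]
  exact hmain

theorem cell_w_facts (m3 h3 : ℕ) (h3m : h3 ≤ m3) (hl : m3 + h3 ≤ 65536) (v : ℝ) (hv : |v| ≤ 1) :
    0 ≤ ((m3 : ℝ) + h3 * v) / 2 ^ 64 ∧ ((m3 : ℝ) + h3 * v) / 2 ^ 64 ≤ 1 / 2 ^ 48 := by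
  have h3m' : (h3 : ℝ) ≤ m3 := by exact_mod_cast h3m
  have h3n : (0 : ℝ) ≤ h3 := Nat.cast_nonneg _
  have hl' : (m3 : ℝ) + h3 ≤ 65536 := by exact_mod_cast hl
  rw [abs_le] at hv
  constructor
  · apply div_nonneg _ (by positivity)
    nlinarith
  · rw [div_le_div_iff₀ (by positivity) (by positivity)]
    nlinarith

theorem cellY_B (D : Dict) (hD : D.ok = true) (m1 m2 h2 m3 h3 : ℕ) (h3m : h3 ≤ m3) (p1 : 0 < m1)
    (hm1R : (m1 : ℝ) = 3 * 2 ^ 64 - m2 - m3) (p2 : 0 < m2) (hl : m3 + h3 ≤ 65536)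
    (o1 : (rr m1).ok = true) (o2 : (rr m2).ok = true)
    (c4 : ratU (h2 + h3) m1 ≤ 17446744073709551616) (c5 : ratU h2 m2 ≤ 17446744073709551616) :
    List.Forall₂ (fun (s : FS) (j : Jv) => j.Mem (fun u v => Fn (s.P, s.T) (bx m2 h2 m3 h3 u v)))
      D.fs (jets3 D (rr m1) (rr m2) (mkAff (Bl.neg (rat h2 m1)) (rat h2 m2)
        (Bl.neg (rat h3 m1)) Bl.zero (ratU (Nat.add h2 h3) m1) (ratU h2 m2) 0)) := by
  have hAM : (mkAff (Bl.neg (rat h2 m1)) (rat h2 m2) (Bl.neg (rat h3 m1)) Bl.zero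
      (ratU (Nat.add h2 h3) m1) (ratU h2 m2) 0).Mem (-((h2 : ℝ) / m1))
      ((h2 : ℝ) / m2) (-((h3 : ℝ) / m1)) 0 := by
    apply mkAff_sound (mem_neg (cell_rat_mem _ _ p1)) (cell_rat_mem _ _ p2) (mem_neg (cell_rat_mem _ _ p1))
      mem_zero
    · rw [cell_abs_neg_rat, cell_abs_neg_rat, ← add_div]
      have := cell_ratU_le (h2 + h3) m1 p1
      rw [Nat.add_eq]
      push_cast at this
      exact this
    · rw [cell_abs_rat]; exact cell_ratU_le _ _ p2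
    · simp
  have hmain := jets3_soundE D hD _ _ (rr m1) (rr m2) (rr_sound m1 o1) (rr_sound m2 o2)
    _ _ _ _ hAM rfl rfl c4 c5 (fun u v => ((m3 : ℝ) + h3 * v) / 2 ^ 64)
    (fun u v _ hv => cell_w_facts m3 h3 h3m hl v hv) (by
      intro u v hu hv
      have := (cell_w_facts m3 h3 h3m hl v hv).1
      rw [← cell_bx_fst m1 m2 h2 m3 h3 p1 hm1R u v, ← cell_bx_snd m2 h2 p2 u]
      linarith)
  have hb : ∀ u v : ℝ, bx m2 h2 m3 h3 u v =
      ![(m1 : ℝ) / 2 ^ 64 * (1 + (-((h2 : ℝ) / m1) * u + -((h3 : ℝ) / m1) * v)),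
        (m2 : ℝ) / 2 ^ 64 * (1 + (h2 : ℝ) / m2 * u),
        ((m3 : ℝ) + h3 * v) / 2 ^ 64] := by
    intro u v
    unfold bx
    rw [cell_bx_fst m1 m2 h2 m3 h3 p1 hm1R u v, cell_bx_snd m2 h2 p2 u]
  simp only [hb]
  exact hmain

theorem cellY_A (D : Dict) (hD : D.ok = true) (m2 h2 m3 h3 : ℕ) (h2m : h2 ≤ m2)
    (h3m : h3 ≤ m3) (hA2 : m2 + h2 ≤ 1099511627776) (hA3 : m3 + h3 ≤ 1099511627776) :
    List.Forall₂ (fun (s : FS) (j : Jv) => j.Mem (fun u v => Fn (s.P, s.T) (bx m2 h2 m3 h3 u v)))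
      D.fs (D.fs.map fun _ => ⟨0, 0, 0, 0, 0, 0, 0, 0, 0, 0, 0, 0, 9007199254740992⟩) := by
  have h2m' : (h2 : ℝ) ≤ m2 := by exact_mod_cast h2m
  have h3m' : (h3 : ℝ) ≤ m3 := by exact_mod_cast h3m
  have h2n : (0 : ℝ) ≤ h2 := Nat.cast_nonneg _
  have h3n : (0 : ℝ) ≤ h3 := Nat.cast_nonneg _
  apply cell_forall2_map_mem
  intro s hs u v hu hv
  obtain ⟨h6, h8⟩ := cell_fs_ok hD hs
  rw [abs_le] at hu hv
  have k2 : (m2 : ℝ) + h2 ≤ 1099511627776 := by exact_mod_cast hA2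
  have k3 : (m3 : ℝ) + h3 ≤ 1099511627776 := by exact_mod_cast hA3
  have a2 : 0 ≤ (m2 : ℝ) + h2 * u := by nlinarith
  have a2' : (m2 : ℝ) + h2 * u ≤ 1099511627776 := by nlinarith
  have a3 : 0 ≤ (m3 : ℝ) + h3 * v := by nlinarith
  have a3' : (m3 : ℝ) + h3 * v ≤ 1099511627776 := by nlinarith
  have b2 : 0 ≤ ((m2 : ℝ) + h2 * u) / 2 ^ 64 := by positivity
  have b3 : 0 ≤ ((m3 : ℝ) + h3 * v) / 2 ^ 64 := by positivity
  have b2' : ((m2 : ℝ) + h2 * u) / 2 ^ 64 ≤ 1 / 2 ^ 24 := by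
    rw [div_le_div_iff₀ (by positivity) (by positivity)]; norm_num; linarith
  have b3' : ((m3 : ℝ) + h3 * v) / 2 ^ 64 ≤ 1 / 2 ^ 24 := by
    rw [div_le_div_iff₀ (by positivity) (by positivity)]; norm_num; linarith
  have hF := cell_Fn_corner s.P s.T h6 h8 (bx m2 h2 m3 h3 u v)
    (by
      show 0 ≤ 3 - ((m2 : ℝ) + h2 * u) / 2 ^ 64 - ((m3 : ℝ) + h3 * v) / 2 ^ 64
      have : (1 : ℝ) / 2 ^ 24 ≤ 1 := by norm_num
      linarith)
    (by
      show 3 - ((m2 : ℝ) + h2 * u) / 2 ^ 64 - ((m3 : ℝ) + h3 * v) / 2 ^ 64 ≤ 3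
      linarith) b2 b2' b3 b3'
  have hF2 : |Fn (s.P, s.T) (bx m2 h2 m3 h3 u v) * 2 ^ 64| ≤ 9007199254740992 := by
    rw [abs_mul, abs_of_pos (show (0:ℝ) < 2 ^ 64 by positivity)]
    norm_num at hF ⊢
    linarith
  simp only [Nat.cast_zero, sub_zero, zero_mul, add_zero]
  exact_mod_cast hF2

theorem cellY_eq (D : Dict) (m2 h2 m3 h3 : Nat) : cellY D m2 h2 m3 h3 =
    bif and (Nat.ble (Nat.add m2 h2) 1099511627776) (Nat.ble (Nat.add m3 h3) 1099511627776) then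
    (true, D.fs.map fun _ => ⟨0, 0, 0, 0, 0, 0, 0, 0, 0, 0, 0, 0, 9007199254740992⟩)
  else bif and (Nat.beq m3 h3) (Nat.ble (Nat.add m3 h3) 65536) then
    (and (and (rr (Nat.sub three (Nat.add m2 m3))).ok (rr m2).ok)
      (and (Nat.ble (Nat.add h2 1) m2)
      (and (Nat.ble (Nat.add (Nat.add m2 m3) (Nat.add (Nat.add h2 h3) 1)) three)
        (and (Nat.ble (mkAff (neg (rat h2 (Nat.sub three (Nat.add m2 m3)))) (rat h2 m2)
            (neg (rat h3 (Nat.sub three (Nat.add m2 m3)))) zero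
            (ratU (Nat.add h2 h3) (Nat.sub three (Nat.add m2 m3))) (ratU h2 m2) 0).ra.x
            17446744073709551616)
          (Nat.ble (mkAff (neg (rat h2 (Nat.sub three (Nat.add m2 m3)))) (rat h2 m2)
            (neg (rat h3 (Nat.sub three (Nat.add m2 m3)))) zero
            (ratU (Nat.add h2 h3) (Nat.sub three (Nat.add m2 m3))) (ratU h2 m2) 0).ra.y
            17446744073709551616)))),
      jets3 D (rr (Nat.sub three (Nat.add m2 m3))) (rr m2)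
        (mkAff (neg (rat h2 (Nat.sub three (Nat.add m2 m3)))) (rat h2 m2)
          (neg (rat h3 (Nat.sub three (Nat.add m2 m3)))) zero
          (ratU (Nat.add h2 h3) (Nat.sub three (Nat.add m2 m3))) (ratU h2 m2) 0))
  else
    (and (and (rr (Nat.sub three (Nat.add m2 m3))).ok (and (rr m2).ok (rr m3).ok))
      (and (Nat.ble (Nat.add h2 1) m2)
      (and (Nat.ble (Nat.add h3 1) m3)
      (and (Nat.ble (Nat.add (Nat.add m2 m3) (Nat.add (Nat.add h2 h3) 1)) three)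
        (and (Nat.ble (mkAff (neg (rat h2 (Nat.sub three (Nat.add m2 m3)))) (rat h2 m2)
            (neg (rat h3 (Nat.sub three (Nat.add m2 m3)))) (rat h3 m3)
            (ratU (Nat.add h2 h3) (Nat.sub three (Nat.add m2 m3))) (ratU h2 m2)
            (ratU h3 m3)).ra.x 17446744073709551616)
          (and (Nat.ble (mkAff (neg (rat h2 (Nat.sub three (Nat.add m2 m3)))) (rat h2 m2)
            (neg (rat h3 (Nat.sub three (Nat.add m2 m3)))) (rat h3 m3)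
            (ratU (Nat.add h2 h3) (Nat.sub three (Nat.add m2 m3))) (ratU h2 m2)
            (ratU h3 m3)).ra.y 17446744073709551616)
          (Nat.ble (mkAff (neg (rat h2 (Nat.sub three (Nat.add m2 m3)))) (rat h2 m2)
            (neg (rat h3 (Nat.sub three (Nat.add m2 m3)))) (rat h3 m3)
            (ratU (Nat.add h2 h3) (Nat.sub three (Nat.add m2 m3))) (ratU h2 m2)
            (ratU h3 m3)).ra.z 17446744073709551616)))))),
      jetsI D (rr (Nat.sub three (Nat.add m2 m3))) (rr m2) (rr m3)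
        (mkAff (neg (rat h2 (Nat.sub three (Nat.add m2 m3)))) (rat h2 m2)
            (neg (rat h3 (Nat.sub three (Nat.add m2 m3)))) (rat h3 m3)
            (ratU (Nat.add h2 h3) (Nat.sub three (Nat.add m2 m3))) (ratU h2 m2)
            (ratU h3 m3))) := rfl

theorem cellY_sound (D : Dict) (hD : D.ok = true) (m2 h2 m3 h3 : ℕ) (h2m : h2 ≤ m2)
    (h3m : h3 ≤ m3) (hc : (cellY D m2 h2 m3 h3).1 = true) :
    List.Forall₂ (fun (s : FS) (j : Jv) => j.Mem (fun u v => Fn (s.P, s.T) (bx m2 h2 m3 h3 u v)))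
      D.fs (cellY D m2 h2 m3 h3).2 := by
  have he := cellY_eq D m2 h2 m3 h3
  rcases hA : (and (Nat.ble (Nat.add m2 h2) 1099511627776)
    (Nat.ble (Nat.add m3 h3) 1099511627776)) with _ | _
  · rw [hA, cond_false] at he
    rcases hB : (and (Nat.beq m3 h3) (Nat.ble (Nat.add m3 h3) 65536)) with _ | _
    · rw [hB, cond_false] at he
      rw [he] at hc ⊢
      rw [Bool.and_eq_true, Bool.and_eq_true, Bool.and_eq_true, Bool.and_eq_true,
        Bool.and_eq_true, Bool.and_eq_true, Bool.and_eq_true, Bool.and_eq_true] at hc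
      obtain ⟨⟨o1, o2, o3⟩, c1, c2, c3, c4, c5, c6⟩ := hc
      have c1' := Nat.le_of_ble_eq_true c1
      have c2' := Nat.le_of_ble_eq_true c2
      have f := cell_m1_facts m2 m3 (h2 + h3) (Nat.le_of_ble_eq_true c3)
      exact cellY_C D hD _ m2 h2 m3 h3 f.1 f.2 (lt_of_lt_of_le (Nat.succ_pos _) c1')
        (lt_of_lt_of_le (Nat.succ_pos _) c2') o1 o2 o3 (Nat.le_of_ble_eq_true c4)
        (Nat.le_of_ble_eq_true c5) (Nat.le_of_ble_eq_true c6)
    · rw [hB, cond_true] at he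
      rw [he] at hc ⊢
      rw [Bool.and_eq_true, Bool.and_eq_true, Bool.and_eq_true, Bool.and_eq_true,
        Bool.and_eq_true] at hc
      rw [Bool.and_eq_true] at hB
      obtain ⟨⟨o1, o2⟩, c1, c2, c3, c4⟩ := hc
      have c1' := Nat.le_of_ble_eq_true c1
      have f := cell_m1_facts m2 m3 (h2 + h3) (Nat.le_of_ble_eq_true c2)
      exact cellY_B D hD _ m2 h2 m3 h3 h3m f.1 f.2 (lt_of_lt_of_le (Nat.succ_pos _) c1')
        (Nat.le_of_ble_eq_true hB.2) o1 o2 (Nat.le_of_ble_eq_true c3) (Nat.le_of_ble_eq_true c4)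
  · rw [hA, cond_true] at he
    rw [he]
    rw [Bool.and_eq_true] at hA
    exact cellY_A D hD m2 h2 m3 h3 h2m h3m (Nat.le_of_ble_eq_true hA.1)
      (Nat.le_of_ble_eq_true hA.2)

/-! ### the cells for `F((3 - y) / 2)` -/

theorem cell_bz_fst (m2 h2 m3 h3 : ℕ) (n : ℕ) (hn : 0 < n) (hnR : (n : ℝ) * 2 = m2 + m3)
    (u v : ℝ) : (3 - (3 - ((m2 : ℝ) + h2 * u) / 2 ^ 64 - ((m3 : ℝ) + h3 * v) / 2 ^ 64)) / 2 =
      (n : ℝ) / 2 ^ 64 * (1 + ((h2 : ℝ) / (m2 + m3 : ℕ) * u + (h3 : ℝ) / (m2 + m3 : ℕ) * v)) := by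
  have q : (0 : ℝ) < n := by exact_mod_cast hn
  have h1 : ((m2 + m3 : ℕ) : ℝ) = n * 2 := by push_cast; linarith
  have h2' : (m2 : ℝ) = n * 2 - m3 := by linarith
  rw [h1, h2']
  field_simp
  ring

theorem cell_bz_snd (m h : ℕ) (n : ℕ) (hn : 0 < n) (k : ℕ) (hk : (k : ℝ) = n * 2)
    (hnR : (n : ℝ) * 2 = 3 * 2 ^ 64 - m) (u : ℝ) :
    (3 - ((m : ℝ) + h * u) / 2 ^ 64) / 2 =
      (n : ℝ) / 2 ^ 64 * (1 + -((h : ℝ) / k) * u) := by
  have q : (0 : ℝ) < n := by exact_mod_cast hn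
  have h2' : (m : ℝ) = 3 * 2 ^ 64 - n * 2 := by linarith
  rw [hk, h2']
  field_simp
  ring

theorem cell_Mem_pos {m : ℕ} (h : (rr m).ok = true) : 0 < m := by
  have := (rr_sound m h).1
  rcases Nat.eq_zero_or_pos m with h0 | h0
  · rw [h0] at this; norm_num at this
  · exact h0

theorem cell_half_facts (n : ℕ) (h : n % 2 = 0) : ((n / 2 : ℕ) : ℝ) * 2 = n := by
  have : n / 2 * 2 = n := by omega
  exact_mod_cast this

theorem cell_three_sub (m : ℕ) (hm : m ≤ three) (hp : m % 2 = 0) :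
    (three - m) % 2 = 0 ∧ ((three - m : ℕ) : ℝ) = 3 * 2 ^ 64 - m := by
  have hthree : three = 3 * 2 ^ 64 := by norm_num [three]
  rw [hthree] at hm ⊢
  refine ⟨by omega, ?_⟩
  rw [Nat.cast_sub hm]
  push_cast
  ring

theorem cellZ_B (D : Dict) (hD : D.ok = true) (m2 h2 m3 h3 : ℕ)
    (p2 : m2 % 2 = 0) (p3 : m3 % 2 = 0) (hs : m2 + m3 + (h2 + h3) ≤ three)
    (o1 : (rr ((m2 + m3) / 2)).ok = true) (o2 : (rr ((three - m2) / 2)).ok = true)
    (o3 : (rr ((three - m3) / 2)).ok = true)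
    (c4 : ratU (h2 + h3) (m2 + m3) ≤ 17446744073709551616)
    (c5 : ratU h2 (three - m2) ≤ 17446744073709551616)
    (c6 : ratU h3 (three - m3) ≤ 17446744073709551616) :
    List.Forall₂ (fun (s : FS) (j : Jv) => j.Mem (fun u v => Fn (s.P, s.T)
      (fun i => (3 - bx m2 h2 m3 h3 u v i) / 2)))
      D.fs (jetsI D (rr ((m2 + m3) / 2)) (rr ((three - m2) / 2)) (rr ((three - m3) / 2))
        (mkAff (rat h2 (m2 + m3)) (neg (rat h2 (three - m2))) (rat h3 (m2 + m3))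
          (neg (rat h3 (three - m3)))
          (ratU (h2 + h3) (m2 + m3)) (ratU h2 (three - m2)) (ratU h3 (three - m3)))) := by
  have t2 := cell_three_sub m2 (by omega) p2
  have t3 := cell_three_sub m3 (by omega) p3
  have k1 := cell_half_facts (m2 + m3) (by omega)
  have k2 := cell_half_facts _ t2.1
  have k3 := cell_half_facts _ t3.1
  have s1 := cell_Mem_pos o1
  have s2 := cell_Mem_pos o2
  have s3 := cell_Mem_pos o3
  have g1 : 0 < m2 + m3 := by omega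
  have g2 : 0 < three - m2 := by omega
  have g3 : 0 < three - m3 := by omega
  have hAM : (mkAff (rat h2 (m2 + m3)) (neg (rat h2 (three - m2))) (rat h3 (m2 + m3))
          (neg (rat h3 (three - m3)))
          (ratU (h2 + h3) (m2 + m3)) (ratU h2 (three - m2)) (ratU h3 (three - m3))).Mem
      ((h2 : ℝ) / (m2 + m3 : ℕ)) (-((h2 : ℝ) / (three - m2 : ℕ))) ((h3 : ℝ) / (m2 + m3 : ℕ))
      (-((h3 : ℝ) / (three - m3 : ℕ))) := by
    apply mkAff_sound (cell_rat_mem _ _ g1) (mem_neg (cell_rat_mem _ _ g2)) (cell_rat_mem _ _ g1)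
      (mem_neg (cell_rat_mem _ _ g3))
    · rw [cell_abs_rat, cell_abs_rat, ← add_div]
      have := cell_ratU_le (h2 + h3) (m2 + m3) g1
      rw [Nat.cast_add h2 h3] at this
      exact this
    · rw [cell_abs_neg_rat]; exact cell_ratU_le _ _ g2
    · rw [cell_abs_neg_rat]; exact cell_ratU_le _ _ g3
  have hmain := jetsI_sound D hD _ _ _ _ _ _ (rr_sound _ o1) (rr_sound _ o2)
    (rr_sound _ o3) _ _ _ _ _ hAM c4 c5 c6
  have hb : ∀ u v : ℝ, (fun i => (3 - bx m2 h2 m3 h3 u v i) / 2) =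
      ![(((m2 + m3) / 2 : ℕ) : ℝ) / 2 ^ 64 *
          (1 + ((h2 : ℝ) / (m2 + m3 : ℕ) * u + (h3 : ℝ) / (m2 + m3 : ℕ) * v)),
        (((three - m2) / 2 : ℕ) : ℝ) / 2 ^ 64 * (1 + -((h2 : ℝ) / (three - m2 : ℕ)) * u),
        (((three - m3) / 2 : ℕ) : ℝ) / 2 ^ 64 * (1 + -((h3 : ℝ) / (three - m3 : ℕ)) * v)] := by
    intro u v
    have e1 := cell_bz_fst m2 h2 m3 h3 _ s1 (by rw [k1]; push_cast; ring) u v
    have e2 := cell_bz_snd m2 h2 _ s2 (three - m2) k2.symm (by rw [k2, t2.2]) u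
    have e3 := cell_bz_snd m3 h3 _ s3 (three - m3) k3.symm (by rw [k3, t3.2]) v
    funext i
    fin_cases i
    · exact e1
    · exact e2
    · exact e3
  simp only [hb]
  exact hmain

theorem cellZ_A (D : Dict) (hD : D.ok = true) (m2 h2 m3 h3 : ℕ) (h2m : h2 ≤ m2) (h3m : h3 ≤ m3)
    (p2 : m2 % 2 = 0) (p3 : m3 % 2 = 0) (hs : m2 + m3 + (h2 + h3) ≤ three)
    (hl2 : m2 + h2 ≤ 65536) (hl3 : m3 + h3 ≤ 65536)
    (o2 : (rr ((three - m2) / 2)).ok = true)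
    (o3 : (rr ((three - m3) / 2)).ok = true)
    (c5 : ratU h2 (three - m2) ≤ 17446744073709551616)
    (c6 : ratU h3 (three - m3) ≤ 17446744073709551616) :
    List.Forall₂ (fun (s : FS) (j : Jv) => j.Mem (fun u v => Fn (s.P, s.T)
      (fun i => (3 - bx m2 h2 m3 h3 u v i) / 2)))
      D.fs (jets1 D (rr ((three - m2) / 2)) (rr ((three - m3) / 2))
        (mkAff zero (neg (rat h2 (three - m2))) zero
          (neg (rat h3 (three - m3)))
          0 (ratU h2 (three - m2)) (ratU h3 (three - m3)))) := by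
  have t2 := cell_three_sub m2 (by omega) p2
  have t3 := cell_three_sub m3 (by omega) p3
  have k2 := cell_half_facts _ t2.1
  have k3 := cell_half_facts _ t3.1
  have s2 := cell_Mem_pos o2
  have s3 := cell_Mem_pos o3
  have g2 : 0 < three - m2 := by omega
  have g3 : 0 < three - m3 := by omega
  have hAM : (mkAff zero (neg (rat h2 (three - m2))) zero
          (neg (rat h3 (three - m3)))
          0 (ratU h2 (three - m2)) (ratU h3 (three - m3))).Mem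
      0 (-((h2 : ℝ) / (three - m2 : ℕ))) 0
      (-((h3 : ℝ) / (three - m3 : ℕ))) := by
    apply mkAff_sound mem_zero (mem_neg (cell_rat_mem _ _ g2)) mem_zero
      (mem_neg (cell_rat_mem _ _ g3))
    · simp
    · rw [cell_abs_neg_rat]; exact cell_ratU_le _ _ g2
    · rw [cell_abs_neg_rat]; exact cell_ratU_le _ _ g3
  have e2 : ∀ u : ℝ, _ := cell_bz_snd m2 h2 _ s2 (three - m2) k2.symm (by rw [k2, t2.2])
  have e3 : ∀ v : ℝ, _ := cell_bz_snd m3 h3 _ s3 (three - m3) k3.symm (by rw [k3, t3.2])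
  have hw : ∀ u v : ℝ, |u| ≤ 1 → |v| ≤ 1 →
      0 ≤ (((m2 : ℝ) + h2 * u) / 2 ^ 64 + ((m3 : ℝ) + h3 * v) / 2 ^ 64) / 2 ∧
      (((m2 : ℝ) + h2 * u) / 2 ^ 64 + ((m3 : ℝ) + h3 * v) / 2 ^ 64) / 2 ≤ 1 / 2 ^ 48 := by
    intro u v hu hv
    have w2 := cell_w_facts m2 h2 h2m hl2 u hu
    have w3 := cell_w_facts m3 h3 h3m hl3 v hv
    constructor
    · linarith [w2.1, w3.1]
    · linarith [w2.2, w3.2]
  have hmain := jets1_soundE D hD _ _ _ _ (rr_sound _ o2)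
    (rr_sound _ o3) _ _ _ hAM rfl rfl rfl c5 c6
    (fun u v => (((m2 : ℝ) + h2 * u) / 2 ^ 64 + ((m3 : ℝ) + h3 * v) / 2 ^ 64) / 2) hw (by
      intro u v hu hv
      have := (hw u v hu hv).1
      rw [← e2 u, ← e3 v]
      linarith)
  have hb : ∀ u v : ℝ, (fun i => (3 - bx m2 h2 m3 h3 u v i) / 2) =
      ![(((m2 : ℝ) + h2 * u) / 2 ^ 64 + ((m3 : ℝ) + h3 * v) / 2 ^ 64) / 2,
        (((three - m2) / 2 : ℕ) : ℝ) / 2 ^ 64 * (1 + -((h2 : ℝ) / (three - m2 : ℕ)) * u),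
        (((three - m3) / 2 : ℕ) : ℝ) / 2 ^ 64 * (1 + -((h3 : ℝ) / (three - m3 : ℕ)) * v)] := by
    intro u v
    funext i
    fin_cases i
    · show (3 - (3 - ((m2 : ℝ) + h2 * u) / 2 ^ 64 - ((m3 : ℝ) + h3 * v) / 2 ^ 64)) / 2 =
        (((m2 : ℝ) + h2 * u) / 2 ^ 64 + ((m3 : ℝ) + h3 * v) / 2 ^ 64) / 2
      ring
    · exact e2 u
    · exact e3 v
  simp only [hb]
  exact hmain

theorem cellZ_eq (D : Dict) (m2 h2 m3 h3 : Nat) : cellZ D m2 h2 m3 h3 =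
  bif and (and (Nat.beq m2 h2) (Nat.beq m3 h3))
      (and (Nat.ble (Nat.add m2 h2) 65536) (Nat.ble (Nat.add m3 h3) 65536)) then
    (and (and (Nat.beq (Nat.mod m2 2) 0) (and (Nat.beq (Nat.mod m3 2) 0)
    (Nat.ble (Nat.add (Nat.add m2 m3) (Nat.add h2 h3)) three)))
      (and (and (rr (Nat.div (Nat.sub three m2) 2)).ok (rr (Nat.div (Nat.sub three m3) 2)).ok)
        (and (Nat.ble (mkAff zero (neg (rat h2 (Nat.sub three m2))) zero
            (neg (rat h3 (Nat.sub three m3))) 0 (ratU h2 (Nat.sub three m2))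
            (ratU h3 (Nat.sub three m3))).ra.y 17446744073709551616)
          (Nat.ble (mkAff zero (neg (rat h2 (Nat.sub three m2))) zero
            (neg (rat h3 (Nat.sub three m3))) 0 (ratU h2 (Nat.sub three m2))
            (ratU h3 (Nat.sub three m3))).ra.z 17446744073709551616))),
      jets1 D (rr (Nat.div (Nat.sub three m2) 2)) (rr (Nat.div (Nat.sub three m3) 2))
        (mkAff zero (neg (rat h2 (Nat.sub three m2))) zero
            (neg (rat h3 (Nat.sub three m3))) 0 (ratU h2 (Nat.sub three m2))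
            (ratU h3 (Nat.sub three m3))))
  else
    (and (and (Nat.beq (Nat.mod m2 2) 0) (and (Nat.beq (Nat.mod m3 2) 0)
    (Nat.ble (Nat.add (Nat.add m2 m3) (Nat.add h2 h3)) three)))
      (and (and (rr (Nat.div (Nat.add m2 m3) 2)).ok (and (rr (Nat.div (Nat.sub three m2) 2)).ok
        (rr (Nat.div (Nat.sub three m3) 2)).ok))
        (and (Nat.ble (mkAff (rat h2 (Nat.add m2 m3)) (neg (rat h2 (Nat.sub three m2)))
          (rat h3 (Nat.add m2 m3)) (neg (rat h3 (Nat.sub three m3)))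
          (ratU (Nat.add h2 h3) (Nat.add m2 m3)) (ratU h2 (Nat.sub three m2))
          (ratU h3 (Nat.sub three m3))).ra.x 17446744073709551616)
          (and (Nat.ble (mkAff (rat h2 (Nat.add m2 m3)) (neg (rat h2 (Nat.sub three m2)))
          (rat h3 (Nat.add m2 m3)) (neg (rat h3 (Nat.sub three m3)))
          (ratU (Nat.add h2 h3) (Nat.add m2 m3)) (ratU h2 (Nat.sub three m2))
          (ratU h3 (Nat.sub three m3))).ra.y 17446744073709551616)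
          (Nat.ble (mkAff (rat h2 (Nat.add m2 m3)) (neg (rat h2 (Nat.sub three m2)))
          (rat h3 (Nat.add m2 m3)) (neg (rat h3 (Nat.sub three m3)))
          (ratU (Nat.add h2 h3) (Nat.add m2 m3)) (ratU h2 (Nat.sub three m2))
          (ratU h3 (Nat.sub three m3))).ra.z 17446744073709551616)))),
      jetsI D (rr (Nat.div (Nat.add m2 m3) 2)) (rr (Nat.div (Nat.sub three m2) 2))
        (rr (Nat.div (Nat.sub three m3) 2)) (mkAff (rat h2 (Nat.add m2 m3))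
          (neg (rat h2 (Nat.sub three m2)))
          (rat h3 (Nat.add m2 m3)) (neg (rat h3 (Nat.sub three m3)))
          (ratU (Nat.add h2 h3) (Nat.add m2 m3)) (ratU h2 (Nat.sub three m2))
          (ratU h3 (Nat.sub three m3)))) := rfl

theorem cellZ_sound (D : Dict) (hD : D.ok = true) (m2 h2 m3 h3 : ℕ) (h2m : h2 ≤ m2)
    (h3m : h3 ≤ m3) (hc : (cellZ D m2 h2 m3 h3).1 = true) :
    List.Forall₂ (fun (s : FS) (j : Jv) => j.Mem (fun u v => Fn (s.P, s.T)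
      (fun i => (3 - bx m2 h2 m3 h3 u v i) / 2))) D.fs (cellZ D m2 h2 m3 h3).2 := by
  have he := cellZ_eq D m2 h2 m3 h3
  rcases hA : (and (and (Nat.beq m2 h2) (Nat.beq m3 h3))
      (and (Nat.ble (Nat.add m2 h2) 65536) (Nat.ble (Nat.add m3 h3) 65536))) with _ | _
  · rw [hA, cond_false] at he
    rw [he] at hc ⊢
    rw [Bool.and_eq_true, Bool.and_eq_true, Bool.and_eq_true, Bool.and_eq_true,
      Bool.and_eq_true, Bool.and_eq_true, Bool.and_eq_true, Bool.and_eq_true] at hc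
    obtain ⟨⟨q2, q3, q4⟩, ⟨o1, o2, o3⟩, c4, c5, c6⟩ := hc
    exact cellZ_B D hD m2 h2 m3 h3 (Nat.eq_of_beq_eq_true q2) (Nat.eq_of_beq_eq_true q3)
      (Nat.le_of_ble_eq_true q4) o1 o2 o3 (Nat.le_of_ble_eq_true c4) (Nat.le_of_ble_eq_true c5)
      (Nat.le_of_ble_eq_true c6)
  · rw [hA, cond_true] at he
    rw [he] at hc ⊢
    rw [Bool.and_eq_true, Bool.and_eq_true, Bool.and_eq_true, Bool.and_eq_true,
      Bool.and_eq_true, Bool.and_eq_true] at hc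
    rw [Bool.and_eq_true, Bool.and_eq_true, Bool.and_eq_true] at hA
    obtain ⟨⟨q2, q3, q4⟩, ⟨o2, o3⟩, c5, c6⟩ := hc
    exact cellZ_A D hD m2 h2 m3 h3 h2m h3m (Nat.eq_of_beq_eq_true q2) (Nat.eq_of_beq_eq_true q3)
      (Nat.le_of_ble_eq_true q4) (Nat.le_of_ble_eq_true hA.2.1) (Nat.le_of_ble_eq_true hA.2.2)
      o2 o3 (Nat.le_of_ble_eq_true c5) (Nat.le_of_ble_eq_true c6)

/-! ### the polynomial cell -/

theorem cellP_sound (m2 h2 m3 h3 : ℕ) :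
    List.Forall₂ (fun (f : (Fin 3 → ℝ) → ℝ) (j : Jv) => j.Mem (fun u v => f (bx m2 h2 m3 h3 u v)))
      [QQ, Neg.RR, fun y => QQ y ^ 2, fun y => QQ y ^ 4] (cellP m2 h2 m3 h3) := by
  set a : ℝ := (m2 : ℝ) / 2 ^ 64 - 1 with ha
  set b : ℝ := (m3 : ℝ) / 2 ^ 64 - 1 with hb
  set x : ℝ := (h2 : ℝ) / 2 ^ 64 with hx
  set y : ℝ := (h3 : ℝ) / 2 ^ 64 with hy
  have ma : (norm ⟨m2, 18446744073709551616, 0⟩ : Bl).Mem a := by
    apply mem_norm
    unfold Bl.Mem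
    rw [ha]
    norm_num
    ring
  have mb : (norm ⟨m3, 18446744073709551616, 0⟩ : Bl).Mem b := by
    apply mem_norm
    unfold Bl.Mem
    rw [hb]
    norm_num
    ring
  have mx : (⟨h2, 0, 0⟩ : Bl).Mem x := by
    unfold Bl.Mem
    rw [hx]
    norm_num
  have my : (⟨h3, 0, 0⟩ : Bl).Mem y := by
    unfold Bl.Mem
    rw [hy]
    norm_num
  set Ba : Bl := norm ⟨m2, 18446744073709551616, 0⟩ with hBa
  set Bb : Bl := norm ⟨m3, 18446744073709551616, 0⟩ with hBb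
  have hbx : ∀ u v : ℝ, bx m2 h2 m3 h3 u v 1 - 1 = a + x * u ∧
      bx m2 h2 m3 h3 u v 2 - 1 = b + y * v ∧
      bx m2 h2 m3 h3 u v 0 - 1 = -(a + x * u) - (b + y * v) := by
    intro u v
    refine ⟨?_, ?_, ?_⟩
    · show ((m2 : ℝ) + h2 * u) / 2 ^ 64 - 1 = _
      rw [ha, hx]; ring
    · show ((m3 : ℝ) + h3 * v) / 2 ^ 64 - 1 = _
      rw [hb, hy]; ring
    · show 3 - ((m2 : ℝ) + h2 * u) / 2 ^ 64 - ((m3 : ℝ) + h3 * v) / 2 ^ 64 - 1 = _
      rw [ha, hb, hx, hy]; ring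
  have hq : (⟨norm (sdiv 3 (Bl.add (Bl.add (mul Ba Ba) (mul Ba Bb)) (mul Bb Bb))),
    norm (sdiv 3 (mul (norm (Bl.add (smul 2 Ba) Bb)) ⟨h2, 0, 0⟩)),
    norm (sdiv 3 (mul (norm (Bl.add Ba (smul 2 Bb))) ⟨h3, 0, 0⟩)),
    sdiv 3 (mul ⟨h2, 0, 0⟩ ⟨h2, 0, 0⟩), sdiv 3 (mul ⟨h2, 0, 0⟩ ⟨h3, 0, 0⟩),
    sdiv 3 (mul ⟨h3, 0, 0⟩ ⟨h3, 0, 0⟩), 0⟩ : Jt).Mem
      (fun u v => QQ (bx m2 h2 m3 h3 u v)) := by
    refine ⟨_, _, _, _, _, _,
      mem_norm (mem_sdiv 3 (by norm_num) (mem_add (mem_add (mem_mul ma ma) (mem_mul ma mb))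
        (mem_mul mb mb))),
      mem_norm (mem_sdiv 3 (by norm_num) (mem_mul (mem_norm (mem_add (mem_smul 2 ma) mb)) mx)),
      mem_norm (mem_sdiv 3 (by norm_num) (mem_mul (mem_norm (mem_add ma (mem_smul 2 mb))) my)),
      mem_sdiv 3 (by norm_num) (mem_mul mx mx), mem_sdiv 3 (by norm_num) (mem_mul mx my),
      mem_sdiv 3 (by norm_num) (mem_mul my my), ?_⟩
    intro u v hu hv
    obtain ⟨e1, e2, e3⟩ := hbx u v
    have : QQ (bx m2 h2 m3 h3 u v) - ((a * a + a * b + b * b) / (3 : ℕ) +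
        ((2 : ℕ) * a + b) * x / (3 : ℕ) * u + (a + (2 : ℕ) * b) * y / (3 : ℕ) * v +
        x * x / (3 : ℕ) * u ^ 2 + x * y / (3 : ℕ) * (u * v) + y * y / (3 : ℕ) * v ^ 2) = 0 := by
      unfold QQ
      rw [e1, e2, e3]
      push_cast
      ring
    rw [this]
    simp
  have hr : (⟨neg (mul (mul Ba Bb) (norm (Bl.add Ba Bb))),
    neg (mul (norm (Bl.add (smul 2 (mul Ba Bb)) (mul Bb Bb))) ⟨h2, 0, 0⟩),
    neg (mul (norm (Bl.add (smul 2 (mul Ba Bb)) (mul Ba Ba))) ⟨h3, 0, 0⟩),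
    neg (mul Bb (mul ⟨h2, 0, 0⟩ ⟨h2, 0, 0⟩)),
    neg (mul (smul 2 (norm (Bl.add Ba Bb))) (mul ⟨h2, 0, 0⟩ ⟨h3, 0, 0⟩)),
    neg (mul Ba (mul ⟨h3, 0, 0⟩ ⟨h3, 0, 0⟩)), mu (mu h2 h3) (Nat.add h2 h3)⟩ : Jt).Mem
      (fun u v => Neg.RR (bx m2 h2 m3 h3 u v)) := by
    refine ⟨_, _, _, _, _, _,
      mem_neg (mem_mul (mem_mul ma mb) (mem_norm (mem_add ma mb))),
      mem_neg (mem_mul (mem_norm (mem_add (mem_smul 2 (mem_mul ma mb)) (mem_mul mb mb))) mx),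
      mem_neg (mem_mul (mem_norm (mem_add (mem_smul 2 (mem_mul ma mb)) (mem_mul ma ma))) my),
      mem_neg (mem_mul mb (mem_mul mx mx)),
      mem_neg (mem_mul (mem_smul 2 (mem_norm (mem_add ma mb))) (mem_mul mx my)),
      mem_neg (mem_mul ma (mem_mul my my)), ?_⟩
    intro u v hu hv
    obtain ⟨e1, e2, e3⟩ := hbx u v
    have e : Neg.RR (bx m2 h2 m3 h3 u v) - (-(a * b * (a + b)) +
        -(((2 : ℕ) * (a * b) + b * b) * x) * u + -(((2 : ℕ) * (a * b) + a * a) * y) * v +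
        -(b * (x * x)) * u ^ 2 + -((2 : ℕ) * (a + b) * (x * y)) * (u * v) +
        -(a * (y * y)) * v ^ 2) = -(x * y * (x * u + y * v) * (u * v)) := by
      unfold Neg.RR
      rw [e1, e2, e3]
      push_cast
      ring
    rw [e]
    have hx0 : 0 ≤ x := by rw [hx]; positivity
    have hy0 : 0 ≤ y := by rw [hy]; positivity
    have m1 := mu_le h2 h3
    have m2' := mu_le (mu h2 h3) (h2 + h3)
    have k1 : |x * y * (x * u + y * v) * (u * v)| ≤ x * y * (x + y) := by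
      rw [abs_mul, abs_mul, abs_mul u v, abs_of_nonneg (mul_nonneg hx0 hy0)]
      have k2 : |x * u + y * v| ≤ x + y := by
        calc |x * u + y * v| ≤ |x * u| + |y * v| := abs_add_le _ _
          _ = x * |u| + y * |v| := by rw [abs_mul, abs_mul, abs_of_nonneg hx0, abs_of_nonneg hy0]
          _ ≤ x * 1 + y * 1 := by gcongr
          _ = x + y := by ring
      have k3 : |u| * |v| ≤ 1 := by
        calc |u| * |v| ≤ 1 * 1 := mul_le_mul hu hv (abs_nonneg _) (by norm_num)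
          _ = 1 := by norm_num
      calc x * y * |x * u + y * v| * (|u| * |v|) ≤ x * y * (x + y) * 1 := by
            apply mul_le_mul _ k3 (by positivity) (by positivity)
            exact mul_le_mul_of_nonneg_left k2 (by positivity)
        _ = x * y * (x + y) := by ring
    rw [abs_neg]
    have k4 : x * y * (x + y) ≤ (mu (mu h2 h3) (h2 + h3) : ℝ) / 2 ^ 64 := by
      refine le_trans ?_ m2'
      have k5 : x + y = ((h2 + h3 : ℕ) : ℝ) / 2 ^ 64 := by rw [hx, hy]; push_cast; ring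
      rw [← k5]
      exact mul_le_mul_of_nonneg_right m1 (by positivity)
    have k6 := k1.trans k4
    rw [le_div_iff₀ (by positivity)] at k6
    exact k6
  have hq2 := sq_sound hq
  have hq4 := sq_sound hq2
  refine List.Forall₂.cons (toJv_sound hq) (List.Forall₂.cons (toJv_sound hr)
    (List.Forall₂.cons (toJv_sound hq2) (List.Forall₂.cons ?_ List.Forall₂.nil)))
  have := toJv_sound hq4
  have e : (fun u v => QQ (bx m2 h2 m3 h3 u v) ^ 4) =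
      fun u v => (QQ (bx m2 h2 m3 h3 u v) ^ 2) ^ 2 := by
    funext u v; ring
  show Jv.Mem (fun u v => QQ (bx m2 h2 m3 h3 u v) ^ 4) _
  rw [e]
  exact this

end Vale.Agent.Lib.P154.Neg.Ck
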