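/-!
Fixed point ball arithmetic and the branch-and-bound checker (code only; raw `Nat` operations so
that the kernel evaluates it quickly).  All fixed point numbers have scale `2^64`.
-/

namespace Vale.Agent.Lib.P154.Neg.Ck

/-- signed fixed point number with error: `x * 2^64` is within `e` of `p - n` -/
structure Bl where
  p : Nat
  n : Nat
  e : Nat

/-- complex number -/
structure Cx where
  re : Bl
  im : Bl

namespace Bl

def zero : Bl := ⟨0, 0, 0⟩
def one : Bl := ⟨18446744073709551616, 0, 0⟩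
def add (a b : Bl) : Bl := ⟨Nat.add a.p b.p, Nat.add a.n b.n, Nat.add a.e b.e⟩
def neg (a : Bl) : Bl := ⟨a.n, a.p, a.e⟩
def sub (a b : Bl) : Bl := ⟨Nat.add a.p b.n, Nat.add a.n b.p, Nat.add a.e b.e⟩
/-- cancel the common part -/
def norm (a : Bl) : Bl := ⟨Nat.sub a.p a.n, Nat.sub a.n a.p, a.e⟩
def mul (a b : Bl) : Bl :=
  ⟨Nat.shiftRight (Nat.add (Nat.mul a.p b.p) (Nat.mul a.n b.n)) 64,
   Nat.shiftRight (Nat.add (Nat.mul a.p b.n) (Nat.mul a.n b.p)) 64,
   Nat.add (Nat.shiftRight (Nat.add (Nat.mul (Nat.add (Nat.add a.p a.n) a.e) b.e)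
     (Nat.mul (Nat.add b.p b.n) a.e)) 64) 2⟩
def smul (k : Nat) (a : Bl) : Bl := ⟨Nat.mul k a.p, Nat.mul k a.n, Nat.mul k a.e⟩
/-- division by a positive natural number -/
def sdiv (k : Nat) (a : Bl) : Bl := ⟨Nat.div a.p k, Nat.div a.n k, Nat.add (Nat.div a.e k) 2⟩
/-- enlarge the error -/
def infl (a : Bl) (d : Nat) : Bl := ⟨a.p, a.n, Nat.add a.e d⟩

/-- `1 + t/k (1 + t/(k+1) (...))`, `n` levels -/
def expH (t : Bl) : Nat → Nat → Bl
  | 0, _ => one
  | n + 1, k => norm (add one (sdiv k (mul t (expH t n (Nat.add k 1)))))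

/-- `1 - u/(k(k+1)) (1 - u/((k+2)(k+3)) (...))`, `n` levels -/
def trH (u : Bl) : Nat → Nat → Bl
  | 0, _ => one
  | n + 1, k => norm (sub one (sdiv (Nat.mul k (Nat.add k 1)) (mul u (trH u n (Nat.add k 2)))))

/-- `exp t` for `|t| ≤ 1/4` -/
def exps (t : Bl) : Bl := infl (expH t 14 1) 2
/-- `cos t` for `|t| ≤ 1/4` -/
def coss (t : Bl) : Bl := infl (trH (mul t t) 7 1) 2
/-- `sin t` for `|t| ≤ 1/4` -/
def sins (t : Bl) : Bl := infl (mul t (trH (mul t t) 7 2)) 2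
/-- `|t| ≤ 1/4` -/
def small (t : Bl) : Bool := Nat.ble (Nat.add (Nat.add t.p t.n) t.e) 4611686018427387904

def sq (a : Bl) : Bl := mul a a

/-- `a ^ T` by binary powering (`fuel > log2 T`), `T ≥ 1` -/
def pw (a : Bl) : Nat → Nat → Bl
  | 0, _ => a
  | f + 1, T => bif Nat.ble T 1 then a else
      bif Nat.beq (Nat.mod T 2) 1 then mul a (sq (pw a f (Nat.div T 2)))
      else sq (pw a f (Nat.div T 2))

/-- `a ^ T`, `T ≤ 31` -/
def pow (a : Bl) (T : Nat) : Bl := bif Nat.beq T 0 then one else pw a 5 T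

end Bl

namespace Cx

open Bl

def mul (a b : Cx) : Cx :=
  ⟨norm (Bl.sub (Bl.mul a.re b.re) (Bl.mul a.im b.im)),
   norm (Bl.add (Bl.mul a.re b.im) (Bl.mul a.im b.re))⟩
def sq (a : Cx) : Cx :=
  ⟨norm (Bl.sub (Bl.mul a.re a.re) (Bl.mul a.im a.im)), smul 2 (Bl.mul a.re a.im)⟩
def conj (a : Cx) : Cx := ⟨a.re, Bl.neg a.im⟩
def one : Cx := ⟨Bl.one, Bl.zero⟩

def pw (a : Cx) : Nat → Nat → Cx
  | 0, _ => a
  | f + 1, T => bif Nat.ble T 1 then a else
      bif Nat.beq (Nat.mod T 2) 1 then mul a (sq (pw a f (Nat.div T 2)))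
      else sq (pw a f (Nat.div T 2))

def pow (a : Cx) (T : Nat) : Cx := bif Nat.beq T 0 then one else pw a 5 T

end Cx

/-- Horner sum for `atanh`, unverified -/
def atH (y : Nat) : Nat → Nat → Nat
  | 0, d => Nat.div 18446744073709551616 d
  | n + 1, d => Nat.add (Nat.div 18446744073709551616 d)
      (Nat.shiftRight (Nat.mul y (atH y n (Nat.add d 2))) 64)

/-- approximation of `ln(m / 2^64) / 256`, unverified -/
def lnApp (m : Nat) : Bl :=
  let k := Nat.log2 m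
  let f := Nat.div (Nat.shiftLeft m 64) (Nat.shiftLeft 1 k)
  let y := Nat.div (Nat.shiftLeft (Nat.sub f 18446744073709551616) 64)
    (Nat.add f 18446744073709551616)
  let y2 := Nat.shiftRight (Nat.mul y y) 64
  let l := Nat.shiftRight (Nat.mul y (atH y2 18 1)) 63
  Bl.norm ⟨Nat.div (Nat.add l (Nat.mul k 12786308645202655660)) 256,
    Nat.div (Nat.mul 64 12786308645202655660) 256, 0⟩

/-- sixteenth root and rotation of a coordinate -/
structure RR where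
  ok : Bool
  g : Bl
  w : Cx

def rrAux (m : Nat) (t : Bl) (g0 : Bl) : RR :=
  let g := g0.p
  let g2 := Nat.mul g g
  let g4 := Nat.mul g2 g2
  let g8 := Nat.mul g4 g4
  let g16 := Nat.mul g8 g8
  let M := Nat.shiftLeft m 960
  let w := Cx.sq (Cx.sq (Cx.sq (Cx.sq ⟨Bl.coss t, Bl.sins t⟩)))
  let d := Nat.add (Nat.div (Nat.shiftLeft
    (Nat.mul 2 (Nat.add (Nat.add (Nat.shiftRight g 51) 1) g0.e)) 64) g) 1
  ⟨and (Bl.small t) (and (Nat.beq g0.n 0) (and (Nat.ble 1 g) (and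
      (Nat.ble (Nat.shiftLeft (Nat.add (Nat.sub g16 M) (Nat.sub M g16)) 48) M)
      (Nat.ble (Nat.mul 4 (Nat.add (Nat.add (Nat.shiftRight g 51) 1) g0.e)) g)))),
   ⟨g, 0, Nat.add (Nat.shiftRight g 51) 1⟩,
   ⟨Bl.infl w.re d, Bl.infl w.im d⟩⟩

/-- `m / 2^64 > 0`: balls for the 1/16-th and the i/16-th power -/
def rr (m : Nat) : RR :=
  let t := lnApp m
  rrAux m t (Bl.sq (Bl.sq (Bl.sq (Bl.sq (Bl.exps t)))))

end Vale.Agent.Lib.P154.Neg.Ck
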