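import Vale.Agent.Lib.P154.Neg.NDefs

/-! Definitions for the verified certificates, three states and `lam < 0`. -/

namespace Vale.Agent.Lib.P154.Neg

open scoped BigOperators

/-- nonnegative vectors of total mass 3 -/
def Sx (y : Fin 3 → ℝ) : Prop := (∀ i, 0 ≤ y i) ∧ ∑ i, y i = 3

/-- real part of one character -/
noncomputable def Xc (p t a b c : ℝ) : ℝ :=
  (a * b) ^ p * c ^ (1 - 2 * p) * Real.cos (t * (Real.log a - Real.log b))

/-- imaginary part of one character -/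
noncomputable def Xs (p t a b c : ℝ) : ℝ :=
  (a * b) ^ p * c ^ (1 - 2 * p) * Real.sin (t * (Real.log a - Real.log b))

/-- modulus of one character -/
noncomputable def Xe (p a b c : ℝ) : ℝ := (a * b) ^ p * c ^ (1 - 2 * p)

/-- functional with exponents in sixteenths -/
noncomputable def Fn (a : ℕ × ℕ) (y : Fin 3 → ℝ) : ℝ := Fc ((a.1 : ℝ) / 16) ((a.2 : ℝ) / 16) y

noncomputable def QQ (y : Fin 3 → ℝ) : ℝ := ((y 0 - 1) ^ 2 + (y 1 - 1) ^ 2 + (y 2 - 1) ^ 2) / 6

def RR (y : Fin 3 → ℝ) : ℝ := (y 0 - 1) * (y 1 - 1) * (y 2 - 1)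

/-- the five functionals used for tangents -/
def fT : Fin 5 → ℕ × ℕ := ![(8, 0), (8, 4), (8, 8), (8, 16), (7, 8)]

/-- the reference functional -/
def fR : ℕ × ℕ := (6, 8)

end Vale.Agent.Lib.P154.Neg
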