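import Vale.Agent.Lib.P154.Neg.CkSmallB
import Vale.Agent.Lib.P154.Neg.CkNodes
import Vale.Agent.Lib.P154.Neg.CkDefs

/-! Statements connecting the certificates with the recursion inequality. -/

namespace Vale.Agent.Lib.P154.Neg.Ck

open scoped BigOperators

/-- the recursion inequality of a certificate, for all `-s ≤ lam ≤ 0` and `D lam^2 ≤ 1` -/
def GoodC (s : ℝ) (c : Ct) : Prop :=
  ∀ lam D : ℝ, -s ≤ lam → lam ≤ 0 → 0 < D → D * lam ^ 2 ≤ 1 → ∀ y, Sx y →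
    0 ≤ ∑ a, c.W a * (1 - Fn (fT a) y) - (1 - Fn fR y) + c.m0
      - D * (∑ a, c.G a * (1 - Fn (fT a) (chan 3 lam y)) - c.nu * (1 - Fn fR (chan 3 lam y)))

/-- tangent functionals of the direct certificates -/
def f4 : Fin 5 → ℕ × ℕ := ![(8, 4), (8, 6), (8, 16), (6, 8), (7, 8)]

/-- the recursion inequality of a direct certificate: `lam = -1/2`, `D = 4` -/
def Good4 (c : Ct) : Prop :=
  ∀ y, Sx y → 0 ≤ ∑ a, c.W a * (1 - Fn (f4 a) y) - (1 - Fn (6, 7) y) + c.m0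
      - 4 * (∑ a, c.G a * (1 - Fn (f4 a) (chan 3 (-(1 / 2)) y))
        - c.nu * (1 - Fn (6, 7) (chan 3 (-(1 / 2)) y)))

theorem GoodC.mono {s s' : ℝ} (h : s' ≤ s) {c : Ct} (hc : GoodC s c) : GoodC s' c :=
  fun lam D h0 h1 h2 h3 => hc lam D (by linarith) h1 h2 h3

theorem nthN_mem : ∀ (L : List Nd) (i : ℕ), i < L.length → nthN L i ∈ L
  | [], i, h => by simp at h
  | a :: l, 0, _ => by simp [nthN]
  | a :: l, i + 1, h => by
      have : nthN (a :: l) (i + 1) = nthN l i := rfl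
      rw [this]
      exact List.mem_cons_of_mem _ (nthN_mem l i (by simpa using h))

theorem good_hull {s : ℝ} {L : List Nd} (h : ∀ n ∈ L, GoodC s n.ct) {c : Ct} (hc : Hull L c) :
    GoodC s c := by
  obtain ⟨i, t, hi, ht0, ht1, rfl⟩ := hc
  intro lam D h0 h1 h2 h3 y hy
  have e1 := h _ (nthN_mem L i (by omega)) lam D h0 h1 h2 h3 y hy
  have e2 := h _ (nthN_mem L (i + 1) hi) lam D h0 h1 h2 h3 y hy
  simp only [Ct.mix, Fin.sum_univ_five] at e1 e2 ⊢
  nlinarith [mul_nonneg (sub_nonneg.2 ht1) e1, mul_nonneg ht0 e2]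

theorem good4_hull {L : List Nd} (h : ∀ n ∈ L, Good4 n.ct) {c : Ct} (hc : Hull L c) :
    Good4 c := by
  obtain ⟨i, t, hi, ht0, ht1, rfl⟩ := hc
  intro y hy
  have e1 := h _ (nthN_mem L i (by omega)) y hy
  have e2 := h _ (nthN_mem L (i + 1) hi) y hy
  simp only [Ct.mix, Fin.sum_univ_five] at e1 e2 ⊢
  nlinarith [mul_nonneg (sub_nonneg.2 ht1) e1, mul_nonneg ht0 e2]

end Vale.Agent.Lib.P154.Neg.Ck
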