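import Vale.Agent.Lib.P154.Neg.CkRuns

/-! Kernel evaluation, run B, part 1. -/

namespace Vale.Agent.Lib.P154.Neg.Ck

set_option maxRecDepth 100000

def tB11 : Tr := .s3 .sk .sk

theorem cB11 : run runB tB11 25364273101350633472 2305843009213693952 13835058055282163712 4611686018427387904 = true := by decide +kernel

def tB12 : Tr := Tr.sk

theorem cB12 : run runB tB12 32281802128991715328 4611686018427387904 9223372036854775808 9223372036854775808 = true := by decide +kernel

def tB13 : Tr := .s2 (.s3 (.s2 (.s3 (.s3 (.s2 (.s3 (.s2 (.s3 (.s2 (.s3 (.s2 .lf .sk) .sk) .sk) .sk) .sk) .sk) .sk) .sk) .sk) .sk) .sk) .sk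

theorem cB13 : run runB tB13 27670116110564327424 9223372036854775808 27670116110564327424 9223372036854775808 = true := by decide +kernel

end Vale.Agent.Lib.P154.Neg.Ck
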