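import Vale.Agent.Lib.P154.Neg.CkCell

/-! Assembly of runs from parts. -/

namespace Vale.Agent.Lib.P154.Neg.Ck

theorem run_s2' {R : Run} (l r : Tr) {m2 h2 m3 h3 a b c : Nat}
    (h : (Nat.beq (Nat.mod h2 2) 0 && Nat.beq a (Nat.sub m2 (Nat.div h2 2)) &&
      Nat.beq b (Nat.add m2 (Nat.div h2 2)) && Nat.beq c (Nat.div h2 2)) = true)
    (hl : run R l a c m3 h3 = true) (hr : run R r b c m3 h3 = true) :
    run R (.s2 l r) m2 h2 m3 h3 = true := by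
  simp only [Bool.and_eq_true] at h
  obtain ⟨⟨⟨h0, ha⟩, hb⟩, hc⟩ := h
  have ha' := Nat.eq_of_beq_eq_true ha
  have hb' := Nat.eq_of_beq_eq_true hb
  have hc' := Nat.eq_of_beq_eq_true hc
  rw [ha', hc'] at hl
  rw [hb', hc'] at hr
  show and (Nat.beq (Nat.mod h2 2) 0) (and _ _) = true
  rw [h0, hl, hr]
  rfl

theorem run_s3' {R : Run} (l r : Tr) {m2 h2 m3 h3 a b c : Nat}
    (h : (Nat.beq (Nat.mod h3 2) 0 && Nat.beq a (Nat.sub m3 (Nat.div h3 2)) &&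
      Nat.beq b (Nat.add m3 (Nat.div h3 2)) && Nat.beq c (Nat.div h3 2)) = true)
    (hl : run R l m2 h2 a c = true) (hr : run R r m2 h2 b c = true) :
    run R (.s3 l r) m2 h2 m3 h3 = true := by
  simp only [Bool.and_eq_true] at h
  obtain ⟨⟨⟨h0, ha⟩, hb⟩, hc⟩ := h
  have ha' := Nat.eq_of_beq_eq_true ha
  have hb' := Nat.eq_of_beq_eq_true hb
  have hc' := Nat.eq_of_beq_eq_true hc
  rw [ha', hc'] at hl
  rw [hb', hc'] at hr
  show and (Nat.beq (Nat.mod h3 2) 0) (and _ _) = true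
  rw [h0, hl, hr]
  rfl

end Vale.Agent.Lib.P154.Neg.Ck
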