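import Vale.Agent.Lib.P154.Neg.CkGB0
import Vale.Agent.Lib.P154.Neg.CkGB1
import Vale.Agent.Lib.P154.Neg.CkTopAux

/-! Assembly of run B. -/

namespace Vale.Agent.Lib.P154.Neg.Ck

def TB0 : Tr := .s3 tB4 tB5
theorem CB0 : run runB TB0 16140901064495857664 2305843009213693952 16140901064495857664 2305843009213693952 = true :=
  run_s3' tB4 tB5 (by decide) cB4 cB5

def TB1 : Tr := .s2 tB3 TB0
theorem CB1 : run runB TB1 13835058055282163712 4611686018427387904 16140901064495857664 2305843009213693952 = true :=
  run_s2' tB3 TB0 (by decide) cB3 CB0

def TB2 : Tr := .s3 tB2 TB1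
theorem CB2 : run runB TB2 13835058055282163712 4611686018427387904 13835058055282163712 4611686018427387904 = true :=
  run_s3' tB2 TB1 (by decide) cB2 CB1

def TB3 : Tr := .s3 tB1 TB2
theorem CB3 : run runB TB3 13835058055282163712 4611686018427387904 9223372036854775808 9223372036854775808 = true :=
  run_s3' tB1 TB2 (by decide) cB1 CB2

def TB4 : Tr := .s2 tB0 TB3
theorem CB4 : run runB TB4 9223372036854775808 9223372036854775808 9223372036854775808 9223372036854775808 = true :=
  run_s2' tB0 TB3 (by decide) cB0 CB3

def TB5 : Tr := .s3 TB4 tB6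
theorem CB5 : run runB TB5 9223372036854775808 9223372036854775808 18446744073709551616 18446744073709551616 = true :=
  run_s3' TB4 tB6 (by decide) CB4 cB6

def TB6 : Tr := .s3 tB9 tB10
theorem CB6 : run runB TB6 20752587082923245568 2305843009213693952 16140901064495857664 2305843009213693952 = true :=
  run_s3' tB9 tB10 (by decide) cB9 cB10

def TB7 : Tr := .s3 tB8 TB6
theorem CB7 : run runB TB7 20752587082923245568 2305843009213693952 13835058055282163712 4611686018427387904 = true :=
  run_s3' tB8 TB6 (by decide) cB8 CB6

def TB8 : Tr := .s2 TB7 tB11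
theorem CB8 : run runB TB8 23058430092136939520 4611686018427387904 13835058055282163712 4611686018427387904 = true :=
  run_s2' TB7 tB11 (by decide) CB7 cB11

def TB9 : Tr := .s3 tB7 TB8
theorem CB9 : run runB TB9 23058430092136939520 4611686018427387904 9223372036854775808 9223372036854775808 = true :=
  run_s3' tB7 TB8 (by decide) cB7 CB8

def TB10 : Tr := .s2 TB9 tB12
theorem CB10 : run runB TB10 27670116110564327424 9223372036854775808 9223372036854775808 9223372036854775808 = true :=
  run_s2' TB9 tB12 (by decide) CB9 cB12

def TB11 : Tr := .s3 TB10 tB13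
theorem CB11 : run runB TB11 27670116110564327424 9223372036854775808 18446744073709551616 18446744073709551616 = true :=
  run_s3' TB10 tB13 (by decide) CB10 cB13

def TB12 : Tr := .s2 TB5 TB11
theorem CB12 : run runB TB12 18446744073709551616 18446744073709551616 18446744073709551616 18446744073709551616 = true :=
  run_s2' TB5 TB11 (by decide) CB5 CB11

/-- the complete run -/
theorem allB : run runB TB12 one64 one64 one64 one64 = true := CB12

end Vale.Agent.Lib.P154.Neg.Ck
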