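import Vale.Agent.Lib.P154.Neg.CkGD0
import Vale.Agent.Lib.P154.Neg.CkGD1
import Vale.Agent.Lib.P154.Neg.CkTopAux

/-! Assembly of run D. -/

namespace Vale.Agent.Lib.P154.Neg.Ck

def TD0 : Tr := .s3 tD2 tD3
theorem CD0 : run runD TD0 13835058055282163712 4611686018427387904 13835058055282163712 4611686018427387904 = true :=
  run_s3' tD2 tD3 (by decide) cD2 cD3

def TD1 : Tr := .s3 tD1 TD0
theorem CD1 : run runD TD1 13835058055282163712 4611686018427387904 9223372036854775808 9223372036854775808 = true :=
  run_s3' tD1 TD0 (by decide) cD1 CD0

def TD2 : Tr := .s2 tD0 TD1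
theorem CD2 : run runD TD2 9223372036854775808 9223372036854775808 9223372036854775808 9223372036854775808 = true :=
  run_s2' tD0 TD1 (by decide) cD0 CD1

def TD3 : Tr := .s3 TD2 tD4
theorem CD3 : run runD TD3 9223372036854775808 9223372036854775808 18446744073709551616 18446744073709551616 = true :=
  run_s3' TD2 tD4 (by decide) CD2 cD4

def TD4 : Tr := .s3 tD5 tD6
theorem CD4 : run runD TD4 23058430092136939520 4611686018427387904 1152921504606846976 1152921504606846976 = true :=
  run_s3' tD5 tD6 (by decide) cD5 cD6

def TD5 : Tr := .s3 TD4 tD7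
theorem CD5 : run runD TD5 23058430092136939520 4611686018427387904 2305843009213693952 2305843009213693952 = true :=
  run_s3' TD4 tD7 (by decide) CD4 cD7

def TD6 : Tr := .s3 TD5 tD8
theorem CD6 : run runD TD6 23058430092136939520 4611686018427387904 4611686018427387904 4611686018427387904 = true :=
  run_s3' TD5 tD8 (by decide) CD5 cD8

def TD7 : Tr := .s3 tD9 tD10
theorem CD7 : run runD TD7 20752587082923245568 2305843009213693952 11529215046068469760 2305843009213693952 = true :=
  run_s3' tD9 tD10 (by decide) cD9 cD10

def TD8 : Tr := .s3 TD7 tD11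
theorem CD8 : run runD TD8 20752587082923245568 2305843009213693952 13835058055282163712 4611686018427387904 = true :=
  run_s3' TD7 tD11 (by decide) CD7 cD11

def TD9 : Tr := .s2 TD8 tD12
theorem CD9 : run runD TD9 23058430092136939520 4611686018427387904 13835058055282163712 4611686018427387904 = true :=
  run_s2' TD8 tD12 (by decide) CD8 cD12

def TD10 : Tr := .s3 TD6 TD9
theorem CD10 : run runD TD10 23058430092136939520 4611686018427387904 9223372036854775808 9223372036854775808 = true :=
  run_s3' TD6 TD9 (by decide) CD6 CD9

def TD11 : Tr := .s2 TD10 tD13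
theorem CD11 : run runD TD11 27670116110564327424 9223372036854775808 9223372036854775808 9223372036854775808 = true :=
  run_s2' TD10 tD13 (by decide) CD10 cD13

def TD12 : Tr := .s3 TD11 tD14
theorem CD12 : run runD TD12 27670116110564327424 9223372036854775808 18446744073709551616 18446744073709551616 = true :=
  run_s3' TD11 tD14 (by decide) CD11 cD14

def TD13 : Tr := .s2 TD3 TD12
theorem CD13 : run runD TD13 18446744073709551616 18446744073709551616 18446744073709551616 18446744073709551616 = true :=
  run_s2' TD3 TD12 (by decide) CD3 CD12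

/-- the complete run -/
theorem allD : run runD TD13 one64 one64 one64 one64 = true := CD13

end Vale.Agent.Lib.P154.Neg.Ck
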