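import Vale.Agent.Lib.P154.Neg.CkGE0
import Vale.Agent.Lib.P154.Neg.CkTopAux

/-! Assembly of run E. -/

namespace Vale.Agent.Lib.P154.Neg.Ck

def TE0 : Tr := .s3 tE1 tE2
theorem CE0 : run runE TE0 23058430092136939520 4611686018427387904 9223372036854775808 9223372036854775808 = true :=
  run_s3' tE1 tE2 (by decide) cE1 cE2

def TE1 : Tr := .s2 TE0 tE3
theorem CE1 : run runE TE1 27670116110564327424 9223372036854775808 9223372036854775808 9223372036854775808 = true :=
  run_s2' TE0 tE3 (by decide) CE0 cE3

def TE2 : Tr := .s3 TE1 tE4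
theorem CE2 : run runE TE2 27670116110564327424 9223372036854775808 18446744073709551616 18446744073709551616 = true :=
  run_s3' TE1 tE4 (by decide) CE1 cE4

def TE3 : Tr := .s2 tE0 TE2
theorem CE3 : run runE TE3 18446744073709551616 18446744073709551616 18446744073709551616 18446744073709551616 = true :=
  run_s2' tE0 TE2 (by decide) cE0 CE2

/-- the complete run -/
theorem allE : run runE TE3 one64 one64 one64 one64 = true := CE3

end Vale.Agent.Lib.P154.Neg.Ck
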