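import Vale.Agent.Lib.P154.Neg.CkGK0
import Vale.Agent.Lib.P154.Neg.CkTopAux

/-! Assembly of run K. -/

namespace Vale.Agent.Lib.P154.Neg.Ck

def TK0 : Tr := .s3 tK1 tK2
theorem CK0 : run runK TK0 23058430092136939520 4611686018427387904 4611686018427387904 4611686018427387904 = true :=
  run_s3' tK1 tK2 (by decide) cK1 cK2

def TK1 : Tr := .s3 TK0 tK3
theorem CK1 : run runK TK1 23058430092136939520 4611686018427387904 9223372036854775808 9223372036854775808 = true :=
  run_s3' TK0 tK3 (by decide) CK0 cK3

def TK2 : Tr := .s2 TK1 tK4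
theorem CK2 : run runK TK2 27670116110564327424 9223372036854775808 9223372036854775808 9223372036854775808 = true :=
  run_s2' TK1 tK4 (by decide) CK1 cK4

def TK3 : Tr := .s3 TK2 tK5
theorem CK3 : run runK TK3 27670116110564327424 9223372036854775808 18446744073709551616 18446744073709551616 = true :=
  run_s3' TK2 tK5 (by decide) CK2 cK5

def TK4 : Tr := .s2 tK0 TK3
theorem CK4 : run runK TK4 18446744073709551616 18446744073709551616 18446744073709551616 18446744073709551616 = true :=
  run_s2' tK0 TK3 (by decide) cK0 CK3

/-- the complete run -/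
theorem allK : run runK TK4 one64 one64 one64 one64 = true := CK4

end Vale.Agent.Lib.P154.Neg.Ck
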