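import Vale.Agent.Lib.P154.Neg.CkHolds
import Vale.Agent.Lib.P154.Neg.CkTopA
import Vale.Agent.Lib.P154.Neg.CkTopB
import Vale.Agent.Lib.P154.Neg.CkTopC
import Vale.Agent.Lib.P154.Neg.CkTopM
import Vale.Agent.Lib.P154.Neg.CkTopD
import Vale.Agent.Lib.P154.Neg.CkTopE
import Vale.Agent.Lib.P154.Neg.CkTopK
import Vale.Agent.Lib.P154.Neg.CkTopR

/-! The outcome of the runs. -/

namespace Vale.Agent.Lib.P154.Neg.Ck

set_option maxRecDepth 100000

theorem holdA : runA.Holds := fun t ht y hy =>
  run_sound runA (by decide +kernel) (by decide +kernel) TA155 allA t ht y hy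

theorem holdB : runB.Holds := fun t ht y hy =>
  run_sound runB (by decide +kernel) (by decide +kernel) TB12 allB t ht y hy

theorem holdC : runC.Holds := fun t ht y hy =>
  run_sound runC (by decide +kernel) (by decide +kernel) TC145 allC t ht y hy

theorem holdM : runM.Holds := fun t ht y hy =>
  run_sound runM (by decide +kernel) (by decide +kernel) TM27 allM t ht y hy

theorem holdD : runD.Holds := fun t ht y hy =>
  run_sound runD (by decide +kernel) (by decide +kernel) TD13 allD t ht y hy

theorem holdE : runE.Holds := fun t ht y hy =>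
  run_sound runE (by decide +kernel) (by decide +kernel) TE3 allE t ht y hy

theorem holdK : runK.Holds := fun t ht y hy =>
  run_sound runK (by decide +kernel) (by decide +kernel) TK4 allK t ht y hy

theorem holdR : runR.Holds := fun t ht y hy =>
  run_sound runR (by decide +kernel) (by decide +kernel) TR379 allR t ht y hy

end Vale.Agent.Lib.P154.Neg.Ck
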