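import Vale.Agent.Lib.P154.Neg.CkAsm
import Vale.Agent.Lib.P154.Neg.CkHold
import Vale.Agent.Lib.P154.Neg.CkLink

/-! Nonreconstruction for three states and negative eigenvalue. -/

namespace Vale.Agent.Lib.P154.Neg

open Filter Topology

theorem Ck.facts : Ck.Facts where
  g := Ck.good_half Ck.holdA Ck.holdB Ck.holdD Ck.holdM
  five := Ck.good_five Ck.holdA Ck.holdB Ck.holdE Ck.holdM
  small := fun B h0 h1 => Ck.good_small Ck.holdA Ck.holdC Ck.holdD B h0 h1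
  four := Ck.good_four Ck.holdR
  link := fun y hy h => Ck.link67 Ck.holdK y hy h

theorem neg_reg (lam : ℝ) (h0 : -(1 / 2) ≤ lam) (h1 : lam < 0) (d : ℕ)
    (hDl : (d : ℝ) * lam ^ 2 ≤ 1) : Tendsto (aReg 3 lam d) atTop (𝓝 0) :=
  Ck.reg_all Ck.facts lam h0 h1 d hDl

theorem neg_gw (lam : ℝ) (h0 : -(1 / 2) ≤ lam) (h1 : lam < 0) (d : ℝ) (hd : 0 < d)
    (hDl : d * lam ^ 2 ≤ 1) : Tendsto (aGW 3 lam d) atTop (𝓝 0) :=
  Ck.gw_zero Ck.facts lam h0 h1 d hd hDl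

end Vale.Agent.Lib.P154.Neg
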