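import Vale.Agent.Lib.P154.Neg.CkDefs

/-! Third-order local model of a character. -/

namespace Vale.Agent.Lib.P154.Neg

/-- third order Taylor remainder for a curve in `ℂ` -/
theorem taylor3 {f f1 f2 f3 : ℝ → ℂ} {C : ℝ}
    (h0 : ∀ s ∈ Set.Icc (0 : ℝ) 1, HasDerivAt f (f1 s) s)
    (h1 : ∀ s ∈ Set.Icc (0 : ℝ) 1, HasDerivAt f1 (f2 s) s)
    (h2 : ∀ s ∈ Set.Icc (0 : ℝ) 1, HasDerivAt f2 (f3 s) s)
    (hC : ∀ s ∈ Set.Icc (0 : ℝ) 1, ‖f3 s‖ ≤ C) :
    ‖f 1 - (f 0 + f1 0 + f2 0 / 2)‖ ≤ C / 6 := by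
  have key : ∀ (g g' : ℝ → ℂ) (B B' : ℝ → ℝ),
      (∀ s ∈ Set.Icc (0 : ℝ) 1, HasDerivAt g (g' s) s) → g 0 = 0 → B 0 = 0 →
      (∀ s, HasDerivAt B (B' s) s) → (∀ s ∈ Set.Icc (0 : ℝ) 1, ‖g' s‖ ≤ B' s) →
      ∀ s ∈ Set.Icc (0 : ℝ) 1, ‖g s‖ ≤ B s := by
    intro g g' B B' hg hg0 hB0 hB hb s hs
    exact image_norm_le_of_norm_deriv_right_le_deriv_boundary (f := g) (f' := g') (a := 0) (b := 1)
      (fun s hs => (hg s hs).continuousAt.continuousWithinAt)
      (fun s hs => (hg s ⟨hs.1, hs.2.le⟩).hasDerivWithinAt)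
      (by rw [hg0, hB0, norm_zero]) hB (fun s hs => hb s ⟨hs.1, hs.2.le⟩) hs
  have hofr : ∀ s : ℝ, HasDerivAt (fun s : ℝ => (s : ℂ)) 1 s := by
    intro s
    exact Complex.ofRealCLM.hasDerivAt
  have a1 := key (fun s => f2 s - f2 0) f3 (fun s => C * s) (fun _ => C)
    (fun s hs => (h2 s hs).sub_const _) (by simp) (by simp)
    (fun s => by simpa using (hasDerivAt_id s).const_mul C) hC
  have a2 := key (fun s => f1 s - f1 0 - s * f2 0) (fun s => f2 s - f2 0)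
    (fun s => C * s ^ 2 / 2) (fun s => C * s)
    (fun s hs => by
      have := ((h1 s hs).sub_const (f1 0)).sub ((hofr s).mul_const (f2 0))
      rw [one_mul] at this
      exact this)
    (by simp) (by simp)
    (fun s => by
      have := ((hasDerivAt_pow 2 s).const_mul C).div_const 2
      refine this.congr_deriv ?_
      simp; ring) a1
  have a3 := key (fun s => f s - f 0 - s * f1 0 - (s : ℂ) ^ 2 * (f2 0 / 2))
    (fun s => f1 s - f1 0 - s * f2 0)
    (fun s => C * s ^ 3 / 6) (fun s => C * s ^ 2 / 2)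
    (fun s hs => by
      have e2 : HasDerivAt (fun s : ℝ => (s : ℂ) ^ 2) (2 * (s : ℂ)) s := by
        have := (hofr s).pow 2
        refine this.congr_deriv ?_
        simp
      have := (((h0 s hs).sub_const (f 0)).sub ((hofr s).mul_const (f1 0))).sub
        (e2.mul_const (f2 0 / 2))
      refine this.congr_deriv ?_
      ring)
    (by simp) (by simp)
    (fun s => by
      have := ((hasDerivAt_pow 3 s).const_mul C).div_const 6
      refine this.congr_deriv ?_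
      simp; ring) a2
  have := a3 1 ⟨zero_le_one, le_rfl⟩
  simp only [Complex.ofReal_one, one_mul, one_pow, mul_one] at this
  convert this using 2
  ring

/-- Second order Taylor polynomial of a character in relative coordinates, with remainder.
`A` bounds `sqrt (p^2+t^2)`. -/
theorem char_model (p t A : ℝ) (hp : 0 < p) (hp2 : p ≤ 1 / 2) (hA : 0 ≤ A)
    (hA2 : p ^ 2 + t ^ 2 ≤ A ^ 2) (a b c : ℝ) (ha : 0 < a) (hb : 0 < b) (hc : 0 < c)
    (x y z ra rb rc r : ℝ) (hx : |x| ≤ ra) (hy : |y| ≤ rb) (hz : |z| ≤ rc)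
    (hra : ra ≤ r) (hrb : rb ≤ r) (hrc : rc ≤ r) (hr : r < 1) :
    |Xc p t (a * (1 + x)) (b * (1 + y)) (c * (1 + z)) -
      (Xc p t a b c * (1 + (p * (x + y) + (1 - 2 * p) * z)
          + ((p * (x + y) + (1 - 2 * p) * z) ^ 2 - (t * (x - y)) ^ 2
            - (p * (x ^ 2 + y ^ 2) + (1 - 2 * p) * z ^ 2)) / 2)
        - Xs p t a b c * (t * (x - y) + (p * (x + y) + (1 - 2 * p) * z) * (t * (x - y))
            - t * (x ^ 2 - y ^ 2) / 2))| ≤
    Xe p a b c * (((A * (ra + rb) + (1 - 2 * p) * rc) ^ 3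
        + 3 * (A * (ra + rb) + (1 - 2 * p) * rc) * (A * (ra ^ 2 + rb ^ 2) + (1 - 2 * p) * rc ^ 2)
        + 2 * (A * (ra ^ 3 + rb ^ 3) + (1 - 2 * p) * rc ^ 3)) / 6 * ((1 + r) / (1 - r) ^ 3)) := by
  have hra0 : 0 ≤ ra := (abs_nonneg x).trans hx
  have hrb0 : 0 ≤ rb := (abs_nonneg y).trans hy
  have hrc0 : 0 ≤ rc := (abs_nonneg z).trans hz
  have hr0 : 0 ≤ r := hra0.trans hra
  have h1r : 0 < 1 - r := by linarith
  have hγ : 0 ≤ 1 - 2 * p := by linarith
  -- complex exponents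
  set α : ℂ := ⟨p, t⟩ with hα
  set β : ℂ := ⟨p, -t⟩ with hβ
  have hαn : ‖α‖ ≤ A := by
    rw [← abs_of_nonneg (norm_nonneg α), ← abs_of_nonneg hA]
    apply sq_le_sq.1
    rw [← Complex.normSq_eq_norm_sq, Complex.normSq_mk]
    nlinarith
  have hβn : ‖β‖ ≤ A := by
    rw [← abs_of_nonneg (norm_nonneg β), ← abs_of_nonneg hA]
    apply sq_le_sq.1
    rw [← Complex.normSq_eq_norm_sq, Complex.normSq_mk]
    nlinarith
  -- basic facts on `1 + s w`
  have hw : ∀ s ∈ Set.Icc (0 : ℝ) 1, ∀ w ρ : ℝ, |w| ≤ ρ → ρ ≤ r →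
      1 - r ≤ 1 + s * w ∧ 1 + s * w ≤ 1 + r ∧ |w / (1 + s * w)| ≤ ρ / (1 - r) := by
    intro s hs w ρ h1 h2
    have h3 : |s * w| ≤ r := by
      rw [abs_mul, abs_of_nonneg hs.1]
      calc s * |w| ≤ 1 * |w| := mul_le_mul_of_nonneg_right hs.2 (abs_nonneg _)
        _ ≤ r := by linarith
    have h4 := abs_le.1 h3
    have h5 : 0 < 1 + s * w := by linarith
    refine ⟨by linarith, by linarith, ?_⟩
    rw [abs_div, abs_of_pos h5]
    exact div_le_div₀ ((abs_nonneg w).trans h1) h1 h1r (by linarith)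
  -- the curve
  let D : ℝ → ℝ → ℕ → ℝ := fun w s k => (w / (1 + s * w)) ^ k
  have hDd : ∀ s ∈ Set.Icc (0 : ℝ) 1, ∀ w ρ : ℝ, |w| ≤ ρ → ρ ≤ r → ∀ k : ℕ,
      HasDerivAt (fun s => ((D w s k : ℝ) : ℂ)) ((-(k : ℝ) * D w s (k + 1) : ℝ) : ℂ) s := by
    intro s hs w ρ h1 h2 k
    obtain ⟨h3, _, _⟩ := hw s hs w ρ h1 h2
    have h5 : 0 < 1 + s * w := by linarith
    have h6 : HasDerivAt (fun s : ℝ => 1 + s * w) w s := by
      simpa using ((hasDerivAt_id s).mul_const w).const_add 1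
    have h7 : HasDerivAt (fun s : ℝ => w / (1 + s * w)) (-(w / (1 + s * w)) ^ 2) s := by
      have := (hasDerivAt_const s w).div h6 h5.ne'
      refine this.congr_deriv ?_
      field_simp
      ring
    have h8 : HasDerivAt (fun s : ℝ => D w s k) (-(k : ℝ) * D w s (k + 1)) s := by
      have := h7.pow k
      refine this.congr_deriv ?_
      simp only [D]
      rcases k with _ | k
      · simp
      · simp only [Nat.add_sub_cancel]
        ring
    exact h8.ofReal_comp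
  have hLd : ∀ s ∈ Set.Icc (0 : ℝ) 1, ∀ w ρ : ℝ, |w| ≤ ρ → ρ ≤ r →
      HasDerivAt (fun s : ℝ => ((Real.log (1 + s * w) : ℝ) : ℂ)) ((D w s 1 : ℝ) : ℂ) s := by
    intro s hs w ρ h1 h2
    obtain ⟨h3, _, _⟩ := hw s hs w ρ h1 h2
    have h5 : 0 < 1 + s * w := by linarith
    have h6 : HasDerivAt (fun s : ℝ => 1 + s * w) w s := by
      simpa using ((hasDerivAt_id s).mul_const w).const_add 1
    have h7 := (h6.log h5.ne').ofReal_comp
    simp only [D, pow_one]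
    exact h7
  let L : ℝ → ℂ := fun s => α * ((Real.log (1 + s * x) : ℝ) : ℂ) +
    β * ((Real.log (1 + s * y) : ℝ) : ℂ) + ((1 - 2 * p : ℝ) : ℂ) * ((Real.log (1 + s * z) : ℝ) : ℂ)
  let M : ℕ → ℝ → ℂ := fun k s => α * ((D x s k : ℝ) : ℂ) +
    β * ((D y s k : ℝ) : ℂ) + ((1 - 2 * p : ℝ) : ℂ) * ((D z s k : ℝ) : ℂ)
  have hL : ∀ s ∈ Set.Icc (0 : ℝ) 1, HasDerivAt L (M 1 s) s := by
    intro s hs
    exact (((hLd s hs x ra hx hra).const_mul α).add ((hLd s hs y rb hy hrb).const_mul β)).add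
      ((hLd s hs z rc hz hrc).const_mul _)
  have hM : ∀ s ∈ Set.Icc (0 : ℝ) 1, ∀ k : ℕ, HasDerivAt (M k) (-(k : ℂ) * M (k + 1) s) s := by
    intro s hs k
    have := (((hDd s hs x ra hx hra k).const_mul α).add ((hDd s hs y rb hy hrb k).const_mul β)).add
      ((hDd s hs z rc hz hrc k).const_mul ((1 - 2 * p : ℝ) : ℂ))
    refine this.congr_deriv ?_
    simp only [M]
    push_cast
    ring
  let f : ℝ → ℂ := fun s => Complex.exp (L s)
  have hf : ∀ s ∈ Set.Icc (0 : ℝ) 1, HasDerivAt f (f s * M 1 s) s := fun s hs => (hL s hs).cexp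
  have hf1 : ∀ s ∈ Set.Icc (0 : ℝ) 1, HasDerivAt (fun s => f s * M 1 s)
      (f s * (M 1 s ^ 2 - M 2 s)) s := by
    intro s hs
    have := (hf s hs).mul (hM s hs 1)
    refine this.congr_deriv ?_
    push_cast
    ring
  have hf2 : ∀ s ∈ Set.Icc (0 : ℝ) 1, HasDerivAt (fun s => f s * (M 1 s ^ 2 - M 2 s))
      (f s * (M 1 s ^ 3 - 3 * M 1 s * M 2 s + 2 * M 3 s)) s := by
    intro s hs
    have := (hf s hs).mul (((hM s hs 1).pow 2).sub (hM s hs 2))
    refine this.congr_deriv ?_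
    simp only [Pi.sub_apply, Pi.pow_apply]
    push_cast
    simp only [pow_one]
    ring
  -- bounds
  have hDb : ∀ s ∈ Set.Icc (0 : ℝ) 1, ∀ w ρ : ℝ, |w| ≤ ρ → ρ ≤ r → ∀ k : ℕ,
      ‖((D w s k : ℝ) : ℂ)‖ ≤ ρ ^ k / (1 - r) ^ k := by
    intro s hs w ρ h1 h2 k
    obtain ⟨_, _, h3⟩ := hw s hs w ρ h1 h2
    rw [Complex.norm_real, Real.norm_eq_abs]
    simp only [D]
    rw [abs_pow, ← div_pow]
    exact pow_le_pow_left₀ (abs_nonneg _) h3 k
  have hMb : ∀ s ∈ Set.Icc (0 : ℝ) 1, ∀ k : ℕ,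
      ‖M k s‖ ≤ (A * (ra ^ k + rb ^ k) + (1 - 2 * p) * rc ^ k) / (1 - r) ^ k := by
    intro s hs k
    have e1 := hDb s hs x ra hx hra k
    have e2 := hDb s hs y rb hy hrb k
    have e3 := hDb s hs z rc hz hrc k
    have n1 : ‖α * ((D x s k : ℝ) : ℂ)‖ ≤ A * (ra ^ k / (1 - r) ^ k) := by
      rw [norm_mul]; exact mul_le_mul hαn e1 (norm_nonneg _) hA
    have n2 : ‖β * ((D y s k : ℝ) : ℂ)‖ ≤ A * (rb ^ k / (1 - r) ^ k) := by
      rw [norm_mul]; exact mul_le_mul hβn e2 (norm_nonneg _) hA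
    have n3 : ‖((1 - 2 * p : ℝ) : ℂ) * ((D z s k : ℝ) : ℂ)‖ ≤
        (1 - 2 * p) * (rc ^ k / (1 - r) ^ k) := by
      rw [norm_mul, Complex.norm_real, Real.norm_eq_abs, abs_of_nonneg hγ]
      exact mul_le_mul_of_nonneg_left e3 hγ
    calc ‖M k s‖ ≤ _ := norm_add_le _ _
      _ ≤ (‖α * ((D x s k : ℝ) : ℂ)‖ + ‖β * ((D y s k : ℝ) : ℂ)‖) + _ :=
        add_le_add (norm_add_le _ _) le_rfl
      _ ≤ (A * (ra ^ k / (1 - r) ^ k) + A * (rb ^ k / (1 - r) ^ k)) +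
          (1 - 2 * p) * (rc ^ k / (1 - r) ^ k) := add_le_add (add_le_add n1 n2) n3
      _ = _ := by ring
  have hfb : ∀ s ∈ Set.Icc (0 : ℝ) 1, ‖f s‖ ≤ 1 + r := by
    intro s hs
    have e : ∀ w ρ : ℝ, |w| ≤ ρ → ρ ≤ r → Real.log (1 + s * w) ≤ Real.log (1 + r) := by
      intro w ρ h1 h2
      obtain ⟨h3, h4, _⟩ := hw s hs w ρ h1 h2
      exact Real.log_le_log (by linarith) h4
    have e1 := e x ra hx hra
    have e2 := e y rb hy hrb
    have e3 := e z rc hz hrc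
    rw [Complex.norm_exp]
    have hre : (L s).re = p * Real.log (1 + s * x) + p * Real.log (1 + s * y)
        + (1 - 2 * p) * Real.log (1 + s * z) := by
      simp only [L, hα, hβ, Complex.add_re, Complex.mul_re, Complex.ofReal_re, Complex.ofReal_im,
        mul_zero, sub_zero]
    rw [hre]
    calc _ ≤ Real.exp (Real.log (1 + r)) := by
          apply Real.exp_le_exp.2
          nlinarith
      _ = 1 + r := Real.exp_log (by linarith)
  have hT := taylor3 (C := ((A * (ra + rb) + (1 - 2 * p) * rc) ^ 3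
        + 3 * (A * (ra + rb) + (1 - 2 * p) * rc) * (A * (ra ^ 2 + rb ^ 2) + (1 - 2 * p) * rc ^ 2)
        + 2 * (A * (ra ^ 3 + rb ^ 3) + (1 - 2 * p) * rc ^ 3)) * ((1 + r) / (1 - r) ^ 3))
      hf hf1 hf2 (by
    intro s hs
    have m1 := hMb s hs 1
    have m2 := hMb s hs 2
    have m3 := hMb s hs 3
    have m0 := hfb s hs
    simp only [pow_one] at m1
    set P1 := A * (ra + rb) + (1 - 2 * p) * rc with hP1
    set P2 := A * (ra ^ 2 + rb ^ 2) + (1 - 2 * p) * rc ^ 2 with hP2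
    set P3 := A * (ra ^ 3 + rb ^ 3) + (1 - 2 * p) * rc ^ 3 with hP3
    have q1 : 0 ≤ P1 := by positivity
    have q2 : 0 ≤ P2 := by positivity
    have q3 : 0 ≤ P3 := by positivity
    have b1 : ‖M 1 s ^ 3‖ ≤ (P1 / (1 - r)) ^ 3 := by
      rw [norm_pow]; exact pow_le_pow_left₀ (norm_nonneg _) m1 3
    have b2 : ‖3 * M 1 s * M 2 s‖ ≤ 3 * (P1 / (1 - r)) * (P2 / (1 - r) ^ 2) := by
      rw [norm_mul, norm_mul]
      have : ‖(3 : ℂ)‖ = 3 := by norm_num
      rw [this]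
      apply mul_le_mul (mul_le_mul_of_nonneg_left m1 (by norm_num)) m2 (norm_nonneg _)
      positivity
    have b3 : ‖2 * M 3 s‖ ≤ 2 * (P3 / (1 - r) ^ 3) := by
      rw [norm_mul]
      have : ‖(2 : ℂ)‖ = 2 := by norm_num
      rw [this]
      exact mul_le_mul_of_nonneg_left m3 (by norm_num)
    have b4 : ‖M 1 s ^ 3 - 3 * M 1 s * M 2 s + 2 * M 3 s‖ ≤
        (P1 / (1 - r)) ^ 3 + 3 * (P1 / (1 - r)) * (P2 / (1 - r) ^ 2) + 2 * (P3 / (1 - r) ^ 3) :=
      calc _ ≤ ‖M 1 s ^ 3 - 3 * M 1 s * M 2 s‖ + ‖2 * M 3 s‖ := norm_add_le _ _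
        _ ≤ (‖M 1 s ^ 3‖ + ‖3 * M 1 s * M 2 s‖) + ‖2 * M 3 s‖ := add_le_add (norm_sub_le _ _) le_rfl
        _ ≤ _ := add_le_add (add_le_add b1 b2) b3
    rw [norm_mul]
    calc ‖f s‖ * ‖M 1 s ^ 3 - 3 * M 1 s * M 2 s + 2 * M 3 s‖ ≤ (1 + r) *
          ((P1 / (1 - r)) ^ 3 + 3 * (P1 / (1 - r)) * (P2 / (1 - r) ^ 2) + 2 * (P3 / (1 - r) ^ 3)) :=
          mul_le_mul m0 b4 (norm_nonneg _) (by linarith)
      _ = _ := by
          field_simp)
  -- identification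
  have f0 : f 0 = 1 := by simp [f, L]
  have g1 : M 1 0 = ((p * (x + y) + (1 - 2 * p) * z : ℝ) : ℂ) + ((t * (x - y) : ℝ) : ℂ) * Complex.I := by
    simp only [M, D, hα, hβ]
    apply Complex.ext <;> simp <;> ring
  have g2 : M 2 0 = ((p * (x ^ 2 + y ^ 2) + (1 - 2 * p) * z ^ 2 : ℝ) : ℂ)
      + ((t * (x ^ 2 - y ^ 2) : ℝ) : ℂ) * Complex.I := by
    simp only [M, D, hα, hβ]
    apply Complex.ext
    · simp; ring
    · simp; ring
  rw [f0, g1, g2] at hT
  obtain ⟨x1, _, _⟩ := hw 1 ⟨zero_le_one, le_rfl⟩ x ra hx hra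
  obtain ⟨y1, _, _⟩ := hw 1 ⟨zero_le_one, le_rfl⟩ y rb hy hrb
  obtain ⟨z1, _, _⟩ := hw 1 ⟨zero_le_one, le_rfl⟩ z rc hz hrc
  rw [one_mul] at x1 y1 z1
  have hx1 : 0 < 1 + x := by linarith
  have hy1 : 0 < 1 + y := by linarith
  have hz1 : 0 < 1 + z := by linarith
  set θ := t * (Real.log a - Real.log b) with hθ
  set χ : ℂ := ((Xe p a b c : ℝ) : ℂ) * Complex.exp ((θ : ℂ) * Complex.I) with hχ
  have hXe : 0 < Xe p a b c := by unfold Xe; positivity
  have hχn : ‖χ‖ = Xe p a b c := by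
    rw [hχ, norm_mul, Complex.norm_exp_ofReal_mul_I, Complex.norm_real, Real.norm_eq_abs,
      abs_of_pos hXe, mul_one]
  have hχre : χ.re = Xc p t a b c := by
    rw [hχ, Complex.re_ofReal_mul, Complex.exp_ofReal_mul_I_re]; rfl
  have hχim : χ.im = Xs p t a b c := by
    rw [hχ, Complex.im_ofReal_mul, Complex.exp_ofReal_mul_I_im]; rfl
  have hend : (χ * f 1).re = Xc p t (a * (1 + x)) (b * (1 + y)) (c * (1 + z)) := by
    have e1 : χ * f 1 = ((Xe p a b c * Real.exp (p * Real.log (1 + x) + p * Real.log (1 + y)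
        + (1 - 2 * p) * Real.log (1 + z)) : ℝ) : ℂ) *
        Complex.exp (((θ + t * (Real.log (1 + x) - Real.log (1 + y)) : ℝ) : ℂ) * Complex.I) := by
      have e2 : L 1 = ((p * Real.log (1 + x) + p * Real.log (1 + y)
        + (1 - 2 * p) * Real.log (1 + z) : ℝ) : ℂ) +
          ((t * (Real.log (1 + x) - Real.log (1 + y)) : ℝ) : ℂ) * Complex.I := by
        simp only [L, hα, hβ, one_mul]
        apply Complex.ext
        · simp
        · simp; ring
      have e7 : Complex.exp (((θ + t * (Real.log (1 + x) - Real.log (1 + y)) : ℝ) : ℂ) * Complex.I)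
          = Complex.exp ((θ : ℂ) * Complex.I) *
            Complex.exp (((t * (Real.log (1 + x) - Real.log (1 + y)) : ℝ) : ℂ) * Complex.I) := by
        rw [Complex.ofReal_add, add_mul, Complex.exp_add]
      rw [e7]
      simp only [f, hχ]
      rw [e2, Complex.exp_add, ← Complex.ofReal_exp, Complex.ofReal_mul (Xe p a b c)]
      ring
    rw [e1, Complex.re_ofReal_mul, Complex.exp_ofReal_mul_I_re]
    unfold Xc Xe
    have e3 : Real.exp (p * Real.log (1 + x) + p * Real.log (1 + y)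
        + (1 - 2 * p) * Real.log (1 + z)) = ((1 + x) * (1 + y)) ^ p * (1 + z) ^ (1 - 2 * p) := by
      rw [Real.exp_add, Real.exp_add, Real.mul_rpow hx1.le hy1.le, Real.rpow_def_of_pos hx1,
        Real.rpow_def_of_pos hy1, Real.rpow_def_of_pos hz1, mul_comm p (Real.log (1 + x)),
        mul_comm p (Real.log (1 + y)), mul_comm (1 - 2 * p) (Real.log (1 + z))]
    rw [e3]
    have e4 : (a * (1 + x) * (b * (1 + y))) ^ p = (a * b) ^ p * ((1 + x) * (1 + y)) ^ p := by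
      rw [← Real.mul_rpow (by positivity) (by positivity)]
      congr 1; ring
    have e5 : (c * (1 + z)) ^ (1 - 2 * p) = c ^ (1 - 2 * p) * (1 + z) ^ (1 - 2 * p) :=
      Real.mul_rpow hc.le hz1.le
    rw [e4, e5, Real.log_mul ha.ne' hx1.ne', Real.log_mul hb.ne' hy1.ne']
    have e6 : t * (Real.log a + Real.log (1 + x) - (Real.log b + Real.log (1 + y)))
        = θ + t * (Real.log (1 + x) - Real.log (1 + y)) := by rw [hθ]; ring
    rw [e6]
    ring
  have hfin := mul_le_mul_of_nonneg_left hT hXe.le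
  rw [← hχn, ← norm_mul] at hfin
  have hre := (Complex.abs_re_le_norm _).trans hfin
  rw [hχn] at hre
  refine le_trans (le_of_eq ?_) (hre.trans (le_of_eq ?_))
  · congr 1
    rw [mul_sub χ, Complex.sub_re, hend]
    congr 1
    rw [Complex.mul_re, hχre, hχim]
    congr 1
    · congr 1
      simp [pow_two]
    · congr 1
      simp [pow_two]
      ring
  · ring

end Vale.Agent.Lib.P154.Neg
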