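import Vale.Agent.Lib.P154.Neg.CkBallExp

/-! Soundness of the root / rotation evaluation. -/

namespace Vale.Agent.Lib.P154.Neg.Ck

/-- `r` contains balls for `M^(1/16)` and `M^(i/16)` -/
def RR.Mem (M : ℝ) (r : RR) : Prop :=
  0 < M ∧ r.g.Mem (M ^ (1 / 16 : ℝ)) ∧ r.w.Mem (Real.cos (Real.log M / 16)) (Real.sin (Real.log M / 16))

theorem root_err {G R : ℝ} (hG : 0 < G) (hR : 0 < R) (h : |G ^ 16 - R ^ 16| * 2 ^ 48 ≤ R ^ 16) :
    |R - G| ≤ G / 2 ^ 51 := by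
  obtain ⟨h1, h2⟩ := abs_le.1 (show |G ^ 16 - R ^ 16| ≤ R ^ 16 / 2 ^ 48 by
    rw [le_div_iff₀ (by positivity)]; exact h)
  have hR16 : 0 < R ^ 16 := by positivity
  have hG16 : 0 < G ^ 16 := by positivity
  rw [abs_le]
  constructor
  · -- G ≤ R (1 + 2^-52)
    by_contra hc
    push Not at hc
    have hGR : R * (1 + 1 / 2 ^ 52) < G := by
      have : R < G - G / 2 ^ 51 := by linarith
      nlinarith
    have h3 : (R * (1 + 1 / 2 ^ 52)) ^ 16 < G ^ 16 :=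
      pow_lt_pow_left₀ hGR (by positivity) (by norm_num)
    have h4 : 1 + (16 : ℕ) * (1 / 2 ^ 52 : ℝ) ≤ (1 + 1 / 2 ^ 52) ^ 16 :=
      one_add_mul_le_pow (by norm_num) 16
    have h5 : R ^ 16 * (1 + (16 : ℕ) * (1 / 2 ^ 52 : ℝ)) ≤ (R * (1 + 1 / 2 ^ 52)) ^ 16 := by
      rw [mul_pow]; exact mul_le_mul_of_nonneg_left h4 hR16.le
    norm_num at h5 h3 h2
    linarith
  · by_contra hc
    push Not at hc
    have hGR : G * (1 + 1 / 2 ^ 51) < R := by linarith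
    have h3 : (G * (1 + 1 / 2 ^ 51)) ^ 16 < R ^ 16 :=
      pow_lt_pow_left₀ hGR (by positivity) (by norm_num)
    have h4 : 1 + (16 : ℕ) * (1 / 2 ^ 51 : ℝ) ≤ (1 + 1 / 2 ^ 51) ^ 16 :=
      one_add_mul_le_pow (by norm_num) 16
    have h5 : G ^ 16 * (1 + (16 : ℕ) * (1 / 2 ^ 51 : ℝ)) ≤ (G * (1 + 1 / 2 ^ 51)) ^ 16 := by
      rw [mul_pow]; exact mul_le_mul_of_nonneg_left h4 hG16.le
    norm_num at h5 h3 h1
    linarith

theorem log_err {a b c : ℝ} (hc : 0 < c) (ha : c ≤ a) (hb : c ≤ b) :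
    |Real.log a - Real.log b| ≤ |a - b| / c := by
  have ha0 : 0 < a := lt_of_lt_of_le hc ha
  have hb0 : 0 < b := lt_of_lt_of_le hc hb
  have key : ∀ u v : ℝ, c ≤ u → c ≤ v → Real.log u - Real.log v ≤ |u - v| / c := by
    intro u v hu hv
    have hu0 : 0 < u := lt_of_lt_of_le hc hu
    have hv0 : 0 < v := lt_of_lt_of_le hc hv
    rw [← Real.log_div hu0.ne' hv0.ne']
    calc Real.log (u / v) ≤ u / v - 1 := Real.log_le_sub_one_of_pos (by positivity)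
      _ = (u - v) / v := by field_simp
      _ ≤ |u - v| / v := by gcongr; exact le_abs_self _
      _ ≤ |u - v| / c := by gcongr
  rw [abs_le]
  constructor
  · have := key b a hb ha
    rw [abs_sub_comm] at this
    linarith
  · exact key a b ha hb

/-- the integer test on the sixteenth power, with the scale `Q` kept abstract -/
theorem root_nat_aux {m g Q : ℕ} (hg : 1 ≤ g) {ρ : ℝ} (hρ0 : 0 < ρ)
    (hρ : ρ ^ 16 = (m : ℝ) * Q)
    (h : (g ^ 16 - m * Q + (m * Q - g ^ 16)) * 2 ^ 48 ≤ m * Q) :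
    |ρ - g| ≤ (g : ℝ) / 2 ^ 51 := by
  have hG0 : (0 : ℝ) < g := by exact_mod_cast hg
  apply root_err hG0 hρ0
  rw [hρ]
  have e1 : |(g : ℝ) ^ 16 - (m : ℝ) * Q| =
      (((g ^ 16 - m * Q) + (m * Q - g ^ 16) : ℕ) : ℝ) := by
    rcases le_total (g ^ 16) (m * Q) with hle | hle
    · rw [Nat.sub_eq_zero_of_le hle, zero_add, Nat.cast_sub hle]
      push_cast
      have : (g : ℝ) ^ 16 ≤ (m : ℝ) * Q := by exact_mod_cast hle
      rw [abs_sub_comm, abs_of_nonneg (by linarith)]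
    · rw [Nat.sub_eq_zero_of_le hle, add_zero, Nat.cast_sub hle]
      push_cast
      have : (m : ℝ) * Q ≤ (g : ℝ) ^ 16 := by exact_mod_cast hle
      rw [abs_of_nonneg (by linarith)]
  rw [e1]
  exact_mod_cast h

theorem root_nat_pos {m g Q : ℕ} (hg : 1 ≤ g)
    (h : (g ^ 16 - m * Q + (m * Q - g ^ 16)) * 2 ^ 48 ≤ m * Q) : 0 < m := by
  rcases Nat.eq_zero_or_pos m with h0 | h0
  · exfalso
    rw [h0] at h
    have : 0 < g ^ 16 := by positivity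
    simp at h
    omega
  · exact h0

theorem pow_scale {ρ M : ℝ} {m : ℕ} (hρ16 : ρ ^ 16 = M) (hM : M = (m : ℝ) / 2 ^ 64) :
    (ρ * 2 ^ 64) ^ 16 = (m : ℝ) * ((2 ^ 960 : ℕ) : ℝ) := by
  rw [mul_pow, hρ16, hM, Nat.cast_pow, Nat.cast_ofNat, ← pow_mul,
    show 64 * 16 = 64 + 960 from rfl, pow_add, div_mul_eq_mul_div, mul_div_assoc,
    mul_div_cancel_left₀]
  exact pow_ne_zero 64 two_ne_zero

/-- the purely real part: `g` approximates `ρ`, `g0` approximates `exp (16 τ)` -/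
theorem rr_real {g K e q : ℕ} {ρ L τ : ℝ} (hg1 : 1 ≤ g) (hρ0 : 0 < ρ) (hL : Real.log ρ = L)
    (hgm : |ρ * 2 ^ 64 - g| ≤ (K : ℝ)) (hex : |Real.exp (16 * τ) * 2 ^ 64 - g| ≤ (e : ℝ))
    (h4 : 4 * (K + e) ≤ g) (hq : 2 * (K + e) * 2 ^ 64 < q * g + g) :
    |16 * τ - L| * 2 ^ 64 ≤ ((q + 1 : ℕ) : ℝ) := by
  have hG0 : (0 : ℝ) < g := by exact_mod_cast hg1
  have h4r : 4 * ((K : ℝ) + e) ≤ g := by exact_mod_cast h4
  have hE0 : (0 : ℝ) ≤ e := Nat.cast_nonneg _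
  have hK0 : (0 : ℝ) ≤ K := Nat.cast_nonneg _
  obtain ⟨a1, a2⟩ := abs_le.1 hgm
  obtain ⟨b1, b2⟩ := abs_le.1 hex
  have hlog : |Real.log (Real.exp (16 * τ) * 2 ^ 64) - Real.log (ρ * 2 ^ 64)| ≤
      2 * ((K : ℝ) + e) / g := by
    have h1 := log_err (a := Real.exp (16 * τ) * 2 ^ 64) (b := ρ * 2 ^ 64) (c := (g : ℝ) / 2)
      (by positivity) (by linarith) (by linarith)
    refine h1.trans ?_
    have h2 : |Real.exp (16 * τ) * 2 ^ 64 - ρ * 2 ^ 64| ≤ (K : ℝ) + e := by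
      rw [abs_le]; constructor <;> linarith
    rw [div_div_eq_mul_div, mul_comm]
    gcongr
  have hang : |16 * τ - L| ≤ 2 * ((K : ℝ) + e) / g := by
    rw [Real.log_mul (Real.exp_pos _).ne' (by positivity), Real.log_mul hρ0.ne' (by positivity),
      Real.log_exp, hL] at hlog
    have e : 16 * τ + Real.log (2 ^ 64) - (L + Real.log (2 ^ 64)) = 16 * τ - L := by ring
    rwa [e] at hlog
  have h2 : 2 * ((K : ℝ) + e) * 2 ^ 64 < (q : ℝ) * g + g := by exact_mod_cast hq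
  calc |16 * τ - L| * 2 ^ 64 ≤ 2 * ((K : ℝ) + e) / g * 2 ^ 64 := by gcongr
    _ ≤ ((q + 1 : ℕ) : ℝ) := by
      rw [Nat.cast_add, Nat.cast_one, div_mul_eq_mul_div, div_le_iff₀ hG0]
      linarith

theorem K_ge (g : ℕ) : (g : ℝ) / 2 ^ 51 ≤ ((g / 2 ^ 51 + 1 : ℕ) : ℝ) := by
  have := Nat.lt_div_mul_add (a := g) (b := 2 ^ 51) (by positivity)
  have h2 : (g : ℝ) < ((g / 2 ^ 51 : ℕ) : ℝ) * 2 ^ 51 + 2 ^ 51 := by exact_mod_cast this
  rw [div_le_iff₀ (by positivity)]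
  push_cast
  linarith

theorem rrAux_sound {m : ℕ} {t g0 : Bl} {τ : ℝ} (ht : t.Mem τ) (hg0 : g0.Mem (Real.exp (16 * τ)))
    (h : (rrAux m t g0).ok = true) : (rrAux m t g0).Mem ((m : ℝ) / 2 ^ 64) := by
  simp only [rrAux, Bool.and_eq_true] at h
  obtain ⟨hs, hn, hg1, h16, h4⟩ := h
  have hn' : g0.n = 0 := Nat.eq_of_beq_eq_true hn
  have hg1' : 1 ≤ g0.p := Nat.le_of_ble_eq_true hg1
  have h16' := Nat.le_of_ble_eq_true h16
  have h4' := Nat.le_of_ble_eq_true h4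
  have hshr : ∀ a k : ℕ, Nat.shiftRight a k = a / 2 ^ k := fun a k => Nat.shiftRight_eq_div_pow a k
  have hshl : ∀ a k : ℕ, Nat.shiftLeft a k = a * 2 ^ k := fun a k => Nat.shiftLeft_eq a k
  have hadd : ∀ a b : ℕ, Nat.add a b = a + b := fun _ _ => rfl
  have hmul : ∀ a b : ℕ, Nat.mul a b = a * b := fun _ _ => rfl
  have hsub : ∀ a b : ℕ, Nat.sub a b = a - b := fun _ _ => rfl
  have hdiv : ∀ a b : ℕ, Nat.div a b = a / b := fun _ _ => rfl
  simp only [hshr, hshl, hadd, hmul, hsub] at h16' h4'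
  have hg16 : ∀ g : ℕ, g * g * (g * g) * (g * g * (g * g)) *
      (g * g * (g * g) * (g * g * (g * g))) = g ^ 16 := fun g => by ring
  rw [hg16] at h16'
  have hm : 0 < m := root_nat_pos hg1' h16'
  have hgm0 : ∀ ρ : ℝ, 0 < ρ → ρ ^ 16 = (m : ℝ) / 2 ^ 64 →
      |ρ * 2 ^ 64 - g0.p| ≤ (g0.p : ℝ) / 2 ^ 51 := by
    intro ρ hρ0 hρ
    exact root_nat_aux hg1' (mul_pos hρ0 (by norm_num)) (pow_scale hρ rfl) h16'
  clear h16 h16' hg16
  have hm0 : (0 : ℝ) < m := Nat.cast_pos.2 hm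
  have hM0 : 0 < (m : ℝ) / 2 ^ 64 := div_pos hm0 (by norm_num)
  have hρ0 : 0 < ((m : ℝ) / 2 ^ 64) ^ (1 / 16 : ℝ) := Real.rpow_pos_of_pos hM0 _
  have hρ16 : (((m : ℝ) / 2 ^ 64) ^ (1 / 16 : ℝ)) ^ 16 = (m : ℝ) / 2 ^ 64 := by
    rw [← Real.rpow_natCast, ← Real.rpow_mul hM0.le]
    norm_num
  have hgm := (hgm0 _ hρ0 hρ16).trans (K_ge g0.p)
  have hlogρ : Real.log (((m : ℝ) / 2 ^ 64) ^ (1 / 16 : ℝ)) = Real.log ((m : ℝ) / 2 ^ 64) / 16 := by
    rw [Real.log_rpow hM0]; ring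
  have hex : |Real.exp (16 * τ) * 2 ^ 64 - g0.p| ≤ (g0.e : ℝ) := by
    have := hg0
    unfold Bl.Mem at this
    rw [hn', Nat.cast_zero, sub_zero] at this
    exact this
  have hq := Nat.lt_div_mul_add (a := 2 * ((g0.p / 2 ^ 51 + 1) + g0.e) * 2 ^ 64) (b := g0.p) hg1'
  have hd := rr_real hg1' hρ0 hlogρ hgm hex h4' hq
  have hwm : Cx.Mem (Real.cos (16 * τ)) (Real.sin (16 * τ))
      (Cx.sq (Cx.sq (Cx.sq (Cx.sq ⟨Bl.coss t, Bl.sins t⟩)))) := by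
    have dbl : ∀ (x : ℝ) (c : Cx), c.Mem (Real.cos x) (Real.sin x) →
        (Cx.sq c).Mem (Real.cos (2 * x)) (Real.sin (2 * x)) := by
      intro x c hc
      have := cmem_sq hc
      rw [Real.cos_two_mul', Real.sin_two_mul]
      rw [pow_two, pow_two, mul_assoc 2]
      rw [mul_comm (Real.sin x) (Real.cos x)]
      exact this
    have h0 : Cx.Mem (Real.cos τ) (Real.sin τ) ⟨Bl.coss t, Bl.sins t⟩ :=
      ⟨mem_coss ht hs, mem_sins ht hs⟩
    have h1 := dbl _ _ (dbl _ _ (dbl _ _ (dbl _ _ h0)))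
    have e : 2 * (2 * (2 * (2 * τ))) = 16 * τ := by ring
    rwa [e] at h1
  refine ⟨hM0, ?_, ?_, ?_⟩
  · simp only [rrAux, hshr, hadd]
    unfold Bl.Mem
    rw [Nat.cast_zero, sub_zero]
    exact hgm
  · simp only [rrAux, hshr, hshl, hadd, hmul, hdiv]
    apply mem_infl hwm.1
    refine le_trans ?_ hd
    apply mul_le_mul_of_nonneg_right _ (by norm_num)
    rw [abs_sub_comm]
    exact Real.abs_cos_sub_cos_le _ _
  · simp only [rrAux, hshr, hshl, hadd, hmul, hdiv]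
    apply mem_infl hwm.2
    refine le_trans ?_ hd
    apply mul_le_mul_of_nonneg_right _ (by norm_num)
    rw [abs_sub_comm]
    exact Real.abs_sin_sub_sin_le _ _

theorem rr_sound (m : ℕ) (h : (rr m).ok = true) : (rr m).Mem ((m : ℝ) / 2 ^ 64) := by
  unfold rr at h ⊢
  simp only at h ⊢
  set t := lnApp m with ht
  set τ : ℝ := ((t.p : ℝ) - t.n) / 2 ^ 64 with hτ
  have hmem : t.Mem τ := by
    unfold Bl.Mem
    have e : τ * 2 ^ 64 - ((t.p : ℝ) - t.n) = 0 := by rw [hτ]; field_simp; ring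
    rw [e, abs_zero]
    exact Nat.cast_nonneg _
  have hs : t.small = true := by
    simp only [rrAux, Bool.and_eq_true] at h
    exact h.1
  have he := mem_exps hmem hs
  have hsq : ∀ (x : ℝ) (b : Bl), b.Mem (Real.exp x) → (Bl.sq b).Mem (Real.exp (2 * x)) := by
    intro x b hb
    have := mem_mul hb hb
    rw [← Real.exp_add] at this
    rw [two_mul]
    exact this
  have h16 := hsq _ _ (hsq _ _ (hsq _ _ (hsq _ _ he)))
  have e : 2 * (2 * (2 * (2 * τ))) = 16 * τ := by ring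
  rw [e] at h16
  exact rrAux_sound hmem h16 h

end Vale.Agent.Lib.P154.Neg.Ck
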