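import Vale.Agent.Lib.P154.Neg.CkJet
import Vale.Agent.Lib.P154.Neg.CkRoot
import Vale.Agent.Lib.P154.Neg.CkModel

/-! Soundness of the models of the functionals. -/

namespace Vale.Agent.Lib.P154.Neg.Ck

def FS.ok (s : FS) : Bool :=
  decide (6 ≤ s.P) && decide (s.P ≤ 8) && decide (s.T ≤ 31) &&
    decide (4096 * (s.P * s.P + s.T * s.T) ≤ s.al * s.al)

/-- the dictionary is consistent -/
def Dict.ok (D : Dict) : Bool :=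
  D.fs.all fun s => s.ok && decide (s.iP < D.Ps.length) && decide (s.iT < D.Ts.length) &&
    decide (nth 0 D.Ps s.iP = s.P) && decide (nth 0 D.Ts s.iT = s.T)

/-- affine data: reals `A1 A2 B1 B3` (relative coordinates `A1 u + B1 v`, `A2 u`, `B3 v`) -/
structure Aff.Mem (A1 A2 B1 B3 : ℝ) (A : Aff) : Prop where
  hA1 : A.A1.Mem A1
  hA2 : A.A2.Mem A2
  hB1 : A.B1.Mem B1
  hB3 : A.B3.Mem B3
  hA11 : A.A11.Mem (A1 * A1)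
  hA12 : A.A12.Mem (A1 * A2)
  hA22 : A.A22.Mem (A2 * A2)
  hAB : A.AB.Mem (A1 * B1)
  hA2B1 : A.A2B1.Mem (A2 * B1)
  hA1B3 : A.A1B3.Mem (A1 * B3)
  hA2B3 : A.A2B3.Mem (A2 * B3)
  hB11 : A.B11.Mem (B1 * B1)
  hB13 : A.B13.Mem (B1 * B3)
  hB33 : A.B33.Mem (B3 * B3)
  hax : (|A1| + |B1|) ≤ (A.ra.x : ℝ) / 2 ^ 64
  hay : |A2| ≤ (A.ra.y : ℝ) / 2 ^ 64
  haz : |B3| ≤ (A.ra.z : ℝ) / 2 ^ 64
  hbx : ((A.ra.x : ℝ) / 2 ^ 64) ^ 2 ≤ (A.rb.x : ℝ) / 2 ^ 64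
  hby : ((A.ra.y : ℝ) / 2 ^ 64) ^ 2 ≤ (A.rb.y : ℝ) / 2 ^ 64
  hbz : ((A.ra.z : ℝ) / 2 ^ 64) ^ 2 ≤ (A.rb.z : ℝ) / 2 ^ 64
  hcx : ((A.ra.x : ℝ) / 2 ^ 64) ^ 3 ≤ (A.rc.x : ℝ) / 2 ^ 64
  hcy : ((A.ra.y : ℝ) / 2 ^ 64) ^ 3 ≤ (A.rc.y : ℝ) / 2 ^ 64
  hcz : ((A.ra.z : ℝ) / 2 ^ 64) ^ 3 ≤ (A.rc.z : ℝ) / 2 ^ 64

theorem le_shr (n k : ℕ) : (n : ℝ) / 2 ^ k ≤ ((Nat.shiftRight n k : ℕ) : ℝ) + 1 := by
  have h : n < (n / 2 ^ k + 1) * 2 ^ k := by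
    have := Nat.lt_div_mul_add (a := n) (b := 2 ^ k) (by positivity)
    nlinarith
  have e : Nat.shiftRight n k = n / 2 ^ k := Nat.shiftRight_eq_div_pow n k
  rw [e, div_le_iff₀ (by positivity)]
  exact_mod_cast h.le

theorem shr_le (n k : ℕ) : ((Nat.shiftRight n k : ℕ) : ℝ) ≤ (n : ℝ) / 2 ^ k := by
  have h : n / 2 ^ k * 2 ^ k ≤ n := Nat.div_mul_le_self n (2 ^ k)
  have e : Nat.shiftRight n k = n / 2 ^ k := Nat.shiftRight_eq_div_pow n k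
  rw [e, le_div_iff₀ (by positivity)]
  exact_mod_cast h

theorem le_cdiv (X w : ℕ) (hw : 0 < w) : (X : ℝ) / w ≤ ((Nat.add (Nat.div X w) 1 : ℕ) : ℝ) := by
  have h : X < (X / w + 1) * w := by
    have := Nat.lt_div_mul_add (a := X) (b := w) hw
    nlinarith
  have hw' : (0 : ℝ) < w := by exact_mod_cast hw
  rw [div_le_iff₀ hw']
  have e : Nat.add (Nat.div X w) 1 = X / w + 1 := rfl
  rw [e]
  exact_mod_cast h.le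

theorem cast_shl (X k : ℕ) : ((Nat.shiftLeft X k : ℕ) : ℝ) = (X : ℝ) * 2 ^ k := by
  have e : Nat.shiftLeft X k = X * 2 ^ k := Nat.shiftLeft_eq X k
  rw [e]; push_cast; ring

theorem mkAff_sound {a1 a2 b1 b3 : ℝ} {A1 A2 B1 B3 : Bl} {r1 r2 r3 : ℕ}
    (h1 : A1.Mem a1) (h2 : A2.Mem a2) (h3 : B1.Mem b1) (h4 : B3.Mem b3)
    (hr1 : |a1| + |b1| ≤ (r1 : ℝ) / 2 ^ 64) (hr2 : |a2| ≤ (r2 : ℝ) / 2 ^ 64)
    (hr3 : |b3| ≤ (r3 : ℝ) / 2 ^ 64) :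
    (mkAff A1 A2 B1 B3 r1 r2 r3).Mem a1 a2 b1 b3 := by
  have sq : ∀ r : ℕ, ((r : ℝ) / 2 ^ 64) ^ 2 ≤ (mu r r : ℝ) / 2 ^ 64 := fun r => by
    have := mu_le r r; rw [sq]; exact this
  have cu : ∀ r : ℕ, ((r : ℝ) / 2 ^ 64) ^ 3 ≤ (mu r (mu r r) : ℝ) / 2 ^ 64 := fun r => by
    have h := mu_le r (mu r r)
    have h0 : (0 : ℝ) ≤ (r : ℝ) / 2 ^ 64 := by positivity
    calc ((r : ℝ) / 2 ^ 64) ^ 3 = (r : ℝ) / 2 ^ 64 * ((r : ℝ) / 2 ^ 64) ^ 2 := by ring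
      _ ≤ (r : ℝ) / 2 ^ 64 * ((mu r r : ℝ) / 2 ^ 64) := mul_le_mul_of_nonneg_left (sq r) h0
      _ ≤ _ := h
  exact
    { hA1 := h1, hA2 := h2, hB1 := h3, hB3 := h4
      hA11 := mem_mul h1 h1, hA12 := mem_mul h1 h2, hA22 := mem_mul h2 h2, hAB := mem_mul h1 h3
      hA2B1 := mem_mul h2 h3, hA1B3 := mem_mul h1 h4, hA2B3 := mem_mul h2 h4
      hB11 := mem_mul h3 h3, hB13 := mem_mul h3 h4, hB33 := mem_mul h4 h4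
      hax := hr1, hay := hr2, haz := hr3
      hbx := sq r1, hby := sq r2, hbz := sq r3
      hcx := cu r1, hcy := cu r2, hcz := cu r3 }

/-- second order model of one character -/
noncomputable def Md (p t C S a b c : ℝ) : ℝ :=
  C * (1 + (p * (a + b) + (1 - 2 * p) * c)
      + ((p * (a + b) + (1 - 2 * p) * c) ^ 2 - (t * (a - b)) ^ 2
        - (p * (a ^ 2 + b ^ 2) + (1 - 2 * p) * c ^ 2)) / 2)
    - S * (t * (a - b) + (p * (a + b) + (1 - 2 * p) * c) * (t * (a - b))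
        - t * (a ^ 2 - b ^ 2) / 2)

/-- remainder weight -/
noncomputable def Wt (al q x y z : ℝ) : ℝ :=
  (al * (x + y) + q * z) ^ 3 + 3 * (al * (x + y) + q * z) * (al * (x ^ 2 + y ^ 2) + q * z ^ 2)
    + 2 * (al * (x ^ 3 + y ^ 3) + q * z ^ 3)

theorem t_le (al Q x y z : ℕ) (X Y Z : ℝ) (hX : X ≤ (x : ℝ) / 2 ^ 64) (hY : Y ≤ (y : ℝ) / 2 ^ 64)
    (hZ : Z ≤ (z : ℝ) / 2 ^ 64) :
    (al : ℝ) / 1024 * (X + Y) + (Q : ℝ) / 16 * Z ≤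
      ((Nat.add (Nat.shiftRight (Nat.add (Nat.mul al (Nat.add x y))
    (Nat.mul (Nat.mul 64 Q) z)) 10) 1 : ℕ) : ℝ) / 2 ^ 64 := by
  have h := le_shr (Nat.add (Nat.mul al (Nat.add x y)) (Nat.mul (Nat.mul 64 Q) z)) 10
  have e : ((Nat.add (Nat.mul al (Nat.add x y)) (Nat.mul (Nat.mul 64 Q) z) : ℕ) : ℝ) =
      al * (x + y) + 64 * Q * z := by
    simp only [Nat.add_eq, Nat.mul_eq]; push_cast; ring
  rw [e] at h
  have e2 : ((Nat.add (Nat.shiftRight (Nat.add (Nat.mul al (Nat.add x y))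
    (Nat.mul (Nat.mul 64 Q) z)) 10) 1 : ℕ) : ℝ) = ((Nat.shiftRight (Nat.add (Nat.mul al (Nat.add x y))
    (Nat.mul (Nat.mul 64 Q) z)) 10 : ℕ) : ℝ) + 1 := Nat.cast_succ _
  rw [e2]
  have h1 : (al : ℝ) / 1024 * (X + Y) + (Q : ℝ) / 16 * Z ≤
      (al : ℝ) / 1024 * ((x : ℝ) / 2 ^ 64 + (y : ℝ) / 2 ^ 64) + (Q : ℝ) / 16 * ((z : ℝ) / 2 ^ 64) := by
    gcongr
  have h2 : (al : ℝ) / 1024 * ((x : ℝ) / 2 ^ 64 + (y : ℝ) / 2 ^ 64) + (Q : ℝ) / 16 * ((z : ℝ) / 2 ^ 64) =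
      ((al * (x + y) + 64 * Q * z : ℝ) / 2 ^ 10) / 2 ^ 64 := by ring
  rw [h2] at h1
  refine h1.trans ?_
  gcongr

theorem wt_le (al Q x1 x2 x3 y1 y2 y3 z1 z2 z3 : ℕ)
    (hx2 : ((x1 : ℝ) / 2 ^ 64) ^ 2 ≤ (x2 : ℝ) / 2 ^ 64)
    (hy2 : ((y1 : ℝ) / 2 ^ 64) ^ 2 ≤ (y2 : ℝ) / 2 ^ 64)
    (hz2 : ((z1 : ℝ) / 2 ^ 64) ^ 2 ≤ (z2 : ℝ) / 2 ^ 64)
    (hx3 : ((x1 : ℝ) / 2 ^ 64) ^ 3 ≤ (x3 : ℝ) / 2 ^ 64)
    (hy3 : ((y1 : ℝ) / 2 ^ 64) ^ 3 ≤ (y3 : ℝ) / 2 ^ 64)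
    (hz3 : ((z1 : ℝ) / 2 ^ 64) ^ 3 ≤ (z3 : ℝ) / 2 ^ 64) :
    Wt ((al : ℝ) / 1024) ((Q : ℝ) / 16) ((x1 : ℝ) / 2 ^ 64) ((y1 : ℝ) / 2 ^ 64)
      ((z1 : ℝ) / 2 ^ 64) ≤ (remw al Q x1 x2 x3 y1 y2 y3 z1 z2 z3 : ℝ) / 2 ^ 64 := by
  have h1 := t_le al Q x1 y1 z1 _ _ _ (le_refl _) (le_refl _) (le_refl _)
  have h2 := t_le al Q x2 y2 z2 _ _ _ hx2 hy2 hz2
  have h3 := t_le al Q x3 y3 z3 _ _ _ hx3 hy3 hz3
  unfold remw Wt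
  dsimp only
  generalize Nat.add (Nat.shiftRight (Nat.add (Nat.mul al (Nat.add x1 y1))
    (Nat.mul (Nat.mul 64 Q) z1)) 10) 1 = t1 at h1 ⊢
  generalize Nat.add (Nat.shiftRight (Nat.add (Nat.mul al (Nat.add x2 y2))
    (Nat.mul (Nat.mul 64 Q) z2)) 10) 1 = t2 at h2 ⊢
  generalize Nat.add (Nat.shiftRight (Nat.add (Nat.mul al (Nat.add x3 y3))
    (Nat.mul (Nat.mul 64 Q) z3)) 10) 1 = t3 at h3 ⊢
  have n1 : 0 ≤ (al : ℝ) / 1024 * ((x1 : ℝ) / 2 ^ 64 + (y1 : ℝ) / 2 ^ 64) +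
    (Q : ℝ) / 16 * ((z1 : ℝ) / 2 ^ 64) := by positivity
  have n2 : 0 ≤ (al : ℝ) / 1024 * (((x1 : ℝ) / 2 ^ 64) ^ 2 + ((y1 : ℝ) / 2 ^ 64) ^ 2) +
    (Q : ℝ) / 16 * ((z1 : ℝ) / 2 ^ 64) ^ 2 := by positivity
  generalize (al : ℝ) / 1024 * ((x1 : ℝ) / 2 ^ 64 + (y1 : ℝ) / 2 ^ 64) +
    (Q : ℝ) / 16 * ((z1 : ℝ) / 2 ^ 64) = T1 at h1 n1 ⊢
  generalize (al : ℝ) / 1024 * (((x1 : ℝ) / 2 ^ 64) ^ 2 + ((y1 : ℝ) / 2 ^ 64) ^ 2) +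
    (Q : ℝ) / 16 * ((z1 : ℝ) / 2 ^ 64) ^ 2 = T2 at h2 n2 ⊢
  generalize (al : ℝ) / 1024 * (((x1 : ℝ) / 2 ^ 64) ^ 3 + ((y1 : ℝ) / 2 ^ 64) ^ 3) +
    (Q : ℝ) / 16 * ((z1 : ℝ) / 2 ^ 64) ^ 3 = T3 at h3 ⊢
  have m1 := mu_le t1 t1
  have m2 := mu_le t1 (mu t1 t1)
  have m3 := mu_le t1 t2
  have a1 : T1 ^ 3 ≤ (mu t1 (mu t1 t1) : ℝ) / 2 ^ 64 := by
    calc T1 ^ 3 ≤ ((t1 : ℝ) / 2 ^ 64) ^ 3 := by gcongr
      _ = (t1 : ℝ) / 2 ^ 64 * ((t1 : ℝ) / 2 ^ 64 * ((t1 : ℝ) / 2 ^ 64)) := by ring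
      _ ≤ (t1 : ℝ) / 2 ^ 64 * ((mu t1 t1 : ℝ) / 2 ^ 64) := by gcongr
      _ ≤ _ := m2
  have a2 : T1 * T2 ≤ (mu t1 t2 : ℝ) / 2 ^ 64 := by
    calc T1 * T2 ≤ ((t1 : ℝ) / 2 ^ 64) * ((t2 : ℝ) / 2 ^ 64) := by gcongr
      _ ≤ _ := m3
  have e : ((Nat.add (Nat.add (mu t1 (mu t1 t1)) (Nat.mul 3 (mu t1 t2))) (Nat.mul 2 t3) : ℕ) : ℝ) =
      (mu t1 (mu t1 t1) : ℝ) + 3 * (mu t1 t2 : ℝ) + 2 * t3 := by
    simp only [Nat.add_eq, Nat.mul_eq]; push_cast; ring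
  rw [e]
  have e2 : ((mu t1 (mu t1 t1) : ℝ) + 3 * (mu t1 t2 : ℝ) + 2 * t3) / 2 ^ 64 =
    (mu t1 (mu t1 t1) : ℝ) / 2 ^ 64 + 3 * ((mu t1 t2 : ℝ) / 2 ^ 64) + 2 * ((t3 : ℝ) / 2 ^ 64) := by ring
  rw [e2]
  have e3 : 3 * T1 * T2 = 3 * (T1 * T2) := by ring
  rw [e3]
  gcongr

theorem rem_aux (E w f : ℕ) (W δ : ℝ) (hW : W ≤ (w : ℝ) / 2 ^ 64)
    (h : δ ≤ (E : ℝ) / 2 ^ 64 * (W / 6 * ((f : ℝ) / 2 ^ 64))) :
    δ ≤ (mu (mu E w) f : ℝ) / 2 ^ 64 / 6 := by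
  have m1 := mu_le E w
  have m2 := mu_le (mu E w) f
  calc δ ≤ (E : ℝ) / 2 ^ 64 * (W / 6 * ((f : ℝ) / 2 ^ 64)) := h
    _ ≤ (E : ℝ) / 2 ^ 64 * ((w : ℝ) / 2 ^ 64 / 6 * ((f : ℝ) / 2 ^ 64)) := by gcongr
    _ = ((E : ℝ) / 2 ^ 64 * ((w : ℝ) / 2 ^ 64)) * ((f : ℝ) / 2 ^ 64) / 6 := by ring
    _ ≤ ((mu E w : ℝ) / 2 ^ 64) * ((f : ℝ) / 2 ^ 64) / 6 := by gcongr
    _ ≤ _ := by gcongr

theorem jet_ident (P T Q A1 A2 B1 B3 c1 c2 c3 s1 s2 s3 u v k1 k2 k3 k4 : ℝ) (hQ : Q = 16 - 2 * P)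
    (hk1 : k1 = 16 * P + T * T - P * P) (hk2 : k2 = T * Q) (hk3 : k3 = 2 * (P * Q))
    (hk4 : k4 = P * P + T * T) :
    (Md (P / 16) (T / 16) c1 s1 (A2 * u) (B3 * v) (A1 * u + B1 * v)
      + Md (P / 16) (T / 16) c2 s2 (B3 * v) (A1 * u + B1 * v) (A2 * u)
      + Md (P / 16) (T / 16) c3 s3 (A1 * u + B1 * v) (A2 * u) (B3 * v)) / 3 =
    (c1 + c2 + c3) / (3 : ℝ)
    + (((P * c3 - T * s3) + (P * c2 + T * s2) + Q * c1) * A1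
        + ((P * c1 - T * s1) + (P * c3 + T * s3) + Q * c2) * A2) / (48 : ℝ) * u
    + (((P * c3 - T * s3) + (P * c2 + T * s2) + Q * c1) * B1
        + ((P * c2 - T * s2) + (P * c1 + T * s1) + Q * c3) * B3) / (48 : ℝ) * v
    + ((k2 * (s3 - s2) - (k1 * (c3 + c2) + k3 * c1)) * (A1 * A1)
        + (k2 * (s1 - s3) - (k1 * (c1 + c3) + k3 * c2)) * (A2 * A2)
        + 2 * ((k4 * c3 + Q * ((P * c1 - T * s1) + (P * c2 + T * s2))) * (A1 * A2))) / (1536 : ℝ) * u ^ 2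
    + ((k2 * (s3 - s2) - (k1 * (c3 + c2) + k3 * c1)) * (A1 * B1)
        + (k4 * c3 + Q * ((P * c1 - T * s1) + (P * c2 + T * s2))) * (A2 * B1)
        + ((k4 * c2 + Q * ((P * c3 - T * s3) + (P * c1 + T * s1))) * (A1 * B3)
        + (k4 * c1 + Q * ((P * c2 - T * s2) + (P * c3 + T * s3))) * (A2 * B3))) / (768 : ℝ) * (u * v)
    + ((k2 * (s3 - s2) - (k1 * (c3 + c2) + k3 * c1)) * (B1 * B1)
        + (k2 * (s2 - s1) - (k1 * (c2 + c1) + k3 * c3)) * (B3 * B3)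
        + 2 * ((k4 * c2 + Q * ((P * c3 - T * s3) + (P * c1 + T * s1))) * (B1 * B3))) / (1536 : ℝ) * v ^ 2 := by
  subst hk1 hk2 hk3 hk4 hQ
  unfold Md
  ring

/-- the general jet lemma: `φ k` is within the remainder of the second order model of character `k` -/
theorem jetF_sound (s : FS) (hP : s.P ≤ 8) (C S : Tri Bl) (E fc : Tri ℕ) (A : Aff)
    (A1 A2 B1 B3 : ℝ) (hA : A.Mem A1 A2 B1 B3) (c1 c2 c3 s1 s2 s3 : ℝ)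
    (hc1 : C.x.Mem c1) (hc2 : C.y.Mem c2) (hc3 : C.z.Mem c3)
    (hs1 : S.x.Mem s1) (hs2 : S.y.Mem s2) (hs3 : S.z.Mem s3) (φ1 φ2 φ3 : ℝ → ℝ → ℝ)
    (h1 : ∀ u v : ℝ, |u| ≤ 1 → |v| ≤ 1 →
      |φ1 u v - Md ((s.P : ℝ) / 16) ((s.T : ℝ) / 16) c1 s1 (A2 * u) (B3 * v) (A1 * u + B1 * v)| ≤
        (E.x : ℝ) / 2 ^ 64 * (Wt ((s.al : ℝ) / 1024) (1 - 2 * ((s.P : ℝ) / 16))
          ((A.ra.y : ℝ) / 2 ^ 64) ((A.ra.z : ℝ) / 2 ^ 64) ((A.ra.x : ℝ) / 2 ^ 64) / 6 *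
          ((fc.x : ℝ) / 2 ^ 64)))
    (h2 : ∀ u v : ℝ, |u| ≤ 1 → |v| ≤ 1 →
      |φ2 u v - Md ((s.P : ℝ) / 16) ((s.T : ℝ) / 16) c2 s2 (B3 * v) (A1 * u + B1 * v) (A2 * u)| ≤
        (E.y : ℝ) / 2 ^ 64 * (Wt ((s.al : ℝ) / 1024) (1 - 2 * ((s.P : ℝ) / 16))
          ((A.ra.z : ℝ) / 2 ^ 64) ((A.ra.x : ℝ) / 2 ^ 64) ((A.ra.y : ℝ) / 2 ^ 64) / 6 *
          ((fc.y : ℝ) / 2 ^ 64)))
    (h3 : ∀ u v : ℝ, |u| ≤ 1 → |v| ≤ 1 →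
      |φ3 u v - Md ((s.P : ℝ) / 16) ((s.T : ℝ) / 16) c3 s3 (A1 * u + B1 * v) (A2 * u) (B3 * v)| ≤
        (E.z : ℝ) / 2 ^ 64 * (Wt ((s.al : ℝ) / 1024) (1 - 2 * ((s.P : ℝ) / 16))
          ((A.ra.x : ℝ) / 2 ^ 64) ((A.ra.y : ℝ) / 2 ^ 64) ((A.ra.z : ℝ) / 2 ^ 64) / 6 *
          ((fc.z : ℝ) / 2 ^ 64))) :
    (jetF s C S E fc A).Mem (fun u v => (φ1 u v + φ2 u v + φ3 u v) / 3) := by
  have hX1 := mem_norm (mem_sub (mem_smul s.P hc1) (mem_smul s.T hs1))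
  have hX2 := mem_norm (mem_sub (mem_smul s.P hc2) (mem_smul s.T hs2))
  have hX3 := mem_norm (mem_sub (mem_smul s.P hc3) (mem_smul s.T hs3))
  have hY1 := mem_norm (mem_add (mem_smul s.P hc1) (mem_smul s.T hs1))
  have hY2 := mem_norm (mem_add (mem_smul s.P hc2) (mem_smul s.T hs2))
  have hY3 := mem_norm (mem_add (mem_smul s.P hc3) (mem_smul s.T hs3))
  unfold jetF
  dsimp only
  generalize hQ : Nat.sub 16 (Nat.mul 2 s.P) = Q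
  generalize hk1 : Nat.sub (Nat.add (Nat.mul 16 s.P) (Nat.mul s.T s.T)) (Nat.mul s.P s.P) = k1
  generalize hk2 : Nat.mul s.T Q = k2
  generalize hk3 : Nat.mul 2 (Nat.mul s.P Q) = k3
  generalize hk4 : Nat.add (Nat.mul s.P s.P) (Nat.mul s.T s.T) = k4
  have eQ : (Q : ℝ) = 16 - 2 * (s.P : ℝ) := by
    have : Q + 2 * s.P = 16 := by
      have e : Q = 16 - 2 * s.P := hQ.symm
      omega
    have h : (Q : ℝ) + 2 * (s.P : ℝ) = 16 := by exact_mod_cast this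
    linarith
  have e1 : (k1 : ℝ) = 16 * (s.P : ℝ) + s.T * s.T - s.P * s.P := by
    have : k1 + s.P * s.P = 16 * s.P + s.T * s.T := by
      have e : k1 = 16 * s.P + s.T * s.T - s.P * s.P := hk1.symm
      have h : s.P * s.P ≤ 16 * s.P := Nat.mul_le_mul_right _ (by omega)
      omega
    have h : (k1 : ℝ) + (s.P : ℝ) * s.P = 16 * (s.P : ℝ) + s.T * s.T := by exact_mod_cast this
    linarith
  have e2 : (k2 : ℝ) = s.T * Q := by rw [← hk2]; exact Nat.cast_mul _ _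
  have e3 : (k3 : ℝ) = 2 * ((s.P : ℝ) * Q) := by
    have : k3 = 2 * (s.P * Q) := hk3.symm
    rw [this]; push_cast; ring
  have e4 : (k4 : ℝ) = (s.P : ℝ) * s.P + s.T * s.T := by
    have : k4 = s.P * s.P + s.T * s.T := hk4.symm
    rw [this]; push_cast; ring
  have hG1 := mem_norm (mem_add (mem_add hX3 hY2) (mem_smul Q hc1))
  have hG2 := mem_norm (mem_add (mem_add hX1 hY3) (mem_smul Q hc2))
  have hG3 := mem_norm (mem_add (mem_add hX2 hY1) (mem_smul Q hc3))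
  have hH11 := mem_norm (mem_sub (mem_smul k2 (mem_sub hs3 hs2))
    (mem_add (mem_smul k1 (mem_add hc3 hc2)) (mem_smul k3 hc1)))
  have hH22 := mem_norm (mem_sub (mem_smul k2 (mem_sub hs1 hs3))
    (mem_add (mem_smul k1 (mem_add hc1 hc3)) (mem_smul k3 hc2)))
  have hH33 := mem_norm (mem_sub (mem_smul k2 (mem_sub hs2 hs1))
    (mem_add (mem_smul k1 (mem_add hc2 hc1)) (mem_smul k3 hc3)))
  have hH12 := mem_norm (mem_add (mem_smul k4 hc3) (mem_smul Q (mem_add hX1 hY2)))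
  have hH23 := mem_norm (mem_add (mem_smul k4 hc1) (mem_smul Q (mem_add hX2 hY3)))
  have hH13 := mem_norm (mem_add (mem_smul k4 hc2) (mem_smul Q (mem_add hX3 hY1)))
  refine ⟨_, _, _, _, _, _, mem_norm (mem_sdiv 3 (by norm_num) (mem_add (mem_add hc1 hc2) hc3)),
    mem_norm (mem_sdiv 48 (by norm_num) (mem_add (mem_mul hG1 hA.hA1) (mem_mul hG2 hA.hA2))),
    mem_norm (mem_sdiv 48 (by norm_num) (mem_add (mem_mul hG1 hA.hB1) (mem_mul hG3 hA.hB3))),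
    mem_norm (mem_sdiv 1536 (by norm_num) (mem_add (mem_add (mem_mul hH11 hA.hA11)
      (mem_mul hH22 hA.hA22)) (mem_smul 2 (mem_mul hH12 hA.hA12)))),
    mem_norm (mem_sdiv 768 (by norm_num) (mem_add (mem_add (mem_mul hH11 hA.hAB)
      (mem_mul hH12 hA.hA2B1)) (mem_add (mem_mul hH13 hA.hA1B3) (mem_mul hH23 hA.hA2B3)))),
    mem_norm (mem_sdiv 1536 (by norm_num) (mem_add (mem_add (mem_mul hH11 hA.hB11)
      (mem_mul hH33 hA.hB33)) (mem_smul 2 (mem_mul hH13 hA.hB13)))), ?_⟩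
  intro u v hu hv
  have g1 := h1 u v hu hv
  have g2 := h2 u v hu hv
  have g3 := h3 u v hu hv
  have eq : 1 - 2 * ((s.P : ℝ) / 16) = (Q : ℝ) / 16 := by rw [eQ]; ring
  rw [eq] at g1 g2 g3
  have w1 := wt_le s.al Q A.ra.y A.rb.y A.rc.y A.ra.z A.rb.z A.rc.z A.ra.x A.rb.x A.rc.x
    hA.hby hA.hbz hA.hbx hA.hcy hA.hcz hA.hcx
  have w2 := wt_le s.al Q A.ra.z A.rb.z A.rc.z A.ra.x A.rb.x A.rc.x A.ra.y A.rb.y A.rc.y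
    hA.hbz hA.hbx hA.hby hA.hcz hA.hcx hA.hcy
  have w3 := wt_le s.al Q A.ra.x A.rb.x A.rc.x A.ra.y A.rb.y A.rc.y A.ra.z A.rb.z A.rc.z
    hA.hbx hA.hby hA.hbz hA.hcx hA.hcy hA.hcz
  have r1 := rem_aux _ _ _ _ _ w1 g1
  have r2 := rem_aux _ _ _ _ _ w2 g2
  have r3 := rem_aux _ _ _ _ _ w3 g3
  clear g1 g2 g3 w1 w2 w3
  have hid := jet_ident (s.P : ℝ) s.T Q A1 A2 B1 B3 c1 c2 c3 s1 s2 s3 u v k1 k2 k3 k4 eQ e1 e2 e3 e4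
  generalize mu (mu E.x (remw s.al Q A.ra.y A.rb.y A.rc.y A.ra.z A.rb.z A.rc.z A.ra.x A.rb.x
    A.rc.x)) fc.x = m1 at r1 ⊢
  generalize mu (mu E.y (remw s.al Q A.ra.z A.rb.z A.rc.z A.ra.x A.rb.x A.rc.x A.ra.y A.rb.y
    A.rc.y)) fc.y = m2 at r2 ⊢
  generalize mu (mu E.z (remw s.al Q A.ra.x A.rb.x A.rc.x A.ra.y A.rb.y A.rc.y A.ra.z A.rb.z
    A.rc.z)) fc.z = m3 at r3 ⊢
  have hfin := le_cdiv (Nat.add (Nat.add m1 m2) m3) 18 (by norm_num)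
  have em : ((Nat.add (Nat.add m1 m2) m3 : ℕ) : ℝ) = m1 + m2 + m3 := by
    simp only [Nat.add_eq]; push_cast; ring
  rw [em] at hfin
  refine le_trans ?_ hfin
  push_cast
  rw [← hid]
  generalize Md ((s.P : ℝ) / 16) ((s.T : ℝ) / 16) c1 s1 (A2 * u) (B3 * v) (A1 * u + B1 * v) = M1 at r1 ⊢
  generalize Md ((s.P : ℝ) / 16) ((s.T : ℝ) / 16) c2 s2 (B3 * v) (A1 * u + B1 * v) (A2 * u) = M2 at r2 ⊢
  generalize Md ((s.P : ℝ) / 16) ((s.T : ℝ) / 16) c3 s3 (A1 * u + B1 * v) (A2 * u) (B3 * v) = M3 at r3 ⊢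
  have key : |(φ1 u v + φ2 u v + φ3 u v) / 3 - (M1 + M2 + M3) / 3| ≤
      ((m1 : ℝ) / 2 ^ 64 / 6 + (m2 : ℝ) / 2 ^ 64 / 6 + (m3 : ℝ) / 2 ^ 64 / 6) / 3 := by
    have : (φ1 u v + φ2 u v + φ3 u v) / 3 - (M1 + M2 + M3) / 3 =
      ((φ1 u v - M1) + (φ2 u v - M2) + (φ3 u v - M3)) / 3 := by ring
    rw [this, abs_div, abs_of_pos (by norm_num : (0 : ℝ) < 3)]
    gcongr
    exact (abs_add_three _ _ _).trans (by gcongr)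
  calc |(φ1 u v + φ2 u v + φ3 u v) / 3 - (M1 + M2 + M3) / 3| * 2 ^ 64 ≤
      ((m1 : ℝ) / 2 ^ 64 / 6 + (m2 : ℝ) / 2 ^ 64 / 6 + (m3 : ℝ) / 2 ^ 64 / 6) / 3 * 2 ^ 64 := by
        gcongr
    _ = _ := by field_simp; ring

theorem fac_core (r u w1 w2 : ℕ) (hrR : (r : ℝ) ≤ 17446744073709551616)
    (huR : (u : ℝ) = 2 ^ 64 - r)
    (hw1u : (w1 : ℝ) ≤ (u : ℝ) * u / 2 ^ 64) (hw1l : (u : ℝ) * u / 2 ^ 64 ≤ w1 + 1)
    (hw2u : (w2 : ℝ) ≤ (w1 : ℝ) * u / 2 ^ 64) (hw2l : (w1 : ℝ) * u / 2 ^ 64 ≤ w2 + 1) :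
    0 < w2 ∧ (1 + (r : ℝ) / 2 ^ 64) / (1 - (r : ℝ) / 2 ^ 64) ^ 3 ≤
      ((((2 : ℝ) ^ 64 + r) * 2 ^ 64) / w2) / 2 ^ 64 := by
  have hu1R : (10 : ℝ) ^ 18 ≤ u := by rw [huR]; norm_num; linarith
  have hw1p : (10 : ℝ) ^ 16 ≤ w1 := by
    have : (10 : ℝ) ^ 16 + 1 ≤ (u : ℝ) * u / 2 ^ 64 := by
      rw [le_div_iff₀ (by positivity)]
      nlinarith
    linarith
  have hw2p : (1 : ℝ) ≤ w2 := by
    have : (1 : ℝ) + 1 ≤ (w1 : ℝ) * u / 2 ^ 64 := by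
      rw [le_div_iff₀ (by positivity)]
      nlinarith
    linarith
  have hw2N : 0 < w2 := by
    by_contra h
    have h0 : w2 = 0 := by omega
    rw [h0] at hw2p; norm_num at hw2p
  refine ⟨hw2N, ?_⟩
  have hv : (1 - (r : ℝ) / 2 ^ 64) = (u : ℝ) / 2 ^ 64 := by rw [huR]; field_simp
  have hup : (0 : ℝ) < u := by linarith
  have hcube : (w2 : ℝ) / 2 ^ 64 ≤ (1 - (r : ℝ) / 2 ^ 64) ^ 3 := by
    rw [hv]
    have : (w2 : ℝ) ≤ (u : ℝ) * u / 2 ^ 64 * u / 2 ^ 64 := by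
      refine hw2u.trans ?_
      gcongr
    calc (w2 : ℝ) / 2 ^ 64 ≤ ((u : ℝ) * u / 2 ^ 64 * u / 2 ^ 64) / 2 ^ 64 := by gcongr
      _ = ((u : ℝ) / 2 ^ 64) ^ 3 := by ring
  calc (1 + (r : ℝ) / 2 ^ 64) / (1 - (r : ℝ) / 2 ^ 64) ^ 3
      ≤ (1 + (r : ℝ) / 2 ^ 64) / ((w2 : ℝ) / 2 ^ 64) := by
        gcongr
    _ = ((((2 : ℝ) ^ 64 + r) * 2 ^ 64) / w2) / 2 ^ 64 := by
        field_simp

/-- rounded up factor -/
theorem fac_le (r : ℕ) (hr : r ≤ 17446744073709551616) :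
    (1 + (r : ℝ) / 2 ^ 64) / (1 - (r : ℝ) / 2 ^ 64) ^ 3 ≤ (fac r : ℝ) / 2 ^ 64 := by
  unfold fac
  dsimp only
  generalize hu : Nat.sub 18446744073709551616 r = u
  generalize hw1 : Nat.shiftRight (Nat.mul u u) 64 = w1
  generalize hw2 : Nat.shiftRight (Nat.mul w1 u) 64 = w2
  have hrR : (r : ℝ) ≤ 17446744073709551616 := by exact_mod_cast hr
  have huN : u + r = 18446744073709551616 := by
    have : u = 18446744073709551616 - r := hu.symm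
    omega
  have huR : (u : ℝ) = 2 ^ 64 - r := by
    have : (u : ℝ) + r = 18446744073709551616 := by exact_mod_cast huN
    norm_num; linarith
  have e1 : ((Nat.mul u u : ℕ) : ℝ) = (u : ℝ) * u := Nat.cast_mul u u
  have e2 : ((Nat.mul w1 u : ℕ) : ℝ) = (w1 : ℝ) * u := Nat.cast_mul w1 u
  obtain ⟨h0, h1⟩ := fac_core r u w1 w2 hrR huR
    (by rw [← e1, ← hw1]; exact shr_le _ _) (by rw [← e1, ← hw1]; exact le_shr _ _)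
    (by rw [← e2, ← hw2]; exact shr_le _ _) (by rw [← e2, ← hw2]; exact le_shr _ _)
  refine h1.trans ?_
  gcongr
  generalize hX : Nat.shiftLeft (Nat.add 18446744073709551616 r) 64 = X
  have eX : (X : ℝ) = (2 ^ 64 + r) * 2 ^ 64 := by
    rw [← hX, cast_shl]
    have : ((Nat.add 18446744073709551616 r : ℕ) : ℝ) = ((18446744073709551616 : ℕ) : ℝ) + r :=
      Nat.cast_add _ _
    rw [this]
    norm_num
  rw [← eX]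
  exact le_cdiv X w2 h0

theorem fs_ok {s : FS} (hs : s.ok = true) : 6 ≤ s.P ∧ s.P ≤ 8 ∧ s.T ≤ 31 ∧
    4096 * (s.P * s.P + s.T * s.T) ≤ s.al * s.al := by
  unfold FS.ok at hs
  simp only [Bool.and_eq_true, decide_eq_true_eq] at hs
  exact ⟨hs.1.1.1, hs.1.1.2, hs.1.2, hs.2⟩

theorem Xe_nonneg (p a b c : ℝ) (ha : 0 ≤ a) (hb : 0 ≤ b) (hc : 0 ≤ c) : 0 ≤ Xe p a b c := by
  unfold Xe
  have := Real.rpow_nonneg (mul_nonneg ha hb) p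
  have := Real.rpow_nonneg hc (1 - 2 * p)
  positivity

theorem chr_model_aux (s : FS) (hs : s.ok = true) (a b c : ℝ) (ha : 0 < a) (hb : 0 < b) (hc : 0 < c)
    (E r f ra rb rc : ℕ) (hE : Xe ((s.P : ℝ) / 16) a b c ≤ (E : ℝ) / 2 ^ 64)
    (hra : ra ≤ r) (hrb : rb ≤ r) (hrc : rc ≤ r) (hr : r ≤ 17446744073709551616)
    (hf : f = fac r) (x y z : ℝ) (hx : |x| ≤ (ra : ℝ) / 2 ^ 64) (hy : |y| ≤ (rb : ℝ) / 2 ^ 64)
    (hz : |z| ≤ (rc : ℝ) / 2 ^ 64) :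
    |Xc ((s.P : ℝ) / 16) ((s.T : ℝ) / 16) (a * (1 + x)) (b * (1 + y)) (c * (1 + z)) -
      Md ((s.P : ℝ) / 16) ((s.T : ℝ) / 16) (Xc ((s.P : ℝ) / 16) ((s.T : ℝ) / 16) a b c)
        (Xs ((s.P : ℝ) / 16) ((s.T : ℝ) / 16) a b c) x y z| ≤
      (E : ℝ) / 2 ^ 64 * (Wt ((s.al : ℝ) / 1024) (1 - 2 * ((s.P : ℝ) / 16))
          ((ra : ℝ) / 2 ^ 64) ((rb : ℝ) / 2 ^ 64) ((rc : ℝ) / 2 ^ 64) / 6 * ((f : ℝ) / 2 ^ 64)) := by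
  obtain ⟨h6, h8, hT, hal⟩ := fs_ok hs
  have h6' : (6 : ℝ) ≤ s.P := by exact_mod_cast h6
  have h8' : (s.P : ℝ) ≤ 8 := by exact_mod_cast h8
  have hal' : 4096 * ((s.P : ℝ) * s.P + s.T * s.T) ≤ (s.al : ℝ) * s.al := by exact_mod_cast hal
  have hr1 : (r : ℝ) / 2 ^ 64 < 1 := by
    have : (r : ℝ) ≤ 17446744073709551616 := by exact_mod_cast hr
    rw [div_lt_one (by positivity)]
    refine lt_of_le_of_lt this (by norm_num)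
  have hA2 : ((s.P : ℝ) / 16) ^ 2 + ((s.T : ℝ) / 16) ^ 2 ≤ ((s.al : ℝ) / 1024) ^ 2 := by
    have e1 : ((s.P : ℝ) / 16) ^ 2 + ((s.T : ℝ) / 16) ^ 2 =
      (4096 * ((s.P : ℝ) * s.P + s.T * s.T)) / 1048576 := by ring
    have e2 : ((s.al : ℝ) / 1024) ^ 2 = ((s.al : ℝ) * s.al) / 1048576 := by ring
    rw [e1, e2]
    gcongr
  have hra' : (ra : ℝ) / 2 ^ 64 ≤ (r : ℝ) / 2 ^ 64 := by
    have : (ra : ℝ) ≤ r := by exact_mod_cast hra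
    gcongr
  have hrb' : (rb : ℝ) / 2 ^ 64 ≤ (r : ℝ) / 2 ^ 64 := by
    have : (rb : ℝ) ≤ r := by exact_mod_cast hrb
    gcongr
  have hrc' : (rc : ℝ) / 2 ^ 64 ≤ (r : ℝ) / 2 ^ 64 := by
    have : (rc : ℝ) ≤ r := by exact_mod_cast hrc
    gcongr
  have h := char_model ((s.P : ℝ) / 16) ((s.T : ℝ) / 16) ((s.al : ℝ) / 1024) (by linarith)
    (by linarith) (by positivity) hA2 a b c ha hb hc x y z _ _ _ _ hx hy hz hra' hrb' hrc' hr1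
  have hfac := fac_le r hr
  rw [← hf] at hfac
  unfold Md
  refine h.trans ?_
  have hX := Xe_nonneg ((s.P : ℝ) / 16) a b c ha.le hb.le hc.le
  have hq : 0 ≤ 1 - 2 * ((s.P : ℝ) / 16) := by linarith
  have hW : 0 ≤ Wt ((s.al : ℝ) / 1024) (1 - 2 * ((s.P : ℝ) / 16))
          ((ra : ℝ) / 2 ^ 64) ((rb : ℝ) / 2 ^ 64) ((rc : ℝ) / 2 ^ 64) := by
    unfold Wt
    positivity
  have e : ((((s.al : ℝ) / 1024) * ((ra : ℝ) / 2 ^ 64 + (rb : ℝ) / 2 ^ 64) +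
      (1 - 2 * ((s.P : ℝ) / 16)) * ((rc : ℝ) / 2 ^ 64)) ^ 3
      + 3 * (((s.al : ℝ) / 1024) * ((ra : ℝ) / 2 ^ 64 + (rb : ℝ) / 2 ^ 64) +
        (1 - 2 * ((s.P : ℝ) / 16)) * ((rc : ℝ) / 2 ^ 64)) *
        (((s.al : ℝ) / 1024) * (((ra : ℝ) / 2 ^ 64) ^ 2 + ((rb : ℝ) / 2 ^ 64) ^ 2) +
          (1 - 2 * ((s.P : ℝ) / 16)) * ((rc : ℝ) / 2 ^ 64) ^ 2)
      + 2 * (((s.al : ℝ) / 1024) * (((ra : ℝ) / 2 ^ 64) ^ 3 + ((rb : ℝ) / 2 ^ 64) ^ 3) +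
        (1 - 2 * ((s.P : ℝ) / 16)) * ((rc : ℝ) / 2 ^ 64) ^ 3)) =
      Wt ((s.al : ℝ) / 1024) (1 - 2 * ((s.P : ℝ) / 16))
          ((ra : ℝ) / 2 ^ 64) ((rb : ℝ) / 2 ^ 64) ((rc : ℝ) / 2 ^ 64) := rfl
  rw [e]
  generalize Wt ((s.al : ℝ) / 1024) (1 - 2 * ((s.P : ℝ) / 16))
          ((ra : ℝ) / 2 ^ 64) ((rb : ℝ) / 2 ^ 64) ((rc : ℝ) / 2 ^ 64) = W at hW ⊢
  have h1r : 0 < 1 - (r : ℝ) / 2 ^ 64 := by linarith
  have hF0 : 0 ≤ (1 + (r : ℝ) / 2 ^ 64) / (1 - (r : ℝ) / 2 ^ 64) ^ 3 := by positivity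
  gcongr

/-- one character against its model with checker constants (third variable arbitrary when
`P = 8`, then take `z = 0`, `rc = 0`) -/
theorem chr_model (s : FS) (hs : s.ok = true) (a b c : ℝ) (ha : 0 < a) (hb : 0 < b) (hc : 0 < c)
    (E r f ra rb rc : ℕ) (hE : Xe ((s.P : ℝ) / 16) a b c ≤ (E : ℝ) / 2 ^ 64)
    (hra : ra ≤ r) (hrb : rb ≤ r) (hrc : s.P = 8 ∨ rc ≤ r) (hr : r ≤ 17446744073709551616)
    (hf : f = fac r) (x y z : ℝ) (hx : |x| ≤ (ra : ℝ) / 2 ^ 64) (hy : |y| ≤ (rb : ℝ) / 2 ^ 64)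
    (hz : |z| ≤ (rc : ℝ) / 2 ^ 64) (_hz1 : |z| < 1) :
    |Xc ((s.P : ℝ) / 16) ((s.T : ℝ) / 16) (a * (1 + x)) (b * (1 + y)) (c * (1 + z)) -
      Md ((s.P : ℝ) / 16) ((s.T : ℝ) / 16) (Xc ((s.P : ℝ) / 16) ((s.T : ℝ) / 16) a b c)
        (Xs ((s.P : ℝ) / 16) ((s.T : ℝ) / 16) a b c) x y z| ≤
      (E : ℝ) / 2 ^ 64 * (Wt ((s.al : ℝ) / 1024) (1 - 2 * ((s.P : ℝ) / 16))
          ((ra : ℝ) / 2 ^ 64) ((rb : ℝ) / 2 ^ 64) ((rc : ℝ) / 2 ^ 64) / 6 * ((f : ℝ) / 2 ^ 64)) := by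
  rcases hrc with h8 | hrc
  · have e0 : (1 : ℝ) - 2 * ((s.P : ℝ) / 16) = 0 := by rw [h8]; norm_num
    have h := chr_model_aux s hs a b c ha hb hc E r f ra rb 0 hE hra hrb (Nat.zero_le _) hr hf x y 0
      hx hy (by simp)
    have eX : Xc ((s.P : ℝ) / 16) ((s.T : ℝ) / 16) (a * (1 + x)) (b * (1 + y)) (c * (1 + z)) =
      Xc ((s.P : ℝ) / 16) ((s.T : ℝ) / 16) (a * (1 + x)) (b * (1 + y)) (c * (1 + 0)) := by
      unfold Xc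
      rw [e0, Real.rpow_zero, Real.rpow_zero]
    have eM : ∀ C S : ℝ, Md ((s.P : ℝ) / 16) ((s.T : ℝ) / 16) C S x y z =
        Md ((s.P : ℝ) / 16) ((s.T : ℝ) / 16) C S x y 0 := by
      intro C S
      unfold Md
      rw [e0]
      ring
    have eW : Wt ((s.al : ℝ) / 1024) (1 - 2 * ((s.P : ℝ) / 16))
          ((ra : ℝ) / 2 ^ 64) ((rb : ℝ) / 2 ^ 64) ((rc : ℝ) / 2 ^ 64) =
        Wt ((s.al : ℝ) / 1024) (1 - 2 * ((s.P : ℝ) / 16))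
          ((ra : ℝ) / 2 ^ 64) ((rb : ℝ) / 2 ^ 64) (((0 : ℕ) : ℝ) / 2 ^ 64) := by
      unfold Wt
      rw [e0]
      ring
    rw [eX, eM, eW]
    exact h
  · exact chr_model_aux s hs a b c ha hb hc E r f ra rb rc hE hra hrb hrc hr hf x y z hx hy hz

theorem nth_map {α β : Type} (f : α → β) (d : α) (d' : β) : ∀ (l : List α) (n : ℕ), n < l.length →
    nth d' (l.map f) n = f (nth d l n) := by
  intro l
  induction l with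
  | nil => intro n hn; simp at hn
  | cons a l ih =>
    intro n hn
    rcases n with _ | n
    · rfl
    · have : nth d' (l.map f) n = f (nth d l n) := ih n (by simpa using hn)
      exact this

theorem max3_eq (a b : ℕ) : max3 a b = max a b := by
  unfold max3
  rcases h : Nat.ble a b with _ | _
  · have : ¬ a ≤ b := by
      intro h'
      rw [Nat.ble_eq.mpr h'] at h
      simp at h
    simp only [cond_false]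
    omega
  · have := Nat.ble_eq.mp h
    simp only [cond_true]
    omega

/-- the modulus of a character from sixteenth roots -/
theorem xe_root (P : ℕ) (hP : P ≤ 8) (a b c : ℝ) (ha : 0 < a) (hb : 0 < b) (hc : 0 < c) :
    (a ^ (1 / 16 : ℝ)) ^ P * (b ^ (1 / 16 : ℝ)) ^ P * (c ^ (1 / 16 : ℝ)) ^ (16 - 2 * P) =
      Xe ((P : ℝ) / 16) a b c := by
  unfold Xe
  have e : ∀ (x : ℝ) (k : ℕ), 0 < x → (x ^ (1 / 16 : ℝ)) ^ k = x ^ ((k : ℝ) / 16) := by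
    intro x k hx
    rw [← Real.rpow_natCast, ← Real.rpow_mul hx.le]
    congr 1
    ring
  have hQ : ((16 - 2 * P : ℕ) : ℝ) / 16 = 1 - 2 * ((P : ℝ) / 16) := by
    rw [Nat.cast_sub (by omega)]
    push_cast
    ring
  rw [e a P ha, e b P hb, e c _ hc, hQ, Real.mul_rpow ha.le hb.le]

theorem mkE_sound (P : ℕ) (hP : P ≤ 8) (M1 M2 M3 : ℝ) (m1 : 0 < M1) (m2 : 0 < M2) (m3 : 0 < M3)
    (g1 g2 g3 : Bl) (h1 : g1.Mem (M1 ^ (1 / 16 : ℝ))) (h2 : g2.Mem (M2 ^ (1 / 16 : ℝ)))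
    (h3 : g3.Mem (M3 ^ (1 / 16 : ℝ))) :
    (mkE g1 g2 g3 P).x.Mem (Xe ((P : ℝ) / 16) M2 M3 M1) ∧
    (mkE g1 g2 g3 P).y.Mem (Xe ((P : ℝ) / 16) M3 M1 M2) ∧
    (mkE g1 g2 g3 P).z.Mem (Xe ((P : ℝ) / 16) M1 M2 M3) := by
  rw [← xe_root P hP M2 M3 M1 m2 m3 m1, ← xe_root P hP M3 M1 M2 m3 m1 m2,
    ← xe_root P hP M1 M2 M3 m1 m2 m3]
  have a := mem_pow P (by omega) h1
  have b := mem_pow P (by omega) h2
  have c := mem_pow P (by omega) h3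
  have qa := mem_pow (16 - 2 * P) (by omega) h1
  have qb := mem_pow (16 - 2 * P) (by omega) h2
  have qc := mem_pow (16 - 2 * P) (by omega) h3
  have eQ : Nat.sub 16 (Nat.mul 2 P) = 16 - 2 * P := rfl
  unfold mkE
  dsimp only
  rw [eQ]
  rcases h : Nat.beq (16 - 2 * P) 0 with _ | _
  · simp only [cond_false]
    exact ⟨mem_mul (mem_mul b c) qa, mem_mul (mem_mul c a) qb, mem_mul (mem_mul a b) qc⟩
  · have e0 : 16 - 2 * P = 0 := Nat.eq_of_beq_eq_true h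
    simp only [cond_true]
    rw [e0, pow_zero, pow_zero, pow_zero, mul_one, mul_one, mul_one]
    exact ⟨mem_mul b c, mem_mul c a, mem_mul a b⟩

theorem rot_sound (T : ℕ) (hT : T ≤ 31) (a b : ℝ) (wa wb : Cx)
    (ha : wa.Mem (Real.cos (Real.log a / 16)) (Real.sin (Real.log a / 16)))
    (hb : wb.Mem (Real.cos (Real.log b / 16)) (Real.sin (Real.log b / 16))) :
    (Cx.pow (Cx.mul wa wb.conj) T).Mem (Real.cos ((T : ℝ) / 16 * (Real.log a - Real.log b)))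
      (Real.sin ((T : ℝ) / 16 * (Real.log a - Real.log b))) := by
  have h := cmem_mul ha (cmem_conj hb)
  have e1 : Real.cos (Real.log a / 16) * Real.cos (Real.log b / 16) -
      Real.sin (Real.log a / 16) * -Real.sin (Real.log b / 16) =
      Real.cos (Real.log a / 16 - Real.log b / 16) := by
    rw [Real.cos_sub]; ring
  have e2 : Real.cos (Real.log a / 16) * -Real.sin (Real.log b / 16) +
      Real.sin (Real.log a / 16) * Real.cos (Real.log b / 16) =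
      Real.sin (Real.log a / 16 - Real.log b / 16) := by
    rw [Real.sin_sub]; ring
  rw [e1, e2] at h
  have h' := cmem_pow T hT h
  have e3 : (T : ℝ) * (Real.log a / 16 - Real.log b / 16) =
    (T : ℝ) / 16 * (Real.log a - Real.log b) := by ring
  rw [e3] at h'
  exact h'

theorem Fn_three (P T : ℕ) (a b c : ℝ) :
    Fn (P, T) ![a, b, c] = (Xc ((P : ℝ) / 16) ((T : ℝ) / 16) b c a +
      Xc ((P : ℝ) / 16) ((T : ℝ) / 16) c a b + Xc ((P : ℝ) / 16) ((T : ℝ) / 16) a b c) / 3 := by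
  unfold Fn Fc Xc
  rw [Fin.sum_univ_three]
  have e1 : ((1 : Fin 3) + 1) = 2 := rfl
  have e2 : ((1 : Fin 3) + 2) = 0 := rfl
  have e3 : ((2 : Fin 3) + 1) = 0 := rfl
  have e4 : ((2 : Fin 3) + 2) = 1 := rfl
  rw [zero_add, zero_add, e1, e2, e3, e4]
  simp only [Matrix.cons_val_zero, Matrix.cons_val_one, Matrix.cons_val]
  ring

theorem ab_bound {x : ℝ} {b : Bl} (h : b.Mem x) : x ≤ (b.ab : ℝ) / 2 ^ 64 := by
  rw [le_div_iff₀ (by positivity)]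
  refine le_trans ?_ (mem_ab h)
  gcongr
  exact le_abs_self x

theorem lt_one_of {n : ℕ} (hn : n ≤ 17446744073709551616) : (n : ℝ) / 2 ^ 64 < 1 := by
  have : (n : ℝ) ≤ 17446744073709551616 := by exact_mod_cast hn
  rw [div_lt_one (by positivity)]
  refine lt_of_le_of_lt this (by norm_num)

theorem rad_one {a u R : ℝ} (h : |a| ≤ R) (hu : |u| ≤ 1) : |a * u| ≤ R := by
  rw [abs_mul]
  have := mul_le_mul_of_nonneg_left hu (abs_nonneg a)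
  linarith

theorem rad_two {a b u v R : ℝ} (h : |a| + |b| ≤ R) (hu : |u| ≤ 1) (hv : |v| ≤ 1) :
    |a * u + b * v| ≤ R := by
  refine (abs_add_le _ _).trans ?_
  rw [abs_mul, abs_mul]
  have := mul_le_mul_of_nonneg_left hu (abs_nonneg a)
  have := mul_le_mul_of_nonneg_left hv (abs_nonneg b)
  linarith

theorem cjet_core (s : FS) (hs : s.ok = true) (M1 M2 M3 : ℝ) (m1 : 0 < M1) (m2 : 0 < M2)
    (m3 : 0 < M3) (E : Tri Bl) (R : Tri Cx) (A1 A2 B1 B3 : ℝ) (A : Aff)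
    (hA : A.Mem A1 A2 B1 B3) (hx : A.ra.x ≤ 17446744073709551616)
    (hy : A.ra.y ≤ 17446744073709551616) (hz : A.ra.z ≤ 17446744073709551616)
    (hE1 : E.x.Mem (Xe ((s.P : ℝ) / 16) M2 M3 M1)) (hE2 : E.y.Mem (Xe ((s.P : ℝ) / 16) M3 M1 M2))
    (hE3 : E.z.Mem (Xe ((s.P : ℝ) / 16) M1 M2 M3))
    (hR1 : R.x.Mem (Real.cos ((s.T : ℝ) / 16 * (Real.log M2 - Real.log M3)))
      (Real.sin ((s.T : ℝ) / 16 * (Real.log M2 - Real.log M3))))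
    (hR2 : R.y.Mem (Real.cos ((s.T : ℝ) / 16 * (Real.log M3 - Real.log M1)))
      (Real.sin ((s.T : ℝ) / 16 * (Real.log M3 - Real.log M1))))
    (hR3 : R.z.Mem (Real.cos ((s.T : ℝ) / 16 * (Real.log M1 - Real.log M2)))
      (Real.sin ((s.T : ℝ) / 16 * (Real.log M1 - Real.log M2))))
    (q1 q2 q3 f1 f2 f3 : ℕ) (hf1 : f1 = fac q1) (hf2 : f2 = fac q2) (hf3 : f3 = fac q3)
    (u1 : q1 ≤ 17446744073709551616) (u2 : q2 ≤ 17446744073709551616)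
    (u3 : q3 ≤ 17446744073709551616)
    (v1 : A.ra.y ≤ q1) (w1 : A.ra.z ≤ q1) (z1 : s.P = 8 ∨ A.ra.x ≤ q1)
    (v2 : A.ra.z ≤ q2) (w2 : A.ra.x ≤ q2) (z2 : s.P = 8 ∨ A.ra.y ≤ q2)
    (v3 : A.ra.x ≤ q3) (w3 : A.ra.y ≤ q3) (z3 : s.P = 8 ∨ A.ra.z ≤ q3) :
    (jetF s ⟨Bl.mul E.x R.x.re, Bl.mul E.y R.y.re, Bl.mul E.z R.z.re⟩
      ⟨Bl.mul E.x R.x.im, Bl.mul E.y R.y.im, Bl.mul E.z R.z.im⟩ ⟨E.x.ab, E.y.ab, E.z.ab⟩
      ⟨f1, f2, f3⟩ A).Mem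
      (fun u v => Fn (s.P, s.T)
        ![M1 * (1 + (A1 * u + B1 * v)), M2 * (1 + A2 * u), M3 * (1 + B3 * v)]) := by
  have c1 : (Bl.mul E.x R.x.re).Mem (Xc ((s.P : ℝ) / 16) ((s.T : ℝ) / 16) M2 M3 M1) :=
    mem_mul hE1 hR1.1
  have c2 : (Bl.mul E.y R.y.re).Mem (Xc ((s.P : ℝ) / 16) ((s.T : ℝ) / 16) M3 M1 M2) :=
    mem_mul hE2 hR2.1
  have c3 : (Bl.mul E.z R.z.re).Mem (Xc ((s.P : ℝ) / 16) ((s.T : ℝ) / 16) M1 M2 M3) :=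
    mem_mul hE3 hR3.1
  have s1 : (Bl.mul E.x R.x.im).Mem (Xs ((s.P : ℝ) / 16) ((s.T : ℝ) / 16) M2 M3 M1) :=
    mem_mul hE1 hR1.2
  have s2 : (Bl.mul E.y R.y.im).Mem (Xs ((s.P : ℝ) / 16) ((s.T : ℝ) / 16) M3 M1 M2) :=
    mem_mul hE2 hR2.2
  have s3 : (Bl.mul E.z R.z.im).Mem (Xs ((s.P : ℝ) / 16) ((s.T : ℝ) / 16) M1 M2 M3) :=
    mem_mul hE3 hR3.2
  have g1 := fun (u v : ℝ) (hu : |u| ≤ 1) (hv : |v| ≤ 1) =>
    chr_model s hs M2 M3 M1 m2 m3 m1 E.x.ab q1 f1 A.ra.y A.ra.z A.ra.x (ab_bound hE1) v1 w1 z1 u1 hf1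
      (A2 * u) (B3 * v) (A1 * u + B1 * v)
      (rad_one hA.hay hu) (rad_one hA.haz hv) (rad_two hA.hax hu hv)
      (lt_of_le_of_lt (rad_two hA.hax hu hv) (lt_one_of hx))
  have g2 := fun (u v : ℝ) (hu : |u| ≤ 1) (hv : |v| ≤ 1) =>
    chr_model s hs M3 M1 M2 m3 m1 m2 E.y.ab q2 f2 A.ra.z A.ra.x A.ra.y (ab_bound hE2) v2 w2 z2 u2 hf2
      (B3 * v) (A1 * u + B1 * v) (A2 * u)
      (rad_one hA.haz hv) (rad_two hA.hax hu hv) (rad_one hA.hay hu)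
      (lt_of_le_of_lt (rad_one hA.hay hu) (lt_one_of hy))
  have g3 := fun (u v : ℝ) (hu : |u| ≤ 1) (hv : |v| ≤ 1) =>
    chr_model s hs M1 M2 M3 m1 m2 m3 E.z.ab q3 f3 A.ra.x A.ra.y A.ra.z (ab_bound hE3) v3 w3 z3 u3 hf3
      (A1 * u + B1 * v) (A2 * u) (B3 * v)
      (rad_two hA.hax hu hv) (rad_one hA.hay hu) (rad_one hA.haz hv)
      (lt_of_le_of_lt (rad_one hA.haz hv) (lt_one_of hz))
  have key := jetF_sound s (fs_ok hs).2.1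
    ⟨Bl.mul E.x R.x.re, Bl.mul E.y R.y.re, Bl.mul E.z R.z.re⟩
    ⟨Bl.mul E.x R.x.im, Bl.mul E.y R.y.im, Bl.mul E.z R.z.im⟩ ⟨E.x.ab, E.y.ab, E.z.ab⟩
    ⟨f1, f2, f3⟩ A A1 A2 B1 B3 hA _ _ _ _ _ _ c1 c2 c3 s1 s2 s3
    (fun u v => Xc ((s.P : ℝ) / 16) ((s.T : ℝ) / 16) (M2 * (1 + A2 * u)) (M3 * (1 + B3 * v))
      (M1 * (1 + (A1 * u + B1 * v))))
    (fun u v => Xc ((s.P : ℝ) / 16) ((s.T : ℝ) / 16) (M3 * (1 + B3 * v))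
      (M1 * (1 + (A1 * u + B1 * v))) (M2 * (1 + A2 * u)))
    (fun u v => Xc ((s.P : ℝ) / 16) ((s.T : ℝ) / 16) (M1 * (1 + (A1 * u + B1 * v)))
      (M2 * (1 + A2 * u)) (M3 * (1 + B3 * v))) g1 g2 g3
  simp only [Fn_three]
  exact key

theorem cjet_sound (s : FS) (hs : s.ok = true) (M1 M2 M3 : ℝ) (m1 : 0 < M1) (m2 : 0 < M2)
    (m3 : 0 < M3) (E : Tri Bl) (R : Tri Cx) (A1 A2 B1 B3 : ℝ) (A : Aff)
    (hA : A.Mem A1 A2 B1 B3) (hx : A.ra.x ≤ 17446744073709551616)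
    (hy : A.ra.y ≤ 17446744073709551616) (hz : A.ra.z ≤ 17446744073709551616)
    (hE1 : E.x.Mem (Xe ((s.P : ℝ) / 16) M2 M3 M1)) (hE2 : E.y.Mem (Xe ((s.P : ℝ) / 16) M3 M1 M2))
    (hE3 : E.z.Mem (Xe ((s.P : ℝ) / 16) M1 M2 M3))
    (hR1 : R.x.Mem (Real.cos ((s.T : ℝ) / 16 * (Real.log M2 - Real.log M3)))
      (Real.sin ((s.T : ℝ) / 16 * (Real.log M2 - Real.log M3))))
    (hR2 : R.y.Mem (Real.cos ((s.T : ℝ) / 16 * (Real.log M3 - Real.log M1)))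
      (Real.sin ((s.T : ℝ) / 16 * (Real.log M3 - Real.log M1))))
    (hR3 : R.z.Mem (Real.cos ((s.T : ℝ) / 16 * (Real.log M1 - Real.log M2)))
      (Real.sin ((s.T : ℝ) / 16 * (Real.log M1 - Real.log M2)))) :
    (cjet s E R (fac (max3 A.ra.x (max3 A.ra.y A.ra.z)))
      ⟨fac (max3 A.ra.y A.ra.z), fac (max3 A.ra.z A.ra.x), fac (max3 A.ra.x A.ra.y)⟩ A).Mem
      (fun u v => Fn (s.P, s.T)
        ![M1 * (1 + (A1 * u + B1 * v)), M2 * (1 + A2 * u), M3 * (1 + B3 * v)]) := by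
  have k1 := max3_eq A.ra.y A.ra.z
  have k2 := max3_eq A.ra.z A.ra.x
  have k3 := max3_eq A.ra.x A.ra.y
  have k4 := max3_eq A.ra.x (max3 A.ra.y A.ra.z)
  generalize max3 A.ra.x (max3 A.ra.y A.ra.z) = q0 at k4 ⊢
  generalize max3 A.ra.y A.ra.z = q1 at k1 k4 ⊢
  generalize max3 A.ra.z A.ra.x = q2 at k2 ⊢
  generalize max3 A.ra.x A.ra.y = q3 at k3 ⊢
  unfold cjet
  rcases hb : Nat.beq s.P 8 with _ | _
  · simp only [cond_false]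
    exact cjet_core s hs M1 M2 M3 m1 m2 m3 E R A1 A2 B1 B3 A hA hx hy hz hE1 hE2 hE3 hR1 hR2 hR3
      q0 q0 q0 _ _ _ rfl rfl rfl (by omega) (by omega) (by omega) (by omega) (by omega)
      (Or.inr (by omega)) (by omega) (by omega) (Or.inr (by omega)) (by omega) (by omega)
      (Or.inr (by omega))
  · have e8 : s.P = 8 := Nat.eq_of_beq_eq_true hb
    simp only [cond_true]
    exact cjet_core s hs M1 M2 M3 m1 m2 m3 E R A1 A2 B1 B3 A hA hx hy hz hE1 hE2 hE3 hR1 hR2 hR3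
      q1 q2 q3 _ _ _ rfl rfl rfl (by omega) (by omega) (by omega) (by omega) (by omega)
      (Or.inl e8) (by omega) (by omega) (Or.inl e8) (by omega) (by omega) (Or.inl e8)

theorem dict_ok {D : Dict} (hD : D.ok = true) (s : FS) (hs : s ∈ D.fs) : s.ok = true ∧
    s.iP < D.Ps.length ∧ s.iT < D.Ts.length ∧ nth 0 D.Ps s.iP = s.P ∧ nth 0 D.Ts s.iT = s.T := by
  unfold Dict.ok at hD
  rw [List.all_eq_true] at hD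
  have h := hD s hs
  simp only [Bool.and_eq_true, decide_eq_true_eq] at h
  exact ⟨h.1.1.1.1, h.1.1.1.2, h.1.1.2, h.1.2, h.2⟩

/-- interior boxes -/
theorem jetsI_sound (D : Dict) (hD : D.ok = true) (M1 M2 M3 : ℝ) (r1 r2 r3 : RR)
    (h1 : r1.Mem M1) (h2 : r2.Mem M2) (h3 : r3.Mem M3) (A1 A2 B1 B3 : ℝ) (A : Aff)
    (hA : A.Mem A1 A2 B1 B3) (hx : A.ra.x ≤ 17446744073709551616)
    (hy : A.ra.y ≤ 17446744073709551616) (hz : A.ra.z ≤ 17446744073709551616) :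
    List.Forall₂ (fun (s : FS) (j : Jv) => j.Mem (fun u v => Fn (s.P, s.T)
      ![M1 * (1 + (A1 * u + B1 * v)), M2 * (1 + A2 * u), M3 * (1 + B3 * v)]))
      D.fs (jetsI D r1 r2 r3 A) := by
  unfold jetsI
  dsimp only
  rw [List.forall₂_map_right_iff, List.forall₂_same]
  intro s hs
  obtain ⟨ok, iP, iT, eP, eT⟩ := dict_ok hD s hs
  obtain ⟨h6, h8, hT, hal⟩ := fs_ok ok
  apply toJv_sound
  rw [nth_map _ 0 _ _ _ iP, nth_map _ 0 _ _ _ iT, eP, eT]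
  obtain ⟨e1, e2, e3⟩ := mkE_sound s.P h8 M1 M2 M3 h1.1 h2.1 h3.1 r1.g r2.g r3.g h1.2.1 h2.2.1
    h3.2.1
  exact cjet_sound s ok M1 M2 M3 h1.1 h2.1 h3.1 _ _ A1 A2 B1 B3 A hA hx hy hz e1 e2 e3
    (rot_sound s.T hT M2 M3 _ _ h2.2.2 h3.2.2) (rot_sound s.T hT M3 M1 _ _ h3.2.2 h1.2.2)
    (rot_sound s.T hT M1 M2 _ _ h1.2.2 h2.2.2)

end Vale.Agent.Lib.P154.Neg.Ck
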