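import Vale.Agent.Lib.P154.Neg.CkFun

/-! Soundness of the models near the boundary. -/

namespace Vale.Agent.Lib.P154.Neg.Ck

theorem E_Fn_eq (P T : ℕ) (a b c : ℝ) : Fn (P, T) ![a, b, c] =
    (Xc ((P : ℝ) / 16) ((T : ℝ) / 16) b c a + Xc ((P : ℝ) / 16) ((T : ℝ) / 16) c a b
      + Xc ((P : ℝ) / 16) ((T : ℝ) / 16) a b c) / 3 := by
  unfold Fn Fc Xc
  rw [Fin.sum_univ_three]
  have e0 : (0 : Fin 3) + 1 = 1 := rfl
  have e1 : (0 : Fin 3) + 2 = 2 := rfl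
  have e2 : (1 : Fin 3) + 1 = 2 := rfl
  have e3 : (1 : Fin 3) + 2 = 0 := rfl
  have e4 : (2 : Fin 3) + 1 = 0 := rfl
  have e5 : (2 : Fin 3) + 2 = 1 := rfl
  rw [e0, e1, e2, e3, e4, e5]
  simp only [Matrix.cons_val_zero, Matrix.cons_val_one, Matrix.cons_val]
  ring

theorem E_abs_Xc (p t a b c : ℝ) (ha : 0 ≤ a) (hb : 0 ≤ b) (hc : 0 ≤ c) :
    |Xc p t a b c| ≤ (a * b) ^ p * c ^ (1 - 2 * p) := by
  unfold Xc
  have h1 : 0 ≤ (a * b) ^ p * c ^ (1 - 2 * p) :=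
    mul_nonneg (Real.rpow_nonneg (mul_nonneg ha hb) _) (Real.rpow_nonneg hc _)
  rw [abs_mul, abs_of_nonneg h1]
  exact mul_le_of_le_one_right h1 (Real.abs_cos_le_one _)

theorem E_half (t a b c : ℝ) : Xc (1 / 2) t a b c = Xc (1 / 2) t a b 1 := by
  unfold Xc
  norm_num

/-- the two small terms, `p = 1/2` -/
theorem E_small8 (t a b w : ℝ) (ha : 0 ≤ a) (hb : 0 ≤ b) (hw : 0 ≤ w) (hw1 : w ≤ 1 / 2 ^ 48)
    (hab : a + b ≤ 3) : |Xc (1 / 2) t b w a + Xc (1 / 2) t w a b| ≤ 3 / 2 ^ 24 := by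
  have h1 := E_abs_Xc (1 / 2) t b w a hb hw ha
  have h2 := E_abs_Xc (1 / 2) t w a b hw ha hb
  have h0 : (1 : ℝ) - 2 * (1 / 2) = 0 := by norm_num
  rw [h0, Real.rpow_zero, mul_one, ← Real.sqrt_eq_rpow] at h1 h2
  rw [Real.sqrt_mul hb] at h1
  rw [Real.sqrt_mul hw] at h2
  have h3 : Real.sqrt w ≤ 1 / 2 ^ 24 := by
    rw [Real.sqrt_le_left (by positivity)]
    refine hw1.trans (le_of_eq ?_)
    norm_num
  have h4 : ∀ x : ℝ, 0 ≤ x → Real.sqrt x ≤ (1 + x) / 2 := by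
    intro x hx
    rw [Real.sqrt_le_left (by linarith)]
    nlinarith [sq_nonneg (1 - x)]
  have h5 := h4 a ha
  have h6 := h4 b hb
  have h7 := Real.sqrt_nonneg w
  have h8 := Real.sqrt_nonneg a
  have h9 := Real.sqrt_nonneg b
  have h10 : Real.sqrt b * Real.sqrt w + Real.sqrt w * Real.sqrt a ≤ 1 / 2 ^ 24 * (5 / 2) := by
    have : Real.sqrt b * Real.sqrt w + Real.sqrt w * Real.sqrt a =
        Real.sqrt w * (Real.sqrt a + Real.sqrt b) := by ring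
    rw [this]
    apply mul_le_mul h3 (by linarith) (by linarith) (by positivity)
  refine (abs_add_le _ _).trans ((add_le_add h1 h2).trans (h10.trans ?_))
  norm_num

/-- the two small terms, general `p` -/
theorem E_smallP (p t a b w : ℝ) (hp : 0 ≤ p) (hp2 : 2 * p ≤ 1) (ha : 0 ≤ a) (hb : 0 ≤ b)
    (hw : 0 ≤ w) (hab : a + b ≤ 3) :
    |Xc p t b w a + Xc p t w a b| ≤ 6 * w ^ p := by
  have h1 := E_abs_Xc p t b w a hb hw ha
  have h2 := E_abs_Xc p t w a b hw ha hb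
  rw [Real.mul_rpow hb hw] at h1
  rw [Real.mul_rpow hw ha] at h2
  have key : ∀ x y : ℝ, 0 ≤ x → 0 ≤ y → x ≤ 3 → y ≤ 3 → x ^ p * y ^ (1 - 2 * p) ≤ 3 := by
    intro x y hx hy hx3 hy3
    have k1 : x ^ p ≤ 3 ^ p := Real.rpow_le_rpow hx hx3 hp
    have k2 : y ^ (1 - 2 * p) ≤ 3 ^ (1 - 2 * p) := Real.rpow_le_rpow hy hy3 (by linarith)
    have k3 : (3 : ℝ) ^ p * 3 ^ (1 - 2 * p) = 3 ^ (1 - p) := by
      rw [← Real.rpow_add (by norm_num)]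
      congr 1
      ring
    have k4 : (3 : ℝ) ^ (1 - p) ≤ 3 ^ (1 : ℝ) := Real.rpow_le_rpow_of_exponent_le (by norm_num) (by linarith)
    rw [Real.rpow_one] at k4
    calc x ^ p * y ^ (1 - 2 * p) ≤ 3 ^ p * 3 ^ (1 - 2 * p) :=
          mul_le_mul k1 k2 (Real.rpow_nonneg hy _) (Real.rpow_nonneg (by norm_num) _)
      _ = 3 ^ (1 - p) := k3
      _ ≤ 3 := k4
  have h3 := key b a hb ha (by linarith) (by linarith)
  have h4 := key a b ha hb (by linarith) (by linarith)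
  have h5 : 0 ≤ w ^ p := Real.rpow_nonneg hw _
  refine (abs_add_le _ _).trans ((add_le_add h1 h2).trans ?_)
  have e1 : b ^ p * w ^ p * a ^ (1 - 2 * p) = w ^ p * (b ^ p * a ^ (1 - 2 * p)) := by ring
  have e2 : w ^ p * a ^ p * b ^ (1 - 2 * p) = w ^ p * (a ^ p * b ^ (1 - 2 * p)) := by ring
  rw [e1, e2]
  nlinarith [mul_le_mul_of_nonneg_left h3 h5, mul_le_mul_of_nonneg_left h4 h5]

/-- power of the small coordinate -/
theorem E_w_pow (w : ℝ) (hw : 0 ≤ w) (hw1 : w ≤ 1 / 2 ^ 48) (k : ℕ) (hk : 0 < k) :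
    w ^ ((k : ℝ) / 16) ≤ 1 / 2 ^ (3 * k) := by
  have h1 : w ^ ((k : ℝ) / 16) ≤ (1 / 2 ^ 48 : ℝ) ^ ((k : ℝ) / 16) :=
    Real.rpow_le_rpow hw hw1 (by positivity)
  refine h1.trans (le_of_eq ?_)
  have h2 : (1 / 2 ^ 48 : ℝ) = (1 / 2 ^ 3 : ℝ) ^ (16 : ℝ) := by
    rw [show (16 : ℝ) = ((16 : ℕ) : ℝ) by norm_num, Real.rpow_natCast]
    norm_num
  rw [h2, ← Real.rpow_mul (by positivity)]
  have h3 : (16 : ℝ) * ((k : ℝ) / 16) = (k : ℝ) := by ring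
  rw [h3, Real.rpow_natCast, div_pow, one_pow, ← pow_mul]

theorem E_root_pow (M : ℝ) (hM : 0 < M) (P : ℕ) : (M ^ (1 / 16 : ℝ)) ^ P = M ^ ((P : ℝ) / 16) := by
  rw [← Real.rpow_natCast, ← Real.rpow_mul hM.le]
  congr 1
  ring

/-- modulus of the kept character -/
theorem E_mod {Ma Mb : ℝ} {ra rb : RR} (ha : ra.Mem Ma) (hb : rb.Mem Mb) (P : ℕ) (hP : P ≤ 31) :
    (Bl.mul (Bl.pow ra.g P) (Bl.pow rb.g P)).Mem ((Ma * Mb) ^ ((P : ℝ) / 16)) := by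
  have h1 := mem_mul (mem_pow P hP ha.2.1) (mem_pow P hP hb.2.1)
  rw [E_root_pow Ma ha.1, E_root_pow Mb hb.1, ← Real.mul_rpow ha.1.le hb.1.le] at h1
  exact h1

/-- rotation of the kept character -/
theorem E_rot {Ma Mb : ℝ} {ra rb : RR} (ha : ra.Mem Ma) (hb : rb.Mem Mb) (T : ℕ) (hT : T ≤ 31) :
    (Cx.pow (Cx.mul ra.w rb.w.conj) T).Mem
      (Real.cos ((T : ℝ) / 16 * (Real.log Ma - Real.log Mb)))
      (Real.sin ((T : ℝ) / 16 * (Real.log Ma - Real.log Mb))) := by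
  have h1 := cmem_mul ha.2.2 (cmem_conj hb.2.2)
  have e1 : Real.cos (Real.log Ma / 16) * Real.cos (Real.log Mb / 16) -
      Real.sin (Real.log Ma / 16) * -Real.sin (Real.log Mb / 16) =
      Real.cos (Real.log Ma / 16 - Real.log Mb / 16) := by
    rw [Real.cos_sub]; ring
  have e2 : Real.cos (Real.log Ma / 16) * -Real.sin (Real.log Mb / 16) +
      Real.sin (Real.log Ma / 16) * Real.cos (Real.log Mb / 16) =
      Real.sin (Real.log Ma / 16 - Real.log Mb / 16) := by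
    rw [Real.sin_sub]; ring
  rw [e1, e2] at h1
  have h2 := cmem_pow T hT h1
  have e3 : (T : ℝ) * (Real.log Ma / 16 - Real.log Mb / 16) =
      (T : ℝ) / 16 * (Real.log Ma - Real.log Mb) := by ring
  rw [e3] at h2
  exact h2

theorem E_ok_P {s : FS} (h : s.ok = true) : 6 ≤ s.P ∧ s.P ≤ 8 ∧ s.T ≤ 31 := by
  unfold FS.ok at h
  simp only [Bool.and_eq_true, decide_eq_true_eq] at h
  exact ⟨h.1.1.1, h.1.1.2, h.1.2⟩

theorem E_ok_mem {D : Dict} (hD : D.ok = true) {s : FS} (hs : s ∈ D.fs) : s.ok = true := by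
  unfold Dict.ok at hD
  have := List.all_eq_true.1 hD s hs
  simp only [Bool.and_eq_true] at this
  exact this.1.1.1.1

theorem E_max3 (a b : ℕ) : a ≤ max3 a b ∧ b ≤ max3 a b ∧ (max3 a b = a ∨ max3 a b = b) := by
  unfold max3
  by_cases h : a ≤ b
  · have : Nat.ble a b = true := Nat.ble_eq_true_of_le h
    rw [this]
    exact ⟨h, le_refl _, Or.inr rfl⟩
  · have : Nat.ble a b = false := by
      rw [Bool.eq_false_iff]
      intro hh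
      exact h (Nat.le_of_ble_eq_true hh)
    rw [this]
    exact ⟨le_refl _, by push Not at h; exact h.le, Or.inl rfl⟩

/-- values of the pair model for `P = 8` -/
theorem E_XcXs (t a b : ℝ) : Xc (1 / 2) t a b 1 =
      (a * b) ^ (1 / 2 : ℝ) * Real.cos (t * (Real.log a - Real.log b)) ∧
    Xs (1 / 2) t a b 1 = (a * b) ^ (1 / 2 : ℝ) * Real.sin (t * (Real.log a - Real.log b)) ∧
    Xe (1 / 2) a b 1 = (a * b) ^ (1 / 2 : ℝ) := by
  unfold Xc Xs Xe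
  norm_num

theorem E_add_r {f g : ℝ → ℝ → ℝ} {j : Jt} (k : ℕ) (h : j.Mem f)
    (hg : ∀ s t : ℝ, |s| ≤ 1 → |t| ≤ 1 → |g s t - f s t| * 2 ^ 64 ≤ (k : ℝ)) :
    (⟨j.v, j.a, j.b, j.c, j.d, j.f, Nat.add j.r k⟩ : Jt).Mem g := by
  obtain ⟨v, a, b, c, d, e, h1, h2, h3, h4, h5, h6, h7⟩ := h
  refine ⟨v, a, b, c, d, e, h1, h2, h3, h4, h5, h6, fun s t hs ht => ?_⟩
  have e1 := h7 s t hs ht
  have e2 := hg s t hs ht
  show |g s t - (v + a * s + b * t + c * s ^ 2 + d * (s * t) + e * t ^ 2)| * 2 ^ 64 ≤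
    ((j.r + k : ℕ) : ℝ)
  push_cast
  have e3 : g s t - (v + a * s + b * t + c * s ^ 2 + d * (s * t) + e * t ^ 2) =
      (g s t - f s t) + (f s t - (v + a * s + b * t + c * s ^ 2 + d * (s * t) + e * t ^ 2)) := by
    ring
  rw [e3]
  have e4 := abs_add_le (g s t - f s t)
    (f s t - (v + a * s + b * t + c * s ^ 2 + d * (s * t) + e * t ^ 2))
  nlinarith [mul_le_mul_of_nonneg_right e4 (by positivity : (0 : ℝ) ≤ 2 ^ 64)]

/-- the crude bound -/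
theorem E_edge (s : FS) (hs : s.ok = true) (hP8 : s.P ≠ 8) (E r : ℕ) (X F : ℝ)
    (hF : |F| ≤ X * (1 + (r : ℝ) / 2 ^ 64) / 2 ^ (3 * (16 - 2 * s.P)) / 3 + 2 / 2 ^ (3 * s.P))
    (hX : X * 2 ^ 64 ≤ (E : ℝ)) :
    |F * 2 ^ 64| ≤ ((jEdge s E r).e : ℝ) := by
  obtain ⟨hP6, hP, -⟩ := E_ok_P hs
  unfold jEdge
  show |F * 2 ^ 64| ≤ ((Nat.add (Nat.add (Nat.shiftRight (Nat.div (mu E (Nat.add 18446744073709551616 r)) 3)
        (Nat.mul 3 (Nat.sub 16 (Nat.mul 2 s.P)))) 2)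
      (Nat.shiftRight 36893488147419103232 (Nat.mul 3 s.P)) : ℕ) : ℝ)
  rw [abs_mul, abs_of_pos (by positivity : (0 : ℝ) < 2 ^ 64)]
  have h1 := mu_le E (Nat.add 18446744073709551616 r)
  have h2 : ((Nat.add 18446744073709551616 r : ℕ) : ℝ) / 2 ^ 64 = 1 + (r : ℝ) / 2 ^ 64 := by
    show ((18446744073709551616 + r : ℕ) : ℝ) / 2 ^ 64 = _
    push_cast
    rw [add_div]
    norm_num
  rw [h2] at h1
  set m := mu E (Nat.add 18446744073709551616 r) with hm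
  have hr0 : (0 : ℝ) ≤ 1 + (r : ℝ) / 2 ^ 64 := by positivity
  have h3 : X * (1 + (r : ℝ) / 2 ^ 64) * 2 ^ 64 ≤ (m : ℝ) := by
    have : X * 2 ^ 64 * (1 + (r : ℝ) / 2 ^ 64) ≤ E * (1 + (r : ℝ) / 2 ^ 64) :=
      mul_le_mul_of_nonneg_right hX hr0
    have h4 : (E : ℝ) * (1 + (r : ℝ) / 2 ^ 64) ≤ m := by
      have h5 := mul_le_mul_of_nonneg_right h1 (by positivity : (0 : ℝ) ≤ 2 ^ 64)
      have e5 : (E : ℝ) / 2 ^ 64 * (1 + (r : ℝ) / 2 ^ 64) * 2 ^ 64 = E * (1 + (r : ℝ) / 2 ^ 64) := by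
        field_simp
      have e6 : (m : ℝ) / 2 ^ 64 * 2 ^ 64 = m := by field_simp
      rw [e5, e6] at h5
      exact h5
    linarith
  -- floors
  have hfl : ∀ K : ℕ, (m : ℝ) / 3 / 2 ^ K ≤ ((Nat.shiftRight (Nat.div m 3) K : ℕ) : ℝ) + 2 := by
    intro K
    have h0 : Nat.shiftRight (Nat.div m 3) K = m / 3 / 2 ^ K := Nat.shiftRight_eq_div_pow (m / 3) K
    rw [h0]
    have a1 : (m : ℝ) < 3 * ((m / 3 : ℕ) + 1 : ℝ) := by
      have := Nat.lt_mul_div_succ m (by norm_num : 0 < 3)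
      exact_mod_cast this
    have a2 : ((m / 3 : ℕ) : ℝ) < 2 ^ K * ((m / 3 / 2 ^ K : ℕ) + 1 : ℝ) := by
      have := Nat.lt_mul_div_succ (m / 3) (by positivity : 0 < 2 ^ K)
      exact_mod_cast this
    have hK : (1 : ℝ) ≤ 2 ^ K := one_le_pow₀ (by norm_num)
    rw [div_div, div_le_iff₀ (by positivity)]
    nlinarith
  have h6 := hfl (3 * (16 - 2 * s.P))
  have h7 : ((Nat.shiftRight 36893488147419103232 (Nat.mul 3 s.P) : ℕ) : ℝ) =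
      2 / 2 ^ (3 * s.P) * 2 ^ 64 := by
    have : s.P = 6 ∨ s.P = 7 := by omega
    rcases this with h | h
    · rw [h]
      have e : Nat.shiftRight 36893488147419103232 (Nat.mul 3 6) = 140737488355328 := by decide
      rw [e]
      norm_num
    · rw [h]
      have e : Nat.shiftRight 36893488147419103232 (Nat.mul 3 7) = 17592186044416 := by decide
      rw [e]
      norm_num
  show |F| * 2 ^ 64 ≤ (((Nat.shiftRight (Nat.div m 3) (3 * (16 - 2 * s.P)) + 2) +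
      (Nat.shiftRight 36893488147419103232 (Nat.mul 3 s.P)) : ℕ) : ℝ)
  rw [Nat.cast_add, Nat.cast_add, h7]
  have h8 := mul_le_mul_of_nonneg_right hF (by positivity : (0 : ℝ) ≤ 2 ^ 64)
  refine h8.trans ?_
  rw [add_mul]
  apply add_le_add_left
  refine le_trans ?_ h6
  have h9 : X * (1 + (r : ℝ) / 2 ^ 64) / 2 ^ (3 * (16 - 2 * s.P)) / 3 * 2 ^ 64 =
      X * (1 + (r : ℝ) / 2 ^ 64) * 2 ^ 64 / 3 / 2 ^ (3 * (16 - 2 * s.P)) := by
    field_simp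
  rw [h9]
  gcongr

/-- the crude bound as a model -/
theorem E_edge_mem (s : FS) (E r : ℕ) (F : ℝ → ℝ → ℝ)
    (h : ∀ u v : ℝ, |u| ≤ 1 → |v| ≤ 1 → |F u v * 2 ^ 64| ≤ ((jEdge s E r).e : ℝ)) :
    (jEdge s E r).Mem F := by
  intro u v hu hv
  have h1 := h u v hu hv
  unfold jEdge at h1 ⊢
  simpa using h1

/-- main term for `P < 8` -/
theorem E_mainP (P : ℕ) (hP6 : 6 ≤ P) (hP : P ≤ 7) (t a b w x y r : ℝ) (ha : 0 < a) (hb : 0 < b)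
    (hw : 0 ≤ w) (hw1 : w ≤ 1 / 2 ^ 48) (hx : |x| ≤ r) (hy : |y| ≤ r) (hr : r < 1) :
    |Xc ((P : ℝ) / 16) t (a * (1 + x)) (b * (1 + y)) w| ≤
      (a * b) ^ ((P : ℝ) / 16) * (1 + r) / 2 ^ (3 * (16 - 2 * P)) := by
  have hx' := abs_le.1 hx
  have hy' := abs_le.1 hy
  have hr0 : 0 ≤ r := (abs_nonneg x).trans hx
  have h1x : 0 ≤ 1 + x := by linarith
  have h1y : 0 ≤ 1 + y := by linarith
  refine (E_abs_Xc _ t _ _ w (mul_nonneg ha.le h1x) (mul_nonneg hb.le h1y) hw).trans ?_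
  have e1 : a * (1 + x) * (b * (1 + y)) = (a * b) * ((1 + x) * (1 + y)) := by ring
  rw [e1, Real.mul_rpow (by positivity) (by positivity)]
  have hp0 : (0 : ℝ) ≤ (P : ℝ) / 16 := by positivity
  have h2 : ((1 + x) * (1 + y)) ^ ((P : ℝ) / 16) ≤ 1 + r := by
    have h3 : ((1 + x) * (1 + y)) ^ ((P : ℝ) / 16) ≤ ((1 + r) ^ (2 : ℝ)) ^ ((P : ℝ) / 16) := by
      apply Real.rpow_le_rpow (by positivity) _ hp0
      rw [show (2 : ℝ) = ((2 : ℕ) : ℝ) by norm_num, Real.rpow_natCast, sq]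
      apply mul_le_mul (by linarith) (by linarith) h1y (by linarith)
    refine h3.trans ?_
    rw [← Real.rpow_mul (by linarith)]
    have h4 : (1 + r) ^ (2 * ((P : ℝ) / 16)) ≤ (1 + r) ^ (1 : ℝ) := by
      apply Real.rpow_le_rpow_of_exponent_le (by linarith)
      have : (P : ℝ) ≤ 7 := by exact_mod_cast hP
      linarith
    rw [Real.rpow_one] at h4
    exact h4
  have h5 : w ^ (1 - 2 * ((P : ℝ) / 16)) ≤ 1 / 2 ^ (3 * (16 - 2 * P)) := by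
    have h6 := E_w_pow w hw hw1 (16 - 2 * P) (by omega)
    have h7 : ((16 - 2 * P : ℕ) : ℝ) / 16 = 1 - 2 * ((P : ℝ) / 16) := by
      rw [Nat.cast_sub (by omega)]
      push_cast
      ring
    rw [h7] at h6
    exact h6
  have h8 : 0 ≤ (a * b) ^ ((P : ℝ) / 16) := Real.rpow_nonneg (by positivity) _
  have h9 : 0 ≤ w ^ (1 - 2 * ((P : ℝ) / 16)) := Real.rpow_nonneg hw _
  calc (a * b) ^ ((P : ℝ) / 16) * ((1 + x) * (1 + y)) ^ ((P : ℝ) / 16) *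
        w ^ (1 - 2 * ((P : ℝ) / 16)) ≤ (a * b) ^ ((P : ℝ) / 16) * (1 + r) *
          (1 / 2 ^ (3 * (16 - 2 * P))) := by
        apply mul_le_mul (mul_le_mul_of_nonneg_left h2 h8) h5 h9
        exact mul_nonneg h8 (by linarith)
    _ = _ := by ring

/-- bound of the whole functional for `P < 8` -/
theorem E_lowP (s : FS) (hs : s.ok = true) (hP8 : s.P ≠ 8) {Ma Mb : ℝ} {ra rb : RR}
    (ha : ra.Mem Ma) (hb : rb.Mem Mb) (x y w : ℝ) (na nb : ℕ)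
    (hna : na ≤ 17446744073709551616) (hnb : nb ≤ 17446744073709551616)
    (hx : |x| ≤ (na : ℝ) / 2 ^ 64) (hy : |y| ≤ (nb : ℝ) / 2 ^ 64)
    (hw : 0 ≤ w) (hw1 : w ≤ 1 / 2 ^ 48) (hsum : Ma * (1 + x) + Mb * (1 + y) ≤ 3)
    (F : ℝ) (hF : F = (Xc ((s.P : ℝ) / 16) ((s.T : ℝ) / 16) (Mb * (1 + y)) w (Ma * (1 + x)) +
      Xc ((s.P : ℝ) / 16) ((s.T : ℝ) / 16) w (Ma * (1 + x)) (Mb * (1 + y)) +
      Xc ((s.P : ℝ) / 16) ((s.T : ℝ) / 16) (Ma * (1 + x)) (Mb * (1 + y)) w) / 3) :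
    |F * 2 ^ 64| ≤ ((jEdge s (Bl.mul (Bl.pow ra.g s.P) (Bl.pow rb.g s.P)).ab (max3 na nb)).e : ℝ) := by
  obtain ⟨hP6, hP, -⟩ := E_ok_P hs
  have hP7 : s.P ≤ 7 := by omega
  obtain ⟨m1, m2, m3⟩ := E_max3 na nb
  set r := max3 na nb with hr
  have hrN : r ≤ 17446744073709551616 := by rcases m3 with h | h <;> rw [h] <;> assumption
  have hr1 : (r : ℝ) / 2 ^ 64 < 1 := by
    rw [div_lt_one (by positivity)]
    have : (r : ℝ) ≤ 17446744073709551616 := by exact_mod_cast hrN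
    norm_num at this ⊢
    linarith
  have hxr : |x| ≤ (r : ℝ) / 2 ^ 64 := hx.trans (by gcongr)
  have hyr : |y| ≤ (r : ℝ) / 2 ^ 64 := hy.trans (by gcongr)
  have hx' := abs_le.1 hxr
  have hy' := abs_le.1 hyr
  have h1 := E_mainP s.P hP6 hP7 ((s.T : ℝ) / 16) Ma Mb w x y _ ha.1 hb.1 hw hw1 hxr hyr hr1
  have hp0 : (0 : ℝ) ≤ (s.P : ℝ) / 16 := by positivity
  have hp2 : 2 * ((s.P : ℝ) / 16) ≤ 1 := by
    have : (s.P : ℝ) ≤ 7 := by exact_mod_cast hP7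
    linarith
  have h2 := E_smallP ((s.P : ℝ) / 16) ((s.T : ℝ) / 16) (Ma * (1 + x)) (Mb * (1 + y)) w hp0 hp2
    (mul_nonneg ha.1.le (by linarith)) (mul_nonneg hb.1.le (by linarith)) hw hsum
  have h3 := E_w_pow w hw hw1 s.P (by omega)
  apply E_edge s hs hP8 _ r ((Ma * Mb) ^ ((s.P : ℝ) / 16)) F
  · rw [hF, abs_div, abs_of_pos (by norm_num : (0 : ℝ) < 3)]
    set a1 := Xc ((s.P : ℝ) / 16) ((s.T : ℝ) / 16) (Mb * (1 + y)) w (Ma * (1 + x))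
    set a2 := Xc ((s.P : ℝ) / 16) ((s.T : ℝ) / 16) w (Ma * (1 + x)) (Mb * (1 + y))
    set a3 := Xc ((s.P : ℝ) / 16) ((s.T : ℝ) / 16) (Ma * (1 + x)) (Mb * (1 + y)) w
    have h4 := abs_add_le (a1 + a2) a3
    have h5 : |a1 + a2| ≤ 6 * (1 / 2 ^ (3 * s.P)) :=
      h2.trans (mul_le_mul_of_nonneg_left h3 (by norm_num))
    rw [div_le_iff₀ (by norm_num : (0 : ℝ) < 3)]
    refine h4.trans ((add_le_add h5 h1).trans (le_of_eq ?_))
    ring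
  · have h6 := mem_ab (E_mod ha hb s.P (by omega))
    rw [abs_of_nonneg (Real.rpow_nonneg (mul_nonneg ha.1.le hb.1.le) _)] at h6
    exact h6

/-- the character model of the kept pair, `P = 8` -/
theorem E_main8 (s : FS) (hs : s.ok = true) (hP8 : s.P = 8) {Ma Mb : ℝ} {ra rb : RR}
    (ha : ra.Mem Ma) (hb : rb.Mem Mb) (x y : ℝ) (na nb : ℕ)
    (hna : na ≤ 17446744073709551616) (hnb : nb ≤ 17446744073709551616)
    (hx : |x| ≤ (na : ℝ) / 2 ^ 64) (hy : |y| ≤ (nb : ℝ) / 2 ^ 64) :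
    |Xc (1 / 2) ((s.T : ℝ) / 16) (Ma * (1 + x)) (Mb * (1 + y)) 1 -
      Md ((s.P : ℝ) / 16) ((s.T : ℝ) / 16)
        ((Ma * Mb) ^ (1 / 2 : ℝ) * Real.cos ((s.T : ℝ) / 16 * (Real.log Ma - Real.log Mb)))
        ((Ma * Mb) ^ (1 / 2 : ℝ) * Real.sin ((s.T : ℝ) / 16 * (Real.log Ma - Real.log Mb)))
        x y 0| ≤
      ((Bl.mul (Bl.pow ra.g 8) (Bl.pow rb.g 8)).ab : ℝ) / 2 ^ 64 *
        (Wt ((s.al : ℝ) / 1024) (1 - 2 * ((s.P : ℝ) / 16))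
          ((na : ℝ) / 2 ^ 64) ((nb : ℝ) / 2 ^ 64) (((0 : ℕ) : ℝ) / 2 ^ 64) / 6 *
          ((fac (max3 na nb) : ℝ) / 2 ^ 64)) := by
  obtain ⟨m1, m2, m3⟩ := E_max3 na nb
  have hP2 : (s.P : ℝ) / 16 = 1 / 2 := by rw [hP8]; norm_num
  have hrN : max3 na nb ≤ 17446744073709551616 := by rcases m3 with h | h <;> rw [h] <;> assumption
  obtain ⟨e1, e2, e3⟩ := E_XcXs ((s.T : ℝ) / 16) Ma Mb
  have hE : Xe ((s.P : ℝ) / 16) Ma Mb 1 ≤
      ((Bl.mul (Bl.pow ra.g 8) (Bl.pow rb.g 8)).ab : ℝ) / 2 ^ 64 := by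
    rw [hP2, e3, le_div_iff₀ (by positivity)]
    have h6 := mem_ab (E_mod ha hb 8 (by norm_num))
    rw [abs_of_nonneg (Real.rpow_nonneg (mul_nonneg ha.1.le hb.1.le) _)] at h6
    have h7 : (((8 : ℕ) : ℝ) / 16) = 1 / 2 := by norm_num
    rw [h7] at h6
    exact h6
  have key := chr_model s hs Ma Mb 1 ha.1 hb.1 one_pos _ _ _ na nb 0 hE m1 m2 (Or.inl hP8) hrN rfl
    x y 0 hx hy (by simp) (by simp)
  rw [hP2, e1, e2] at key
  rw [hP2]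
  simpa using key

theorem E_jets3_s (s : FS) (hs : s.ok = true) (M1 M2 : ℝ) (r1 r2 : RR)
    (h1 : r1.Mem M1) (h2 : r2.Mem M2) (A1 A2 B1 : ℝ) (A : Aff)
    (hA : A.Mem A1 A2 B1 0) (hrz : A.ra.z = 0)
    (hx : A.ra.x ≤ 17446744073709551616) (hy : A.ra.y ≤ 17446744073709551616)
    (w : ℝ → ℝ → ℝ) (hw : ∀ u v : ℝ, |u| ≤ 1 → |v| ≤ 1 → 0 ≤ w u v ∧ w u v ≤ 1 / 2 ^ 48)
    (hsum : ∀ u v : ℝ, |u| ≤ 1 → |v| ≤ 1 →
      M1 * (1 + (A1 * u + B1 * v)) + M2 * (1 + A2 * u) ≤ 3) :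
    Jv.Mem (fun u v => Fn (s.P, s.T)
      ![M1 * (1 + (A1 * u + B1 * v)), M2 * (1 + A2 * u), w u v])
      (bif Nat.beq s.P 8 then
      let w := Cx.pow (Cx.mul r1.w r2.w.conj) s.T
      let j := jetF s ⟨Bl.zero, Bl.zero, Bl.mul (Bl.mul (Bl.pow r1.g 8) (Bl.pow r2.g 8)) w.re⟩
        ⟨Bl.zero, Bl.zero, Bl.mul (Bl.mul (Bl.pow r1.g 8) (Bl.pow r2.g 8)) w.im⟩
        ⟨0, 0, (Bl.mul (Bl.pow r1.g 8) (Bl.pow r2.g 8)).ab⟩ ⟨0, 0, fac (max3 A.ra.x A.ra.y)⟩ A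
      (⟨j.v, j.a, j.b, j.c, j.d, j.f, Nat.add j.r 1099511627776⟩ : Jt).toJv
    else jEdge s (Bl.mul (Bl.pow r1.g s.P) (Bl.pow r2.g s.P)).ab (max3 A.ra.x A.ra.y)) := by
  have hxx : ∀ u v : ℝ, |u| ≤ 1 → |v| ≤ 1 → |A1 * u + B1 * v| ≤ (A.ra.x : ℝ) / 2 ^ 64 := by
    intro u v hu hv
    have e1 := abs_add_le (A1 * u) (B1 * v)
    rw [abs_mul, abs_mul] at e1
    have e2 := mul_le_of_le_one_right (abs_nonneg A1) hu
    have e3 := mul_le_of_le_one_right (abs_nonneg B1) hv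
    linarith [hA.hax]
  have hyy : ∀ u : ℝ, |u| ≤ 1 → |A2 * u| ≤ (A.ra.y : ℝ) / 2 ^ 64 := by
    intro u hu
    rw [abs_mul]
    have e2 := mul_le_of_le_one_right (abs_nonneg A2) hu
    linarith [hA.hay]
  obtain ⟨-, -, hT⟩ := E_ok_P hs
  rcases hb : Nat.beq s.P 8 with _ | _
  · have hP8 : s.P ≠ 8 := by
      intro h
      rw [h] at hb
      simp at hb
    rw [cond_false]
    apply E_edge_mem
    intro u v hu hv
    apply E_lowP s hs hP8 h1 h2 (A1 * u + B1 * v) (A2 * u) (w u v) A.ra.x A.ra.y hx hy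
      (hxx u v hu hv) (hyy u hu) (hw u v hu hv).1 (hw u v hu hv).2 (hsum u v hu hv)
    exact E_Fn_eq _ _ _ _ _
  · have hP8 : s.P = 8 := Nat.eq_of_beq_eq_true hb
    have hP2 : (s.P : ℝ) / 16 = 1 / 2 := by rw [hP8]; norm_num
    rw [cond_true]
    apply toJv_sound
    have hmod := E_mod h1 h2 8 (by norm_num)
    rw [show (((8 : ℕ) : ℝ) / 16) = 1 / 2 by norm_num] at hmod
    have hrot := E_rot h1 h2 s.T hT
    have key := jetF_sound s (by omega)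
      ⟨Bl.zero, Bl.zero, Bl.mul (Bl.mul (Bl.pow r1.g 8) (Bl.pow r2.g 8))
        (Cx.pow (Cx.mul r1.w r2.w.conj) s.T).re⟩
      ⟨Bl.zero, Bl.zero, Bl.mul (Bl.mul (Bl.pow r1.g 8) (Bl.pow r2.g 8))
        (Cx.pow (Cx.mul r1.w r2.w.conj) s.T).im⟩
      ⟨0, 0, (Bl.mul (Bl.pow r1.g 8) (Bl.pow r2.g 8)).ab⟩ ⟨0, 0, fac (max3 A.ra.x A.ra.y)⟩ A
      A1 A2 B1 0 hA 0 0 _ 0 0 _ mem_zero mem_zero (mem_mul hmod hrot.1) mem_zero mem_zero
      (mem_mul hmod hrot.2) (fun _ _ => 0) (fun _ _ => 0)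
      (fun u v => Xc (1 / 2) ((s.T : ℝ) / 16) (M1 * (1 + (A1 * u + B1 * v))) (M2 * (1 + A2 * u)) 1)
      (by intro u v _ _; simp [Md]) (by intro u v _ _; simp [Md])
      (by
        intro u v hu hv
        have h3 := E_main8 s hs hP8 h1 h2 (A1 * u + B1 * v) (A2 * u) A.ra.x A.ra.y hx hy
          (hxx u v hu hv) (hyy u hu)
        rw [zero_mul, hrz]
        exact h3)
    refine E_add_r 1099511627776 key ?_
    intro u v hu hv
    show |Fn (s.P, s.T) ![M1 * (1 + (A1 * u + B1 * v)), M2 * (1 + A2 * u), w u v] -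
      (0 + 0 + Xc (1 / 2) ((s.T : ℝ) / 16) (M1 * (1 + (A1 * u + B1 * v))) (M2 * (1 + A2 * u)) 1) / 3|
      * 2 ^ 64 ≤ _
    rw [E_Fn_eq, hP2, E_half _ _ _ (w u v)]
    have hr1 : (A.ra.x : ℝ) / 2 ^ 64 < 1 := by
      rw [div_lt_one (by positivity)]
      have : (A.ra.x : ℝ) ≤ 17446744073709551616 := by exact_mod_cast hx
      norm_num at this ⊢
      linarith
    have hr2 : (A.ra.y : ℝ) / 2 ^ 64 < 1 := by
      rw [div_lt_one (by positivity)]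
      have : (A.ra.y : ℝ) ≤ 17446744073709551616 := by exact_mod_cast hy
      norm_num at this ⊢
      linarith
    have a1 := abs_le.1 (hxx u v hu hv)
    have a2 := abs_le.1 (hyy u hu)
    have h3 := E_small8 ((s.T : ℝ) / 16) (M1 * (1 + (A1 * u + B1 * v))) (M2 * (1 + A2 * u)) (w u v)
      (mul_nonneg h1.1.le (by linarith)) (mul_nonneg h2.1.le (by linarith))
      (hw u v hu hv).1 (hw u v hu hv).2 (hsum u v hu hv)
    set a := M1 * (1 + (A1 * u + B1 * v))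
    set b := M2 * (1 + A2 * u)
    have h4 : (Xc (1 / 2) ((s.T : ℝ) / 16) b (w u v) a + Xc (1 / 2) ((s.T : ℝ) / 16) (w u v) a b +
        Xc (1 / 2) ((s.T : ℝ) / 16) a b 1) / 3 -
        (0 + 0 + Xc (1 / 2) ((s.T : ℝ) / 16) a b 1) / 3 =
        (Xc (1 / 2) ((s.T : ℝ) / 16) b (w u v) a + Xc (1 / 2) ((s.T : ℝ) / 16) (w u v) a b) / 3 := by
      ring
    rw [h4, abs_div, abs_of_pos (by norm_num : (0 : ℝ) < 3)]
    have h5 : ((1099511627776 : ℕ) : ℝ) = 3 / 2 ^ 24 / 3 * 2 ^ 64 := by norm_num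
    rw [h5]
    gcongr

theorem E_jets1_s (s : FS) (hs : s.ok = true) (M2 M3 : ℝ) (r2 r3 : RR)
    (h2 : r2.Mem M2) (h3 : r3.Mem M3) (A2 B3 : ℝ) (A : Aff)
    (hA : A.Mem 0 A2 0 B3) (hrx : A.ra.x = 0)
    (hy : A.ra.y ≤ 17446744073709551616) (hz : A.ra.z ≤ 17446744073709551616)
    (w : ℝ → ℝ → ℝ) (hw : ∀ u v : ℝ, |u| ≤ 1 → |v| ≤ 1 → 0 ≤ w u v ∧ w u v ≤ 1 / 2 ^ 48)
    (hsum : ∀ u v : ℝ, |u| ≤ 1 → |v| ≤ 1 → M2 * (1 + A2 * u) + M3 * (1 + B3 * v) ≤ 3) :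
    Jv.Mem (fun u v => Fn (s.P, s.T)
      ![w u v, M2 * (1 + A2 * u), M3 * (1 + B3 * v)])
      (bif Nat.beq s.P 8 then
      let w := Cx.pow (Cx.mul r2.w r3.w.conj) s.T
      let j := jetF s ⟨Bl.mul (Bl.mul (Bl.pow r2.g 8) (Bl.pow r3.g 8)) w.re, Bl.zero, Bl.zero⟩
        ⟨Bl.mul (Bl.mul (Bl.pow r2.g 8) (Bl.pow r3.g 8)) w.im, Bl.zero, Bl.zero⟩
        ⟨(Bl.mul (Bl.pow r2.g 8) (Bl.pow r3.g 8)).ab, 0, 0⟩ ⟨fac (max3 A.ra.y A.ra.z), 0, 0⟩ A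
      (⟨j.v, j.a, j.b, j.c, j.d, j.f, Nat.add j.r 1099511627776⟩ : Jt).toJv
    else jEdge s (Bl.mul (Bl.pow r2.g s.P) (Bl.pow r3.g s.P)).ab (max3 A.ra.y A.ra.z)) := by
  have hxx : ∀ u : ℝ, |u| ≤ 1 → |A2 * u| ≤ (A.ra.y : ℝ) / 2 ^ 64 := by
    intro u hu
    rw [abs_mul]
    have e2 := mul_le_of_le_one_right (abs_nonneg A2) hu
    linarith [hA.hay]
  have hyy : ∀ v : ℝ, |v| ≤ 1 → |B3 * v| ≤ (A.ra.z : ℝ) / 2 ^ 64 := by
    intro v hv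
    rw [abs_mul]
    have e2 := mul_le_of_le_one_right (abs_nonneg B3) hv
    linarith [hA.haz]
  obtain ⟨-, -, hT⟩ := E_ok_P hs
  rcases hb : Nat.beq s.P 8 with _ | _
  · have hP8 : s.P ≠ 8 := by
      intro h
      rw [h] at hb
      simp at hb
    rw [cond_false]
    apply E_edge_mem
    intro u v hu hv
    apply E_lowP s hs hP8 h2 h3 (A2 * u) (B3 * v) (w u v) A.ra.y A.ra.z hy hz
      (hxx u hu) (hyy v hv) (hw u v hu hv).1 (hw u v hu hv).2 (hsum u v hu hv)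
    rw [E_Fn_eq]
    ring
  · have hP8 : s.P = 8 := Nat.eq_of_beq_eq_true hb
    have hP2 : (s.P : ℝ) / 16 = 1 / 2 := by rw [hP8]; norm_num
    rw [cond_true]
    apply toJv_sound
    have hmod := E_mod h2 h3 8 (by norm_num)
    rw [show (((8 : ℕ) : ℝ) / 16) = 1 / 2 by norm_num] at hmod
    have hrot := E_rot h2 h3 s.T hT
    have key := jetF_sound s (by omega)
      ⟨Bl.mul (Bl.mul (Bl.pow r2.g 8) (Bl.pow r3.g 8))
        (Cx.pow (Cx.mul r2.w r3.w.conj) s.T).re, Bl.zero, Bl.zero⟩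
      ⟨Bl.mul (Bl.mul (Bl.pow r2.g 8) (Bl.pow r3.g 8))
        (Cx.pow (Cx.mul r2.w r3.w.conj) s.T).im, Bl.zero, Bl.zero⟩
      ⟨(Bl.mul (Bl.pow r2.g 8) (Bl.pow r3.g 8)).ab, 0, 0⟩ ⟨fac (max3 A.ra.y A.ra.z), 0, 0⟩ A
      0 A2 0 B3 hA _ 0 0 _ 0 0 (mem_mul hmod hrot.1) mem_zero mem_zero (mem_mul hmod hrot.2)
      mem_zero mem_zero
      (fun u v => Xc (1 / 2) ((s.T : ℝ) / 16) (M2 * (1 + A2 * u)) (M3 * (1 + B3 * v)) 1)
      (fun _ _ => 0) (fun _ _ => 0)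
      (by
        intro u v hu hv
        have h4 := E_main8 s hs hP8 h2 h3 (A2 * u) (B3 * v) A.ra.y A.ra.z hy hz
          (hxx u hu) (hyy v hv)
        rw [zero_mul, zero_mul, add_zero, hrx]
        exact h4)
      (by intro u v _ _; simp [Md]) (by intro u v _ _; simp [Md])
    refine E_add_r 1099511627776 key ?_
    intro u v hu hv
    show |Fn (s.P, s.T) ![w u v, M2 * (1 + A2 * u), M3 * (1 + B3 * v)] -
      (Xc (1 / 2) ((s.T : ℝ) / 16) (M2 * (1 + A2 * u)) (M3 * (1 + B3 * v)) 1 + 0 + 0) / 3|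
      * 2 ^ 64 ≤ _
    rw [E_Fn_eq, hP2, E_half _ _ _ (w u v)]
    have hr1 : (A.ra.y : ℝ) / 2 ^ 64 < 1 := by
      rw [div_lt_one (by positivity)]
      have : (A.ra.y : ℝ) ≤ 17446744073709551616 := by exact_mod_cast hy
      norm_num at this ⊢
      linarith
    have hr2 : (A.ra.z : ℝ) / 2 ^ 64 < 1 := by
      rw [div_lt_one (by positivity)]
      have : (A.ra.z : ℝ) ≤ 17446744073709551616 := by exact_mod_cast hz
      norm_num at this ⊢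
      linarith
    have a1 := abs_le.1 (hxx u hu)
    have a2 := abs_le.1 (hyy v hv)
    have h5 := E_small8 ((s.T : ℝ) / 16) (M2 * (1 + A2 * u)) (M3 * (1 + B3 * v)) (w u v)
      (mul_nonneg h2.1.le (by linarith)) (mul_nonneg h3.1.le (by linarith))
      (hw u v hu hv).1 (hw u v hu hv).2 (hsum u v hu hv)
    set a := M2 * (1 + A2 * u)
    set b := M3 * (1 + B3 * v)
    have h6 : (Xc (1 / 2) ((s.T : ℝ) / 16) a b 1 + Xc (1 / 2) ((s.T : ℝ) / 16) b (w u v) a +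
        Xc (1 / 2) ((s.T : ℝ) / 16) (w u v) a b) / 3 -
        (Xc (1 / 2) ((s.T : ℝ) / 16) a b 1 + 0 + 0) / 3 =
        (Xc (1 / 2) ((s.T : ℝ) / 16) b (w u v) a + Xc (1 / 2) ((s.T : ℝ) / 16) (w u v) a b) / 3 := by
      ring
    rw [h6, abs_div, abs_of_pos (by norm_num : (0 : ℝ) < 3)]
    have h7 : ((1099511627776 : ℕ) : ℝ) = 3 / 2 ^ 24 / 3 * 2 ^ 64 := by norm_num
    rw [h7]
    gcongr

/-- third coordinate in `[0, 2^(-48)]` -/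
theorem jets3_soundE (D : Dict) (hD : D.ok = true) (M1 M2 : ℝ) (r1 r2 : RR)
    (h1 : r1.Mem M1) (h2 : r2.Mem M2) (A1 A2 B1 : ℝ) (A : Aff)
    (hA : A.Mem A1 A2 B1 0) (hB3 : A.B3 = Bl.zero) (hrz : A.ra.z = 0)
    (hx : A.ra.x ≤ 17446744073709551616) (hy : A.ra.y ≤ 17446744073709551616)
    (w : ℝ → ℝ → ℝ) (hw : ∀ u v : ℝ, |u| ≤ 1 → |v| ≤ 1 → 0 ≤ w u v ∧ w u v ≤ 1 / 2 ^ 48)
    (hs : ∀ u v : ℝ, |u| ≤ 1 → |v| ≤ 1 →
      M1 * (1 + (A1 * u + B1 * v)) + M2 * (1 + A2 * u) ≤ 3) :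
    List.Forall₂ (fun (s : FS) (j : Jv) => j.Mem (fun u v => Fn (s.P, s.T)
      ![M1 * (1 + (A1 * u + B1 * v)), M2 * (1 + A2 * u), w u v]))
      D.fs (jets3 D r1 r2 A) := by
  unfold jets3
  rw [List.forall₂_map_right_iff, List.forall₂_same]
  intro s hsm
  exact E_jets3_s s (E_ok_mem hD hsm) M1 M2 r1 r2 h1 h2 A1 A2 B1 A hA hrz hx hy w hw hs

/-- first coordinate in `[0, 2^(-48)]` -/
theorem jets1_soundE (D : Dict) (hD : D.ok = true) (M2 M3 : ℝ) (r2 r3 : RR)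
    (h2 : r2.Mem M2) (h3 : r3.Mem M3) (A2 B3 : ℝ) (A : Aff)
    (hA : A.Mem 0 A2 0 B3) (hA1 : A.A1 = Bl.zero) (hB1 : A.B1 = Bl.zero) (hrx : A.ra.x = 0)
    (hy : A.ra.y ≤ 17446744073709551616) (hz : A.ra.z ≤ 17446744073709551616)
    (w : ℝ → ℝ → ℝ) (hw : ∀ u v : ℝ, |u| ≤ 1 → |v| ≤ 1 → 0 ≤ w u v ∧ w u v ≤ 1 / 2 ^ 48)
    (hs : ∀ u v : ℝ, |u| ≤ 1 → |v| ≤ 1 → M2 * (1 + A2 * u) + M3 * (1 + B3 * v) ≤ 3) :
    List.Forall₂ (fun (s : FS) (j : Jv) => j.Mem (fun u v => Fn (s.P, s.T)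
      ![w u v, M2 * (1 + A2 * u), M3 * (1 + B3 * v)]))
      D.fs (jets1 D r2 r3 A) := by
  unfold jets1
  rw [List.forall₂_map_right_iff, List.forall₂_same]
  intro s hsm
  exact E_jets1_s s (E_ok_mem hD hsm) M2 M3 r2 r3 h2 h3 A2 B3 A hA hrx hy hz w hw hs

end Vale.Agent.Lib.P154.Neg.Ck
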