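import Vale.Agent.Lib.P154.Neg.CkRuns

/-! Kernel evaluation, run C, part 1. -/

namespace Vale.Agent.Lib.P154.Neg.Ck

set_option maxRecDepth 100000

def tC11 : Tr := .s3 (.s2 (.s3 (.s2 .lf (.s3 .lf .lf)) (.s2 (.s3 .lf .lf) (.s3 .lf .lf))) (.s3 (.s2 (.s3 .lf .lf) (.s3 .lf .lf)) (.s2 (.s3 .lf .lf) (.s3 .lf .lf)))) (.s2 (.s3 (.s2 (.s3 .lf .lf) (.s3 .lf .lf)) (.s2 (.s3 .lf .lf) (.s3 .lf (.s2 .lf .lf)))) (.s3 (.s2 (.s3 .lf (.s2 .lf .lf)) (.s3 (.s2 .lf .lf) (.s2 .lf .lf))) (.s2 (.s3 (.s2 .lf .lf) (.s2 .lf .lf)) (.s3 (.s2 .lf .lf) (.s2 .lf .lf)))))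

theorem cC11 : run runC tC11 17582052945254416384 288230376151711744 17005592192950992896 288230376151711744 = true := by decide +kernel

def tC12 : Tr := .s2 (.s3 (.s2 (.s3 .lf .lf) (.s3 .lf (.s2 .lf .lf))) (.s2 (.s3 (.s2 .lf .lf) (.s2 .lf .lf)) (.s3 (.s2 .lf .lf) (.s2 .lf .lf)))) (.s3 (.s2 (.s3 (.s2 .lf .lf) (.s2 .lf .lf)) (.s3 (.s2 .lf .lf) (.s2 .lf .lf))) (.s2 (.s3 (.s2 .lf .lf) (.s2 .lf .lf)) (.s3 (.s2 .lf .lf) (.s2 .lf .lf))))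

theorem cC12 : run runC tC12 18158513697557839872 288230376151711744 16861477004875137024 144115188075855872 = true := by decide +kernel

def tC13 : Tr := .s2 (.s3 (.s2 (.s3 (.s2 .lf .lf) (.s2 .lf .lf)) (.s3 (.s2 .lf .lf) (.s2 .lf .lf))) (.s2 (.s3 (.s2 .lf .lf) (.s2 .lf .lf)) (.s3 (.s2 .lf .lf) (.s2 .lf .lf)))) (.s3 (.s2 (.s3 (.s2 .lf .lf) (.s2 .lf .lf)) (.s3 (.s2 .lf .lf) (.s2 .lf (.s3 .lf .lf)))) (.s2 (.s3 (.s2 .lf (.s3 .lf .lf)) (.s2 (.s3 .lf .lf) (.s3 .lf .lf))) (.s3 (.s2 (.s3 .lf .lf) (.s3 .lf .lf)) (.s2 (.s3 .lf .lf) (.s3 .lf .lf)))))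

theorem cC13 : run runC tC13 18158513697557839872 288230376151711744 17149707381026848768 144115188075855872 = true := by decide +kernel

def tC14 : Tr := Tr.sk

theorem cC14 : run runC tC14 16717361816799281152 576460752303423488 17870283321406128128 576460752303423488 = true := by decide +kernel

def tC15 : Tr := .s3 (.s2 (.s3 (.s2 (.s3 (.s2 .lf .lf) (.s2 .sk .lf)) (.s3 (.s2 .lf .lf) (.s2 .lf .lf))) (.s2 .sk (.s3 (.s2 .lf .lf) (.s2 .sk .lf)))) (.s3 (.s2 (.s3 (.s2 .lf .lf) (.s2 .lf .lf)) (.s3 (.s2 .lf .lf) (.s2 .lf .lf))) (.s2 (.s3 (.s2 .lf .lf) (.s2 .lf .lf)) (.s3 (.s2 .lf .lf) (.s2 (.s3 .lf .lf) (.s3 .lf .lf)))))) (.s2 .sk (.s3 (.s2 (.s3 (.s2 .lf (.s3 .lf .lf)) (.s2 .sk (.s3 .lf .lf))) (.s3 (.s2 (.s3 .lf .lf) (.s3 .lf .lf)) (.s2 (.s3 .lf .lf) (.s3 .lf .lf)))) (.s2 .sk (.s3 (.s2 (.s3 .lf .lf) (.s3 .lf (.s2 .lf .lf)))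 (.s2 .sk (.s3 (.s2 .lf .lf) (.s2 .sk .lf)))))))

theorem cC15 : run runC tC15 17582052945254416384 288230376151711744 17582052945254416384 288230376151711744 = true := by decide +kernel

end Vale.Agent.Lib.P154.Neg.Ck
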