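import Vale.Agent.Lib.P154.Neg.CkRuns

/-! Kernel evaluation, run C, part 10. -/

namespace Vale.Agent.Lib.P154.Neg.Ck

set_option maxRecDepth 100000

def tC54 : Tr := Tr.sk

theorem cC54 : run runC tC54 18230571291595767808 72057594037927936 18374686479671623680 72057594037927936 = true := by decide +kernel

def tC55 : Tr := .s3 (.s2 (.s3 (.s2 (.s3 .lf .lf) (.s3 .lf (.s2 .lf .lf))) (.s2 .sk (.s3 (.s2 .lf .lf) (.s2 .sk .lf)))) (.s2 (.s3 (.s2 (.s3 .lf .lf) (.s3 .lf .lf)) (.s2 (.s3 .lf .lf) (.s3 .lf .lf))) (.s3 (.s3 (.s2 .lf .lf) (.s2 .lf .lf)) (.s2 (.s3 .lf .lf) (.s3 .lf .lf))))) (.s2 .sk (.s3 (.s2 (.s3 (.s2 .lf .lf) (.s2 .sk .lf)) (.s3 (.s2 .lf .lf) (.s2 .lf .lf))) (.s2 .sk (.s3 (.s2 .lf .lf) (.s2 .sk .lf)))))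

theorem cC55 : run runC tC55 18320643284143177728 18014398509481984 18320643284143177728 18014398509481984 = true := by decide +kernel

def tC56 : Tr := .s2 (.s3 (.s2 (.s3 (.s2 .lf .lf) (.s2 .lf .lf)) (.s3 (.s2 .lf .lf) (.s2 .lf .lf))) (.s2 (.s3 (.s2 .lf .lf) (.s2 .lf .lf)) (.s3 (.s2 .lf .lf) (.s2 .lf .lf)))) (.s3 (.s2 (.s3 (.s2 .lf .lf) (.s2 .lf .lf)) (.s3 (.s2 .lf .lf) (.s2 .lf .lf))) (.s2 (.s3 (.s2 .lf .lf) (.s2 .lf .lf)) (.s3 (.s2 .lf .lf) (.s2 .lf .lf))))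

theorem cC56 : run runC tC56 18356672081162141696 18014398509481984 18311636084888436736 9007199254740992 = true := by decide +kernel

def tC57 : Tr := .s2 (.s3 (.s2 (.s3 (.s2 .lf .lf) (.s2 .lf .lf)) (.s3 (.s2 .lf .lf) (.s2 .lf .lf))) (.s2 (.s3 (.s2 .lf .lf) (.s2 .lf .lf)) (.s3 (.s2 .lf .lf) (.s2 .lf .lf)))) (.s3 (.s2 (.s3 (.s2 .lf .lf) (.s2 .lf .lf)) (.s3 (.s2 .lf .lf) (.s2 .lf (.s3 .lf .lf)))) (.s2 (.s3 (.s2 .lf .lf) (.s2 .lf (.s3 .lf .lf))) (.s3 (.s2 (.s3 .lf .lf) (.s3 .lf .lf)) (.s2 (.s3 .lf .lf) (.s3 .lf .lf)))))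

theorem cC57 : run runC tC57 18356672081162141696 18014398509481984 18329650483397918720 9007199254740992 = true := by decide +kernel

def tC58 : Tr := Tr.sk

theorem cC58 : run runC tC58 18320643284143177728 18014398509481984 18356672081162141696 18014398509481984 = true := by decide +kernel

def tC59 : Tr := .s2 (.s3 (.s2 (.s3 (.s2 .lf .lf) (.s2 .sk .lf)) (.s3 (.s2 .lf .lf) (.s2 .lf (.s3 .lf .lf)))) (.s2 .sk (.s3 (.s2 (.s3 .lf .lf) (.s3 .lf .lf)) (.s2 .sk (.s3 .lf .lf))))) (.s3 (.s2 (.s3 (.s2 (.s3 .lf .lf) (.s3 .lf .lf)) (.s2 (.s3 .lf .lf) (.s3 .lf .lf))) (.s3 (.s2 (.s3 .lf .lf) (.s3 .lf .lf)) (.s2 (.s3 .lf .lf) (.s3 .lf .lf)))) (.s2 (.s3 (.s2 (.s3 .lf .lf) (.s3 .lf .lf)) (.s2 (.s3 .lf .lf) (.s3 .lf .lf))) (.s3 (.s2 (.s3 .lf .lf) (.s3 .lf .lf)) (.s2 (.s3 .lf .lf) (.s3 .lf .lf)))))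

theorem cC59 : run runC tC59 18356672081162141696 18014398509481984 18347664881907400704 9007199254740992 = true := by decide +kernel

end Vale.Agent.Lib.P154.Neg.Ck
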