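import Vale.Agent.Lib.P154.Neg.CkRuns

/-! Kernel evaluation, run C, part 14. -/

namespace Vale.Agent.Lib.P154.Neg.Ck

set_option maxRecDepth 100000

def tC80 : Tr := .s3 (.s2 (.s3 (.s2 (.s3 .lf .lf) (.s3 .lf .lf)) (.s2 (.s3 .lf .lf) (.s3 .lf (.s2 .lf .lf)))) (.s3 (.s2 (.s3 .lf .lf) (.s3 .lf .lf)) (.s2 (.s3 .lf (.s2 .lf .lf)) (.s3 .lf (.s2 .lf .sk))))) (.s2 (.s3 (.s2 (.s3 (.s2 .lf .lf) (.s2 .lf .lf)) (.s3 (.s2 .lf .lf) (.s2 .lf .lf))) (.s2 (.s3 (.s2 .lf .lf) (.s2 .lf .lf)) (.s3 (.s2 .lf .lf) (.s2 .lf .lf)))) (.s3 (.s2 (.s3 (.s2 .lf .lf) (.s2 .lf .lf)) (.s3 (.s2 .lf .sk) .sk)) (.s2 (.s3 (.s2 .lf .lf) (.s2 .lf .sk)) .sk)))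

theorem cC80 : run runC tC80 19311435202164686848 288230376151711744 16429131440647569408 288230376151711744 = true := by decide +kernel

def tC81 : Tr := .s2 (.s3 (.s2 (.s3 (.s2 .lf .lf) (.s2 .lf .lf)) (.s3 (.s2 .lf .lf) (.s2 .lf .lf))) (.s2 (.s3 (.s2 .lf .lf) (.s2 .lf .lf)) (.s3 (.s2 .lf .lf) (.s2 .lf .lf)))) (.s3 (.s2 (.s3 (.s2 .lf .lf) (.s2 .lf .lf)) (.s3 (.s2 .lf .lf) (.s2 .lf .lf))) (.s2 (.s3 (.s2 .lf .lf) (.s2 (.s3 .lf .lf) (.s3 .lf .lf))) (.s3 (.s2 .lf .lf) (.s2 (.s3 .lf .lf) (.s3 .lf .lf)))))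

theorem cC81 : run runC tC81 18734974449861263360 288230376151711744 16861477004875137024 144115188075855872 = true := by decide +kernel

def tC82 : Tr := .s3 (.s2 (.s3 (.s2 .lf (.s3 .lf .lf)) (.s2 (.s3 .lf .lf) (.s3 .lf .lf))) (.s3 (.s2 (.s3 .lf .lf) (.s3 .lf .lf)) (.s2 (.s3 .lf .lf) (.s3 .lf .lf)))) (.s2 (.s3 (.s2 (.s3 .lf .lf) (.s3 .lf .lf)) (.s2 (.s3 .lf .lf) (.s3 .lf .lf))) (.s3 (.s2 (.s3 .lf .lf) (.s3 .lf .lf)) (.s2 (.s3 .lf .lf) (.s3 .lf (.s2 .lf .lf)))))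

theorem cC82 : run runC tC82 18590859261785407488 144115188075855872 17149707381026848768 144115188075855872 = true := by decide +kernel

def tC83 : Tr := .s3 (.s2 (.s3 (.s2 (.s3 .lf .lf) (.s3 .lf .lf)) (.s2 (.s3 .lf .lf) (.s3 .lf .lf))) (.s3 (.s2 (.s3 .lf .lf) (.s3 .lf .lf)) (.s2 (.s3 .lf .lf) (.s3 .lf .lf)))) (.s2 (.s3 (.s2 (.s3 .lf .lf) (.s3 .lf .lf)) (.s2 (.s3 (.s2 .lf .lf) (.s2 .lf .lf)) (.s3 (.s2 .lf .lf) (.s2 .lf .lf)))) (.s3 (.s2 (.s3 .lf .lf) (.s3 .lf .lf)) (.s2 (.s3 (.s2 .lf .lf) (.s2 .lf .lf)) (.s3 (.s2 .lf .lf) (.s2 .lf .lf)))))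

theorem cC83 : run runC tC83 18879089637937119232 144115188075855872 17149707381026848768 144115188075855872 = true := by decide +kernel

end Vale.Agent.Lib.P154.Neg.Ck
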