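import Vale.Agent.Lib.P154.Neg.CkRuns

/-! Kernel evaluation, run C, part 16. -/

namespace Vale.Agent.Lib.P154.Neg.Ck

set_option maxRecDepth 100000

def tC90 : Tr := .s3 (.s2 (.s3 (.s2 .lf .lf) (.s2 (.s3 .lf .lf) (.s3 .lf .lf))) (.s3 (.s2 (.s3 .lf .lf) (.s3 .lf .lf)) (.s2 (.s3 .lf .lf) (.s3 .lf .lf)))) (.s2 (.s3 (.s2 (.s3 .lf .lf) (.s3 .lf .lf)) (.s2 (.s3 .lf .lf) (.s3 .lf .lf))) (.s3 (.s2 (.s3 .lf .lf) (.s3 .lf .lf)) (.s2 (.s3 .lf .lf) (.s3 .lf .lf))))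

theorem cC90 : run runC tC90 18518801667747479552 72057594037927936 17654110539292344320 72057594037927936 = true := by decide +kernel

def tC91 : Tr := .s3 (.s2 (.s3 (.s2 (.s3 .lf .lf) (.s3 .lf .lf)) (.s2 (.s3 .lf .lf) (.s3 .lf .lf))) (.s3 (.s2 (.s3 .lf .lf) (.s3 .lf .lf)) (.s2 (.s3 .lf .lf) (.s3 .lf .lf)))) (.s2 (.s3 (.s2 (.s3 .lf .lf) (.s3 .lf .lf)) (.s2 (.s3 .lf .lf) (.s3 .lf .lf))) (.s3 (.s2 (.s3 .lf .lf) (.s3 .lf .lf)) (.s2 (.s3 .lf (.s2 .lf .lf)) (.s3 .lf (.s2 .lf .lf)))))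

theorem cC91 : run runC tC91 18662916855823335424 72057594037927936 17654110539292344320 72057594037927936 = true := by decide +kernel

def tC92 : Tr := .s3 (.s2 (.s3 (.s2 (.s3 .lf .lf) (.s3 .lf .lf)) (.s2 (.s3 .lf (.s2 .lf .lf)) (.s3 (.s2 .lf .lf) (.s2 .lf .lf)))) (.s3 (.s2 (.s3 .lf .lf) (.s3 .lf (.s2 .lf .lf))) (.s2 (.s3 (.s2 .lf .lf) (.s2 .lf .lf)) (.s3 (.s2 .lf .lf) (.s2 .lf .lf))))) (.s2 (.s3 (.s2 (.s3 (.s2 .lf .lf) (.s2 .lf .lf)) (.s3 (.s2 .lf .lf) (.s2 .lf .lf))) (.s2 (.s3 (.s2 .lf .lf) (.s2 .lf .lf)) (.s3 (.s2 .lf .lf) (.s2 .lf .lf)))) (.s3 (.s2 (.s3 (.s2 .lf .lf) (.s2 .lf .lf)) (.s3 (.s2 .lf .lf) (.s2 .lf .lf))) (.s2 (.s3 (.s2 .lf .lf) (.s2 .lf .lf)) (.s3 (.s2 .lf .lf) (.s2 .lf .lf)))))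

theorem cC92 : run runC tC92 18518801667747479552 72057594037927936 17798225727368200192 72057594037927936 = true := by decide +kernel

def tC93 : Tr := .s2 (.s3 (.s2 (.s3 (.s2 .lf .lf) (.s2 .lf .lf)) (.s3 (.s2 .lf .lf) (.s2 .lf .lf))) (.s2 (.s3 (.s2 .lf .lf) (.s2 .lf .lf)) (.s3 (.s2 .lf .lf) (.s2 .lf .lf)))) (.s3 (.s2 (.s3 (.s2 .lf .lf) (.s2 .lf .lf)) (.s3 (.s2 .lf .lf) (.s2 .lf .lf))) (.s2 (.s3 (.s2 .lf .lf) (.s2 .lf .lf)) (.s3 (.s2 .lf .lf) (.s2 .lf .lf))))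

theorem cC93 : run runC tC93 18662916855823335424 72057594037927936 17762196930349236224 36028797018963968 = true := by decide +kernel

end Vale.Agent.Lib.P154.Neg.Ck
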