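import Vale.Agent.Lib.P154.Neg.CkRuns

/-! Kernel evaluation, run C, part 19. -/

namespace Vale.Agent.Lib.P154.Neg.Ck

set_option maxRecDepth 100000

def tC103 : Tr := .s2 (.s3 (.s2 (.s3 .lf (.s2 .lf .lf)) (.s3 .lf (.s2 .lf .lf))) (.s2 (.s3 (.s2 .lf .lf) (.s2 .lf .lf)) (.s3 (.s2 .lf .lf) (.s2 .lf .lf)))) (.s3 (.s2 (.s3 (.s2 .lf .lf) (.s2 .lf .lf)) (.s3 (.s2 .lf .lf) (.s2 .lf .lf))) (.s2 (.s3 (.s2 .lf .lf) (.s2 .lf .lf)) (.s3 (.s2 .lf .lf) (.s2 .lf .lf))))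

theorem cC103 : run runC tC103 18554830464766443520 36028797018963968 18032412907991465984 18014398509481984 = true := by decide +kernel

def tC104 : Tr := .s2 (.s3 (.s2 (.s3 (.s2 .lf .lf) (.s2 .lf .lf)) (.s3 (.s2 .lf .lf) (.s2 .lf .lf))) (.s2 (.s3 (.s2 .lf .lf) (.s2 .lf .lf)) (.s3 (.s2 .lf .lf) (.s2 .lf .lf)))) (.s3 (.s2 (.s3 (.s2 .lf .lf) (.s2 .lf .lf)) (.s3 (.s2 .lf .lf) (.s2 .lf .lf))) (.s2 (.s3 (.s2 .lf .lf) (.s2 .lf .lf)) (.s3 (.s2 .lf .lf) (.s2 .lf .lf))))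

theorem cC104 : run runC tC104 18554830464766443520 36028797018963968 18068441705010429952 18014398509481984 = true := by decide +kernel

def tC105 : Tr := .s2 (.s3 (.s2 (.s3 (.s2 .lf .lf) (.s2 .lf .lf)) (.s3 (.s2 .lf .lf) (.s2 .lf .lf))) (.s2 (.s3 (.s2 .lf .lf) (.s2 .lf .lf)) (.s3 (.s2 .lf .lf) (.s2 .lf .lf)))) (.s3 (.s2 (.s3 (.s2 .lf .lf) (.s2 .lf .lf)) (.s3 (.s2 .lf .lf) (.s2 .lf .lf))) (.s2 (.s3 (.s2 .lf .lf) (.s2 .lf .lf)) (.s3 (.s2 .lf .lf) (.s2 .lf .lf))))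

theorem cC105 : run runC tC105 18482772870728515584 36028797018963968 18104470502029393920 18014398509481984 = true := by decide +kernel

def tC106 : Tr := .s2 (.s3 (.s2 (.s3 (.s2 .lf .lf) (.s2 .lf .lf)) (.s3 (.s2 .lf .lf) (.s2 .lf .lf))) (.s2 (.s3 (.s2 .lf .lf) (.s2 .lf .lf)) (.s3 (.s2 .lf .lf) (.s2 (.s3 .lf .lf) (.s3 .lf .lf))))) (.s3 (.s2 (.s3 (.s2 .lf .lf) (.s2 .lf .lf)) (.s3 (.s2 .lf .lf) (.s2 .lf (.s3 .lf .lf)))) (.s2 (.s3 (.s2 (.s3 .lf .lf) (.s3 .lf .lf)) (.s2 (.s3 .lf .lf) (.s3 .lf .lf))) (.s3 (.s2 (.s3 .lf .lf) (.s3 .lf .lf)) (.s2 (.s3 .lf .lf) (.s3 .lf .lf)))))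

theorem cC106 : run runC tC106 18482772870728515584 36028797018963968 18140499299048357888 18014398509481984 = true := by decide +kernel

def tC107 : Tr := .s2 (.s3 (.s2 (.s3 (.s2 .lf .lf) (.s2 .lf .lf)) (.s3 (.s2 .lf .lf) (.s2 .lf .lf))) (.s2 (.s3 (.s2 .lf .lf) (.s2 .lf .lf)) (.s3 (.s2 .lf .lf) (.s2 .lf .lf)))) (.s3 (.s2 (.s3 (.s2 .lf .lf) (.s2 .lf .lf)) (.s3 (.s2 .lf .lf) (.s2 .lf .lf))) (.s2 (.s3 (.s2 .lf .lf) (.s2 .lf .lf)) (.s3 (.s2 .lf .lf) (.s2 .lf .lf))))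

theorem cC107 : run runC tC107 18554830464766443520 36028797018963968 18104470502029393920 18014398509481984 = true := by decide +kernel

end Vale.Agent.Lib.P154.Neg.Ck
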