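import Vale.Agent.Lib.P154.Neg.CkRuns

/-! Kernel evaluation, run C, part 26. -/

namespace Vale.Agent.Lib.P154.Neg.Ck

set_option maxRecDepth 100000

def tC138 : Tr := .s3 (.s2 (.s3 (.s2 (.s3 (.s2 (.s3 (.s2 (.s3 .lf .sk) .sk) .sk) .sk) .sk) .sk) .sk) .sk) .sk

theorem cC138 : run runC tC138 18662916855823335424 72057594037927936 18230571291595767808 72057594037927936 = true := by decide +kernel

def tC139 : Tr := .s2 (.s3 (.s2 (.s3 (.s2 (.s3 (.s2 (.s3 (.s2 (.s3 (.s2 (.s3 .lf .sk) (.s3 .lf .sk)) .sk) (.s3 (.s2 (.s3 .lf .sk) (.s3 (.s2 .lf .lf) .sk)) .sk)) .sk) (.s3 (.s2 (.s3 (.s2 (.s3 (.s2 .lf .lf) .sk) (.s3 (.s2 .lf .lf) .sk)) .sk) (.s3 (.s2 (.s3 (.s2 .lf .lf) .sk) (.s3 (.s2 .lf .lf) .sk)) .sk)) .sk)) .sk) (.s3 (.s2 (.s3 (.s2 (.s3 (.s2 (.s3 (.s2 .lf .lf) .sk) (.s3 (.s2 .lf .lf) .sk)) .sk) (.s3 (.s2 (.s3 (.s2 .lf .lf) .sk) (.s3 (.s2 .lf .lf) .sk)) .sk)) .sk) (.s3 (.s2 (.s3 (.s2 (.s3 (.s2 .lf .lf) .sk) (.s3 (.s2 .lf .lf) .sk)) .sk) (.s3 (.s2 (.s3 (.s2 .lf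 .lf) .sk) (.s3 (.s2 .lf .lf) .sk)) .sk)) .sk)) .sk)) .sk) (.s3 (.s2 (.s3 (.s2 (.s3 (.s2 (.s3 (.s2 (.s3 (.s2 .lf .sk) .sk) .sk) .sk) .sk) .sk) .sk) .sk) .sk) .sk)) .sk) .sk

theorem cC139 : run runC tC139 18590859261785407488 144115188075855872 18374686479671623680 72057594037927936 = true := by decide +kernel

def tC140 : Tr := Tr.sk

theorem cC140 : run runC tC140 18879089637937119232 144115188075855872 18302628885633695744 144115188075855872 = true := by decide +kernel

def tC141 : Tr := Tr.sk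

theorem cC141 : run runC tC141 19311435202164686848 288230376151711744 18158513697557839872 288230376151711744 = true := by decide +kernel

def tC142 : Tr := Tr.sk

theorem cC142 : run runC tC142 20176126330619822080 576460752303423488 17870283321406128128 576460752303423488 = true := by decide +kernel

def tC143 : Tr := Tr.sk

theorem cC143 : run runC tC143 21905508587530092544 1152921504606846976 17293822569102704640 1152921504606846976 = true := by decide +kernel

def tC144 : Tr := .s3 .sk .sk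

theorem cC144 : run runC tC144 25364273101350633472 2305843009213693952 13835058055282163712 4611686018427387904 = true := by decide +kernel

def tC145 : Tr := Tr.sk

theorem cC145 : run runC tC145 32281802128991715328 4611686018427387904 9223372036854775808 9223372036854775808 = true := by decide +kernel

def tC146 : Tr := .s2 (.s3 (.s2 (.s3 (.s3 (.s2 (.s3 (.s2 (.s3 (.s2 (.s3 (.s2 (.s3 (.s2 (.s3 (.s2 .sk .sk) .sk) .sk) .sk) .sk) .sk) .sk) .sk) .sk) .sk) .sk) .sk) .sk) .sk) .sk) .sk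

theorem cC146 : run runC tC146 27670116110564327424 9223372036854775808 27670116110564327424 9223372036854775808 = true := by decide +kernel

end Vale.Agent.Lib.P154.Neg.Ck
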