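import Vale.Agent.Lib.P154.Neg.CkRuns

/-! Kernel evaluation, run R, part 0. -/

namespace Vale.Agent.Lib.P154.Neg.Ck

set_option maxRecDepth 100000

def tR0 : Tr := .s3 (.s2 (.s3 (.s2 (.s3 (.s2 (.s3 (.s2 (.s3 (.s2 (.s3 (.s2 (.s3 (.s2 (.s3 (.s2 (.s3 .lf .sk) (.s3 (.s2 (.s2 (.s2 (.s2 (.s2 (.s2 .lf .lf) .lf) .lf) .lf) .lf) .lf) .lf)) .sk) (.s3 (.s3 (.s2 .lf .lf) .lf) .lf)) .sk) (.s3 (.s3 (.s3 (.s2 .lf .lf) .lf) .lf) .lf)) .sk) (.s3 (.s3 (.s3 (.s3 (.s2 .lf .lf) .lf) .lf) .lf) .lf)) .sk) (.s3 (.s3 (.s3 (.s3 (.s3 (.s2 .lf .lf) .lf) .lf) .lf) .lf) .lf)) .sk) (.s3 (.s3 (.s3 (.s3 (.s3 (.s3 (.s2 .lf .lf) .lf) .lf) .lf) .lf) .lf) .lf)) .sk) (.s3 (.s3 (.s3 (.s3 (.s3 (.s3 (.s3 .lf .lf) .lf) .lf) .lf) .lf) .lf) .lf)) .sk) (.s3 (.s3 (.s3 (.s3 (.s3 (.s3 (.s3 .lf .lf) .lf) .lf) .lf) .lf) .lf) .lf)) .sk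

theorem cR0 : run runR tR0 8388608 8388608 16777216 16777216 = true := by decide +kernel

def tR1 : Tr := .s3 (.s3 (.s3 (.s3 (.s3 (.s3 (.s3 .lf .lf) .lf) .lf) .lf) .lf) .lf) .lf

theorem cR1 : run runR tR1 25165824 8388608 16777216 16777216 = true := by decide +kernel

def tR2 : Tr := Tr.sk

theorem cR2 : run runR tR2 16777216 16777216 50331648 16777216 = true := by decide +kernel

def tR3 : Tr := .s3 (.s3 (.s3 (.s3 (.s3 (.s3 (.s3 .lf .lf) .lf) .lf) .lf) .lf) .lf) .lf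

theorem cR3 : run runR tR3 50331648 16777216 33554432 33554432 = true := by decide +kernel

def tR4 : Tr := Tr.sk

theorem cR4 : run runR tR4 33554432 33554432 100663296 33554432 = true := by decide +kernel

def tR5 : Tr := .s3 (.s3 (.s3 (.s3 (.s3 (.s3 (.s3 .lf .lf) .lf) .lf) .lf) .lf) .lf) .lf

theorem cR5 : run runR tR5 100663296 33554432 67108864 67108864 = true := by decide +kernel

end Vale.Agent.Lib.P154.Neg.Ck
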