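import Vale.Agent.Lib.P154.Neg.CkRuns

/-! Kernel evaluation, run R, part 1. -/

namespace Vale.Agent.Lib.P154.Neg.Ck

set_option maxRecDepth 100000

def tR6 : Tr := Tr.sk

theorem cR6 : run runR tR6 67108864 67108864 201326592 67108864 = true := by decide +kernel

def tR7 : Tr := .s3 (.s3 (.s3 (.s3 (.s3 (.s3 (.s3 .lf .lf) .lf) .lf) .lf) .lf) .lf) .lf

theorem cR7 : run runR tR7 201326592 67108864 134217728 134217728 = true := by decide +kernel

def tR8 : Tr := Tr.sk

theorem cR8 : run runR tR8 134217728 134217728 402653184 134217728 = true := by decide +kernel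

def tR9 : Tr := .s3 (.s3 (.s3 (.s3 (.s3 (.s3 (.s3 .lf .lf) .lf) .lf) .lf) .lf) .lf) .lf

theorem cR9 : run runR tR9 402653184 134217728 268435456 268435456 = true := by decide +kernel

def tR10 : Tr := Tr.sk

theorem cR10 : run runR tR10 268435456 268435456 805306368 268435456 = true := by decide +kernel

def tR11 : Tr := .s3 (.s3 (.s3 (.s3 (.s3 (.s3 (.s3 .lf .lf) .lf) .lf) .lf) .lf) .lf) .lf

theorem cR11 : run runR tR11 805306368 268435456 536870912 536870912 = true := by decide +kernel

def tR12 : Tr := Tr.sk

theorem cR12 : run runR tR12 536870912 536870912 1610612736 536870912 = true := by decide +kernel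

def tR13 : Tr := .s3 (.s3 (.s3 (.s3 (.s3 (.s3 (.s3 .lf .lf) .lf) .lf) .lf) .lf) .lf) .lf

theorem cR13 : run runR tR13 1610612736 536870912 1073741824 1073741824 = true := by decide +kernel

def tR14 : Tr := Tr.sk

theorem cR14 : run runR tR14 1073741824 1073741824 3221225472 1073741824 = true := by decide +kernel

def tR15 : Tr := .s3 (.s3 (.s3 (.s3 (.s3 (.s3 (.s3 .lf .lf) .lf) .lf) .lf) .lf) .lf) .lf

theorem cR15 : run runR tR15 3221225472 1073741824 2147483648 2147483648 = true := by decide +kernel

def tR16 : Tr := Tr.sk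

theorem cR16 : run runR tR16 2147483648 2147483648 6442450944 2147483648 = true := by decide +kernel

def tR17 : Tr := .s3 (.s3 (.s3 (.s3 (.s3 (.s3 (.s3 .lf .lf) .lf) .lf) .lf) .lf) .lf) .lf

theorem cR17 : run runR tR17 6442450944 2147483648 4294967296 4294967296 = true := by decide +kernel

def tR18 : Tr := Tr.sk

theorem cR18 : run runR tR18 4294967296 4294967296 12884901888 4294967296 = true := by decide +kernel

def tR19 : Tr := .s3 (.s3 (.s3 (.s3 (.s3 (.s3 (.s3 .lf .lf) .lf) .lf) .lf) .lf) .lf) .lf

theorem cR19 : run runR tR19 12884901888 4294967296 8589934592 8589934592 = true := by decide +kernel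

def tR20 : Tr := Tr.sk

theorem cR20 : run runR tR20 8589934592 8589934592 25769803776 8589934592 = true := by decide +kernel

def tR21 : Tr := .s3 (.s3 (.s3 (.s3 (.s3 (.s3 (.s3 .lf .lf) .lf) .lf) .lf) .lf) .lf) .lf

theorem cR21 : run runR tR21 25769803776 8589934592 17179869184 17179869184 = true := by decide +kernel

def tR22 : Tr := Tr.sk

theorem cR22 : run runR tR22 17179869184 17179869184 51539607552 17179869184 = true := by decide +kernel

def tR23 : Tr := .s3 (.s3 (.s3 (.s3 (.s3 (.s3 (.s3 .lf .lf) .lf) .lf) .lf) .lf) .lf) .lf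

theorem cR23 : run runR tR23 51539607552 17179869184 34359738368 34359738368 = true := by decide +kernel

def tR24 : Tr := Tr.sk

theorem cR24 : run runR tR24 34359738368 34359738368 103079215104 34359738368 = true := by decide +kernel

def tR25 : Tr := .s3 (.s3 (.s3 (.s3 (.s3 (.s3 (.s3 .lf .lf) .lf) .lf) .lf) .lf) .lf) .lf

theorem cR25 : run runR tR25 103079215104 34359738368 68719476736 68719476736 = true := by decide +kernel

end Vale.Agent.Lib.P154.Neg.Ck
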