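import Vale.Agent.Lib.P154.Neg.CkRuns

/-! Kernel evaluation, run R, part 10. -/

namespace Vale.Agent.Lib.P154.Neg.Ck

set_option maxRecDepth 100000

def tR98 : Tr := .s2 .lf .lf

theorem cR98 : run runR tR98 13510798882111488 4503599627370496 3377699720527872 1125899906842624 = true := by decide +kernel

def tR99 : Tr := .s2 .lf .lf

theorem cR99 : run runR tR99 13510798882111488 4503599627370496 6755399441055744 2251799813685248 = true := by decide +kernel

def tR100 : Tr := .s3 .lf .lf

theorem cR100 : run runR tR100 13510798882111488 4503599627370496 13510798882111488 4503599627370496 = true := by decide +kernel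

def tR101 : Tr := Tr.sk

theorem cR101 : run runR tR101 9007199254740992 9007199254740992 27021597764222976 9007199254740992 = true := by decide +kernel

def tR102 : Tr := .s3 (.s3 (.s3 (.s3 (.s3 (.s3 (.s3 (.s3 (.s3 (.s3 (.s3 (.s3 (.s3 (.s3 (.s3 (.s3 (.s3 (.s3 (.s3 (.s3 (.s3 (.s3 (.s3 (.s3 (.s3 (.s3 (.s3 (.s3 (.s3 (.s2 .lf .lf) (.s2 .lf .lf)) (.s2 .lf .lf)) (.s2 .lf .lf)) (.s2 .lf .lf)) (.s2 .lf .lf)) (.s2 .lf .lf)) (.s2 .lf .lf)) (.s2 .lf .lf)) (.s2 .lf .lf)) (.s2 .lf .lf)) (.s2 .lf .lf)) (.s2 .lf .lf)) (.s2 .lf .lf)) (.s2 .lf .lf)) (.s2 .lf .lf)) (.s2 .lf .lf)) (.s2 .lf .lf)) (.s2 .lf .lf)) (.s2 .lf .lf)) (.s2 .lf .lf)) (.s2 .lf .lf)) (.s2 .lf .lf)) (.s2 .lf .lf)) (.s2 .lf .lf)) (.s2 .lf .lf)) (.s2 .lf .lf)) (.s2 .lf .lf)) (.s2 .lf .lf)) (.s2 .lf .lf)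

theorem cR102 : run runR tR102 27021597764222976 9007199254740992 17592186044416 17592186044416 = true := by decide +kernel

def tR103 : Tr := .s2 .lf .lf

theorem cR103 : run runR tR103 27021597764222976 9007199254740992 52776558133248 17592186044416 = true := by decide +kernel

def tR104 : Tr := .s2 .lf .lf

theorem cR104 : run runR tR104 27021597764222976 9007199254740992 105553116266496 35184372088832 = true := by decide +kernel

def tR105 : Tr := .s2 .lf .lf

theorem cR105 : run runR tR105 27021597764222976 9007199254740992 211106232532992 70368744177664 = true := by decide +kernel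

def tR106 : Tr := .s2 .lf .lf

theorem cR106 : run runR tR106 27021597764222976 9007199254740992 422212465065984 140737488355328 = true := by decide +kernel

def tR107 : Tr := .s2 .lf .lf

theorem cR107 : run runR tR107 27021597764222976 9007199254740992 844424930131968 281474976710656 = true := by decide +kernel

end Vale.Agent.Lib.P154.Neg.Ck
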