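import Vale.Agent.Lib.P154.Neg.CkRuns

/-! Kernel evaluation, run R, part 11. -/

namespace Vale.Agent.Lib.P154.Neg.Ck

set_option maxRecDepth 100000

def tR108 : Tr := .s2 .lf .lf

theorem cR108 : run runR tR108 27021597764222976 9007199254740992 1688849860263936 562949953421312 = true := by decide +kernel

def tR109 : Tr := .s2 .lf .lf

theorem cR109 : run runR tR109 27021597764222976 9007199254740992 3377699720527872 1125899906842624 = true := by decide +kernel

def tR110 : Tr := .s2 .lf .lf

theorem cR110 : run runR tR110 27021597764222976 9007199254740992 6755399441055744 2251799813685248 = true := by decide +kernel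

def tR111 : Tr := .s2 .lf .lf

theorem cR111 : run runR tR111 27021597764222976 9007199254740992 13510798882111488 4503599627370496 = true := by decide +kernel

def tR112 : Tr := .s3 .lf .lf

theorem cR112 : run runR tR112 27021597764222976 9007199254740992 27021597764222976 9007199254740992 = true := by decide +kernel

def tR113 : Tr := Tr.sk

theorem cR113 : run runR tR113 18014398509481984 18014398509481984 54043195528445952 18014398509481984 = true := by decide +kernel

def tR114 : Tr := .s3 (.s3 (.s3 (.s3 (.s3 (.s3 (.s3 (.s3 (.s3 (.s3 (.s3 (.s3 (.s3 (.s3 (.s3 (.s3 (.s3 (.s3 (.s3 (.s3 (.s3 (.s3 (.s3 (.s3 (.s3 (.s3 (.s3 (.s3 (.s3 (.s2 .lf .lf) (.s2 .lf .lf)) (.s2 .lf .lf)) (.s2 .lf .lf)) (.s2 .lf .lf)) (.s2 .lf .lf)) (.s2 .lf .lf)) (.s2 .lf .lf)) (.s2 .lf .lf)) (.s2 .lf .lf)) (.s2 .lf .lf)) (.s2 .lf .lf)) (.s2 .lf .lf)) (.s2 .lf .lf)) (.s2 .lf .lf)) (.s2 .lf .lf)) (.s2 .lf .lf)) (.s2 .lf .lf)) (.s2 .lf .lf)) (.s2 .lf .lf)) (.s2 .lf .lf)) (.s2 .lf .lf)) (.s2 .lf .lf)) (.s2 .lf .lf)) (.s2 .lf .lf)) (.s2 .lf .lf))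 (.s2 .lf .lf)) (.s2 .lf .lf)) (.s2 .lf .lf)) (.s2 .lf .lf)

theorem cR114 : run runR tR114 54043195528445952 18014398509481984 17592186044416 17592186044416 = true := by decide +kernel

def tR115 : Tr := .s2 .lf .lf

theorem cR115 : run runR tR115 54043195528445952 18014398509481984 52776558133248 17592186044416 = true := by decide +kernel

def tR116 : Tr := .s2 .lf .lf

theorem cR116 : run runR tR116 54043195528445952 18014398509481984 105553116266496 35184372088832 = true := by decide +kernel

def tR117 : Tr := .s2 .lf .lf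

theorem cR117 : run runR tR117 54043195528445952 18014398509481984 211106232532992 70368744177664 = true := by decide +kernel

end Vale.Agent.Lib.P154.Neg.Ck
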