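import Vale.Agent.Lib.P154.Neg.CkRuns

/-! Kernel evaluation, run R, part 12. -/

namespace Vale.Agent.Lib.P154.Neg.Ck

set_option maxRecDepth 100000

def tR118 : Tr := .s2 .lf .lf

theorem cR118 : run runR tR118 54043195528445952 18014398509481984 422212465065984 140737488355328 = true := by decide +kernel

def tR119 : Tr := .s2 .lf .lf

theorem cR119 : run runR tR119 54043195528445952 18014398509481984 844424930131968 281474976710656 = true := by decide +kernel

def tR120 : Tr := .s2 .lf .lf

theorem cR120 : run runR tR120 54043195528445952 18014398509481984 1688849860263936 562949953421312 = true := by decide +kernel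

def tR121 : Tr := .s2 .lf .lf

theorem cR121 : run runR tR121 54043195528445952 18014398509481984 3377699720527872 1125899906842624 = true := by decide +kernel

def tR122 : Tr := .s2 .lf .lf

theorem cR122 : run runR tR122 54043195528445952 18014398509481984 6755399441055744 2251799813685248 = true := by decide +kernel

def tR123 : Tr := .s2 .lf .lf

theorem cR123 : run runR tR123 54043195528445952 18014398509481984 13510798882111488 4503599627370496 = true := by decide +kernel

def tR124 : Tr := .s2 (.s3 .lf .lf) .lf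

theorem cR124 : run runR tR124 54043195528445952 18014398509481984 27021597764222976 9007199254740992 = true := by decide +kernel

def tR125 : Tr := .s3 (.s2 .lf .lf) (.s2 .sk .lf)

theorem cR125 : run runR tR125 54043195528445952 18014398509481984 54043195528445952 18014398509481984 = true := by decide +kernel

def tR126 : Tr := Tr.sk

theorem cR126 : run runR tR126 36028797018963968 36028797018963968 108086391056891904 36028797018963968 = true := by decide +kernel

def tR127 : Tr := .s3 (.s3 (.s3 (.s3 (.s3 (.s3 (.s3 (.s3 (.s3 (.s3 (.s3 (.s3 (.s3 (.s3 (.s3 (.s3 (.s3 (.s3 (.s3 (.s3 (.s3 (.s3 (.s3 (.s3 (.s3 (.s3 (.s3 (.s3 (.s3 (.s2 .lf .lf) (.s2 .lf .lf)) (.s2 .lf .lf)) (.s2 .lf .lf)) (.s2 .lf .lf)) (.s2 .lf .lf)) (.s2 .lf .lf)) (.s2 .lf .lf)) (.s2 .lf .lf)) (.s2 .lf .lf)) (.s2 .lf .lf)) (.s2 .lf .lf)) (.s2 .lf .lf)) (.s2 .lf .lf)) (.s2 .lf .lf)) (.s2 .lf .lf)) (.s2 .lf .lf)) (.s2 .lf .lf)) (.s2 .lf .lf)) (.s2 .lf .lf)) (.s2 .lf .lf)) (.s2 .lf .lf)) (.s2 .lf .lf)) (.s2 .lf .lf)) (.s2 .lf .lf)) (.s2 .lf .lf)) (.s2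 .lf .lf)) (.s2 .lf .lf)) (.s2 .lf .lf)) (.s2 .lf .lf)

theorem cR127 : run runR tR127 108086391056891904 36028797018963968 17592186044416 17592186044416 = true := by decide +kernel

end Vale.Agent.Lib.P154.Neg.Ck
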