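import Vale.Agent.Lib.P154.Neg.CkRuns

/-! Kernel evaluation, run R, part 13. -/

namespace Vale.Agent.Lib.P154.Neg.Ck

set_option maxRecDepth 100000

def tR128 : Tr := .s2 .lf .lf

theorem cR128 : run runR tR128 108086391056891904 36028797018963968 52776558133248 17592186044416 = true := by decide +kernel

def tR129 : Tr := .s2 .lf .lf

theorem cR129 : run runR tR129 108086391056891904 36028797018963968 105553116266496 35184372088832 = true := by decide +kernel

def tR130 : Tr := .s2 .lf .lf

theorem cR130 : run runR tR130 108086391056891904 36028797018963968 211106232532992 70368744177664 = true := by decide +kernel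

def tR131 : Tr := .s2 .lf .lf

theorem cR131 : run runR tR131 108086391056891904 36028797018963968 422212465065984 140737488355328 = true := by decide +kernel

def tR132 : Tr := .s2 .lf .lf

theorem cR132 : run runR tR132 108086391056891904 36028797018963968 844424930131968 281474976710656 = true := by decide +kernel

def tR133 : Tr := .s2 .lf .lf

theorem cR133 : run runR tR133 108086391056891904 36028797018963968 1688849860263936 562949953421312 = true := by decide +kernel

def tR134 : Tr := .s2 .lf .lf

theorem cR134 : run runR tR134 108086391056891904 36028797018963968 3377699720527872 1125899906842624 = true := by decide +kernel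

def tR135 : Tr := .s2 .lf .lf

theorem cR135 : run runR tR135 108086391056891904 36028797018963968 6755399441055744 2251799813685248 = true := by decide +kernel

def tR136 : Tr := .s2 (.s2 .lf .lf) .lf

theorem cR136 : run runR tR136 108086391056891904 36028797018963968 13510798882111488 4503599627370496 = true := by decide +kernel

def tR137 : Tr := .s2 (.s3 .lf .lf) (.s3 .lf .lf)

theorem cR137 : run runR tR137 108086391056891904 36028797018963968 27021597764222976 9007199254740992 = true := by decide +kernel

def tR138 : Tr := .s2 (.s3 .lf .lf) (.s3 .lf .lf)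

theorem cR138 : run runR tR138 108086391056891904 36028797018963968 54043195528445952 18014398509481984 = true := by decide +kernel

def tR139 : Tr := .s3 (.s2 .lf .lf) (.s2 .sk .lf)

theorem cR139 : run runR tR139 108086391056891904 36028797018963968 108086391056891904 36028797018963968 = true := by decide +kernel

def tR140 : Tr := Tr.sk

theorem cR140 : run runR tR140 72057594037927936 72057594037927936 216172782113783808 72057594037927936 = true := by decide +kernel

def tR141 : Tr := .s3 (.s3 (.s3 (.s3 (.s3 (.s3 (.s3 (.s3 (.s3 (.s3 (.s3 (.s3 (.s3 (.s3 (.s3 (.s3 (.s3 (.s3 (.s3 (.s3 (.s3 (.s3 (.s3 (.s3 (.s3 (.s3 (.s3 (.s3 (.s3 (.s2 .lf .lf) (.s2 .lf .lf)) (.s2 .lf .lf)) (.s2 .lf .lf)) (.s2 .lf .lf)) (.s2 .lf .lf)) (.s2 .lf .lf)) (.s2 .lf .lf)) (.s2 .lf .lf)) (.s2 .lf .lf)) (.s2 .lf .lf)) (.s2 .lf .lf)) (.s2 .lf .lf)) (.s2 .lf .lf)) (.s2 .lf .lf)) (.s2 .lf .lf)) (.s2 .lf .lf)) (.s2 .lf .lf)) (.s2 .lf .lf)) (.s2 .lf .lf)) (.s2 .lf .lf)) (.s2 .lf .lf)) (.s2 .lf .lf)) (.s2 .lf .lf)) (.s2 .lf .lf)) (.s2 .lf .lf)) (.s2 .lf .lf)) (.s2 .lf .lf)) (.s2 .lf .lf))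 (.s2 .lf .lf)

theorem cR141 : run runR tR141 216172782113783808 72057594037927936 17592186044416 17592186044416 = true := by decide +kernel

end Vale.Agent.Lib.P154.Neg.Ck
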