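import Vale.Agent.Lib.P154.Neg.CkRuns

/-! Kernel evaluation, run R, part 14. -/

namespace Vale.Agent.Lib.P154.Neg.Ck

set_option maxRecDepth 100000

def tR142 : Tr := .s2 .lf .lf

theorem cR142 : run runR tR142 216172782113783808 72057594037927936 52776558133248 17592186044416 = true := by decide +kernel

def tR143 : Tr := .s2 .lf .lf

theorem cR143 : run runR tR143 216172782113783808 72057594037927936 105553116266496 35184372088832 = true := by decide +kernel

def tR144 : Tr := .s2 .lf .lf

theorem cR144 : run runR tR144 216172782113783808 72057594037927936 211106232532992 70368744177664 = true := by decide +kernel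

def tR145 : Tr := .s2 .lf .lf

theorem cR145 : run runR tR145 216172782113783808 72057594037927936 422212465065984 140737488355328 = true := by decide +kernel

def tR146 : Tr := .s2 .lf .lf

theorem cR146 : run runR tR146 216172782113783808 72057594037927936 844424930131968 281474976710656 = true := by decide +kernel

def tR147 : Tr := .s2 .lf .lf

theorem cR147 : run runR tR147 216172782113783808 72057594037927936 1688849860263936 562949953421312 = true := by decide +kernel

def tR148 : Tr := .s2 .lf .lf

theorem cR148 : run runR tR148 216172782113783808 72057594037927936 3377699720527872 1125899906842624 = true := by decide +kernel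

def tR149 : Tr := .s2 (.s2 .lf .lf) .lf

theorem cR149 : run runR tR149 216172782113783808 72057594037927936 6755399441055744 2251799813685248 = true := by decide +kernel

def tR150 : Tr := .s2 (.s2 .lf .lf) (.s3 .lf .lf)

theorem cR150 : run runR tR150 216172782113783808 72057594037927936 13510798882111488 4503599627370496 = true := by decide +kernel

def tR151 : Tr := .s2 (.s2 (.s3 .lf .lf) (.s3 .lf .lf)) (.s3 .lf .lf)

theorem cR151 : run runR tR151 216172782113783808 72057594037927936 27021597764222976 9007199254740992 = true := by decide +kernel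

def tR152 : Tr := .s2 (.s3 .lf .lf) (.s3 .lf .lf)

theorem cR152 : run runR tR152 216172782113783808 72057594037927936 54043195528445952 18014398509481984 = true := by decide +kernel

def tR153 : Tr := .s2 (.s3 (.s2 .lf .lf) .lf) (.s3 .lf .lf)

theorem cR153 : run runR tR153 216172782113783808 72057594037927936 108086391056891904 36028797018963968 = true := by decide +kernel

def tR154 : Tr := .s3 (.s2 (.s3 .lf .lf) (.s3 .lf .lf)) (.s2 .sk .lf)

theorem cR154 : run runR tR154 216172782113783808 72057594037927936 216172782113783808 72057594037927936 = true := by decide +kernel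

def tR155 : Tr := Tr.sk

theorem cR155 : run runR tR155 144115188075855872 144115188075855872 432345564227567616 144115188075855872 = true := by decide +kernel

def tR156 : Tr := .s3 (.s3 (.s3 (.s3 (.s3 (.s3 (.s3 (.s3 (.s3 (.s3 (.s3 (.s3 (.s3 (.s3 (.s3 (.s3 (.s3 (.s3 (.s3 (.s3 (.s3 (.s3 (.s3 (.s3 (.s3 (.s3 (.s3 (.s3 (.s3 (.s2 .lf .lf) (.s2 .lf .lf)) (.s2 .lf .lf)) (.s2 .lf .lf)) (.s2 .lf .lf)) (.s2 .lf .lf)) (.s2 .lf .lf)) (.s2 .lf .lf)) (.s2 .lf .lf)) (.s2 .lf .lf)) (.s2 .lf .lf)) (.s2 .lf .lf)) (.s2 .lf .lf)) (.s2 .lf .lf)) (.s2 .lf .lf)) (.s2 .lf .lf)) (.s2 .lf .lf)) (.s2 .lf .lf)) (.s2 .lf .lf)) (.s2 .lf .lf)) (.s2 .lf .lf)) (.s2 .lf .lf)) (.s2 .lf .lf)) (.s2 .lf .lf)) (.s2 .lf .lf)) (.s2 .lf .lf)) (.s2 .lf .lf)) (.s2 .lf .lf)) (.s2 .lf .lf)) (.s2 .lf .lf)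

theorem cR156 : run runR tR156 432345564227567616 144115188075855872 17592186044416 17592186044416 = true := by decide +kernel

end Vale.Agent.Lib.P154.Neg.Ck
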