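import Vale.Agent.Lib.P154.Neg.CkRuns

/-! Kernel evaluation, run R, part 16. -/

namespace Vale.Agent.Lib.P154.Neg.Ck

set_option maxRecDepth 100000

def tR173 : Tr := .s2 (.s2 .lf .lf) .lf

theorem cR173 : run runR tR173 864691128455135232 288230376151711744 51539607552 17179869184 = true := by decide +kernel

def tR174 : Tr := .s2 (.s2 .lf .lf) .lf

theorem cR174 : run runR tR174 864691128455135232 288230376151711744 103079215104 34359738368 = true := by decide +kernel

def tR175 : Tr := .s2 (.s2 .lf .lf) .lf

theorem cR175 : run runR tR175 864691128455135232 288230376151711744 206158430208 68719476736 = true := by decide +kernel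

def tR176 : Tr := .s2 (.s2 .lf .lf) .lf

theorem cR176 : run runR tR176 864691128455135232 288230376151711744 412316860416 137438953472 = true := by decide +kernel

def tR177 : Tr := .s2 (.s2 .lf .lf) .lf

theorem cR177 : run runR tR177 864691128455135232 288230376151711744 824633720832 274877906944 = true := by decide +kernel

def tR178 : Tr := .s2 (.s2 .lf .lf) .lf

theorem cR178 : run runR tR178 864691128455135232 288230376151711744 1649267441664 549755813888 = true := by decide +kernel

def tR179 : Tr := .s2 (.s2 .lf .lf) .lf

theorem cR179 : run runR tR179 864691128455135232 288230376151711744 3298534883328 1099511627776 = true := by decide +kernel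

def tR180 : Tr := .s2 .lf .lf

theorem cR180 : run runR tR180 864691128455135232 288230376151711744 6597069766656 2199023255552 = true := by decide +kernel

def tR181 : Tr := .s2 .lf .lf

theorem cR181 : run runR tR181 864691128455135232 288230376151711744 13194139533312 4398046511104 = true := by decide +kernel

def tR182 : Tr := .s2 .lf .lf

theorem cR182 : run runR tR182 864691128455135232 288230376151711744 26388279066624 8796093022208 = true := by decide +kernel

def tR183 : Tr := .s2 .lf .lf

theorem cR183 : run runR tR183 864691128455135232 288230376151711744 52776558133248 17592186044416 = true := by decide +kernel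

def tR184 : Tr := .s2 .lf .lf

theorem cR184 : run runR tR184 864691128455135232 288230376151711744 105553116266496 35184372088832 = true := by decide +kernel

def tR185 : Tr := .s2 (.s2 .lf .lf) .lf

theorem cR185 : run runR tR185 864691128455135232 288230376151711744 211106232532992 70368744177664 = true := by decide +kernel

def tR186 : Tr := .s2 (.s2 .lf .lf) .lf

theorem cR186 : run runR tR186 864691128455135232 288230376151711744 422212465065984 140737488355328 = true := by decide +kernel

def tR187 : Tr := .s2 (.s2 .lf .lf) .lf

theorem cR187 : run runR tR187 864691128455135232 288230376151711744 844424930131968 281474976710656 = true := by decide +kernel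

def tR188 : Tr := .s2 (.s2 .lf .lf) (.s2 .lf .lf)

theorem cR188 : run runR tR188 864691128455135232 288230376151711744 1688849860263936 562949953421312 = true := by decide +kernel

def tR189 : Tr := .s2 (.s2 (.s2 .lf .lf) .lf) (.s2 (.s2 .lf .lf) (.s2 .lf (.s3 .lf .lf)))

theorem cR189 : run runR tR189 864691128455135232 288230376151711744 3377699720527872 1125899906842624 = true := by decide +kernel

def tR190 : Tr := .s2 (.s2 (.s2 (.s3 .lf .lf) (.s3 .lf .lf)) (.s2 (.s3 .lf .lf) (.s3 .lf .lf))) (.s2 (.s3 .lf .lf) (.s3 .lf .lf))

theorem cR190 : run runR tR190 864691128455135232 288230376151711744 6755399441055744 2251799813685248 = true := by decide +kernel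

def tR191 : Tr := .s2 (.s2 (.s2 (.s3 .lf .lf) (.s3 .lf .lf)) (.s3 .lf .lf)) (.s2 (.s3 .lf .lf) (.s3 .lf .lf))

theorem cR191 : run runR tR191 864691128455135232 288230376151711744 13510798882111488 4503599627370496 = true := by decide +kernel

def tR192 : Tr := .s2 (.s2 (.s3 .lf .lf) (.s3 .lf .lf)) (.s2 (.s3 .lf .lf) (.s3 .lf .lf))

theorem cR192 : run runR tR192 864691128455135232 288230376151711744 27021597764222976 9007199254740992 = true := by decide +kernel

end Vale.Agent.Lib.P154.Neg.Ck
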