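import Vale.Agent.Lib.P154.Neg.CkRuns

/-! Kernel evaluation, run R, part 17. -/

namespace Vale.Agent.Lib.P154.Neg.Ck

set_option maxRecDepth 100000

def tR193 : Tr := .s2 (.s2 (.s3 .lf .lf) (.s3 .lf .lf)) (.s3 (.s2 .lf .lf) .lf)

theorem cR193 : run runR tR193 864691128455135232 288230376151711744 54043195528445952 18014398509481984 = true := by decide +kernel

def tR194 : Tr := .s2 (.s2 (.s3 .lf .lf) (.s3 .lf .lf)) (.s3 (.s2 .lf .lf) (.s2 .lf .lf))

theorem cR194 : run runR tR194 864691128455135232 288230376151711744 108086391056891904 36028797018963968 = true := by decide +kernel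

def tR195 : Tr := .s2 (.s3 (.s2 (.s3 .lf .lf) (.s3 .lf .lf)) (.s2 .lf .lf)) (.s3 (.s2 (.s3 .lf .lf) (.s3 .lf .lf)) (.s2 .lf .lf))

theorem cR195 : run runR tR195 864691128455135232 288230376151711744 216172782113783808 72057594037927936 = true := by decide +kernel

def tR196 : Tr := .s2 (.s3 (.s2 (.s3 .lf .lf) (.s3 .lf .lf)) (.s2 (.s3 .lf .lf) (.s3 .lf .lf))) (.s3 (.s3 (.s2 .lf .lf) (.s2 .lf .lf)) (.s2 (.s3 .lf .lf) (.s3 .lf .lf)))

theorem cR196 : run runR tR196 864691128455135232 288230376151711744 432345564227567616 144115188075855872 = true := by decide +kernel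

def tR197 : Tr := .s3 (.s2 (.s3 (.s2 (.s3 .lf .lf) (.s3 .lf .lf)) (.s2 .sk .lf)) (.s3 (.s2 (.s3 .lf .lf) .lf) (.s2 .lf .lf))) (.s2 .sk (.s3 (.s2 .lf .lf) (.s2 .sk .lf)))

theorem cR197 : run runR tR197 864691128455135232 288230376151711744 864691128455135232 288230376151711744 = true := by decide +kernel

def tR198 : Tr := Tr.sk

theorem cR198 : run runR tR198 576460752303423488 576460752303423488 1729382256910270464 576460752303423488 = true := by decide +kernel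

def tR199 : Tr := .s3 (.s3 (.s3 (.s3 (.s3 (.s3 (.s3 (.s3 (.s3 (.s3 (.s3 (.s3 (.s3 (.s3 (.s2 (.s2 .lf .lf) (.s2 .lf .lf)) (.s2 (.s2 .lf .lf) (.s2 .lf .lf))) (.s2 (.s2 .lf .lf) (.s2 .lf .lf))) (.s2 (.s2 .lf .lf) (.s2 .lf .lf))) (.s2 (.s2 .lf .lf) (.s2 .lf .lf))) (.s2 (.s2 .lf .lf) (.s2 .lf .lf))) (.s2 (.s2 .lf .lf) (.s2 .lf .lf))) (.s2 (.s2 .lf .lf) (.s2 .lf .lf))) (.s2 (.s2 .lf .lf) (.s2 .lf .lf))) (.s2 (.s2 .lf .lf) (.s2 .lf .lf))) (.s2 (.s2 .lf .lf) (.s2 .lf .lf))) (.s2 (.s2 .lf .lf) (.s2 .lf .lf))) (.s2 (.s2 .lf .lf) (.s2 .lf .lf))) (.s2 (.s2 .lf .lf) (.s2 .lf .lf))) (.s2 (.s2 .lf .lf) (.s2 .lf .lf))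

theorem cR199 : run runR tR199 1729382256910270464 576460752303423488 536870912 536870912 = true := by decide +kernel

end Vale.Agent.Lib.P154.Neg.Ck
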