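import Vale.Agent.Lib.P154.Neg.CkRuns

/-! Kernel evaluation, run R, part 18. -/

namespace Vale.Agent.Lib.P154.Neg.Ck

set_option maxRecDepth 100000

def tR200 : Tr := .s2 (.s2 .lf .lf) (.s2 .lf .lf)

theorem cR200 : run runR tR200 1729382256910270464 576460752303423488 1610612736 536870912 = true := by decide +kernel

def tR201 : Tr := .s2 (.s2 .lf .lf) (.s2 .lf .lf)

theorem cR201 : run runR tR201 1729382256910270464 576460752303423488 3221225472 1073741824 = true := by decide +kernel

def tR202 : Tr := .s2 (.s2 .lf .lf) (.s2 .lf .lf)

theorem cR202 : run runR tR202 1729382256910270464 576460752303423488 6442450944 2147483648 = true := by decide +kernel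

def tR203 : Tr := .s2 (.s2 .lf .lf) (.s2 .lf .lf)

theorem cR203 : run runR tR203 1729382256910270464 576460752303423488 12884901888 4294967296 = true := by decide +kernel

def tR204 : Tr := .s2 (.s2 .lf .lf) (.s2 .lf .lf)

theorem cR204 : run runR tR204 1729382256910270464 576460752303423488 25769803776 8589934592 = true := by decide +kernel

def tR205 : Tr := .s2 (.s2 .lf .lf) (.s2 .lf .lf)

theorem cR205 : run runR tR205 1729382256910270464 576460752303423488 51539607552 17179869184 = true := by decide +kernel

def tR206 : Tr := .s2 (.s2 .lf .lf) (.s2 .lf .lf)

theorem cR206 : run runR tR206 1729382256910270464 576460752303423488 103079215104 34359738368 = true := by decide +kernel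

def tR207 : Tr := .s2 (.s2 .lf .lf) (.s2 .lf .lf)

theorem cR207 : run runR tR207 1729382256910270464 576460752303423488 206158430208 68719476736 = true := by decide +kernel

def tR208 : Tr := .s2 (.s2 .lf .lf) (.s2 .lf .lf)

theorem cR208 : run runR tR208 1729382256910270464 576460752303423488 412316860416 137438953472 = true := by decide +kernel

def tR209 : Tr := .s2 (.s2 .lf .lf) .lf

theorem cR209 : run runR tR209 1729382256910270464 576460752303423488 824633720832 274877906944 = true := by decide +kernel

def tR210 : Tr := .s2 (.s2 .lf .lf) .lf

theorem cR210 : run runR tR210 1729382256910270464 576460752303423488 1649267441664 549755813888 = true := by decide +kernel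

def tR211 : Tr := .s2 (.s2 .lf .lf) .lf

theorem cR211 : run runR tR211 1729382256910270464 576460752303423488 3298534883328 1099511627776 = true := by decide +kernel

def tR212 : Tr := .s2 (.s2 .lf .lf) .lf

theorem cR212 : run runR tR212 1729382256910270464 576460752303423488 6597069766656 2199023255552 = true := by decide +kernel

def tR213 : Tr := .s2 (.s2 .lf .lf) .lf

theorem cR213 : run runR tR213 1729382256910270464 576460752303423488 13194139533312 4398046511104 = true := by decide +kernel

def tR214 : Tr := .s2 (.s2 .lf .lf) .lf

theorem cR214 : run runR tR214 1729382256910270464 576460752303423488 26388279066624 8796093022208 = true := by decide +kernel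

def tR215 : Tr := .s2 (.s2 .lf .lf) .lf

theorem cR215 : run runR tR215 1729382256910270464 576460752303423488 52776558133248 17592186044416 = true := by decide +kernel

def tR216 : Tr := .s2 (.s2 .lf .lf) .lf

theorem cR216 : run runR tR216 1729382256910270464 576460752303423488 105553116266496 35184372088832 = true := by decide +kernel

def tR217 : Tr := .s2 (.s2 .lf .lf) .lf

theorem cR217 : run runR tR217 1729382256910270464 576460752303423488 211106232532992 70368744177664 = true := by decide +kernel

def tR218 : Tr := .s2 (.s2 .lf .lf) .lf

theorem cR218 : run runR tR218 1729382256910270464 576460752303423488 422212465065984 140737488355328 = true := by decide +kernel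

def tR219 : Tr := .s2 (.s2 .lf .lf) (.s2 .lf .lf)

theorem cR219 : run runR tR219 1729382256910270464 576460752303423488 844424930131968 281474976710656 = true := by decide +kernel

def tR220 : Tr := .s2 (.s2 (.s2 .lf .lf) (.s2 .lf .lf)) (.s2 (.s2 .lf .lf) (.s2 .lf .lf))

theorem cR220 : run runR tR220 1729382256910270464 576460752303423488 1688849860263936 562949953421312 = true := by decide +kernel

end Vale.Agent.Lib.P154.Neg.Ck
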