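import Vale.Agent.Lib.P154.Neg.CkRuns

/-! Kernel evaluation, run R, part 19. -/

namespace Vale.Agent.Lib.P154.Neg.Ck

set_option maxRecDepth 100000

def tR221 : Tr := .s2 (.s2 (.s2 (.s3 .lf .lf) (.s3 .lf .lf)) (.s2 (.s3 .lf .lf) (.s3 .lf .lf))) (.s2 (.s2 (.s3 .lf .lf) (.s3 .lf .lf)) (.s2 (.s3 .lf .lf) (.s3 .lf .lf)))

theorem cR221 : run runR tR221 1729382256910270464 576460752303423488 3377699720527872 1125899906842624 = true := by decide +kernel

def tR222 : Tr := .s2 (.s2 (.s2 (.s3 .lf .lf) (.s3 .lf .lf)) (.s2 (.s3 .lf .lf) (.s3 .lf .lf))) (.s2 (.s2 (.s3 .lf .lf) (.s3 .lf .lf)) (.s2 (.s3 .lf .lf) (.s3 .lf .lf)))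

theorem cR222 : run runR tR222 1729382256910270464 576460752303423488 6755399441055744 2251799813685248 = true := by decide +kernel

def tR223 : Tr := .s2 (.s2 (.s2 (.s3 .lf .lf) (.s3 .lf .lf)) (.s2 (.s3 .lf .lf) (.s3 .lf .lf))) (.s2 (.s3 .lf .lf) (.s3 .lf .lf))

theorem cR223 : run runR tR223 1729382256910270464 576460752303423488 13510798882111488 4503599627370496 = true := by decide +kernel

def tR224 : Tr := .s2 (.s2 (.s2 (.s3 .lf .lf) (.s3 .lf .lf)) (.s3 .lf .lf)) (.s2 (.s3 .lf .lf) (.s3 .lf .lf))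

theorem cR224 : run runR tR224 1729382256910270464 576460752303423488 27021597764222976 9007199254740992 = true := by decide +kernel

def tR225 : Tr := .s2 (.s2 (.s3 .lf .lf) (.s3 .lf .lf)) (.s2 (.s3 .lf .lf) (.s3 .lf .lf))

theorem cR225 : run runR tR225 1729382256910270464 576460752303423488 54043195528445952 18014398509481984 = true := by decide +kernel

def tR226 : Tr := .s2 (.s2 (.s3 (.s2 .lf .lf) .lf) (.s3 (.s2 .lf .lf) .lf)) (.s3 (.s2 .lf .lf) (.s2 .lf .lf))

theorem cR226 : run runR tR226 1729382256910270464 576460752303423488 108086391056891904 36028797018963968 = true := by decide +kernel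

def tR227 : Tr := .s2 (.s2 (.s3 (.s3 .lf .lf) .lf) (.s3 (.s3 .lf .lf) .lf)) (.s3 (.s2 (.s3 .lf .lf) (.s3 .lf .lf)) (.s2 .lf .lf))

theorem cR227 : run runR tR227 1729382256910270464 576460752303423488 216172782113783808 72057594037927936 = true := by decide +kernel

end Vale.Agent.Lib.P154.Neg.Ck
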