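import Vale.Agent.Lib.P154.Neg.CkRuns

/-! Kernel evaluation, run R, part 2. -/

namespace Vale.Agent.Lib.P154.Neg.Ck

set_option maxRecDepth 100000

def tR26 : Tr := Tr.sk

theorem cR26 : run runR tR26 68719476736 68719476736 206158430208 68719476736 = true := by decide +kernel

def tR27 : Tr := .s3 (.s3 (.s3 (.s3 (.s3 (.s3 (.s3 .lf .lf) .lf) .lf) .lf) .lf) .lf) .lf

theorem cR27 : run runR tR27 206158430208 68719476736 137438953472 137438953472 = true := by decide +kernel

def tR28 : Tr := Tr.sk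

theorem cR28 : run runR tR28 137438953472 137438953472 412316860416 137438953472 = true := by decide +kernel

def tR29 : Tr := .s3 (.s3 (.s3 (.s3 (.s3 (.s3 (.s3 .lf .lf) .lf) .lf) .lf) .lf) .lf) .lf

theorem cR29 : run runR tR29 412316860416 137438953472 274877906944 274877906944 = true := by decide +kernel

def tR30 : Tr := Tr.sk

theorem cR30 : run runR tR30 274877906944 274877906944 824633720832 274877906944 = true := by decide +kernel

def tR31 : Tr := .s3 (.s3 (.s3 (.s3 (.s3 (.s3 (.s3 .lf .lf) .lf) .lf) .lf) .lf) .lf) .lf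

theorem cR31 : run runR tR31 824633720832 274877906944 549755813888 549755813888 = true := by decide +kernel

def tR32 : Tr := Tr.sk

theorem cR32 : run runR tR32 549755813888 549755813888 1649267441664 549755813888 = true := by decide +kernel

def tR33 : Tr := .s3 (.s3 (.s3 (.s3 (.s3 (.s3 (.s3 (.s3 (.s3 (.s3 (.s3 (.s3 (.s3 (.s3 (.s3 (.s3 (.s3 (.s3 (.s3 (.s3 (.s3 (.s3 (.s3 (.s3 (.s3 .lf .lf) .lf) .lf) .lf) .lf) .lf) .lf) .lf) .lf) .lf) .lf) .lf) .lf) .lf) .lf) .lf) .lf) .lf) .lf) .lf) .lf) .lf) .lf) .lf) .lf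

theorem cR33 : run runR tR33 1649267441664 549755813888 1099511627776 1099511627776 = true := by decide +kernel

def tR34 : Tr := Tr.sk

theorem cR34 : run runR tR34 1099511627776 1099511627776 3298534883328 1099511627776 = true := by decide +kernel

def tR35 : Tr := .s3 (.s3 (.s3 (.s3 (.s3 (.s3 (.s3 (.s3 (.s3 (.s3 (.s3 (.s3 (.s3 (.s3 (.s3 (.s3 (.s3 (.s3 (.s3 (.s3 (.s3 (.s3 (.s3 (.s3 (.s3 (.s3 .lf .lf) .lf) .lf) .lf) .lf) .lf) .lf) .lf) .lf) .lf) .lf) .lf) .lf) .lf) .lf) .lf) .lf) .lf) .lf) .lf) .lf) .lf) .lf) .lf) .lf) .lf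

theorem cR35 : run runR tR35 3298534883328 1099511627776 2199023255552 2199023255552 = true := by decide +kernel

end Vale.Agent.Lib.P154.Neg.Ck
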