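import Vale.Agent.Lib.P154.Neg.CkRuns

/-! Kernel evaluation, run R, part 20. -/

namespace Vale.Agent.Lib.P154.Neg.Ck

set_option maxRecDepth 100000

def tR228 : Tr := .s2 (.s3 (.s2 (.s3 .lf .lf) (.s3 .lf .lf)) (.s2 (.s2 (.s3 .lf .lf) .lf) (.s3 .lf .lf))) (.s3 (.s2 (.s3 .lf .lf) (.s3 .lf .lf)) (.s2 .lf .lf))

theorem cR228 : run runR tR228 1729382256910270464 576460752303423488 432345564227567616 144115188075855872 = true := by decide +kernel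

def tR229 : Tr := .s2 (.s3 (.s2 (.s3 (.s2 .lf .lf) (.s2 .lf .lf)) (.s3 .lf .lf)) (.s2 (.s3 (.s2 .lf .lf) (.s2 .lf .lf)) (.s3 .lf .lf))) (.s3 (.s3 (.s2 .lf .lf) (.s2 .lf .lf)) (.s2 (.s3 .lf .lf) (.s3 .lf .lf)))

theorem cR229 : run runR tR229 1729382256910270464 576460752303423488 864691128455135232 288230376151711744 = true := by decide +kernel

def tR230 : Tr := .s3 (.s2 (.s3 (.s2 (.s3 (.s2 .lf .lf) (.s2 .sk .lf)) (.s3 .lf .lf)) (.s2 .sk (.s3 .lf .lf))) (.s3 (.s2 (.s3 .lf .lf) (.s3 .lf .lf)) (.s2 (.s3 .lf .lf) .lf))) (.s2 .sk (.s3 (.s2 .lf .lf) (.s2 .sk .lf)))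

theorem cR230 : run runR tR230 1729382256910270464 576460752303423488 1729382256910270464 576460752303423488 = true := by decide +kernel

def tR231 : Tr := Tr.sk

theorem cR231 : run runR tR231 1152921504606846976 1152921504606846976 3458764513820540928 1152921504606846976 = true := by decide +kernel

def tR232 : Tr := .s3 (.s3 (.s3 (.s3 (.s3 (.s3 (.s3 (.s3 (.s3 (.s3 (.s3 (.s3 (.s3 (.s2 (.s2 (.s2 .lf .lf) (.s2 .lf .lf)) (.s2 .lf .lf)) (.s2 (.s2 .lf .lf) (.s2 .lf .lf))) (.s2 (.s2 .lf .lf) (.s2 .lf .lf))) (.s2 (.s2 .lf .lf) (.s2 .lf .lf))) (.s2 (.s2 .lf .lf) (.s2 .lf .lf))) (.s2 (.s2 .lf .lf) (.s2 .lf .lf))) (.s2 (.s2 .lf .lf) (.s2 .lf .lf))) (.s2 (.s2 .lf .lf) (.s2 .lf .lf))) (.s2 (.s2 .lf .lf) (.s2 .lf .lf))) (.s2 (.s2 .lf .lf) (.s2 .lf .lf))) (.s2 (.s2 .lf .lf) (.s2 .lf .lf))) (.s2 (.s2 .lf .lf) (.s2 .lf .lf))) (.s2 (.s2 .lf .lf) (.s2 .lf .lf))) (.s2 (.s2 .lf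 .lf) (.s2 .lf .lf))

theorem cR232 : run runR tR232 3458764513820540928 1152921504606846976 268435456 268435456 = true := by decide +kernel

end Vale.Agent.Lib.P154.Neg.Ck
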