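import Vale.Agent.Lib.P154.Neg.CkRuns

/-! Kernel evaluation, run R, part 21. -/

namespace Vale.Agent.Lib.P154.Neg.Ck

set_option maxRecDepth 100000

def tR233 : Tr := .s2 (.s2 .lf .lf) (.s2 .lf .lf)

theorem cR233 : run runR tR233 3458764513820540928 1152921504606846976 805306368 268435456 = true := by decide +kernel

def tR234 : Tr := .s2 (.s2 .lf .lf) (.s2 .lf .lf)

theorem cR234 : run runR tR234 3458764513820540928 1152921504606846976 1610612736 536870912 = true := by decide +kernel

def tR235 : Tr := .s2 (.s2 .lf .lf) (.s2 .lf .lf)

theorem cR235 : run runR tR235 3458764513820540928 1152921504606846976 3221225472 1073741824 = true := by decide +kernel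

def tR236 : Tr := .s2 (.s2 .lf .lf) (.s2 .lf .lf)

theorem cR236 : run runR tR236 3458764513820540928 1152921504606846976 6442450944 2147483648 = true := by decide +kernel

def tR237 : Tr := .s2 (.s2 .lf .lf) (.s2 .lf .lf)

theorem cR237 : run runR tR237 3458764513820540928 1152921504606846976 12884901888 4294967296 = true := by decide +kernel

def tR238 : Tr := .s2 (.s2 .lf .lf) (.s2 .lf .lf)

theorem cR238 : run runR tR238 3458764513820540928 1152921504606846976 25769803776 8589934592 = true := by decide +kernel

def tR239 : Tr := .s2 (.s2 .lf .lf) (.s2 .lf .lf)

theorem cR239 : run runR tR239 3458764513820540928 1152921504606846976 51539607552 17179869184 = true := by decide +kernel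

def tR240 : Tr := .s2 (.s2 .lf .lf) (.s2 .lf .lf)

theorem cR240 : run runR tR240 3458764513820540928 1152921504606846976 103079215104 34359738368 = true := by decide +kernel

def tR241 : Tr := .s2 (.s2 .lf .lf) (.s2 .lf .lf)

theorem cR241 : run runR tR241 3458764513820540928 1152921504606846976 206158430208 68719476736 = true := by decide +kernel

def tR242 : Tr := .s2 (.s2 .lf .lf) (.s2 .lf .lf)

theorem cR242 : run runR tR242 3458764513820540928 1152921504606846976 412316860416 137438953472 = true := by decide +kernel

def tR243 : Tr := .s2 (.s2 .lf .lf) (.s2 .lf .lf)

theorem cR243 : run runR tR243 3458764513820540928 1152921504606846976 824633720832 274877906944 = true := by decide +kernel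

def tR244 : Tr := .s2 (.s2 .lf .lf) (.s2 .lf .lf)

theorem cR244 : run runR tR244 3458764513820540928 1152921504606846976 1649267441664 549755813888 = true := by decide +kernel

def tR245 : Tr := .s2 (.s2 .lf .lf) (.s2 .lf .lf)

theorem cR245 : run runR tR245 3458764513820540928 1152921504606846976 3298534883328 1099511627776 = true := by decide +kernel

def tR246 : Tr := .s2 (.s2 .lf .lf) .lf

theorem cR246 : run runR tR246 3458764513820540928 1152921504606846976 6597069766656 2199023255552 = true := by decide +kernel

def tR247 : Tr := .s2 (.s2 .lf .lf) .lf

theorem cR247 : run runR tR247 3458764513820540928 1152921504606846976 13194139533312 4398046511104 = true := by decide +kernel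

def tR248 : Tr := .s2 (.s2 .lf .lf) .lf

theorem cR248 : run runR tR248 3458764513820540928 1152921504606846976 26388279066624 8796093022208 = true := by decide +kernel

def tR249 : Tr := .s2 (.s2 .lf .lf) .lf

theorem cR249 : run runR tR249 3458764513820540928 1152921504606846976 52776558133248 17592186044416 = true := by decide +kernel

def tR250 : Tr := .s2 (.s2 .lf .lf) .lf

theorem cR250 : run runR tR250 3458764513820540928 1152921504606846976 105553116266496 35184372088832 = true := by decide +kernel

def tR251 : Tr := .s2 (.s2 .lf .lf) .lf

theorem cR251 : run runR tR251 3458764513820540928 1152921504606846976 211106232532992 70368744177664 = true := by decide +kernel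

def tR252 : Tr := .s2 (.s2 .lf .lf) (.s2 .lf .lf)

theorem cR252 : run runR tR252 3458764513820540928 1152921504606846976 422212465065984 140737488355328 = true := by decide +kernel

def tR253 : Tr := .s2 (.s2 .lf .lf) (.s2 .lf .lf)

theorem cR253 : run runR tR253 3458764513820540928 1152921504606846976 844424930131968 281474976710656 = true := by decide +kernel

end Vale.Agent.Lib.P154.Neg.Ck
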