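import Vale.Agent.Lib.P154.Neg.CkRuns

/-! Kernel evaluation, run R, part 22. -/

namespace Vale.Agent.Lib.P154.Neg.Ck

set_option maxRecDepth 100000

def tR254 : Tr := .s2 (.s2 (.s2 (.s2 .lf .lf) (.s2 .lf .lf)) (.s2 (.s2 (.s3 .lf .lf) (.s3 .lf .lf)) (.s2 (.s3 .lf .lf) (.s3 .lf .lf)))) (.s2 (.s2 (.s2 (.s3 .lf .lf) (.s3 .lf .lf)) (.s2 (.s3 .lf .lf) (.s3 .lf .lf))) (.s2 (.s2 (.s3 .lf .lf) (.s3 .lf .lf)) (.s3 .lf .lf)))

theorem cR254 : run runR tR254 3458764513820540928 1152921504606846976 1688849860263936 562949953421312 = true := by decide +kernel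

def tR255 : Tr := .s2 (.s2 (.s2 (.s2 (.s3 .lf .lf) (.s3 .lf .lf)) (.s2 (.s3 .lf .lf) (.s3 .lf .lf))) (.s2 (.s2 (.s3 .lf .lf) (.s3 .lf .lf)) (.s3 .lf .lf))) (.s2 (.s2 (.s3 .lf .lf) (.s3 .lf .lf)) (.s2 (.s3 .lf .lf) (.s3 .lf .lf)))

theorem cR255 : run runR tR255 3458764513820540928 1152921504606846976 3377699720527872 1125899906842624 = true := by decide +kernel

def tR256 : Tr := .s2 (.s2 (.s2 (.s3 .lf .lf) (.s3 .lf .lf)) (.s2 (.s3 .lf .lf) (.s3 .lf .lf))) (.s2 (.s2 (.s3 .lf .lf) (.s3 .lf .lf)) (.s2 (.s3 .lf .lf) (.s3 .lf .lf)))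

theorem cR256 : run runR tR256 3458764513820540928 1152921504606846976 6755399441055744 2251799813685248 = true := by decide +kernel

def tR257 : Tr := .s2 (.s2 (.s2 (.s3 .lf .lf) (.s3 .lf .lf)) (.s2 (.s3 .lf .lf) (.s3 .lf .lf))) (.s2 (.s2 (.s3 .lf .lf) (.s3 .lf .lf)) (.s2 (.s3 .lf .lf) (.s3 .lf .lf)))

theorem cR257 : run runR tR257 3458764513820540928 1152921504606846976 13510798882111488 4503599627370496 = true := by decide +kernel

end Vale.Agent.Lib.P154.Neg.Ck
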