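import Vale.Agent.Lib.P154.Neg.CkRuns

/-! Kernel evaluation, run R, part 23. -/

namespace Vale.Agent.Lib.P154.Neg.Ck

set_option maxRecDepth 100000

def tR258 : Tr := .s2 (.s2 (.s2 (.s3 .lf .lf) (.s3 .lf .lf)) (.s2 (.s3 .lf .lf) (.s3 .lf .lf))) (.s2 (.s3 (.s2 .lf .lf) .lf) (.s3 (.s2 .lf (.s3 .lf .lf)) .lf))

theorem cR258 : run runR tR258 3458764513820540928 1152921504606846976 27021597764222976 9007199254740992 = true := by decide +kernel

def tR259 : Tr := .s2 (.s2 (.s2 (.s3 .lf .lf) (.s3 .lf .lf)) (.s3 (.s2 .lf .lf) .lf)) (.s2 (.s3 (.s2 (.s3 .lf .lf) (.s3 .lf .lf)) .lf) (.s3 (.s2 (.s3 .lf .lf) (.s3 .lf .lf)) .lf))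

theorem cR259 : run runR tR259 3458764513820540928 1152921504606846976 54043195528445952 18014398509481984 = true := by decide +kernel

def tR260 : Tr := .s2 (.s2 (.s3 (.s2 .lf .lf) .lf) (.s3 (.s2 .lf (.s3 .lf .lf)) .lf)) (.s2 (.s3 (.s2 (.s3 .lf .lf) (.s3 .lf .lf)) .lf) (.s3 (.s2 (.s3 .lf .lf) (.s3 .lf .lf)) .lf))

theorem cR260 : run runR tR260 3458764513820540928 1152921504606846976 108086391056891904 36028797018963968 = true := by decide +kernel

def tR261 : Tr := .s2 (.s2 (.s3 (.s2 .lf .lf) .lf) (.s3 (.s2 .lf .lf) .lf)) (.s3 (.s2 (.s3 .lf .lf) (.s3 .lf .lf)) (.s2 .lf .lf))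

theorem cR261 : run runR tR261 3458764513820540928 1152921504606846976 216172782113783808 72057594037927936 = true := by decide +kernel

def tR262 : Tr := .s2 (.s2 (.s3 (.s3 .lf .lf) (.s2 .lf .lf)) (.s3 (.s3 .lf .lf) .lf)) (.s3 (.s2 (.s3 .lf .lf) (.s3 .lf .lf)) (.s2 .lf .lf))

theorem cR262 : run runR tR262 3458764513820540928 1152921504606846976 432345564227567616 144115188075855872 = true := by decide +kernel

def tR263 : Tr := .s2 (.s3 (.s2 (.s3 .lf .lf) (.s3 .lf .lf)) (.s2 (.s2 (.s3 .lf .lf) .lf) (.s3 .lf .lf))) (.s3 (.s2 (.s3 .lf .lf) (.s3 .lf .lf)) (.s2 .lf .lf))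

theorem cR263 : run runR tR263 3458764513820540928 1152921504606846976 864691128455135232 288230376151711744 = true := by decide +kernel

end Vale.Agent.Lib.P154.Neg.Ck
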