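import Vale.Agent.Lib.P154.Neg.CkRuns

/-! Kernel evaluation, run R, part 24. -/

namespace Vale.Agent.Lib.P154.Neg.Ck

set_option maxRecDepth 100000

def tR264 : Tr := .s2 (.s3 (.s2 (.s3 (.s2 .lf .lf) (.s2 .lf .lf)) (.s3 (.s2 .lf .lf) (.s2 .lf .lf))) (.s2 (.s3 (.s2 .lf .lf) (.s2 .lf .lf)) (.s3 (.s2 .lf .lf) (.s2 .lf .lf)))) (.s3 (.s3 (.s2 .lf .lf) (.s2 .lf .lf)) (.s2 (.s3 .lf .lf) (.s3 .lf .lf)))

theorem cR264 : run runR tR264 3458764513820540928 1152921504606846976 1729382256910270464 576460752303423488 = true := by decide +kernel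

def tR265 : Tr := .s3 (.s2 (.s3 (.s2 (.s3 (.s2 .lf .lf) (.s2 .sk .lf)) (.s3 .lf .lf)) (.s2 .sk (.s3 .lf .lf))) (.s3 (.s2 (.s3 .lf .lf) .lf) (.s2 .lf .lf))) (.s2 .sk (.s3 (.s2 .lf .lf) (.s2 .sk .lf)))

theorem cR265 : run runR tR265 3458764513820540928 1152921504606846976 3458764513820540928 1152921504606846976 = true := by decide +kernel

def tR266 : Tr := Tr.sk

theorem cR266 : run runR tR266 2305843009213693952 2305843009213693952 6917529027641081856 2305843009213693952 = true := by decide +kernel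

def tR267 : Tr := .s3 (.s3 (.s3 (.s3 (.s3 (.s3 (.s3 (.s3 (.s3 (.s3 (.s3 (.s2 (.s2 (.s2 .lf .lf) .lf) (.s2 .lf .lf)) (.s2 (.s2 (.s2 .lf .lf) .lf) (.s2 .lf .lf))) (.s2 (.s2 (.s2 .lf .lf) .lf) (.s2 .lf .lf))) (.s2 (.s2 (.s2 .lf .lf) .lf) (.s2 .lf .lf))) (.s2 (.s2 (.s2 .lf .lf) .lf) (.s2 .lf .lf))) (.s2 (.s2 (.s2 .lf .lf) .lf) (.s2 .lf .lf))) (.s2 (.s2 (.s2 .lf .lf) .lf) (.s2 .lf .lf))) (.s2 (.s2 (.s2 .lf .lf) .lf) (.s2 .lf .lf))) (.s2 (.s2 (.s2 .lf .lf) .lf) (.s2 .lf .lf))) (.s2 (.s2 (.s2 .lf .lf) .lf) (.s2 .lf .lf))) (.s2 (.s2 (.s2 .lf .lf) .lf) (.s2 .lf .lf))) (.s2 (.s2 (.s2 .lf .lf) .lf) (.s2 .lf .lf))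

theorem cR267 : run runR tR267 6917529027641081856 2305843009213693952 67108864 67108864 = true := by decide +kernel

end Vale.Agent.Lib.P154.Neg.Ck
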