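import Vale.Agent.Lib.P154.Neg.CkRuns

/-! Kernel evaluation, run R, part 25. -/

namespace Vale.Agent.Lib.P154.Neg.Ck

set_option maxRecDepth 100000

def tR268 : Tr := .s2 (.s2 (.s2 .lf .lf) .lf) (.s2 .lf .lf)

theorem cR268 : run runR tR268 6917529027641081856 2305843009213693952 201326592 67108864 = true := by decide +kernel

def tR269 : Tr := .s2 (.s2 (.s2 .lf .lf) .lf) (.s2 .lf .lf)

theorem cR269 : run runR tR269 6917529027641081856 2305843009213693952 402653184 134217728 = true := by decide +kernel

def tR270 : Tr := .s2 (.s2 (.s2 .lf .lf) .lf) (.s2 .lf .lf)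

theorem cR270 : run runR tR270 6917529027641081856 2305843009213693952 805306368 268435456 = true := by decide +kernel

def tR271 : Tr := .s2 (.s2 (.s2 .lf .lf) (.s2 .lf .lf)) (.s2 .lf .lf)

theorem cR271 : run runR tR271 6917529027641081856 2305843009213693952 1610612736 536870912 = true := by decide +kernel

def tR272 : Tr := .s2 (.s2 (.s2 .lf .lf) (.s2 .lf .lf)) (.s2 .lf .lf)

theorem cR272 : run runR tR272 6917529027641081856 2305843009213693952 3221225472 1073741824 = true := by decide +kernel

def tR273 : Tr := .s2 (.s2 (.s2 .lf .lf) (.s2 .lf .lf)) (.s2 .lf .lf)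

theorem cR273 : run runR tR273 6917529027641081856 2305843009213693952 6442450944 2147483648 = true := by decide +kernel

def tR274 : Tr := .s2 (.s2 (.s2 .lf .lf) (.s2 .lf .lf)) (.s2 .lf .lf)

theorem cR274 : run runR tR274 6917529027641081856 2305843009213693952 12884901888 4294967296 = true := by decide +kernel

def tR275 : Tr := .s2 (.s2 (.s2 .lf .lf) (.s2 .lf .lf)) (.s2 .lf .lf)

theorem cR275 : run runR tR275 6917529027641081856 2305843009213693952 25769803776 8589934592 = true := by decide +kernel

def tR276 : Tr := .s2 (.s2 (.s2 .lf .lf) (.s2 .lf .lf)) (.s2 (.s2 .lf .lf) .lf)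

theorem cR276 : run runR tR276 6917529027641081856 2305843009213693952 51539607552 17179869184 = true := by decide +kernel

def tR277 : Tr := .s2 (.s2 (.s2 .lf .lf) (.s2 .lf .lf)) (.s2 (.s2 .lf .lf) .lf)

theorem cR277 : run runR tR277 6917529027641081856 2305843009213693952 103079215104 34359738368 = true := by decide +kernel

def tR278 : Tr := .s2 (.s2 (.s2 .lf .lf) (.s2 .lf .lf)) (.s2 .lf .lf)

theorem cR278 : run runR tR278 6917529027641081856 2305843009213693952 206158430208 68719476736 = true := by decide +kernel

def tR279 : Tr := .s2 (.s2 (.s2 .lf .lf) .lf) (.s2 .lf .lf)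

theorem cR279 : run runR tR279 6917529027641081856 2305843009213693952 412316860416 137438953472 = true := by decide +kernel

def tR280 : Tr := .s2 (.s2 (.s2 .lf .lf) .lf) (.s2 .lf .lf)

theorem cR280 : run runR tR280 6917529027641081856 2305843009213693952 824633720832 274877906944 = true := by decide +kernel

end Vale.Agent.Lib.P154.Neg.Ck
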