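import Vale.Agent.Lib.P154.Neg.CkRuns

/-! Kernel evaluation, run R, part 26. -/

namespace Vale.Agent.Lib.P154.Neg.Ck

set_option maxRecDepth 100000

def tR281 : Tr := .s2 (.s2 .lf .lf) (.s2 .lf .lf)

theorem cR281 : run runR tR281 6917529027641081856 2305843009213693952 1649267441664 549755813888 = true := by decide +kernel

def tR282 : Tr := .s2 (.s2 .lf .lf) (.s2 .lf .lf)

theorem cR282 : run runR tR282 6917529027641081856 2305843009213693952 3298534883328 1099511627776 = true := by decide +kernel

def tR283 : Tr := .s2 (.s2 .lf .lf) (.s2 .lf .lf)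

theorem cR283 : run runR tR283 6917529027641081856 2305843009213693952 6597069766656 2199023255552 = true := by decide +kernel

def tR284 : Tr := .s2 (.s2 .lf .lf) (.s2 .lf .lf)

theorem cR284 : run runR tR284 6917529027641081856 2305843009213693952 13194139533312 4398046511104 = true := by decide +kernel

def tR285 : Tr := .s2 (.s2 .lf .lf) .lf

theorem cR285 : run runR tR285 6917529027641081856 2305843009213693952 26388279066624 8796093022208 = true := by decide +kernel

def tR286 : Tr := .s2 (.s2 .lf .lf) .lf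

theorem cR286 : run runR tR286 6917529027641081856 2305843009213693952 52776558133248 17592186044416 = true := by decide +kernel

def tR287 : Tr := .s2 (.s2 .lf .lf) .lf

theorem cR287 : run runR tR287 6917529027641081856 2305843009213693952 105553116266496 35184372088832 = true := by decide +kernel

def tR288 : Tr := .s2 (.s2 .lf .lf) .lf

theorem cR288 : run runR tR288 6917529027641081856 2305843009213693952 211106232532992 70368744177664 = true := by decide +kernel

def tR289 : Tr := .s2 (.s2 .lf .lf) (.s2 .lf .lf)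

theorem cR289 : run runR tR289 6917529027641081856 2305843009213693952 422212465065984 140737488355328 = true := by decide +kernel

def tR290 : Tr := .s2 (.s2 (.s2 .lf .lf) .lf) (.s2 .lf .lf)

theorem cR290 : run runR tR290 6917529027641081856 2305843009213693952 844424930131968 281474976710656 = true := by decide +kernel

def tR291 : Tr := .s2 (.s2 (.s2 (.s2 (.s3 .lf .lf) (.s3 .lf .lf)) (.s2 (.s3 .lf .lf) (.s3 .lf .lf))) (.s2 (.s2 (.s3 .lf .lf) (.s3 .lf .lf)) (.s2 (.s3 .lf .lf) (.s3 .lf .lf)))) (.s2 (.s2 (.s2 (.s3 .lf .lf) (.s3 .lf .lf)) (.s2 (.s3 .lf .lf) (.s3 .lf .lf))) (.s2 (.s2 (.s3 .lf .lf) .lf) (.s2 .lf .lf)))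

theorem cR291 : run runR tR291 6917529027641081856 2305843009213693952 1688849860263936 562949953421312 = true := by decide +kernel

def tR292 : Tr := .s2 (.s2 (.s2 (.s2 (.s3 .lf .lf) (.s3 .lf .lf)) (.s2 (.s3 .lf .lf) (.s3 .lf .lf))) (.s2 (.s2 (.s3 .lf .lf) (.s3 .lf .lf)) (.s2 (.s3 .lf .lf) (.s3 .lf .lf)))) (.s2 (.s2 (.s2 (.s3 .lf .lf) (.s3 .lf .lf)) (.s2 (.s3 .lf .lf) (.s3 .lf .lf))) (.s2 (.s2 (.s3 .lf .lf) (.s3 .lf .lf)) (.s3 .lf .lf)))

theorem cR292 : run runR tR292 6917529027641081856 2305843009213693952 3377699720527872 1125899906842624 = true := by decide +kernel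

end Vale.Agent.Lib.P154.Neg.Ck
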