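import Vale.Agent.Lib.P154.Neg.CkRuns

/-! Kernel evaluation, run R, part 27. -/

namespace Vale.Agent.Lib.P154.Neg.Ck

set_option maxRecDepth 100000

def tR293 : Tr := .s2 (.s2 (.s2 (.s2 (.s3 .lf .lf) (.s3 .lf .lf)) (.s2 (.s3 .lf .lf) (.s3 .lf .lf))) (.s2 (.s2 (.s3 .lf .lf) (.s3 .lf .lf)) (.s3 .lf .lf))) (.s2 (.s2 (.s3 .lf .lf) (.s3 .lf .lf)) (.s2 (.s3 .lf .lf) (.s3 .lf .lf)))

theorem cR293 : run runR tR293 6917529027641081856 2305843009213693952 6755399441055744 2251799813685248 = true := by decide +kernel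

def tR294 : Tr := .s2 (.s2 (.s2 (.s3 .lf .lf) (.s3 .lf .lf)) (.s2 (.s3 .lf .lf) (.s3 .lf .lf))) (.s2 (.s2 (.s3 .lf .lf) (.s3 .lf .lf)) (.s2 (.s3 .lf .lf) (.s3 .lf .lf)))

theorem cR294 : run runR tR294 6917529027641081856 2305843009213693952 13510798882111488 4503599627370496 = true := by decide +kernel

def tR295 : Tr := .s2 (.s2 (.s2 (.s3 (.s2 (.s3 .lf .lf) (.s3 .lf .lf)) .lf) (.s3 (.s2 (.s3 .lf .lf) (.s3 .lf .lf)) .lf)) (.s2 (.s3 (.s2 (.s3 .lf .lf) (.s3 .lf .lf)) .lf) (.s3 (.s2 (.s3 .lf .lf) (.s3 .lf .lf)) .lf))) (.s2 (.s2 (.s3 (.s2 (.s3 .lf .lf) (.s3 .lf .lf)) .lf) (.s3 (.s2 (.s3 .lf .lf) (.s3 .lf .lf)) .lf)) (.s2 (.s3 (.s3 .lf .lf) .lf) (.s3 (.s3 .lf .lf) .lf)))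

theorem cR295 : run runR tR295 6917529027641081856 2305843009213693952 27021597764222976 9007199254740992 = true := by decide +kernel

def tR296 : Tr := .s2 (.s2 (.s2 (.s3 (.s2 (.s3 .lf .lf) (.s3 .lf .lf)) .lf) (.s3 (.s2 (.s3 .lf .lf) (.s3 .lf .lf)) .lf)) (.s2 (.s3 (.s3 .lf .lf) .lf) (.s3 (.s3 .lf .lf) .lf))) (.s2 (.s3 (.s2 (.s3 .lf .lf) (.s3 .lf .lf)) (.s2 .lf .lf)) (.s3 (.s2 (.s3 .lf .lf) (.s3 .lf .lf)) (.s2 .lf .lf)))

theorem cR296 : run runR tR296 6917529027641081856 2305843009213693952 54043195528445952 18014398509481984 = true := by decide +kernel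

end Vale.Agent.Lib.P154.Neg.Ck
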