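import Vale.Agent.Lib.P154.Neg.CkRuns

/-! Kernel evaluation, run R, part 28. -/

namespace Vale.Agent.Lib.P154.Neg.Ck

set_option maxRecDepth 100000

def tR297 : Tr := .s2 (.s2 (.s2 (.s3 (.s3 .lf .lf) .lf) (.s3 (.s3 .lf .lf) .lf)) (.s3 (.s2 (.s3 .lf .lf) (.s3 .lf .lf)) (.s2 .lf .lf))) (.s2 (.s3 (.s2 (.s3 .lf .lf) (.s3 .lf .lf)) (.s2 .lf .lf)) (.s3 (.s2 (.s3 .lf .lf) (.s3 .lf .lf)) (.s2 .lf .lf)))

theorem cR297 : run runR tR297 6917529027641081856 2305843009213693952 108086391056891904 36028797018963968 = true := by decide +kernel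

def tR298 : Tr := .s2 (.s2 (.s3 (.s2 (.s3 .lf .lf) (.s3 .lf .lf)) (.s2 .lf .lf)) (.s3 (.s2 (.s3 .lf .lf) (.s3 .lf .lf)) .lf)) (.s2 (.s3 (.s2 (.s3 .lf .lf) (.s3 .lf .lf)) .lf) (.s3 (.s2 (.s3 .lf .lf) (.s3 .lf .lf)) .lf))

theorem cR298 : run runR tR298 6917529027641081856 2305843009213693952 216172782113783808 72057594037927936 = true := by decide +kernel

def tR299 : Tr := .s2 (.s2 (.s3 (.s2 .lf (.s3 .lf .lf)) .lf) (.s3 (.s2 (.s3 .lf .lf) (.s3 .lf .lf)) .lf)) (.s3 (.s2 (.s3 .lf .lf) (.s3 .lf .lf)) (.s2 .lf .lf))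

theorem cR299 : run runR tR299 6917529027641081856 2305843009213693952 432345564227567616 144115188075855872 = true := by decide +kernel

def tR300 : Tr := .s2 (.s2 (.s3 (.s3 .lf .lf) (.s2 .lf .lf)) (.s3 (.s3 .lf .lf) .lf)) (.s3 (.s2 (.s3 .lf .lf) (.s3 .lf .lf)) (.s2 .lf .lf))

theorem cR300 : run runR tR300 6917529027641081856 2305843009213693952 864691128455135232 288230376151711744 = true := by decide +kernel

def tR301 : Tr := .s2 (.s3 (.s2 (.s3 .lf .lf) (.s3 .lf .lf)) (.s2 (.s2 .lf .lf) (.s3 .lf .lf))) (.s3 (.s2 (.s3 .lf .lf) (.s3 .lf .lf)) (.s2 .lf .lf))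

theorem cR301 : run runR tR301 6917529027641081856 2305843009213693952 1729382256910270464 576460752303423488 = true := by decide +kernel

end Vale.Agent.Lib.P154.Neg.Ck
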