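import Vale.Agent.Lib.P154.Neg.CkRuns

/-! Kernel evaluation, run R, part 29. -/

namespace Vale.Agent.Lib.P154.Neg.Ck

set_option maxRecDepth 100000

def tR302 : Tr := .s2 (.s3 (.s2 (.s3 (.s2 .lf .lf) (.s2 .lf .lf)) (.s3 .lf .lf)) (.s2 (.s3 (.s2 .lf .lf) (.s2 .lf .lf)) (.s3 .lf .lf))) (.s3 (.s3 (.s2 .lf .lf) (.s2 .lf .lf)) (.s2 (.s3 .lf .lf) (.s3 .lf .lf)))

theorem cR302 : run runR tR302 6917529027641081856 2305843009213693952 3458764513820540928 1152921504606846976 = true := by decide +kernel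

def tR303 : Tr := .s3 (.s2 (.s3 (.s2 (.s3 (.s2 .lf .lf) (.s2 .sk .lf)) (.s3 .lf .lf)) (.s2 .sk (.s3 .lf .lf))) (.s3 (.s2 (.s3 .lf .lf) .lf) (.s2 (.s3 .lf .lf) .lf))) (.s2 .sk (.s3 (.s2 .lf .lf) (.s2 .sk .lf)))

theorem cR303 : run runR tR303 6917529027641081856 2305843009213693952 6917529027641081856 2305843009213693952 = true := by decide +kernel

def tR304 : Tr := Tr.sk

theorem cR304 : run runR tR304 4611686018427387904 4611686018427387904 13835058055282163712 4611686018427387904 = true := by decide +kernel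

def tR305 : Tr := .s3 (.s3 (.s3 (.s3 (.s3 (.s3 (.s3 (.s3 (.s3 (.s3 (.s3 (.s2 (.s2 (.s2 .lf .lf) .lf) (.s2 .lf .lf)) (.s2 (.s2 .lf .lf) (.s2 .lf .lf))) (.s2 (.s2 .lf .lf) (.s2 .lf .lf))) (.s2 (.s2 .lf .lf) (.s2 .lf .lf))) (.s2 (.s2 (.s2 .lf .lf) .lf) (.s2 .lf .lf))) (.s2 (.s2 (.s2 .lf .lf) .lf) (.s2 .lf .lf))) (.s2 (.s2 (.s2 .lf .lf) .lf) (.s2 .lf .lf))) (.s2 (.s2 (.s2 .lf .lf) .lf) (.s2 .lf .lf))) (.s2 (.s2 (.s2 .lf .lf) .lf) (.s2 .lf .lf))) (.s2 (.s2 (.s2 .lf .lf) .lf) (.s2 .lf .lf))) (.s2 (.s2 (.s2 .lf .lf) .lf) (.s2 .lf .lf))) (.s2 (.s2 (.s2 .lf .lf) .lf) (.s2 .lf .lf))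

theorem cR305 : run runR tR305 13835058055282163712 4611686018427387904 67108864 67108864 = true := by decide +kernel

end Vale.Agent.Lib.P154.Neg.Ck
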