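import Vale.Agent.Lib.P154.Neg.CkRuns

/-! Kernel evaluation, run R, part 3. -/

namespace Vale.Agent.Lib.P154.Neg.Ck

set_option maxRecDepth 100000

def tR36 : Tr := Tr.sk

theorem cR36 : run runR tR36 2199023255552 2199023255552 6597069766656 2199023255552 = true := by decide +kernel

def tR37 : Tr := .s3 (.s3 (.s3 (.s3 (.s3 (.s3 (.s3 (.s3 (.s3 (.s3 (.s3 (.s3 (.s3 (.s3 (.s3 (.s3 (.s3 (.s3 (.s3 (.s3 (.s3 (.s3 (.s3 (.s3 (.s3 (.s3 (.s3 .lf .lf) .lf) .lf) .lf) .lf) .lf) .lf) .lf) .lf) .lf) .lf) .lf) .lf) .lf) .lf) .lf) .lf) .lf) .lf) .lf) .lf) .lf) .lf) .lf) .lf) .lf) .lf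

theorem cR37 : run runR tR37 6597069766656 2199023255552 4398046511104 4398046511104 = true := by decide +kernel

def tR38 : Tr := Tr.sk

theorem cR38 : run runR tR38 4398046511104 4398046511104 13194139533312 4398046511104 = true := by decide +kernel

def tR39 : Tr := .s3 (.s3 (.s3 (.s3 (.s3 (.s3 (.s3 (.s3 (.s3 (.s3 (.s3 (.s3 (.s3 (.s3 (.s3 (.s3 (.s3 (.s3 (.s3 (.s3 (.s3 (.s3 (.s3 (.s3 (.s3 (.s3 (.s3 (.s3 .lf .lf) .lf) .lf) .lf) .lf) .lf) .lf) .lf) .lf) .lf) .lf) .lf) .lf) .lf) .lf) .lf) .lf) .lf) .lf) .lf) .lf) .lf) .lf) .lf) .lf) .lf) .lf) .lf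

theorem cR39 : run runR tR39 13194139533312 4398046511104 8796093022208 8796093022208 = true := by decide +kernel

def tR40 : Tr := Tr.sk

theorem cR40 : run runR tR40 8796093022208 8796093022208 26388279066624 8796093022208 = true := by decide +kernel

def tR41 : Tr := .s3 (.s3 (.s3 (.s3 (.s3 (.s3 (.s3 (.s3 (.s3 (.s3 (.s3 (.s3 (.s3 (.s3 (.s3 (.s3 (.s3 (.s3 (.s3 (.s3 (.s3 (.s3 (.s3 (.s3 (.s3 (.s3 (.s3 (.s3 (.s3 .lf .lf) .lf) .lf) .lf) .lf) .lf) .lf) .lf) .lf) .lf) .lf) .lf) .lf) .lf) .lf) .lf) .lf) .lf) .lf) .lf) .lf) .lf) .lf) .lf) .lf) .lf) .lf) .lf) .lf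

theorem cR41 : run runR tR41 26388279066624 8796093022208 17592186044416 17592186044416 = true := by decide +kernel

end Vale.Agent.Lib.P154.Neg.Ck
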