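import Vale.Agent.Lib.P154.Neg.CkRuns

/-! Kernel evaluation, run R, part 30. -/

namespace Vale.Agent.Lib.P154.Neg.Ck

set_option maxRecDepth 100000

def tR306 : Tr := .s2 (.s2 (.s2 .lf .lf) .lf) (.s2 .lf .lf)

theorem cR306 : run runR tR306 13835058055282163712 4611686018427387904 201326592 67108864 = true := by decide +kernel

def tR307 : Tr := .s2 (.s2 (.s2 .lf .lf) .lf) (.s2 .lf .lf)

theorem cR307 : run runR tR307 13835058055282163712 4611686018427387904 402653184 134217728 = true := by decide +kernel

def tR308 : Tr := .s2 (.s2 (.s2 .lf .lf) .lf) (.s2 .lf .lf)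

theorem cR308 : run runR tR308 13835058055282163712 4611686018427387904 805306368 268435456 = true := by decide +kernel

def tR309 : Tr := .s2 (.s2 (.s2 .lf .lf) .lf) (.s2 .lf .lf)

theorem cR309 : run runR tR309 13835058055282163712 4611686018427387904 1610612736 536870912 = true := by decide +kernel

def tR310 : Tr := .s2 (.s2 (.s2 .lf .lf) (.s2 .lf .lf)) (.s2 .lf .lf)

theorem cR310 : run runR tR310 13835058055282163712 4611686018427387904 3221225472 1073741824 = true := by decide +kernel

def tR311 : Tr := .s2 (.s2 (.s2 .lf .lf) (.s2 .lf .lf)) (.s2 .lf .lf)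

theorem cR311 : run runR tR311 13835058055282163712 4611686018427387904 6442450944 2147483648 = true := by decide +kernel

def tR312 : Tr := .s2 (.s2 (.s2 .lf .lf) (.s2 .lf .lf)) (.s2 (.s2 .lf .lf) .lf)

theorem cR312 : run runR tR312 13835058055282163712 4611686018427387904 12884901888 4294967296 = true := by decide +kernel

def tR313 : Tr := .s2 (.s2 (.s2 .lf .lf) (.s2 .lf .lf)) (.s2 (.s2 .lf .lf) .lf)

theorem cR313 : run runR tR313 13835058055282163712 4611686018427387904 25769803776 8589934592 = true := by decide +kernel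

def tR314 : Tr := .s2 (.s2 (.s2 .lf .lf) (.s2 .lf .lf)) (.s2 (.s2 .lf .lf) (.s2 .lf .lf))

theorem cR314 : run runR tR314 13835058055282163712 4611686018427387904 51539607552 17179869184 = true := by decide +kernel

def tR315 : Tr := .s2 (.s2 (.s2 .lf .lf) (.s2 .lf .lf)) (.s2 (.s2 .lf .lf) (.s2 .lf .lf))

theorem cR315 : run runR tR315 13835058055282163712 4611686018427387904 103079215104 34359738368 = true := by decide +kernel

def tR316 : Tr := .s2 (.s2 (.s2 .lf .lf) (.s2 .lf .lf)) (.s2 (.s2 .lf .lf) (.s2 .lf .lf))

theorem cR316 : run runR tR316 13835058055282163712 4611686018427387904 206158430208 68719476736 = true := by decide +kernel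

def tR317 : Tr := .s2 (.s2 (.s2 .lf .lf) (.s2 .lf .lf)) (.s2 (.s2 .lf .lf) (.s2 .lf .lf))

theorem cR317 : run runR tR317 13835058055282163712 4611686018427387904 412316860416 137438953472 = true := by decide +kernel

end Vale.Agent.Lib.P154.Neg.Ck
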