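import Vale.Agent.Lib.P154.Neg.CkRuns

/-! Kernel evaluation, run R, part 31. -/

namespace Vale.Agent.Lib.P154.Neg.Ck

set_option maxRecDepth 100000

def tR318 : Tr := .s2 (.s2 (.s2 .lf .lf) (.s2 .lf .lf)) (.s2 .lf .lf)

theorem cR318 : run runR tR318 13835058055282163712 4611686018427387904 824633720832 274877906944 = true := by decide +kernel

def tR319 : Tr := .s2 (.s2 (.s2 .lf .lf) .lf) (.s2 .lf .lf)

theorem cR319 : run runR tR319 13835058055282163712 4611686018427387904 1649267441664 549755813888 = true := by decide +kernel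

def tR320 : Tr := .s2 (.s2 (.s2 .lf .lf) .lf) (.s2 .lf .lf)

theorem cR320 : run runR tR320 13835058055282163712 4611686018427387904 3298534883328 1099511627776 = true := by decide +kernel

def tR321 : Tr := .s2 (.s2 .lf .lf) (.s2 .lf .lf)

theorem cR321 : run runR tR321 13835058055282163712 4611686018427387904 6597069766656 2199023255552 = true := by decide +kernel

def tR322 : Tr := .s2 (.s2 .lf .lf) (.s2 .lf .lf)

theorem cR322 : run runR tR322 13835058055282163712 4611686018427387904 13194139533312 4398046511104 = true := by decide +kernel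

def tR323 : Tr := .s2 (.s2 .lf .lf) (.s2 .lf .lf)

theorem cR323 : run runR tR323 13835058055282163712 4611686018427387904 26388279066624 8796093022208 = true := by decide +kernel

def tR324 : Tr := .s2 (.s2 .lf .lf) (.s2 .lf .lf)

theorem cR324 : run runR tR324 13835058055282163712 4611686018427387904 52776558133248 17592186044416 = true := by decide +kernel

def tR325 : Tr := .s2 (.s2 .lf .lf) (.s2 .lf .lf)

theorem cR325 : run runR tR325 13835058055282163712 4611686018427387904 105553116266496 35184372088832 = true := by decide +kernel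

def tR326 : Tr := .s2 (.s2 .lf .lf) (.s2 .lf .lf)

theorem cR326 : run runR tR326 13835058055282163712 4611686018427387904 211106232532992 70368744177664 = true := by decide +kernel

def tR327 : Tr := .s2 (.s2 .lf .lf) (.s2 .lf .lf)

theorem cR327 : run runR tR327 13835058055282163712 4611686018427387904 422212465065984 140737488355328 = true := by decide +kernel

def tR328 : Tr := .s2 (.s2 (.s2 .lf .lf) .lf) (.s2 .lf .lf)

theorem cR328 : run runR tR328 13835058055282163712 4611686018427387904 844424930131968 281474976710656 = true := by decide +kernel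

def tR329 : Tr := .s2 (.s2 (.s2 (.s2 (.s2 .lf .lf) (.s2 .lf .lf)) (.s2 (.s2 .lf .lf) .lf)) (.s2 (.s2 .lf .lf) (.s2 .lf .lf))) (.s2 (.s2 (.s2 .lf .lf) (.s2 .lf .lf)) (.s2 (.s2 .lf .lf) (.s2 .lf .lf)))

theorem cR329 : run runR tR329 13835058055282163712 4611686018427387904 1688849860263936 562949953421312 = true := by decide +kernel

def tR330 : Tr := .s2 (.s2 (.s2 (.s2 (.s3 .lf .lf) (.s3 .lf .lf)) (.s2 (.s3 .lf .lf) (.s3 .lf .lf))) (.s2 (.s2 (.s3 .lf .lf) (.s3 .lf .lf)) (.s2 (.s3 .lf .lf) (.s3 .lf .lf)))) (.s2 (.s2 (.s2 (.s3 .lf .lf) (.s3 .lf .lf)) (.s2 (.s3 .lf .lf) (.s3 .lf .lf))) (.s2 (.s2 (.s3 .lf .lf) (.s3 .lf .lf)) (.s2 (.s3 .lf .lf) (.s3 .lf .lf))))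

theorem cR330 : run runR tR330 13835058055282163712 4611686018427387904 3377699720527872 1125899906842624 = true := by decide +kernel

end Vale.Agent.Lib.P154.Neg.Ck
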