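import Vale.Agent.Lib.P154.Neg.CkRuns

/-! Kernel evaluation, run R, part 32. -/

namespace Vale.Agent.Lib.P154.Neg.Ck

set_option maxRecDepth 100000

def tR331 : Tr := .s2 (.s2 (.s2 (.s2 (.s3 .lf .lf) (.s3 .lf .lf)) (.s2 (.s3 .lf .lf) (.s3 .lf .lf))) (.s2 (.s2 (.s3 .lf .lf) (.s3 .lf .lf)) (.s2 (.s3 .lf .lf) (.s3 .lf .lf)))) (.s2 (.s2 (.s2 (.s3 .lf .lf) (.s3 .lf .lf)) (.s2 (.s3 .lf .lf) (.s3 .lf .lf))) (.s2 (.s2 (.s3 .lf .lf) (.s3 .lf .lf)) (.s3 .lf .lf)))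

theorem cR331 : run runR tR331 13835058055282163712 4611686018427387904 6755399441055744 2251799813685248 = true := by decide +kernel

def tR332 : Tr := .s2 (.s2 (.s2 (.s2 (.s3 .lf .lf) (.s3 .lf .lf)) (.s2 (.s3 .lf .lf) (.s3 .lf .lf))) (.s2 (.s2 (.s3 .lf .lf) (.s3 (.s3 .lf .lf) .lf)) (.s3 (.s2 (.s3 .lf .lf) (.s3 .lf .lf)) .lf))) (.s2 (.s2 (.s3 (.s2 (.s3 .lf .lf) (.s3 .lf .lf)) .lf) (.s3 (.s2 (.s3 .lf .lf) (.s3 .lf .lf)) .lf)) (.s2 (.s3 (.s2 (.s3 .lf .lf) (.s3 .lf .lf)) .lf) (.s3 (.s2 (.s3 .lf .lf) (.s3 .lf .lf)) .lf)))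

theorem cR332 : run runR tR332 13835058055282163712 4611686018427387904 13510798882111488 4503599627370496 = true := by decide +kernel

def tR333 : Tr := .s2 (.s2 (.s2 (.s3 (.s2 (.s3 .lf .lf) (.s3 .lf .lf)) (.s2 .lf .lf)) (.s3 (.s2 (.s3 .lf .lf) (.s3 .lf .lf)) .lf)) (.s2 (.s3 (.s2 (.s3 .lf .lf) (.s3 .lf .lf)) .lf) (.s3 (.s2 (.s3 .lf .lf) (.s3 .lf .lf)) .lf))) (.s2 (.s2 (.s3 (.s2 (.s3 .lf .lf) (.s3 .lf .lf)) .lf) (.s3 (.s2 (.s3 .lf .lf) (.s3 .lf .lf)) .lf)) (.s2 (.s3 (.s2 (.s3 .lf .lf) (.s3 .lf .lf)) .lf) (.s3 (.s2 (.s3 .lf .lf) (.s3 .lf .lf)) (.s2 .lf .lf))))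

theorem cR333 : run runR tR333 13835058055282163712 4611686018427387904 27021597764222976 9007199254740992 = true := by decide +kernel

end Vale.Agent.Lib.P154.Neg.Ck
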