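import Vale.Agent.Lib.P154.Neg.CkRuns

/-! Kernel evaluation, run R, part 33. -/

namespace Vale.Agent.Lib.P154.Neg.Ck

set_option maxRecDepth 100000

def tR334 : Tr := .s2 (.s2 (.s2 (.s3 (.s2 (.s3 .lf .lf) (.s3 .lf .lf)) (.s2 .lf .lf)) (.s3 (.s2 (.s3 .lf .lf) (.s3 .lf .lf)) (.s2 .lf .lf))) (.s2 (.s3 (.s2 (.s3 .lf .lf) (.s3 .lf .lf)) (.s2 .lf .lf)) (.s3 (.s2 (.s3 .lf .lf) (.s3 .lf .lf)) (.s2 .lf .lf)))) (.s2 (.s2 (.s3 (.s2 (.s3 .lf .lf) (.s3 .lf .lf)) (.s2 .lf .lf)) (.s3 (.s2 (.s3 .lf .lf) (.s3 .lf .lf)) (.s2 .lf .lf))) (.s2 (.s3 (.s3 .lf .lf) .lf) (.s3 (.s3 .lf .lf) .lf)))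

theorem cR334 : run runR tR334 13835058055282163712 4611686018427387904 54043195528445952 18014398509481984 = true := by decide +kernel

def tR335 : Tr := .s2 (.s2 (.s2 (.s3 (.s2 (.s3 .lf .lf) (.s3 .lf .lf)) (.s2 .lf .lf)) (.s3 (.s2 (.s3 .lf .lf) (.s3 .lf .lf)) (.s2 .lf .lf))) (.s2 (.s3 (.s3 .lf .lf) .lf) (.s3 (.s3 .lf .lf) .lf))) (.s2 (.s3 (.s2 (.s3 .lf .lf) (.s3 .lf .lf)) (.s2 .lf .lf)) (.s3 (.s2 (.s3 .lf .lf) (.s3 .lf .lf)) (.s2 .lf .lf)))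

theorem cR335 : run runR tR335 13835058055282163712 4611686018427387904 108086391056891904 36028797018963968 = true := by decide +kernel

def tR336 : Tr := .s2 (.s2 (.s2 (.s3 (.s3 .lf .lf) .lf) (.s3 (.s3 .lf .lf) .lf)) (.s3 (.s2 (.s3 .lf .lf) (.s3 .lf .lf)) (.s2 .lf .lf))) (.s2 (.s3 (.s2 (.s3 .lf .lf) (.s3 .lf .lf)) (.s2 .lf .lf)) (.s3 (.s2 (.s3 .lf .lf) (.s3 .lf .lf)) (.s2 .lf .lf)))

theorem cR336 : run runR tR336 13835058055282163712 4611686018427387904 216172782113783808 72057594037927936 = true := by decide +kernel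

end Vale.Agent.Lib.P154.Neg.Ck
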