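import Vale.Agent.Lib.P154.Neg.CkRuns

/-! Kernel evaluation, run R, part 34. -/

namespace Vale.Agent.Lib.P154.Neg.Ck

set_option maxRecDepth 100000

def tR337 : Tr := .s2 (.s2 (.s3 (.s2 (.s3 .lf .lf) (.s3 .lf .lf)) (.s2 .lf .lf)) (.s3 (.s2 (.s3 .lf .lf) (.s3 .lf .lf)) .lf)) (.s2 (.s3 (.s2 (.s3 .lf .lf) (.s3 .lf .lf)) .lf) (.s3 (.s2 (.s3 .lf .lf) (.s3 .lf .lf)) .lf))

theorem cR337 : run runR tR337 13835058055282163712 4611686018427387904 432345564227567616 144115188075855872 = true := by decide +kernel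

def tR338 : Tr := .s2 (.s2 (.s3 (.s2 (.s3 .lf .lf) (.s3 .lf .lf)) (.s2 .lf .lf)) (.s3 (.s2 .lf .lf) .lf)) (.s3 (.s2 (.s3 .lf .lf) (.s3 .lf .lf)) (.s2 .lf .lf))

theorem cR338 : run runR tR338 13835058055282163712 4611686018427387904 864691128455135232 288230376151711744 = true := by decide +kernel

def tR339 : Tr := .s2 (.s2 (.s3 (.s3 .lf .lf) (.s2 .lf .lf)) (.s3 (.s3 .lf .lf) .lf)) (.s3 (.s2 (.s3 .lf .lf) (.s3 .lf .lf)) (.s2 .lf .lf))

theorem cR339 : run runR tR339 13835058055282163712 4611686018427387904 1729382256910270464 576460752303423488 = true := by decide +kernel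

def tR340 : Tr := .s2 (.s3 (.s2 (.s3 (.s2 .lf .lf) (.s2 .lf .lf)) (.s3 .lf .lf)) (.s2 (.s2 .lf .lf) (.s3 .lf .lf))) (.s3 (.s2 (.s3 .lf .lf) (.s3 .lf .lf)) (.s2 .lf .lf))

theorem cR340 : run runR tR340 13835058055282163712 4611686018427387904 3458764513820540928 1152921504606846976 = true := by decide +kernel

def tR341 : Tr := .s2 (.s3 (.s2 (.s3 (.s2 .lf .lf) (.s2 .lf .lf)) (.s3 .lf .lf)) (.s2 (.s3 (.s2 .lf .lf) (.s2 .lf .lf)) (.s3 .lf .lf))) (.s3 (.s3 (.s2 .lf .lf) (.s2 .lf .lf)) (.s2 (.s3 .lf .lf) (.s3 .lf .lf)))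

theorem cR341 : run runR tR341 13835058055282163712 4611686018427387904 6917529027641081856 2305843009213693952 = true := by decide +kernel

end Vale.Agent.Lib.P154.Neg.Ck
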