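import Vale.Agent.Lib.P154.Neg.CkRuns

/-! Kernel evaluation, run R, part 35. -/

namespace Vale.Agent.Lib.P154.Neg.Ck

set_option maxRecDepth 100000

def tR342 : Tr := .s3 (.s2 (.s3 (.s2 (.s3 (.s2 .lf .lf) .lf) (.s3 .lf .lf)) (.s2 .sk (.s3 .lf .lf))) (.s3 (.s2 (.s3 .lf .lf) (.s3 .lf .lf)) (.s2 (.s3 .lf .lf) (.s3 .lf .lf)))) (.s2 .sk (.s3 (.s2 (.s3 (.s2 .lf .lf) (.s2 .sk .lf)) (.s3 (.s2 .lf .lf) (.s2 .lf .lf))) (.s2 .sk (.s3 (.s2 .lf .lf) (.s2 .sk (.s3 .lf .lf))))))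

theorem cR342 : run runR tR342 13835058055282163712 4611686018427387904 13835058055282163712 4611686018427387904 = true := by decide +kernel

def tR343 : Tr := Tr.sk

theorem cR343 : run runR tR343 9223372036854775808 9223372036854775808 27670116110564327424 9223372036854775808 = true := by decide +kernel

def tR344 : Tr := .s3 (.s3 (.s3 (.s3 (.s3 (.s3 (.s3 (.s3 (.s3 (.s3 (.s3 (.s3 (.s3 (.s3 (.s2 (.s2 .lf .lf) (.s2 .lf .lf)) (.s2 (.s2 .lf .lf) (.s2 .lf .lf))) (.s2 (.s2 .lf .lf) (.s2 .lf .lf))) (.s2 (.s2 .lf .lf) (.s2 .lf .lf))) (.s2 (.s2 .lf .lf) (.s2 .lf .lf))) (.s2 (.s2 .lf .lf) (.s2 .lf .lf))) (.s2 (.s2 .lf .lf) (.s2 .lf .lf))) (.s2 (.s2 .lf .lf) (.s2 .lf .lf))) (.s2 (.s2 .lf .lf) (.s2 .lf .lf))) (.s2 (.s2 .lf .lf) (.s2 .lf .lf))) (.s2 (.s2 .lf .lf) (.s2 .lf .lf))) (.s2 (.s2 .lf .lf) (.s2 .lf .lf))) (.s2 (.s2 .lf .lf) (.s2 .lf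 .lf))) (.s2 (.s2 .lf .lf) (.s2 .lf .lf))) (.s2 (.s2 .lf .lf) (.s2 .lf .lf))

theorem cR344 : run runR tR344 23058430092136939520 4611686018427387904 536870912 536870912 = true := by decide +kernel

end Vale.Agent.Lib.P154.Neg.Ck
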