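import Vale.Agent.Lib.P154.Neg.CkRuns

/-! Kernel evaluation, run R, part 38. -/

namespace Vale.Agent.Lib.P154.Neg.Ck

set_option maxRecDepth 100000

def tR369 : Tr := .s2 (.s2 (.s2 (.s3 (.s2 (.s3 .lf .lf) (.s3 .lf .lf)) (.s2 .lf .lf)) (.s3 (.s2 (.s3 .lf .lf) (.s3 .lf .lf)) (.s2 .lf .lf))) (.s2 (.s3 (.s2 (.s3 .lf .lf) (.s3 .lf .lf)) (.s2 .lf (.s3 .lf .lf))) (.s3 (.s3 .lf .lf) (.s2 (.s3 .lf .lf) (.s3 .lf .lf))))) (.s2 (.s2 (.s3 (.s3 .lf .lf) (.s2 (.s3 .lf .lf) (.s3 .lf .lf))) (.s3 (.s3 .lf .lf) (.s2 (.s3 .lf .lf) (.s3 .lf .lf)))) (.s3 (.s2 (.s3 .lf .lf) (.s3 .lf .lf)) (.s2 (.s2 (.s3 .lf .lf) (.s3 .lf .lf)) (.s2 (.s3 .lf .lf) (.s3 .lf .lf)))))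

theorem cR369 : run runR tR369 23058430092136939520 4611686018427387904 27021597764222976 9007199254740992 = true := by decide +kernel

def tR370 : Tr := .s2 (.s2 (.s3 (.s2 (.s3 .lf .lf) (.s3 .lf .lf)) (.s2 .lf .lf)) (.s3 (.s2 (.s3 .lf .lf) (.s3 .lf .lf)) (.s2 .lf (.s2 .lf .lf)))) (.s2 (.s3 (.s2 (.s3 .lf .lf) (.s3 .lf .lf)) (.s2 (.s3 .lf .lf) (.s3 .lf .lf))) (.s3 (.s2 (.s3 .lf .lf) (.s3 .lf .lf)) (.s2 (.s3 .lf .lf) (.s3 .lf .lf))))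

theorem cR370 : run runR tR370 23058430092136939520 4611686018427387904 54043195528445952 18014398509481984 = true := by decide +kernel

end Vale.Agent.Lib.P154.Neg.Ck
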