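import Vale.Agent.Lib.P154.Neg.CkRuns

/-! Kernel evaluation, run R, part 39. -/

namespace Vale.Agent.Lib.P154.Neg.Ck

set_option maxRecDepth 100000

def tR371 : Tr := .s2 (.s2 (.s3 (.s2 (.s3 .lf .lf) (.s3 .lf .lf)) (.s2 .lf .lf)) (.s3 (.s2 (.s3 .lf .lf) (.s3 .lf .lf)) (.s2 .lf .lf))) (.s2 (.s3 (.s2 (.s3 .lf .lf) (.s3 .lf .lf)) .lf) (.s3 (.s2 (.s3 .lf .lf) (.s3 .lf .lf)) .lf))

theorem cR371 : run runR tR371 23058430092136939520 4611686018427387904 108086391056891904 36028797018963968 = true := by decide +kernel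

def tR372 : Tr := .s2 (.s2 (.s3 (.s2 (.s3 .lf .lf) (.s3 .lf .lf)) (.s2 .lf .lf)) (.s3 (.s2 (.s3 .lf .lf) (.s3 .lf .lf)) (.s2 .lf .lf))) (.s2 (.s3 (.s3 .lf .lf) .lf) (.s3 (.s3 .lf .lf) .lf))

theorem cR372 : run runR tR372 23058430092136939520 4611686018427387904 216172782113783808 72057594037927936 = true := by decide +kernel

def tR373 : Tr := .s2 (.s2 (.s3 (.s3 .lf .lf) .lf) (.s3 (.s3 .lf .lf) .lf)) (.s3 (.s2 (.s3 .lf .lf) (.s3 .lf .lf)) (.s2 .lf .lf))

theorem cR373 : run runR tR373 23058430092136939520 4611686018427387904 432345564227567616 144115188075855872 = true := by decide +kernel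

def tR374 : Tr := .s2 (.s3 (.s2 (.s3 .lf .lf) (.s3 .lf .lf)) (.s2 .lf .lf)) (.s3 (.s2 (.s3 .lf .lf) (.s3 .lf .lf)) (.s2 .lf .lf))

theorem cR374 : run runR tR374 23058430092136939520 4611686018427387904 864691128455135232 288230376151711744 = true := by decide +kernel

def tR375 : Tr := .s2 (.s3 (.s2 .lf .lf) (.s2 .lf .lf)) (.s3 (.s2 .lf .lf) .lf)

theorem cR375 : run runR tR375 23058430092136939520 4611686018427387904 1729382256910270464 576460752303423488 = true := by decide +kernel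

def tR376 : Tr := .s2 (.s3 (.s3 .lf .lf) (.s2 .lf .lf)) (.s3 (.s3 .lf .lf) .lf)

theorem cR376 : run runR tR376 23058430092136939520 4611686018427387904 3458764513820540928 1152921504606846976 = true := by decide +kernel

end Vale.Agent.Lib.P154.Neg.Ck
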