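import Vale.Agent.Lib.P154.Neg.CkRuns

/-! Kernel evaluation, run R, part 4. -/

namespace Vale.Agent.Lib.P154.Neg.Ck

set_option maxRecDepth 100000

def tR42 : Tr := Tr.sk

theorem cR42 : run runR tR42 17592186044416 17592186044416 52776558133248 17592186044416 = true := by decide +kernel

def tR43 : Tr := .s3 (.s3 (.s3 (.s3 (.s3 (.s3 (.s3 (.s3 (.s3 (.s3 (.s3 (.s3 (.s3 (.s3 (.s3 (.s3 (.s3 (.s3 (.s3 (.s3 (.s3 (.s3 (.s3 (.s3 (.s3 (.s3 (.s3 (.s3 (.s3 (.s3 .lf .lf) .lf) .lf) .lf) .lf) .lf) .lf) .lf) .lf) .lf) .lf) .lf) .lf) .lf) .lf) .lf) .lf) .lf) .lf) .lf) .lf) .lf) .lf) .lf) .lf) .lf) .lf) .lf) .lf) .lf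

theorem cR43 : run runR tR43 52776558133248 17592186044416 35184372088832 35184372088832 = true := by decide +kernel

def tR44 : Tr := Tr.sk

theorem cR44 : run runR tR44 35184372088832 35184372088832 105553116266496 35184372088832 = true := by decide +kernel

def tR45 : Tr := .s3 (.s3 (.s3 (.s3 (.s3 (.s3 (.s3 (.s3 (.s3 (.s3 (.s3 (.s3 (.s3 (.s3 (.s3 (.s3 (.s3 (.s3 (.s3 (.s3 (.s3 (.s3 (.s3 (.s3 (.s3 (.s3 (.s3 (.s3 (.s3 (.s3 (.s3 .lf .lf) .lf) .lf) .lf) .lf) .lf) .lf) .lf) .lf) .lf) .lf) .lf) .lf) .lf) .lf) .lf) .lf) .lf) .lf) .lf) .lf) .lf) .lf) .lf) .lf) .lf) .lf) .lf) .lf) .lf) .lf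

theorem cR45 : run runR tR45 105553116266496 35184372088832 70368744177664 70368744177664 = true := by decide +kernel

def tR46 : Tr := Tr.sk

theorem cR46 : run runR tR46 70368744177664 70368744177664 211106232532992 70368744177664 = true := by decide +kernel

def tR47 : Tr := .s3 (.s3 (.s3 (.s3 (.s3 (.s3 (.s3 (.s3 (.s3 (.s3 (.s3 (.s3 (.s3 (.s3 (.s3 (.s3 (.s3 (.s3 (.s3 (.s3 (.s3 (.s3 (.s3 (.s3 (.s3 (.s3 (.s3 (.s3 (.s3 (.s3 (.s2 .lf .lf) (.s2 .lf .lf)) (.s2 .lf .lf)) (.s2 .lf .lf)) (.s2 .lf .lf)) (.s2 .lf .lf)) (.s2 .lf .lf)) (.s2 .lf .lf)) (.s2 .lf .lf)) (.s2 .lf .lf)) (.s2 .lf .lf)) (.s2 .lf .lf)) (.s2 .lf .lf)) (.s2 .lf .lf)) (.s2 .lf .lf)) (.s2 .lf .lf)) (.s2 .lf .lf)) (.s2 .lf .lf)) (.s2 .lf .lf)) (.s2 .lf .lf)) (.s2 .lf .lf)) (.s2 .lf .lf)) (.s2 .lf .lf)) (.s2 .lf .lf)) (.s2 .lf .lf)) (.s2 .lf .lf)) (.s2 .lf .lf)) (.s2 .lf .lf))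 (.s2 .lf .lf)) .lf) .lf

theorem cR47 : run runR tR47 211106232532992 70368744177664 35184372088832 35184372088832 = true := by decide +kernel

end Vale.Agent.Lib.P154.Neg.Ck
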