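import Vale.Agent.Lib.P154.Neg.CkRuns

/-! Kernel evaluation, run R, part 40. -/

namespace Vale.Agent.Lib.P154.Neg.Ck

set_option maxRecDepth 100000

def tR377 : Tr := .s3 (.s2 (.s3 (.s2 .lf .lf) (.s2 .lf .lf)) (.s3 .lf (.s2 .lf .sk))) (.s2 (.s2 (.s3 .lf .lf) (.s3 .lf .lf)) (.s3 (.s2 .lf .sk) (.s2 .lf .sk)))

theorem cR377 : run runR tR377 23058430092136939520 4611686018427387904 6917529027641081856 2305843009213693952 = true := by decide +kernel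

def tR378 : Tr := .s2 (.s3 (.s3 (.s2 (.s3 .lf .lf) (.s3 .lf .lf)) (.s2 (.s3 .lf .lf) (.s3 .lf (.s2 .lf .sk)))) (.s3 (.s2 (.s3 (.s2 .lf .lf) (.s2 .lf .lf)) (.s3 (.s2 .lf .sk) .sk)) (.s2 (.s3 (.s2 .lf .lf) (.s2 (.s3 .lf .lf) .sk)) .sk))) (.s3 (.s3 (.s2 (.s3 .lf .sk) .sk) .sk) .sk)

theorem cR378 : run runR tR378 23058430092136939520 4611686018427387904 13835058055282163712 4611686018427387904 = true := by decide +kernel

def tR379 : Tr := .s3 (.s2 (.s3 (.s3 (.s3 (.s3 (.s3 (.s3 (.s3 (.s3 (.s3 (.s3 (.s3 (.s3 (.s3 (.s3 (.s3 (.s3 (.s3 (.s3 (.s3 (.s3 (.s3 (.s3 (.s3 (.s3 (.s3 (.s3 (.s3 (.s3 (.s3 (.s3 (.s3 (.s3 (.s3 (.s3 (.s3 (.s3 (.s3 (.s3 (.s3 (.s3 (.s3 (.s3 (.s3 (.s3 (.s3 (.s3 (.s3 (.s2 .lf .sk) .sk) .sk) .sk) .sk) .sk) .sk) .sk) .sk) .sk) .sk) .sk) .sk) .sk) .sk) .sk) .sk) .sk) .sk) .sk) .sk) .sk) .sk) .sk) .sk) .sk) .sk) .sk) .sk) .sk) .sk) .sk)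 .sk) .sk) .sk) .sk) .sk) .sk) .sk) .sk) .sk) .sk) .sk) .sk) .sk) .sk) .sk) .sk) .sk) .sk

theorem cR379 : run runR tR379 32281802128991715328 4611686018427387904 9223372036854775808 9223372036854775808 = true := by decide +kernel

def tR380 : Tr := .s2 (.s3 (.s2 (.s3 (.s3 (.s2 (.s3 (.s2 (.s3 .lf .sk) .sk) .sk) .sk) .sk) .sk) .sk) .sk) .sk

theorem cR380 : run runR tR380 27670116110564327424 9223372036854775808 27670116110564327424 9223372036854775808 = true := by decide +kernel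

end Vale.Agent.Lib.P154.Neg.Ck
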