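import Vale.Agent.Lib.P154.Neg.CkRuns

/-! Kernel evaluation, run R, part 5. -/

namespace Vale.Agent.Lib.P154.Neg.Ck

set_option maxRecDepth 100000

def tR48 : Tr := Tr.lf

theorem cR48 : run runR tR48 211106232532992 70368744177664 105553116266496 35184372088832 = true := by decide +kernel

def tR49 : Tr := Tr.lf

theorem cR49 : run runR tR49 211106232532992 70368744177664 211106232532992 70368744177664 = true := by decide +kernel

def tR50 : Tr := Tr.sk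

theorem cR50 : run runR tR50 140737488355328 140737488355328 422212465065984 140737488355328 = true := by decide +kernel

def tR51 : Tr := .s3 (.s3 (.s3 (.s3 (.s3 (.s3 (.s3 (.s3 (.s3 (.s3 (.s3 (.s3 (.s3 (.s3 (.s3 (.s3 (.s3 (.s3 (.s3 (.s3 (.s3 (.s3 (.s3 (.s3 (.s3 (.s3 (.s3 (.s3 (.s3 (.s2 .lf .lf) (.s2 .lf .lf)) (.s2 .lf .lf)) (.s2 .lf .lf)) (.s2 .lf .lf)) (.s2 .lf .lf)) (.s2 .lf .lf)) (.s2 .lf .lf)) (.s2 .lf .lf)) (.s2 .lf .lf)) (.s2 .lf .lf)) (.s2 .lf .lf)) (.s2 .lf .lf)) (.s2 .lf .lf)) (.s2 .lf .lf)) (.s2 .lf .lf)) (.s2 .lf .lf)) (.s2 .lf .lf)) (.s2 .lf .lf)) (.s2 .lf .lf)) (.s2 .lf .lf)) (.s2 .lf .lf)) (.s2 .lf .lf)) (.s2 .lf .lf)) (.s2 .lf .lf)) (.s2 .lf .lf)) (.s2 .lf .lf)) (.s2 .lf .lf)) (.s2 .lf .lf)) (.s2 .lf .lf)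

theorem cR51 : run runR tR51 422212465065984 140737488355328 17592186044416 17592186044416 = true := by decide +kernel

def tR52 : Tr := .s2 .lf .lf

theorem cR52 : run runR tR52 422212465065984 140737488355328 52776558133248 17592186044416 = true := by decide +kernel

def tR53 : Tr := .s2 .lf .lf

theorem cR53 : run runR tR53 422212465065984 140737488355328 105553116266496 35184372088832 = true := by decide +kernel

def tR54 : Tr := .s2 .lf .lf

theorem cR54 : run runR tR54 422212465065984 140737488355328 211106232532992 70368744177664 = true := by decide +kernel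

def tR55 : Tr := .s3 .lf .lf

theorem cR55 : run runR tR55 422212465065984 140737488355328 422212465065984 140737488355328 = true := by decide +kernel

def tR56 : Tr := Tr.sk

theorem cR56 : run runR tR56 281474976710656 281474976710656 844424930131968 281474976710656 = true := by decide +kernel

def tR57 : Tr := .s3 (.s3 (.s3 (.s3 (.s3 (.s3 (.s3 (.s3 (.s3 (.s3 (.s3 (.s3 (.s3 (.s3 (.s3 (.s3 (.s3 (.s3 (.s3 (.s3 (.s3 (.s3 (.s3 (.s3 (.s3 (.s3 (.s3 (.s3 (.s3 (.s2 .lf .lf) (.s2 .lf .lf)) (.s2 .lf .lf)) (.s2 .lf .lf)) (.s2 .lf .lf)) (.s2 .lf .lf)) (.s2 .lf .lf)) (.s2 .lf .lf)) (.s2 .lf .lf)) (.s2 .lf .lf)) (.s2 .lf .lf)) (.s2 .lf .lf)) (.s2 .lf .lf)) (.s2 .lf .lf)) (.s2 .lf .lf)) (.s2 .lf .lf)) (.s2 .lf .lf)) (.s2 .lf .lf)) (.s2 .lf .lf)) (.s2 .lf .lf)) (.s2 .lf .lf)) (.s2 .lf .lf)) (.s2 .lf .lf)) (.s2 .lf .lf)) (.s2 .lf .lf)) (.s2 .lf .lf)) (.s2 .lf .lf)) (.s2 .lf .lf)) (.s2 .lf .lf)) (.s2 .lf .lf)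

theorem cR57 : run runR tR57 844424930131968 281474976710656 17592186044416 17592186044416 = true := by decide +kernel

end Vale.Agent.Lib.P154.Neg.Ck
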