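import Vale.Agent.Lib.P154.Neg.CkRuns

/-! Kernel evaluation, run R, part 6. -/

namespace Vale.Agent.Lib.P154.Neg.Ck

set_option maxRecDepth 100000

def tR58 : Tr := .s2 .lf .lf

theorem cR58 : run runR tR58 844424930131968 281474976710656 52776558133248 17592186044416 = true := by decide +kernel

def tR59 : Tr := .s2 .lf .lf

theorem cR59 : run runR tR59 844424930131968 281474976710656 105553116266496 35184372088832 = true := by decide +kernel

def tR60 : Tr := .s2 .lf .lf

theorem cR60 : run runR tR60 844424930131968 281474976710656 211106232532992 70368744177664 = true := by decide +kernel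

def tR61 : Tr := .s2 .lf .lf

theorem cR61 : run runR tR61 844424930131968 281474976710656 422212465065984 140737488355328 = true := by decide +kernel

def tR62 : Tr := .s3 .lf .lf

theorem cR62 : run runR tR62 844424930131968 281474976710656 844424930131968 281474976710656 = true := by decide +kernel

def tR63 : Tr := Tr.sk

theorem cR63 : run runR tR63 562949953421312 562949953421312 1688849860263936 562949953421312 = true := by decide +kernel

def tR64 : Tr := .s3 (.s3 (.s3 (.s3 (.s3 (.s3 (.s3 (.s3 (.s3 (.s3 (.s3 (.s3 (.s3 (.s3 (.s3 (.s3 (.s3 (.s3 (.s3 (.s3 (.s3 (.s3 (.s3 (.s3 (.s3 (.s3 (.s3 (.s3 (.s3 (.s2 .lf .lf) (.s2 .lf .lf)) (.s2 .lf .lf)) (.s2 .lf .lf)) (.s2 .lf .lf)) (.s2 .lf .lf)) (.s2 .lf .lf)) (.s2 .lf .lf)) (.s2 .lf .lf)) (.s2 .lf .lf)) (.s2 .lf .lf)) (.s2 .lf .lf)) (.s2 .lf .lf)) (.s2 .lf .lf)) (.s2 .lf .lf)) (.s2 .lf .lf)) (.s2 .lf .lf)) (.s2 .lf .lf)) (.s2 .lf .lf)) (.s2 .lf .lf)) (.s2 .lf .lf)) (.s2 .lf .lf)) (.s2 .lf .lf)) (.s2 .lf .lf)) (.s2 .lf .lf)) (.s2 .lf .lf)) (.s2 .lf .lf))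 (.s2 .lf .lf)) (.s2 .lf .lf)) (.s2 .lf .lf)

theorem cR64 : run runR tR64 1688849860263936 562949953421312 17592186044416 17592186044416 = true := by decide +kernel

def tR65 : Tr := .s2 .lf .lf

theorem cR65 : run runR tR65 1688849860263936 562949953421312 52776558133248 17592186044416 = true := by decide +kernel

def tR66 : Tr := .s2 .lf .lf

theorem cR66 : run runR tR66 1688849860263936 562949953421312 105553116266496 35184372088832 = true := by decide +kernel

def tR67 : Tr := .s2 .lf .lf

theorem cR67 : run runR tR67 1688849860263936 562949953421312 211106232532992 70368744177664 = true := by decide +kernel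

end Vale.Agent.Lib.P154.Neg.Ck
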