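import Vale.Agent.Lib.P154.Neg.CkRuns

/-! Kernel evaluation, run R, part 7. -/

namespace Vale.Agent.Lib.P154.Neg.Ck

set_option maxRecDepth 100000

def tR68 : Tr := .s2 .lf .lf

theorem cR68 : run runR tR68 1688849860263936 562949953421312 422212465065984 140737488355328 = true := by decide +kernel

def tR69 : Tr := .s2 .lf .lf

theorem cR69 : run runR tR69 1688849860263936 562949953421312 844424930131968 281474976710656 = true := by decide +kernel

def tR70 : Tr := .s3 .lf .lf

theorem cR70 : run runR tR70 1688849860263936 562949953421312 1688849860263936 562949953421312 = true := by decide +kernel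

def tR71 : Tr := Tr.sk

theorem cR71 : run runR tR71 1125899906842624 1125899906842624 3377699720527872 1125899906842624 = true := by decide +kernel

def tR72 : Tr := .s3 (.s3 (.s3 (.s3 (.s3 (.s3 (.s3 (.s3 (.s3 (.s3 (.s3 (.s3 (.s3 (.s3 (.s3 (.s3 (.s3 (.s3 (.s3 (.s3 (.s3 (.s3 (.s3 (.s3 (.s3 (.s3 (.s3 (.s3 (.s3 (.s2 .lf .lf) (.s2 .lf .lf)) (.s2 .lf .lf)) (.s2 .lf .lf)) (.s2 .lf .lf)) (.s2 .lf .lf)) (.s2 .lf .lf)) (.s2 .lf .lf)) (.s2 .lf .lf)) (.s2 .lf .lf)) (.s2 .lf .lf)) (.s2 .lf .lf)) (.s2 .lf .lf)) (.s2 .lf .lf)) (.s2 .lf .lf)) (.s2 .lf .lf)) (.s2 .lf .lf)) (.s2 .lf .lf)) (.s2 .lf .lf)) (.s2 .lf .lf)) (.s2 .lf .lf)) (.s2 .lf .lf)) (.s2 .lf .lf)) (.s2 .lf .lf)) (.s2 .lf .lf)) (.s2 .lf .lf)) (.s2 .lf .lf)) (.s2 .lf .lf)) (.s2 .lf .lf)) (.s2 .lf .lf)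

theorem cR72 : run runR tR72 3377699720527872 1125899906842624 17592186044416 17592186044416 = true := by decide +kernel

def tR73 : Tr := .s2 .lf .lf

theorem cR73 : run runR tR73 3377699720527872 1125899906842624 52776558133248 17592186044416 = true := by decide +kernel

def tR74 : Tr := .s2 .lf .lf

theorem cR74 : run runR tR74 3377699720527872 1125899906842624 105553116266496 35184372088832 = true := by decide +kernel

def tR75 : Tr := .s2 .lf .lf

theorem cR75 : run runR tR75 3377699720527872 1125899906842624 211106232532992 70368744177664 = true := by decide +kernel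

def tR76 : Tr := .s2 .lf .lf

theorem cR76 : run runR tR76 3377699720527872 1125899906842624 422212465065984 140737488355328 = true := by decide +kernel

def tR77 : Tr := .s2 .lf .lf

theorem cR77 : run runR tR77 3377699720527872 1125899906842624 844424930131968 281474976710656 = true := by decide +kernel

end Vale.Agent.Lib.P154.Neg.Ck
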