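import Vale.Agent.Lib.P154.Neg.CkRuns

/-! Kernel evaluation, run R, part 8. -/

namespace Vale.Agent.Lib.P154.Neg.Ck

set_option maxRecDepth 100000

def tR78 : Tr := .s2 .lf .lf

theorem cR78 : run runR tR78 3377699720527872 1125899906842624 1688849860263936 562949953421312 = true := by decide +kernel

def tR79 : Tr := .s3 .lf .lf

theorem cR79 : run runR tR79 3377699720527872 1125899906842624 3377699720527872 1125899906842624 = true := by decide +kernel

def tR80 : Tr := Tr.sk

theorem cR80 : run runR tR80 2251799813685248 2251799813685248 6755399441055744 2251799813685248 = true := by decide +kernel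

def tR81 : Tr := .s3 (.s3 (.s3 (.s3 (.s3 (.s3 (.s3 (.s3 (.s3 (.s3 (.s3 (.s3 (.s3 (.s3 (.s3 (.s3 (.s3 (.s3 (.s3 (.s3 (.s3 (.s3 (.s3 (.s3 (.s3 (.s3 (.s3 (.s3 (.s3 (.s2 .lf .lf) (.s2 .lf .lf)) (.s2 .lf .lf)) (.s2 .lf .lf)) (.s2 .lf .lf)) (.s2 .lf .lf)) (.s2 .lf .lf)) (.s2 .lf .lf)) (.s2 .lf .lf)) (.s2 .lf .lf)) (.s2 .lf .lf)) (.s2 .lf .lf)) (.s2 .lf .lf)) (.s2 .lf .lf)) (.s2 .lf .lf)) (.s2 .lf .lf)) (.s2 .lf .lf)) (.s2 .lf .lf)) (.s2 .lf .lf)) (.s2 .lf .lf)) (.s2 .lf .lf)) (.s2 .lf .lf)) (.s2 .lf .lf)) (.s2 .lf .lf)) (.s2 .lf .lf)) (.s2 .lf .lf)) (.s2 .lf .lf)) (.s2 .lf .lf)) (.s2 .lf .lf)) (.s2 .lf .lf)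

theorem cR81 : run runR tR81 6755399441055744 2251799813685248 17592186044416 17592186044416 = true := by decide +kernel

def tR82 : Tr := .s2 .lf .lf

theorem cR82 : run runR tR82 6755399441055744 2251799813685248 52776558133248 17592186044416 = true := by decide +kernel

def tR83 : Tr := .s2 .lf .lf

theorem cR83 : run runR tR83 6755399441055744 2251799813685248 105553116266496 35184372088832 = true := by decide +kernel

def tR84 : Tr := .s2 .lf .lf

theorem cR84 : run runR tR84 6755399441055744 2251799813685248 211106232532992 70368744177664 = true := by decide +kernel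

def tR85 : Tr := .s2 .lf .lf

theorem cR85 : run runR tR85 6755399441055744 2251799813685248 422212465065984 140737488355328 = true := by decide +kernel

def tR86 : Tr := .s2 .lf .lf

theorem cR86 : run runR tR86 6755399441055744 2251799813685248 844424930131968 281474976710656 = true := by decide +kernel

def tR87 : Tr := .s2 .lf .lf

theorem cR87 : run runR tR87 6755399441055744 2251799813685248 1688849860263936 562949953421312 = true := by decide +kernel

end Vale.Agent.Lib.P154.Neg.Ck
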