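import Vale.Agent.Lib.P154.Neg.CkRuns

/-! Kernel evaluation, run R, part 9. -/

namespace Vale.Agent.Lib.P154.Neg.Ck

set_option maxRecDepth 100000

def tR88 : Tr := .s2 .lf .lf

theorem cR88 : run runR tR88 6755399441055744 2251799813685248 3377699720527872 1125899906842624 = true := by decide +kernel

def tR89 : Tr := .s3 .lf .lf

theorem cR89 : run runR tR89 6755399441055744 2251799813685248 6755399441055744 2251799813685248 = true := by decide +kernel

def tR90 : Tr := Tr.sk

theorem cR90 : run runR tR90 4503599627370496 4503599627370496 13510798882111488 4503599627370496 = true := by decide +kernel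

def tR91 : Tr := .s3 (.s3 (.s3 (.s3 (.s3 (.s3 (.s3 (.s3 (.s3 (.s3 (.s3 (.s3 (.s3 (.s3 (.s3 (.s3 (.s3 (.s3 (.s3 (.s3 (.s3 (.s3 (.s3 (.s3 (.s3 (.s3 (.s3 (.s3 (.s3 (.s2 .lf .lf) (.s2 .lf .lf)) (.s2 .lf .lf)) (.s2 .lf .lf)) (.s2 .lf .lf)) (.s2 .lf .lf)) (.s2 .lf .lf)) (.s2 .lf .lf)) (.s2 .lf .lf)) (.s2 .lf .lf)) (.s2 .lf .lf)) (.s2 .lf .lf)) (.s2 .lf .lf)) (.s2 .lf .lf)) (.s2 .lf .lf)) (.s2 .lf .lf)) (.s2 .lf .lf)) (.s2 .lf .lf)) (.s2 .lf .lf)) (.s2 .lf .lf)) (.s2 .lf .lf)) (.s2 .lf .lf)) (.s2 .lf .lf)) (.s2 .lf .lf)) (.s2 .lf .lf)) (.s2 .lf .lf)) (.s2 .lf .lf)) (.s2 .lf .lf)) (.s2 .lf .lf)) (.s2 .lf .lf)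

theorem cR91 : run runR tR91 13510798882111488 4503599627370496 17592186044416 17592186044416 = true := by decide +kernel

def tR92 : Tr := .s2 .lf .lf

theorem cR92 : run runR tR92 13510798882111488 4503599627370496 52776558133248 17592186044416 = true := by decide +kernel

def tR93 : Tr := .s2 .lf .lf

theorem cR93 : run runR tR93 13510798882111488 4503599627370496 105553116266496 35184372088832 = true := by decide +kernel

def tR94 : Tr := .s2 .lf .lf

theorem cR94 : run runR tR94 13510798882111488 4503599627370496 211106232532992 70368744177664 = true := by decide +kernel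

def tR95 : Tr := .s2 .lf .lf

theorem cR95 : run runR tR95 13510798882111488 4503599627370496 422212465065984 140737488355328 = true := by decide +kernel

def tR96 : Tr := .s2 .lf .lf

theorem cR96 : run runR tR96 13510798882111488 4503599627370496 844424930131968 281474976710656 = true := by decide +kernel

def tR97 : Tr := .s2 .lf .lf

theorem cR97 : run runR tR97 13510798882111488 4503599627370496 1688849860263936 562949953421312 = true := by decide +kernel

end Vale.Agent.Lib.P154.Neg.Ck
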