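import Vale.Agent.Lib.P154.Neg.CkSound
import Vale.Agent.Lib.P154.Neg.CkRuns

/-!
Outcome of a run (`Run.Holds`), value of a task on the basis of the dictionary `dI`, and membership
in the region of a run.
-/

namespace Vale.Agent.Lib.P154.Neg.Ck

open scoped BigOperators

/-- all tasks of the run are nonnegative on its region -/
def Run.Holds (R : Run) : Prop := ∀ t ∈ R.ts, ∀ y, R.Reg y → 0 ≤ R.val t y

/-- value of a task for the dictionary `dI` -/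
theorem val_dI {R : Run} (hD : R.D = dI) (hz : R.z = false) (t : Tk) (y : Fin 3 → ℝ) :
    R.val t y = ((t.p0 : ℝ) - t.n0) + ((t.p1 : ℝ) - t.n1) * Fn (8, 0) y
      + ((t.p2 : ℝ) - t.n2) * Fn (8, 4) y + ((t.p3 : ℝ) - t.n3) * Fn (8, 8) y
      + ((t.p4 : ℝ) - t.n4) * Fn (8, 16) y + ((t.p5 : ℝ) - t.n5) * Fn (7, 8) y
      + ((t.p6 : ℝ) - t.n6) * Fn (6, 8) y + ((t.p7 : ℝ) - t.n7) * QQ y
      + ((t.p8 : ℝ) - t.n8) * Neg.RR y + ((t.p9 : ℝ) - t.n9) * QQ y ^ 2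
      + ((t.p10 : ℝ) - t.n10) * QQ y ^ 4 := by
  unfold Run.val Tk.val Run.basis
  rw [hD, hz]
  simp [dI]

theorem val_dK {R : Run} (hD : R.D = dK) (hz : R.z = false) (t : Tk) (y : Fin 3 → ℝ) :
    R.val t y = ((t.p0 : ℝ) - t.n0) + ((t.p1 : ℝ) - t.n1) * Fn (6, 7) y
      + ((t.p2 : ℝ) - t.n2) * Fn (6, 8) y + ((t.p3 : ℝ) - t.n3) * QQ y
      + ((t.p4 : ℝ) - t.n4) * Neg.RR y + ((t.p5 : ℝ) - t.n5) * QQ y ^ 2
      + ((t.p6 : ℝ) - t.n6) * QQ y ^ 4 := by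
  unfold Run.val Tk.val Run.basis
  rw [hD, hz]
  simp [dK]

theorem val_dR {R : Run} (hD : R.D = dR) (hz : R.z = true) (t : Tk) (y : Fin 3 → ℝ) :
    R.val t y = ((t.p0 : ℝ) - t.n0) + ((t.p1 : ℝ) - t.n1) * Fn (8, 4) y
      + ((t.p2 : ℝ) - t.n2) * Fn (8, 6) y + ((t.p3 : ℝ) - t.n3) * Fn (8, 16) y
      + ((t.p4 : ℝ) - t.n4) * Fn (6, 8) y + ((t.p5 : ℝ) - t.n5) * Fn (7, 8) y
      + ((t.p6 : ℝ) - t.n6) * Fn (6, 7) y
      + ((t.p7 : ℝ) - t.n7) * Fn (8, 4) (fun i => (3 - y i) / 2)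
      + ((t.p8 : ℝ) - t.n8) * Fn (8, 6) (fun i => (3 - y i) / 2)
      + ((t.p9 : ℝ) - t.n9) * Fn (8, 16) (fun i => (3 - y i) / 2)
      + ((t.p10 : ℝ) - t.n10) * Fn (6, 8) (fun i => (3 - y i) / 2)
      + ((t.p11 : ℝ) - t.n11) * Fn (7, 8) (fun i => (3 - y i) / 2)
      + ((t.p12 : ℝ) - t.n12) * Fn (6, 7) (fun i => (3 - y i) / 2) := by
  unfold Run.val Tk.val Run.basis
  rw [hD, hz]
  simp [dR]

theorem Sx_le {y : Fin 3 → ℝ} (hy : Sx y) (i : Fin 3) : y i ≤ 3 := by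
  have hs := hy.2
  rw [Fin.sum_univ_three] at hs
  have a0 := hy.1 0
  have a1 := hy.1 1
  have a2 := hy.1 2
  fin_cases i <;> simp only [Fin.zero_eta, Fin.mk_one, Fin.reduceFinMk] <;> linarith

theorem Sx_abs {y : Fin 3 → ℝ} (hy : Sx y) (i : Fin 3) : |y i - 1| ≤ 2 := by
  have h1 := Sx_le hy i
  have h2 := hy.1 i
  rw [abs_le]
  constructor <;> linarith

/-- membership in the region of a run, real bounds -/
theorem reg_of {R : Run} {y : Fin 3 → ℝ} (hy : Sx y) (ym lo hi : ℝ) (h1 : ∀ i, y i ≤ ym)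
    (h2 : ∃ i, lo ≤ |y i - 1|) (h3 : ∀ i, |y i - 1| ≤ hi) (e1 : ym * 2 ^ 64 ≤ R.ymax)
    (e2 : (R.rlo : ℝ) ≤ lo * 2 ^ 64) (e3 : hi * 2 ^ 64 ≤ R.rhi) : R.Reg y := by
  have hp : (0 : ℝ) < 2 ^ 64 := by positivity
  refine ⟨hy, fun i => ?_, ?_, fun i => ?_⟩
  · exact (mul_le_mul_of_nonneg_right (h1 i) hp.le).trans e1
  · obtain ⟨i, hi⟩ := h2
    exact ⟨i, e2.trans (mul_le_mul_of_nonneg_right hi hp.le)⟩
  · exact (mul_le_mul_of_nonneg_right (h3 i) hp.le).trans e3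

end Vale.Agent.Lib.P154.Neg.Ck
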