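import Vale.Agent.Lib.P154.Neg.CkDefs

/-! From the separated inequalities to the recursion inequality. -/

namespace Vale.Agent.Lib.P154.Neg

open scoped BigOperators

private theorem ifc_chan (lam : ℝ) {y : Fin 3 → ℝ} (hy : Sx y) (i : Fin 3) :
    chan 3 lam y i = 1 + lam * (y i - 1) := by
  have hs := hy.2
  unfold chan potts
  simp only [add_mul, Finset.sum_add_distrib, ite_mul, zero_mul, Finset.sum_ite_eq,
    Finset.mem_univ, if_true]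
  rw [← Finset.mul_sum, hs]
  push_cast
  ring

private theorem ifc_QQ (lam : ℝ) {y : Fin 3 → ℝ} (hy : Sx y) :
    QQ (chan 3 lam y) = lam ^ 2 * QQ y := by
  unfold QQ
  rw [ifc_chan lam hy, ifc_chan lam hy, ifc_chan lam hy]
  ring

private theorem ifc_RR (lam : ℝ) {y : Fin 3 → ℝ} (hy : Sx y) :
    RR (chan 3 lam y) = lam ^ 3 * RR y := by
  unfold RR
  rw [ifc_chan lam hy, ifc_chan lam hy, ifc_chan lam hy]
  ring

private theorem ifc_QQ_nonneg (y : Fin 3 → ℝ) : 0 ≤ QQ y := by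
  unfold QQ
  positivity

private theorem ifc_Sx {lam : ℝ} (h0 : -(1 / 2) ≤ lam) (h1 : lam ≤ 0) {y : Fin 3 → ℝ}
    (hy : Sx y) : Sx (chan 3 lam y) := by
  have hs := hy.2
  rw [Fin.sum_univ_three] at hs
  have hle : ∀ i, y i ≤ 3 := by
    intro i
    have a0 := hy.1 0
    have a1 := hy.1 1
    have a2 := hy.1 2
    fin_cases i <;> simp only [Fin.zero_eta, Fin.mk_one, Fin.reduceFinMk] <;> linarith
  refine ⟨fun i => ?_, ?_⟩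
  · rw [ifc_chan lam hy]
    have := hle i
    have := hy.1 i
    nlinarith
  · rw [Fin.sum_univ_three, ifc_chan lam hy, ifc_chan lam hy, ifc_chan lam hy]
    have e : 1 + lam * (y 0 - 1) + (1 + lam * (y 1 - 1)) + (1 + lam * (y 2 - 1))
        = 3 + lam * (y 0 + y 1 + y 2 - 3) := by ring
    rw [e, hs]
    ring

private theorem ifc_le {s lam : ℝ} (h0 : -s ≤ lam) (h1 : lam ≤ 0) {y : Fin 3 → ℝ}
    (hy : Sx y) (i : Fin 3) : chan 3 lam y i ≤ 1 + s := by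
  rw [ifc_chan lam hy]
  have := hy.1 i
  nlinarith

/-- Main certificates: `s` is the bound on `-lam` (`1/2` or `229/512`). -/
theorem iface (s : ℝ) (hs0 : 0 ≤ s) (hs1 : s ≤ 1 / 2) (W G : Fin 5 → ℝ)
    (nu m0 p1 p2 p3 p4 : ℝ) (hp1 : 0 ≤ p1) (hp3 : 0 ≤ p3) (hp4 : 0 ≤ p4)
    (hY0 : ∀ y, Sx y → 0 ≤ ∑ a, W a * (1 - Fn (fT a) y) - (1 - Fn fR y) + m0 - p1 * QQ y)
    (hY1 : ∀ y, Sx y → 0 ≤ ∑ a, W a * (1 - Fn (fT a) y) - (1 - Fn fR y) + m0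
      - (p1 * QQ y - s * p2 * RR y + s ^ 2 * p3 * QQ y ^ 2 + s ^ 6 * p4 * QQ y ^ 4))
    (hZ : ∀ w, Sx w → (∀ i, w i ≤ 1 + s) → 0 ≤ p1 * QQ w + p2 * RR w + p3 * QQ w ^ 2
      + p4 * QQ w ^ 4 - ∑ a, G a * (1 - Fn (fT a) w) + nu * (1 - Fn fR w))
    (lam : ℝ) (hl0 : -s ≤ lam) (hl1 : lam ≤ 0) (D : ℝ) (hD : 0 < D) (hD1 : D * lam ^ 2 ≤ 1)
    (y : Fin 3 → ℝ) (hy : Sx y) :
    0 ≤ ∑ a, W a * (1 - Fn (fT a) y) - (1 - Fn fR y) + m0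
      - D * (∑ a, G a * (1 - Fn (fT a) (chan 3 lam y)) - nu * (1 - Fn fR (chan 3 lam y))) := by
  have hz := hZ (chan 3 lam y) (ifc_Sx (by linarith) hl1 hy) (fun i => ifc_le hl0 hl1 hy i)
  rw [ifc_QQ lam hy, ifc_RR lam hy] at hz
  have h0 := hY0 y hy
  have h1 := hY1 y hy
  have hQ := ifc_QQ_nonneg y
  obtain ⟨Z, hZ'⟩ : ∃ Z, Z = ∑ a, G a * (1 - Fn (fT a) (chan 3 lam y))
    - nu * (1 - Fn fR (chan 3 lam y)) := ⟨_, rfl⟩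
  obtain ⟨Y, hY⟩ : ∃ Y, Y = ∑ a, W a * (1 - Fn (fT a) y) - (1 - Fn fR y) + m0 := ⟨_, rfl⟩
  obtain ⟨Q, hQ'⟩ : ∃ Q, Q = QQ y := ⟨_, rfl⟩
  obtain ⟨R, hR'⟩ : ∃ R, R = RR y := ⟨_, rfl⟩
  rw [← hZ', ← hY]
  rw [← hY, ← hQ'] at h0
  rw [← hY, ← hQ', ← hR'] at h1
  rw [← hQ', ← hR'] at hz
  rw [← hQ'] at hQ
  have hz2 : Z ≤ lam ^ 2 * (p1 * Q + p2 * (lam * R) + p3 * (lam ^ 2 * Q ^ 2)
      + p4 * (lam ^ 6 * Q ^ 4)) := by
    rw [hZ']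
    have e : lam ^ 2 * (p1 * Q + p2 * (lam * R) + p3 * (lam ^ 2 * Q ^ 2)
      + p4 * (lam ^ 6 * Q ^ 4)) = p1 * (lam ^ 2 * Q) + p2 * (lam ^ 3 * R)
      + p3 * (lam ^ 2 * Q) ^ 2 + p4 * (lam ^ 2 * Q) ^ 4 := by ring
    rw [e]
    linarith
  obtain ⟨P, hP⟩ : ∃ P, P = p1 * Q + p2 * (lam * R) + p3 * (lam ^ 2 * Q ^ 2)
      + p4 * (lam ^ 6 * Q ^ 4) := ⟨_, rfl⟩
  rw [← hP] at hz2
  have hp1Q : 0 ≤ p1 * Q := mul_nonneg hp1 hQ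
  have hY0' : 0 ≤ Y := by linarith
  -- bound of `P`
  have hPY : P ≤ Y := by
    rcases hs0.eq_or_lt with hs | hs
    · have hl : lam = 0 := by rw [← hs] at hl0; linarith
      rw [hP, hl]
      have : p1 * Q + p2 * (0 * R) + p3 * (0 ^ 2 * Q ^ 2) + p4 * (0 ^ 6 * Q ^ 4) = p1 * Q := by
        ring
      rw [this]
      linarith
    · obtain ⟨τ, hτ⟩ : ∃ τ, τ = -lam := ⟨_, rfl⟩
      have hlam : lam = -τ := by rw [hτ, neg_neg]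
      have hτ0 : 0 ≤ τ := by rw [hτ]; linarith
      have hτs : τ ≤ s := by rw [hτ]; linarith
      have hPe : P = p1 * Q - τ * (p2 * R) + τ ^ 2 * (p3 * Q ^ 2) + τ ^ 6 * (p4 * Q ^ 4) := by
        rw [hP, hlam]
        ring
      have k2 : s * τ ^ 2 ≤ τ * s ^ 2 := by
        have := mul_le_mul_of_nonneg_left hτs (mul_nonneg hs0 hτ0)
        nlinarith
      have k6 : s * τ ^ 6 ≤ τ * s ^ 6 := by
        have h5 : τ ^ 5 ≤ s ^ 5 := pow_le_pow_left₀ hτ0 hτs 5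
        have := mul_le_mul_of_nonneg_left h5 (mul_nonneg hs0 hτ0)
        calc s * τ ^ 6 = s * τ * τ ^ 5 := by ring
          _ ≤ s * τ * s ^ 5 := this
          _ = τ * s ^ 6 := by ring
      have k2' := mul_le_mul_of_nonneg_right k2 (mul_nonneg hp3 (sq_nonneg Q))
      have k6' := mul_le_mul_of_nonneg_right k6
        (mul_nonneg hp4 (by positivity : (0:ℝ) ≤ Q ^ 4))
      have m0' := mul_le_mul_of_nonneg_left (sub_nonneg.1 h0) (sub_nonneg.2 hτs)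
      have m1' := mul_le_mul_of_nonneg_left (sub_nonneg.1 h1) hτ0
      have fin : s * P ≤ s * Y := by
        rw [hPe]
        calc s * (p1 * Q - τ * (p2 * R) + τ ^ 2 * (p3 * Q ^ 2) + τ ^ 6 * (p4 * Q ^ 4))
            = s * (p1 * Q) - s * τ * (p2 * R) + s * τ ^ 2 * (p3 * Q ^ 2)
              + s * τ ^ 6 * (p4 * Q ^ 4) := by ring
          _ ≤ s * (p1 * Q) - s * τ * (p2 * R) + τ * s ^ 2 * (p3 * Q ^ 2)
              + τ * s ^ 6 * (p4 * Q ^ 4) := by linarith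
          _ = (s - τ) * (p1 * Q) + τ * (p1 * Q - s * p2 * R + s ^ 2 * p3 * Q ^ 2
              + s ^ 6 * p4 * Q ^ 4) := by ring
          _ ≤ (s - τ) * Y + τ * Y := by linarith
          _ = s * Y := by ring
      exact le_of_mul_le_mul_left fin hs
  have hfin : D * Z ≤ Y := by
    have h2 : D * Z ≤ D * (lam ^ 2 * P) := mul_le_mul_of_nonneg_left hz2 hD.le
    have h3 : 0 ≤ D * lam ^ 2 := by positivity
    rcases le_total P 0 with hP0 | hP0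
    · have : D * (lam ^ 2 * P) = (D * lam ^ 2) * P := by ring
      rw [this] at h2
      have h4 : (D * lam ^ 2) * P ≤ 0 := mul_nonpos_of_nonneg_of_nonpos h3 hP0
      linarith
    · have : D * (lam ^ 2 * P) = (D * lam ^ 2) * P := by ring
      rw [this] at h2
      have h4 : (D * lam ^ 2) * P ≤ 1 * P := mul_le_mul_of_nonneg_right hD1 hP0
      linarith
  linarith

/-- Small-`B` family. -/
theorem iface_small (W c : Fin 5 → ℝ) (nu1 p1 p3 p4 A1 a2 a4 rho B1 r : ℝ)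
    (hp3 : 0 ≤ p3) (hp4 : 0 ≤ p4) (hA : 0 ≤ A1) (ha2 : 0 ≤ a2) (ha4 : 0 ≤ a4) (hp1 : 0 ≤ p1)
    (hrho : 0 < rho) (hB1 : 0 < B1) (hr : 0 < r)
    (hY1 : ∀ y, Sx y → (∀ i, |y i - 1| ≤ r) → 0 ≤ ∑ a, W a * (1 - Fn (fT a) y) - (1 - Fn fR y)
      - (p1 * QQ y + (p3 / 4 + rho + B1 * a2 / 4) * QQ y ^ 2 + (p4 + B1 * a4) / 64 * QQ y ^ 4))
    (hY2 : ∀ y, Sx y → (∃ i, r ≤ |y i - 1|) → 0 ≤ ∑ a, W a * (1 - Fn (fT a) y) - (1 - Fn fR y)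
      - ((p1 + A1 * B1) * QQ y + (p3 / 4 + B1 * a2 / 4) * QQ y ^ 2
        + (p4 + B1 * a4) / 64 * QQ y ^ 4))
    (hZ0 : ∀ w, Sx w → (∀ i, w i ≤ 3 / 2) → 0 ≤ p1 * QQ w + p3 * QQ w ^ 2 + p4 * QQ w ^ 4
      - (∑ a, W a * (1 - Fn (fT a) w) - (1 - Fn fR w)))
    (hZ1 : ∀ w, Sx w → (∀ i, w i ≤ 3 / 2) → 0 ≤ A1 * QQ w + a2 * QQ w ^ 2 + a4 * QQ w ^ 4
      + (∑ a, W a * c a * (1 - Fn (fT a) w) - nu1 * (1 - Fn fR w)))
    (B : ℝ) (hB0 : 0 ≤ B) (hB : B ≤ B1)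
    (lam : ℝ) (hl0 : -(1 / 2) ≤ lam) (hl1 : lam ≤ 0) (D : ℝ) (hD : 0 < D)
    (hD1 : D * lam ^ 2 ≤ 1) (y : Fin 3 → ℝ) (hy : Sx y) :
    0 ≤ ∑ a, W a * (1 - Fn (fT a) y) - (1 - Fn fR y) + A1 ^ 2 / (4 * rho) * B ^ 2
      - D * (∑ a, W a * (1 - c a * B) * (1 - Fn (fT a) (chan 3 lam y))
        - (1 - nu1 * B) * (1 - Fn fR (chan 3 lam y))) := by
  have _ := hB1
  have _ := hr
  have hS := ifc_Sx hl0 hl1 hy
  have h32 : ∀ i, chan 3 lam y i ≤ 3 / 2 := fun i => by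
    have := ifc_le hl0 hl1 hy i
    linarith
  have hz0 := hZ0 (chan 3 lam y) hS h32
  have hz1 := hZ1 (chan 3 lam y) hS h32
  have hQ := ifc_QQ_nonneg y
  rw [ifc_QQ lam hy] at hz0 hz1
  have esum : ∑ a, W a * (1 - c a * B) * (1 - Fn (fT a) (chan 3 lam y))
      = ∑ a, W a * (1 - Fn (fT a) (chan 3 lam y))
        - B * ∑ a, W a * c a * (1 - Fn (fT a) (chan 3 lam y)) := by
    rw [Finset.mul_sum, ← Finset.sum_sub_distrib]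
    exact Finset.sum_congr rfl fun a _ => by ring
  rw [esum]
  obtain ⟨S1, hS1⟩ : ∃ S1, S1 = ∑ a, W a * (1 - Fn (fT a) (chan 3 lam y)) := ⟨_, rfl⟩
  obtain ⟨S2, hS2⟩ : ∃ S2, S2 = ∑ a, W a * c a * (1 - Fn (fT a) (chan 3 lam y)) := ⟨_, rfl⟩
  obtain ⟨F, hF⟩ : ∃ F, F = 1 - Fn fR (chan 3 lam y) := ⟨_, rfl⟩
  rw [← hS1, ← hS2, ← hF]
  rw [← hS1, ← hF] at hz0
  rw [← hS2, ← hF] at hz1
  have hYc : (p1 + A1 * B) * QQ y + (p3 / 4 + B * a2 / 4) * QQ y ^ 2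
        + (p4 + B * a4) / 64 * QQ y ^ 4
      ≤ ∑ a, W a * (1 - Fn (fT a) y) - (1 - Fn fR y) + A1 ^ 2 / (4 * rho) * B ^ 2 := by
    have hQ2 : 0 ≤ QQ y ^ 2 := by positivity
    have hQ4 : 0 ≤ QQ y ^ 4 := by positivity
    have b2 : B * a2 * QQ y ^ 2 ≤ B1 * a2 * QQ y ^ 2 := by gcongr
    have b4 : B * a4 * QQ y ^ 4 ≤ B1 * a4 * QQ y ^ 4 := by gcongr
    by_cases hnear : ∀ i, |y i - 1| ≤ r
    · have h1 := hY1 y hy hnear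
      have amgm : A1 * B * QQ y ≤ A1 ^ 2 / (4 * rho) * B ^ 2 + rho * QQ y ^ 2 := by
        have hsq : 0 ≤ (A1 * B - 2 * rho * QQ y) ^ 2 := sq_nonneg _
        have : A1 ^ 2 / (4 * rho) * B ^ 2 + rho * QQ y ^ 2 - A1 * B * QQ y
            = (A1 * B - 2 * rho * QQ y) ^ 2 / (4 * rho) := by
          field_simp
          ring
        have h5 : 0 ≤ (A1 * B - 2 * rho * QQ y) ^ 2 / (4 * rho) := by positivity
        linarith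
      linarith [h1, amgm, b2, b4]
    · push Not at hnear
      obtain ⟨i, hi⟩ := hnear
      have h2 := hY2 y hy ⟨i, hi.le⟩
      have b1 : A1 * B * QQ y ≤ A1 * B1 * QQ y := by gcongr
      have h6 : 0 ≤ A1 ^ 2 / (4 * rho) * B ^ 2 := by positivity
      linarith [h2, b1, b2, b4]
  obtain ⟨Y, hY⟩ : ∃ Y, Y = ∑ a, W a * (1 - Fn (fT a) y) - (1 - Fn fR y)
    + A1 ^ 2 / (4 * rho) * B ^ 2 := ⟨_, rfl⟩
  rw [← hY] at hYc ⊢
  obtain ⟨Q, hQ'⟩ : ∃ Q, Q = QQ y := ⟨_, rfl⟩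
  rw [← hQ'] at hQ hYc hz0 hz1
  have hmain : S1 - B * S2 - (1 - nu1 * B) * F
      ≤ lam ^ 2 * ((p1 + A1 * B) * Q + (p3 + B * a2) * (lam ^ 2 * Q ^ 2)
        + (p4 + B * a4) * (lam ^ 6 * Q ^ 4)) := by
    have h7 := mul_le_mul_of_nonneg_left hz1 hB0
    rw [mul_zero] at h7
    have e : lam ^ 2 * ((p1 + A1 * B) * Q + (p3 + B * a2) * (lam ^ 2 * Q ^ 2)
        + (p4 + B * a4) * (lam ^ 6 * Q ^ 4))
        = (p1 * (lam ^ 2 * Q) + p3 * (lam ^ 2 * Q) ^ 2 + p4 * (lam ^ 2 * Q) ^ 4)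
          + B * (A1 * (lam ^ 2 * Q) + a2 * (lam ^ 2 * Q) ^ 2 + a4 * (lam ^ 2 * Q) ^ 4) := by
      ring
    rw [e]
    have e2 : B * (A1 * (lam ^ 2 * Q) + a2 * (lam ^ 2 * Q) ^ 2 + a4 * (lam ^ 2 * Q) ^ 4
        + (S2 - nu1 * F)) = B * (A1 * (lam ^ 2 * Q) + a2 * (lam ^ 2 * Q) ^ 2
          + a4 * (lam ^ 2 * Q) ^ 4) + (B * S2 - nu1 * B * F) := by ring
    rw [e2] at h7
    have e3 : (1 - nu1 * B) * F = F - nu1 * B * F := by ring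
    rw [e3]
    linarith
  have hl2 : lam ^ 2 ≤ 1 / 4 := by nlinarith
  have hl2' : 0 ≤ lam ^ 2 := sq_nonneg _
  have hl6 : lam ^ 6 ≤ 1 / 64 := by
    have h8 : (lam ^ 2) ^ 3 ≤ (1 / 4) ^ 3 := pow_le_pow_left₀ hl2' hl2 3
    calc lam ^ 6 = (lam ^ 2) ^ 3 := by ring
      _ ≤ (1 / 4) ^ 3 := h8
      _ = 1 / 64 := by norm_num
  obtain ⟨P, hP⟩ : ∃ P, P = (p1 + A1 * B) * Q + (p3 + B * a2) * (lam ^ 2 * Q ^ 2)
        + (p4 + B * a4) * (lam ^ 6 * Q ^ 4) := ⟨_, rfl⟩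
  rw [← hP] at hmain
  have hP0 : 0 ≤ P := by rw [hP]; positivity
  have hPY : P ≤ Y := by
    refine le_trans ?_ hYc
    rw [hP]
    have g2 : (p3 + B * a2) * (lam ^ 2 * Q ^ 2) ≤ (p3 + B * a2) * (1 / 4 * Q ^ 2) := by
      gcongr
    have g6 : (p4 + B * a4) * (lam ^ 6 * Q ^ 4) ≤ (p4 + B * a4) * (1 / 64 * Q ^ 4) := by
      gcongr
    linarith
  have h9 : D * (S1 - B * S2 - (1 - nu1 * B) * F) ≤ D * (lam ^ 2 * P) :=
    mul_le_mul_of_nonneg_left hmain hD.le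
  have h10 : D * (lam ^ 2 * P) ≤ 1 * P := by
    rw [← mul_assoc]
    exact mul_le_mul_of_nonneg_right hD1 hP0
  linarith

end Vale.Agent.Lib.P154.Neg
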