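import Vale.Agent.Lib.P154.Neg.CkBall

/-! Soundness of the operations on models. -/

namespace Vale.Agent.Lib.P154.Neg.Ck

/-- `f` is approximated by the model on `|s|, |t| ≤ 1` -/
def Jt.Mem (f : ℝ → ℝ → ℝ) (j : Jt) : Prop :=
  ∃ v a b c d g : ℝ, j.v.Mem v ∧ j.a.Mem a ∧ j.b.Mem b ∧ j.c.Mem c ∧ j.d.Mem d ∧ j.f.Mem g ∧
    ∀ s t : ℝ, |s| ≤ 1 → |t| ≤ 1 →
      |f s t - (v + a * s + b * t + c * s ^ 2 + d * (s * t) + g * t ^ 2)| * 2 ^ 64 ≤ (j.r : ℝ)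

/-- `f` is approximated by the signed integer model on `|s|, |t| ≤ 1` -/
def Jv.Mem (f : ℝ → ℝ → ℝ) (j : Jv) : Prop :=
  ∀ s t : ℝ, |s| ≤ 1 → |t| ≤ 1 →
    |f s t * 2 ^ 64 - (((j.vp : ℝ) - j.vn) + ((j.ap : ℝ) - j.an) * s + ((j.bp : ℝ) - j.bn) * t
      + ((j.cp : ℝ) - j.cn) * s ^ 2 + ((j.dp : ℝ) - j.dn) * (s * t)
      + ((j.fp : ℝ) - j.fn) * t ^ 2)| ≤ (j.e : ℝ)

/-- truncated differences -/
theorem JO_sub (p n : ℕ) : ((Nat.sub p n : ℕ) : ℝ) - ((Nat.sub n p : ℕ) : ℝ) = (p : ℝ) - n := by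
  have e1 : Nat.sub p n = p - n := rfl
  have e2 : Nat.sub n p = n - p := rfl
  rw [e1, e2]
  rcases le_total n p with h | h
  · rw [Nat.sub_eq_zero_of_le h, Nat.cast_sub h]
    simp
  · rw [Nat.sub_eq_zero_of_le h, Nat.cast_sub h]
    simp

theorem JO_abs {x y e k : ℝ} (h : |x * 2 ^ 64 - y| ≤ e) (hk : |k| ≤ 1) :
    |(x * k) * 2 ^ 64 - y * k| ≤ e := by
  have h1 : (x * k) * 2 ^ 64 - y * k = (x * 2 ^ 64 - y) * k := by ring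
  rw [h1, abs_mul]
  have h2 : 0 ≤ |x * 2 ^ 64 - y| := abs_nonneg _
  nlinarith [abs_nonneg k]

theorem JO_sq {s : ℝ} (h : |s| ≤ 1) : |s ^ 2| ≤ 1 := by
  rw [abs_pow]
  exact pow_le_one₀ (abs_nonneg _) h

theorem JO_mul {s t : ℝ} (h : |s| ≤ 1) (h' : |t| ≤ 1) : |s * t| ≤ 1 := by
  rw [abs_mul]
  exact mul_le_one₀ h (abs_nonneg _) h'

theorem toJv_sound {f : ℝ → ℝ → ℝ} {j : Jt} (h : j.Mem f) : j.toJv.Mem f := by
  obtain ⟨v, a, b, c, d, g, hv, ha, hb, hc, hd, hg, H⟩ := h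
  intro s t hs ht
  have h1 := H s t hs ht
  unfold Jt.toJv
  dsimp only
  simp only [JO_sub]
  unfold Bl.Mem at hv ha hb hc hd hg
  have h2 := JO_abs ha hs
  have h3 := JO_abs hb ht
  have h4 := JO_abs hc (JO_sq hs)
  have h5 := JO_abs hd (JO_mul hs ht)
  have h6 := JO_abs hg (JO_sq ht)
  have h7 : |(f s t - (v + a * s + b * t + c * s ^ 2 + d * (s * t) + g * t ^ 2)) * 2 ^ 64| ≤
      (j.r : ℝ) := by
    rw [abs_mul, abs_of_pos (by positivity : (0 : ℝ) < 2 ^ 64)]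
    exact h1
  have e : ((Nat.add (Nat.add (Nat.add j.v.e j.a.e) (Nat.add j.b.e j.c.e))
     (Nat.add (Nat.add j.d.e j.f.e) j.r) : ℕ) : ℝ) = (j.v.e + j.a.e + (j.b.e + j.c.e)) +
      (j.d.e + j.f.e + j.r) := by
    simp only [Nat.add_eq]
    push_cast
    ring
  rw [e]
  rw [abs_le] at *
  constructor <;> linarith [hv.1, hv.2, h2.1, h2.2, h3.1, h3.2, h4.1, h4.2, h5.1, h5.2, h6.1, h6.2,
    h7.1, h7.2]

theorem mu_le (x y : ℕ) : (x : ℝ) / 2 ^ 64 * (y / 2 ^ 64) ≤ (mu x y : ℝ) / 2 ^ 64 := by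
  have h := (shr_bounds (x * y)).2
  have e : (mu x y : ℝ) = ((Nat.shiftRight (x * y) 64 : ℕ) : ℝ) + 1 := by
    unfold mu
    have e1 : Nat.add (Nat.shiftRight (Nat.mul x y) 64) 1 = Nat.shiftRight (x * y) 64 + 1 := rfl
    rw [e1]
    push_cast
    ring
  rw [e]
  have e2 : (x : ℝ) / 2 ^ 64 * (y / 2 ^ 64) = (((x * y : ℕ) : ℝ) / 2 ^ 64) / 2 ^ 64 := by
    push_cast
    ring
  rw [e2]
  exact div_le_div_of_nonneg_right h.le (by positivity)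

theorem JO_mu {x y : ℝ} {X Y : ℕ} (hx : |x| * 2 ^ 64 ≤ X) (hy : |y| * 2 ^ 64 ≤ Y) :
    |x * y| * 2 ^ 64 ≤ (mu X Y : ℝ) := by
  have h := mu_le X Y
  have hp : (0 : ℝ) < 2 ^ 64 := by positivity
  have hx' : |x| ≤ (X : ℝ) / 2 ^ 64 := by rw [le_div_iff₀ hp]; exact hx
  have hy' : |y| ≤ (Y : ℝ) / 2 ^ 64 := by rw [le_div_iff₀ hp]; exact hy
  have h1 : |x * y| ≤ (mu X Y : ℝ) / 2 ^ 64 := by
    rw [abs_mul]
    exact (mul_le_mul hx' hy' (abs_nonneg _) (by positivity)).trans h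
  rwa [le_div_iff₀ hp] at h1

theorem sq_sound {f : ℝ → ℝ → ℝ} {j : Jt} (h : j.Mem f) : j.sq.Mem (fun s t => f s t ^ 2) := by
  obtain ⟨v, a, b, c, d, g, hv, ha, hb, hc, hd, hg, H⟩ := h
  have two : ∀ {x : ℝ} {B : Bl}, B.Mem x → (Bl.smul 2 B).Mem (2 * x) := by
    intro x B hB
    have := mem_smul 2 hB
    exact_mod_cast this
  refine ⟨v * v, 2 * (v * a), 2 * (v * b), a * a + 2 * (v * c), 2 * (a * b + v * d),
    b * b + 2 * (v * g), mem_norm (mem_mul hv hv), mem_norm (two (mem_mul hv ha)),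
    mem_norm (two (mem_mul hv hb)), mem_norm (mem_add (mem_mul ha ha) (two (mem_mul hv hc))),
    mem_norm (two (mem_add (mem_mul ha hb) (mem_mul hv hd))),
    mem_norm (mem_add (mem_mul hb hb) (two (mem_mul hv hg))), ?_⟩
  intro s t hs ht
  have h1 := H s t hs ht
  have hp : (0 : ℝ) < 2 ^ 64 := by positivity
  -- bounds
  have bnd : ∀ {x k : ℝ} {X : ℕ}, |x| * 2 ^ 64 ≤ X → |k| ≤ 1 → |x * k| * 2 ^ 64 ≤ X := by
    intro x k X hx hk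
    rw [abs_mul]
    have : |x| * |k| ≤ |x| := mul_le_of_le_one_right (abs_nonneg _) hk
    nlinarith
  have add2 : ∀ {x y : ℝ} {X Y : ℕ}, |x| * 2 ^ 64 ≤ X → |y| * 2 ^ 64 ≤ Y →
      |x + y| * 2 ^ 64 ≤ ((Nat.add X Y : ℕ) : ℝ) := by
    intro x y X Y hx hy
    simp only [Nat.add_eq]
    push_cast
    have := abs_add_le x y
    nlinarith
  have mul2 : ∀ {x : ℝ} {X : ℕ}, |x| * 2 ^ 64 ≤ X → |2 * x| * 2 ^ 64 ≤ ((Nat.mul 2 X : ℕ) : ℝ) := by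
    intro x X hx
    simp only [Nat.mul_eq]
    push_cast
    rw [abs_mul, abs_of_pos (by norm_num : (0 : ℝ) < 2)]
    linarith
  have hL : |a * s + b * t| * 2 ^ 64 ≤ ((Nat.add j.a.ab j.b.ab : ℕ) : ℝ) :=
    add2 (bnd (mem_ab ha) hs) (bnd (mem_ab hb) ht)
  have hS : |c * s ^ 2 + d * (s * t) + g * t ^ 2| * 2 ^ 64 ≤
      ((Nat.add (Nat.add j.c.ab j.d.ab) j.f.ab : ℕ) : ℝ) :=
    add2 (add2 (bnd (mem_ab hc) (JO_sq hs)) (bnd (mem_ab hd) (JO_mul hs ht)))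
      (bnd (mem_ab hg) (JO_sq ht))
  have hV : |v + (a * s + b * t) + (c * s ^ 2 + d * (s * t) + g * t ^ 2)| * 2 ^ 64 ≤
      ((Nat.add (Nat.add j.v.ab (Nat.add j.a.ab j.b.ab))
        (Nat.add (Nat.add j.c.ab j.d.ab) j.f.ab) : ℕ) : ℝ) :=
    add2 (add2 (mem_ab hv) hL) hS
  have k1 := mul2 (JO_mu hL hS)
  have k2 := JO_mu hS hS
  have k3 := mul2 (JO_mu hV h1)
  have k4 := JO_mu h1 h1
  have k5 := add2 (add2 k1 k2) (add2 k3 k4)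
  have e : f s t ^ 2 - (v * v + 2 * (v * a) * s + 2 * (v * b) * t + (a * a + 2 * (v * c)) * s ^ 2 +
      2 * (a * b + v * d) * (s * t) + (b * b + 2 * (v * g)) * t ^ 2) =
      (2 * ((a * s + b * t) * (c * s ^ 2 + d * (s * t) + g * t ^ 2)) +
      (c * s ^ 2 + d * (s * t) + g * t ^ 2) * (c * s ^ 2 + d * (s * t) + g * t ^ 2)) +
      (2 * ((v + (a * s + b * t) + (c * s ^ 2 + d * (s * t) + g * t ^ 2)) *
        (f s t - (v + a * s + b * t + c * s ^ 2 + d * (s * t) + g * t ^ 2))) +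
      (f s t - (v + a * s + b * t + c * s ^ 2 + d * (s * t) + g * t ^ 2)) *
        (f s t - (v + a * s + b * t + c * s ^ 2 + d * (s * t) + g * t ^ 2))) := by
    ring
  show |f s t ^ 2 - _| * 2 ^ 64 ≤ _
  rw [e]
  exact k5

/-- value of a task on basis values -/
noncomputable def Tk.val (t : Tk) (f : ℕ → ℝ) : ℝ :=
  ((t.p0 : ℝ) - t.n0) * f 0 + ((t.p1 : ℝ) - t.n1) * f 1 + ((t.p2 : ℝ) - t.n2) * f 2
    + ((t.p3 : ℝ) - t.n3) * f 3 + ((t.p4 : ℝ) - t.n4) * f 4 + ((t.p5 : ℝ) - t.n5) * f 5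
    + ((t.p6 : ℝ) - t.n6) * f 6 + ((t.p7 : ℝ) - t.n7) * f 7 + ((t.p8 : ℝ) - t.n8) * f 8
    + ((t.p9 : ℝ) - t.n9) * f 9 + ((t.p10 : ℝ) - t.n10) * f 10 + ((t.p11 : ℝ) - t.n11) * f 11
    + ((t.p12 : ℝ) - t.n12) * f 12

end Vale.Agent.Lib.P154.Neg.Ck
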