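import Vale.Agent.Lib.P154.Neg.CkDefs

/-! Fifth order expansion of the functionals near `y = 1`. -/

namespace Vale.Agent.Lib.P154.Neg

open scoped BigOperators

/-- functional, q, c, k, v, K -/
def nearTab : List ((ℕ × ℕ) × ℚ × ℚ × ℚ × ℚ × ℚ) :=
  [((8, 0), 3/4, -3/16, 39/64, -93/256, 6),
   ((8, 4), 15/16, -15/64, 735/1024, -1725/4096, 8),
   ((8, 8), 3/2, -3/8, 15/16, -33/64, 12),
   ((8, 16), 15/4, -15/16, 15/64, 75/256, 48),
   ((7, 8), 423/256, -4401/8192, 351855/262144, -7062777/8388608, 16),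
   ((6, 8), 111/64, -669/1024, 26895/16384, -284133/262144, 16),
   ((6, 7), 399/256, -2361/4096, 396255/262144, -4220193/4194304, 16)]

/-- the algebraic identity behind the truncated power series along the ray -/
theorem near_ode_alg (α γ β x y z s p1 p2 e2 e3 c1 c2 c3 c4 c5 : ℂ) (hz : z = -x - y)
    (hβ : β = 1 - α - γ)
    (hp1 : p1 = α * x + γ * y + β * z) (hp2 : p2 = α * x ^ 2 + γ * y ^ 2 + β * z ^ 2)
    (he2 : e2 = x * y + y * z + z * x) (he3 : e3 = x * y * z)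
    (h1 : c1 = p1) (h2 : 2 * c2 = p1 * c1 - p2) (h3 : 3 * c3 = p1 * c2 - (p2 + e2) * c1 + e3)
    (h4 : 4 * c4 = p1 * c3 - (p2 + 2 * e2) * c2)
    (h5 : 5 * c5 = p1 * c4 - (p2 + 3 * e2) * c3 - e3 * c2) :
    (1 + s * x) * (1 + s * y) * (1 + s * z) *
        (c1 + 2 * c2 * s + 3 * c3 * s ^ 2 + 4 * c4 * s ^ 3 + 5 * c5 * s ^ 4)
      - (1 + c1 * s + c2 * s ^ 2 + c3 * s ^ 3 + c4 * s ^ 4 + c5 * s ^ 5) *
        (α * x * ((1 + s * y) * (1 + s * z)) + γ * y * ((1 + s * x) * (1 + s * z))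
          + β * z * ((1 + s * x) * (1 + s * y)))
      = s ^ 5 * (-(p1 * c5 - (p2 + 4 * e2) * c4 - 2 * e3 * c3)
          + ((5 * e2 + p2) * c5 + 3 * e3 * c4) * s + 4 * e3 * c5 * s ^ 2) := by
  subst hp1 hp2 he2 he3 hz hβ
  linear_combination h1 + s * h2 + s ^ 2 * h3 + s ^ 3 * h4 + s ^ 4 * h5

/-! the real and imaginary parts of the coefficients -/

def cA1 (p x y z : ℝ) : ℝ := p * (x + y) + (1 - 2 * p) * z
def cB1 (t x y : ℝ) : ℝ := t * (x - y)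
def cA2 (p x y z : ℝ) : ℝ := p * (x ^ 2 + y ^ 2) + (1 - 2 * p) * z ^ 2
def cB2 (t x y : ℝ) : ℝ := t * (x ^ 2 - y ^ 2)
def ce2 (x y z : ℝ) : ℝ := x * y + y * z + z * x
def ce3 (x y z : ℝ) : ℝ := x * y * z

noncomputable def ra2 (p t x y z : ℝ) : ℝ :=
  (cA1 p x y z * cA1 p x y z - cB1 t x y * cB1 t x y - cA2 p x y z) / 2
noncomputable def rb2 (p t x y z : ℝ) : ℝ :=
  (cA1 p x y z * cB1 t x y + cB1 t x y * cA1 p x y z - cB2 t x y) / 2
noncomputable def ra3 (p t x y z : ℝ) : ℝ :=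
  (cA1 p x y z * ra2 p t x y z - cB1 t x y * rb2 p t x y z
    - (cA2 p x y z + ce2 x y z) * cA1 p x y z + cB2 t x y * cB1 t x y + ce3 x y z) / 3
noncomputable def rb3 (p t x y z : ℝ) : ℝ :=
  (cA1 p x y z * rb2 p t x y z + cB1 t x y * ra2 p t x y z
    - (cA2 p x y z + ce2 x y z) * cB1 t x y - cB2 t x y * cA1 p x y z) / 3
noncomputable def ra4 (p t x y z : ℝ) : ℝ :=
  (cA1 p x y z * ra3 p t x y z - cB1 t x y * rb3 p t x y z
    - (cA2 p x y z + 2 * ce2 x y z) * ra2 p t x y z + cB2 t x y * rb2 p t x y z) / 4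
noncomputable def rb4 (p t x y z : ℝ) : ℝ :=
  (cA1 p x y z * rb3 p t x y z + cB1 t x y * ra3 p t x y z
    - (cA2 p x y z + 2 * ce2 x y z) * rb2 p t x y z - cB2 t x y * ra2 p t x y z) / 4
noncomputable def ra5 (p t x y z : ℝ) : ℝ :=
  (cA1 p x y z * ra4 p t x y z - cB1 t x y * rb4 p t x y z
    - (cA2 p x y z + 3 * ce2 x y z) * ra3 p t x y z + cB2 t x y * rb3 p t x y z
    - ce3 x y z * ra2 p t x y z) / 5
noncomputable def rb5 (p t x y z : ℝ) : ℝ :=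
  (cA1 p x y z * rb4 p t x y z + cB1 t x y * ra4 p t x y z
    - (cA2 p x y z + 3 * ce2 x y z) * rb3 p t x y z - cB2 t x y * ra3 p t x y z
    - ce3 x y z * rb2 p t x y z) / 5

/-- the fifth order polynomial (real part), minus one -/
noncomputable def rP (p t x y z : ℝ) : ℝ :=
  cA1 p x y z + ra2 p t x y z + ra3 p t x y z + ra4 p t x y z + ra5 p t x y z

theorem poly_id (x : (ℕ × ℕ) × ℚ × ℚ × ℚ × ℚ × ℚ) (hx : x ∈ nearTab) (a b : ℝ) :
    rP ((x.1.1 : ℝ) / 16) ((x.1.2 : ℝ) / 16) a b (-a - b)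
      + rP ((x.1.1 : ℝ) / 16) ((x.1.2 : ℝ) / 16) b (-a - b) a
      + rP ((x.1.1 : ℝ) / 16) ((x.1.2 : ℝ) / 16) (-a - b) a b
    = -3 * ((x.2.1 : ℝ) * ((a ^ 2 + b ^ 2 + (-a - b) ^ 2) / 6) + (x.2.2.1 : ℝ) * (a * b * (-a - b))
      + (x.2.2.2.1 : ℝ) * ((a ^ 2 + b ^ 2 + (-a - b) ^ 2) / 6) ^ 2
      + (x.2.2.2.2.1 : ℝ) * ((a ^ 2 + b ^ 2 + (-a - b) ^ 2) / 6 * (a * b * (-a - b)))) := by
  simp only [nearTab, List.mem_cons, List.mem_nil_iff, or_false] at hx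
  rcases hx with rfl | rfl | rfl | rfl | rfl | rfl | rfl <;>
  · simp only [rP, ra5, ra4, rb4, ra3, rb3, ra2, rb2, cA1, cB1, cA2, cB2, ce2, ce3]
    push_cast
    ring

noncomputable def kC2 (B : ℝ) : ℝ := (B * B + B) / 2
noncomputable def kC3 (B : ℝ) : ℝ := (B * kC2 B + (B + 3 / 2) * B + 1) / 3
noncomputable def kC4 (B : ℝ) : ℝ := (B * kC3 B + (B + 3) * kC2 B) / 4
noncomputable def kC5 (B : ℝ) : ℝ := (B * kC4 B + (B + 9 / 2) * kC3 B + kC2 B) / 5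
noncomputable def kR5 (B : ℝ) : ℝ := B * kC5 B + (B + 6) * kC4 B + 2 * kC3 B
noncomputable def kR6 (B : ℝ) : ℝ := (15 / 2 + B) * kC5 B + 3 * kC4 B
noncomputable def kR7 (B : ℝ) : ℝ := 4 * kC5 B

theorem coeff_bounds {B m : ℝ} (hB : 0 ≤ B) (hm : 0 ≤ m) {p1 p2 e2 e3 c1 c2 c3 c4 c5 : ℂ}
    (hp1 : ‖p1‖ ≤ B * m) (hp2 : ‖p2‖ ≤ B * m ^ 2) (he2 : ‖e2‖ ≤ 3 / 2 * m ^ 2)
    (he3 : ‖e3‖ ≤ m ^ 3)
    (h1 : c1 = p1) (h2 : 2 * c2 = p1 * c1 - p2) (h3 : 3 * c3 = p1 * c2 - (p2 + e2) * c1 + e3)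
    (h4 : 4 * c4 = p1 * c3 - (p2 + 2 * e2) * c2)
    (h5 : 5 * c5 = p1 * c4 - (p2 + 3 * e2) * c3 - e3 * c2) :
    ‖-(p1 * c5 - (p2 + 4 * e2) * c4 - 2 * e3 * c3)‖ ≤ kR5 B * m ^ 6 ∧
    ‖(5 * e2 + p2) * c5 + 3 * e3 * c4‖ ≤ kR6 B * m ^ 7 ∧ ‖4 * e3 * c5‖ ≤ kR7 B * m ^ 8 := by
  have H1 : ‖c1‖ ≤ B * m := by rw [h1]; exact hp1
  have n2 : ‖(2:ℂ)‖ = 2 := by norm_num
  have n3 : ‖(3:ℂ)‖ = 3 := by norm_num
  have n4 : ‖(4:ℂ)‖ = 4 := by norm_num
  have n5 : ‖(5:ℂ)‖ = 5 := by norm_num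
  have k2 : 0 ≤ kC2 B := by unfold kC2; positivity
  have k3 : 0 ≤ kC3 B := by unfold kC3; positivity
  have k4 : 0 ≤ kC4 B := by unfold kC4; positivity
  have k5 : 0 ≤ kC5 B := by unfold kC5; positivity
  have sum1 : ∀ k : ℝ, 0 ≤ k → ‖p2 + (k : ℂ) * e2‖ ≤ (B + k * (3 / 2)) * m ^ 2 := by
    intro k hk
    calc ‖p2 + (k : ℂ) * e2‖ ≤ ‖p2‖ + ‖(k : ℂ) * e2‖ := norm_add_le _ _
      _ = ‖p2‖ + k * ‖e2‖ := by rw [norm_mul, Complex.norm_real, Real.norm_of_nonneg hk]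
      _ ≤ B * m ^ 2 + k * (3 / 2 * m ^ 2) := by gcongr
      _ = _ := by ring
  have H2 : ‖c2‖ ≤ kC2 B * m ^ 2 := by
    have : ‖2 * c2‖ ≤ B * m * (B * m) + B * m ^ 2 := by
      rw [h2]
      calc ‖p1 * c1 - p2‖ ≤ ‖p1‖ * ‖c1‖ + ‖p2‖ := by
            rw [← norm_mul]; exact norm_sub_le _ _
        _ ≤ _ := by gcongr
    rw [norm_mul, n2] at this
    unfold kC2
    nlinarith
  have H3 : ‖c3‖ ≤ kC3 B * m ^ 3 := by
    have s1 := sum1 1 (by norm_num)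
    have : ‖3 * c3‖ ≤ B * m * (kC2 B * m ^ 2) + (B + 1 * (3 / 2)) * m ^ 2 * (B * m) + m ^ 3 := by
      rw [h3]
      calc ‖p1 * c2 - (p2 + e2) * c1 + e3‖ ≤ ‖p1 * c2 - (p2 + e2) * c1‖ + ‖e3‖ := norm_add_le _ _
        _ ≤ ‖p1 * c2‖ + ‖(p2 + e2) * c1‖ + ‖e3‖ := by gcongr; exact norm_sub_le _ _
        _ = ‖p1‖ * ‖c2‖ + ‖p2 + ((1:ℝ):ℂ) * e2‖ * ‖c1‖ + ‖e3‖ := by
          rw [norm_mul, norm_mul]; norm_num
        _ ≤ _ := by gcongr
    rw [norm_mul, n3] at this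
    unfold kC3
    nlinarith
  have H4 : ‖c4‖ ≤ kC4 B * m ^ 4 := by
    have s1 := sum1 2 (by norm_num)
    have : ‖4 * c4‖ ≤ B * m * (kC3 B * m ^ 3) + (B + 2 * (3 / 2)) * m ^ 2 * (kC2 B * m ^ 2) := by
      rw [h4]
      calc ‖p1 * c3 - (p2 + 2 * e2) * c2‖ ≤ ‖p1 * c3‖ + ‖(p2 + 2 * e2) * c2‖ := norm_sub_le _ _
        _ = ‖p1‖ * ‖c3‖ + ‖p2 + ((2:ℝ):ℂ) * e2‖ * ‖c2‖ := by
          rw [norm_mul, norm_mul]; norm_num
        _ ≤ _ := by gcongr
    rw [norm_mul, n4] at this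
    unfold kC4
    nlinarith
  have H5 : ‖c5‖ ≤ kC5 B * m ^ 5 := by
    have s1 := sum1 3 (by norm_num)
    have : ‖5 * c5‖ ≤ B * m * (kC4 B * m ^ 4) + (B + 3 * (3 / 2)) * m ^ 2 * (kC3 B * m ^ 3)
        + m ^ 3 * (kC2 B * m ^ 2) := by
      rw [h5]
      calc ‖p1 * c4 - (p2 + 3 * e2) * c3 - e3 * c2‖
          ≤ ‖p1 * c4 - (p2 + 3 * e2) * c3‖ + ‖e3 * c2‖ := norm_sub_le _ _
        _ ≤ ‖p1 * c4‖ + ‖(p2 + 3 * e2) * c3‖ + ‖e3 * c2‖ := by gcongr; exact norm_sub_le _ _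
        _ = ‖p1‖ * ‖c4‖ + ‖p2 + ((3:ℝ):ℂ) * e2‖ * ‖c3‖ + ‖e3‖ * ‖c2‖ := by
          rw [norm_mul, norm_mul, norm_mul]; norm_num
        _ ≤ _ := by gcongr
    rw [norm_mul, n5] at this
    unfold kC5
    nlinarith
  refine ⟨?_, ?_, ?_⟩
  · have s1 := sum1 4 (by norm_num)
    calc ‖-(p1 * c5 - (p2 + 4 * e2) * c4 - 2 * e3 * c3)‖
        = ‖p1 * c5 - (p2 + 4 * e2) * c4 - 2 * e3 * c3‖ := norm_neg _
      _ ≤ ‖p1 * c5 - (p2 + 4 * e2) * c4‖ + ‖2 * e3 * c3‖ := norm_sub_le _ _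
      _ ≤ ‖p1 * c5‖ + ‖(p2 + 4 * e2) * c4‖ + ‖2 * e3 * c3‖ := by gcongr; exact norm_sub_le _ _
      _ = ‖p1‖ * ‖c5‖ + ‖p2 + ((4:ℝ):ℂ) * e2‖ * ‖c4‖ + 2 * ‖e3‖ * ‖c3‖ := by
          rw [norm_mul, norm_mul, norm_mul, norm_mul, n2]; norm_num
      _ ≤ B * m * (kC5 B * m ^ 5) + (B + 4 * (3 / 2)) * m ^ 2 * (kC4 B * m ^ 4)
          + 2 * m ^ 3 * (kC3 B * m ^ 3) := by gcongr
      _ = _ := by unfold kR5; ring
  · have s2 : ‖5 * e2 + p2‖ ≤ (15 / 2 + B) * m ^ 2 := by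
      have := sum1 5 (by norm_num)
      have e : 5 * e2 + p2 = p2 + ((5:ℝ):ℂ) * e2 := by push_cast; ring
      rw [e]
      calc _ ≤ _ := this
        _ = _ := by ring
    calc ‖(5 * e2 + p2) * c5 + 3 * e3 * c4‖ ≤ ‖(5 * e2 + p2) * c5‖ + ‖3 * e3 * c4‖ :=
          norm_add_le _ _
      _ = ‖5 * e2 + p2‖ * ‖c5‖ + 3 * ‖e3‖ * ‖c4‖ := by
          rw [norm_mul, norm_mul, norm_mul, n3]
      _ ≤ (15 / 2 + B) * m ^ 2 * (kC5 B * m ^ 5) + 3 * m ^ 3 * (kC4 B * m ^ 4) := by gcongr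
      _ = _ := by unfold kR6; ring
  · calc ‖4 * e3 * c5‖ = 4 * ‖e3‖ * ‖c5‖ := by rw [norm_mul, norm_mul, n4]
      _ ≤ 4 * m ^ 3 * (kC5 B * m ^ 5) := by gcongr
      _ = _ := by unfold kR7; ring

/-- Comparison along the ray: if `D (P' - P l) = s^5 ρ`, then `P(1) = exp(L 1) (1 + O(|ρ|/6))`. -/
theorem ray_compare {x y z m M : ℝ} (hx : |x| ≤ m) (hy : |y| ≤ m) (hz : |z| ≤ m)
    (hm : m ≤ 1 / 64) {p t β : ℝ} (hp : 0 ≤ p) (hβ : 0 ≤ β) (hsum : 2 * p + β = 1)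
    (P P' : ℂ → ℂ) (hP : ∀ s, HasDerivAt P (P' s) s) (hP0 : P 0 = 1)
    (ρ : ℝ → ℂ) (hρ : ∀ s ∈ Set.Icc (0:ℝ) 1, ‖ρ s‖ ≤ M)
    (hid : ∀ s : ℝ, (1 + (s:ℂ) * x) * (1 + (s:ℂ) * y) * (1 + (s:ℂ) * z) * P' s
      - P s * (⟨p, t⟩ * x * ((1 + (s:ℂ) * y) * (1 + (s:ℂ) * z))
        + ⟨p, -t⟩ * y * ((1 + (s:ℂ) * x) * (1 + (s:ℂ) * z))
        + (β : ℂ) * z * ((1 + (s:ℂ) * x) * (1 + (s:ℂ) * y))) = (s:ℂ) ^ 5 * ρ s) :
    |(P 1).re - Real.exp (p * (Real.log (1 + x) + Real.log (1 + y)) + β * Real.log (1 + z)) *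
      Real.cos (t * (Real.log (1 + x) - Real.log (1 + y)))| ≤ M / 6 * (67 / 60) := by
  have hm0 : 0 ≤ m := le_trans (abs_nonneg _) hx
  have hM0 : 0 ≤ M := le_trans (norm_nonneg _) (hρ 0 ⟨le_refl _, zero_le_one⟩)
  have pos : ∀ u : ℝ, |u| ≤ m → ∀ s ∈ Set.Icc (0:ℝ) 1, 63 / 64 ≤ 1 + s * u := by
    intro u hu s hs
    have h1 : |s * u| ≤ 1 / 64 := by
      rw [abs_mul, abs_of_nonneg hs.1]
      have := hs.2
      calc s * |u| ≤ 1 * |u| := by gcongr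
        _ ≤ 1 / 64 := by linarith
    have := (abs_le.mp h1).1
    linarith
  -- the exponent
  set Lr : ℝ → ℝ := fun s => p * (Real.log (1 + s * x) + Real.log (1 + s * y))
    + β * Real.log (1 + s * z) with hLr
  set Li : ℝ → ℝ := fun s => t * (Real.log (1 + s * x) - Real.log (1 + s * y)) with hLi
  have dlog : ∀ u : ℝ, |u| ≤ m → ∀ s ∈ Set.Icc (0:ℝ) 1,
      HasDerivAt (fun s : ℝ => Real.log (1 + s * u)) (u / (1 + s * u)) s := by
    intro u hu s hs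
    have h1 : HasDerivAt (fun s : ℝ => 1 + s * u) u s := by
      simpa using ((hasDerivAt_id s).mul_const u).const_add 1
    exact h1.log (by have := pos u hu s hs; linarith)
  have lbound : ∀ u : ℝ, |u| ≤ m → ∀ s ∈ Set.Icc (0:ℝ) 1,
      Real.log (63 / 64) ≤ Real.log (1 + s * u) ∧ Real.log (1 + s * u) ≤ Real.log (65 / 64) := by
    intro u hu s hs
    have h0 := pos u hu s hs
    constructor
    · exact Real.log_le_log (by norm_num) h0
    · apply Real.log_le_log (by linarith)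
      have h1 : s * u ≤ 1 / 64 := by
        have := (abs_le.mp hu).2
        nlinarith [hs.1, hs.2]
      linarith
  set f : ℝ → ℂ := fun s => P s * Complex.exp (-(⟨Lr s, Li s⟩ : ℂ)) - 1 with hf
  set f' : ℝ → ℂ := fun s => (P' s - P s * (⟨p, t⟩ * ((x / (1 + s * x) : ℝ) : ℂ)
      + ⟨p, -t⟩ * ((y / (1 + s * y) : ℝ) : ℂ) + (β : ℂ) * ((z / (1 + s * z) : ℝ) : ℂ)))
      * Complex.exp (-(⟨Lr s, Li s⟩ : ℂ)) with hf'
  have hder : ∀ s ∈ Set.Icc (0:ℝ) 1, HasDerivAt f (f' s) s := by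
    intro s hs
    have hPs : HasDerivAt (fun s : ℝ => P s) (P' s) s := (hP s).comp_ofReal
    have hL : HasDerivAt (fun s : ℝ => (⟨Lr s, Li s⟩ : ℂ))
        (⟨p, t⟩ * ((x / (1 + s * x) : ℝ) : ℂ)
      + ⟨p, -t⟩ * ((y / (1 + s * y) : ℝ) : ℂ) + (β : ℂ) * ((z / (1 + s * z) : ℝ) : ℂ)) s := by
      have e : (fun s : ℝ => (⟨Lr s, Li s⟩ : ℂ)) = fun s : ℝ =>
          ⟨p, t⟩ * ((Real.log (1 + s * x) : ℝ) : ℂ) + ⟨p, -t⟩ * ((Real.log (1 + s * y) : ℝ) : ℂ)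
            + (β : ℂ) * ((Real.log (1 + s * z) : ℝ) : ℂ) := by
        funext s
        apply Complex.ext
        · simp [hLr]; ring
        · simp [hLi]; ring
      rw [e]
      exact (((dlog x hx s hs).ofReal_comp.const_mul _).add
        ((dlog y hy s hs).ofReal_comp.const_mul _)).add ((dlog z hz s hs).ofReal_comp.const_mul _)
    have hE := hL.neg.cexp
    have h := (hPs.mul hE).sub_const 1
    refine HasDerivAt.congr_deriv h ?_
    show _ = (P' s - P s * (⟨p, t⟩ * ((x / (1 + s * x) : ℝ) : ℂ)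
      + ⟨p, -t⟩ * ((y / (1 + s * y) : ℝ) : ℂ) + (β : ℂ) * ((z / (1 + s * z) : ℝ) : ℂ)))
      * Complex.exp (-(⟨Lr s, Li s⟩ : ℂ))
    simp only [Pi.neg_apply]
    ring
  have hbound : ∀ s ∈ Set.Ico (0:ℝ) 1, ‖f' s‖ ≤ (M * (65 / 60)) * s ^ 5 * 1 := by
    intro s hs
    have hs' : s ∈ Set.Icc (0:ℝ) 1 := ⟨hs.1, hs.2.le⟩
    have px := pos x hx s hs'
    have py := pos y hy s hs'
    have pz := pos z hz s hs'
    have hD : (1 + (s:ℂ) * x) * (1 + (s:ℂ) * y) * (1 + (s:ℂ) * z) *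
        (P' s - P s * (⟨p, t⟩ * ((x / (1 + s * x) : ℝ) : ℂ)
      + ⟨p, -t⟩ * ((y / (1 + s * y) : ℝ) : ℂ) + (β : ℂ) * ((z / (1 + s * z) : ℝ) : ℂ)))
        = (s:ℂ) ^ 5 * ρ s := by
      rw [← hid s]
      have nx : (1 + (s:ℂ) * x) ≠ 0 := by
        have : ((1 + s * x : ℝ) : ℂ) ≠ 0 := by
          rw [Complex.ofReal_ne_zero]; linarith
        simpa using this
      have ny : (1 + (s:ℂ) * y) ≠ 0 := by
        have : ((1 + s * y : ℝ) : ℂ) ≠ 0 := by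
          rw [Complex.ofReal_ne_zero]; linarith
        simpa using this
      have nz : (1 + (s:ℂ) * z) ≠ 0 := by
        have : ((1 + s * z : ℝ) : ℂ) ≠ 0 := by
          rw [Complex.ofReal_ne_zero]; linarith
        simpa using this
      push_cast
      field_simp
    have hDn : ‖(1 + (s:ℂ) * x) * (1 + (s:ℂ) * y) * (1 + (s:ℂ) * z)‖
        = (1 + s * x) * (1 + s * y) * (1 + s * z) := by
      have e : (1 + (s:ℂ) * x) * (1 + (s:ℂ) * y) * (1 + (s:ℂ) * z)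
          = (((1 + s * x) * (1 + s * y) * (1 + s * z) : ℝ) : ℂ) := by push_cast; ring
      rw [e, Complex.norm_real, Real.norm_of_nonneg]
      have h1 : 0 < 1 + s * x := by linarith
      have h2 : 0 < 1 + s * y := by linarith
      have h3 : 0 < 1 + s * z := by linarith
      positivity
    have hDge : (63 / 64 : ℝ) ^ 3 ≤ (1 + s * x) * (1 + s * y) * (1 + s * z) := by
      have : (63 / 64 : ℝ) ^ 3 = 63 / 64 * (63 / 64) * (63 / 64) := by norm_num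
      rw [this]
      gcongr
    set W := P' s - P s * (⟨p, t⟩ * ((x / (1 + s * x) : ℝ) : ℂ)
      + ⟨p, -t⟩ * ((y / (1 + s * y) : ℝ) : ℂ) + (β : ℂ) * ((z / (1 + s * z) : ℝ) : ℂ)) with hW
    have hWn : (63 / 64 : ℝ) ^ 3 * ‖W‖ ≤ s ^ 5 * M := by
      have h1 := congrArg norm hD
      rw [norm_mul, hDn, norm_mul, norm_pow, Complex.norm_real, Real.norm_of_nonneg hs.1] at h1
      calc (63 / 64 : ℝ) ^ 3 * ‖W‖ ≤ (1 + s * x) * (1 + s * y) * (1 + s * z) * ‖W‖ := by gcongr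
        _ = s ^ 5 * ‖ρ s‖ := h1
        _ ≤ s ^ 5 * M := by
          have := hρ s hs'
          have h5 : 0 ≤ s ^ 5 := pow_nonneg hs.1 5
          gcongr
    have hexp : ‖Complex.exp (-(⟨Lr s, Li s⟩ : ℂ))‖ ≤ 64 / 63 := by
      rw [Complex.norm_exp]
      simp only [Complex.neg_re]
      have h1 := (lbound x hx s hs').1
      have h2 := (lbound y hy s hs').1
      have h3 := (lbound z hz s hs').1
      have h4 : Real.log (63 / 64) ≤ Lr s := by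
        have e : Real.log (63 / 64) = p * (Real.log (63 / 64) + Real.log (63 / 64))
            + β * Real.log (63 / 64) := by
          have : p * (Real.log (63 / 64) + Real.log (63 / 64)) + β * Real.log (63 / 64)
            = (2 * p + β) * Real.log (63 / 64) := by ring
          rw [this, hsum, one_mul]
        rw [e]
        show _ ≤ p * (Real.log (1 + s * x) + Real.log (1 + s * y)) + β * Real.log (1 + s * z)
        gcongr
      calc Real.exp (-Lr s) ≤ Real.exp (-Real.log (63 / 64)) := Real.exp_le_exp.mpr (by linarith)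
        _ = 64 / 63 := by
          rw [Real.exp_neg, Real.exp_log (by norm_num)]; norm_num
    have hfin : ‖f' s‖ = ‖W‖ * ‖Complex.exp (-(⟨Lr s, Li s⟩ : ℂ))‖ := by
      simp only [hf']; rw [norm_mul]
    rw [hfin]
    have h5 : 0 ≤ s ^ 5 := pow_nonneg hs.1 5
    have hW0 := norm_nonneg W
    calc ‖W‖ * ‖Complex.exp (-(⟨Lr s, Li s⟩ : ℂ))‖ ≤ ‖W‖ * (64 / 63) := by gcongr
      _ ≤ ((64 / 63 : ℝ) ^ 3 * (s ^ 5 * M)) * (64 / 63) := by
          gcongr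
          have : ‖W‖ = (64 / 63 : ℝ) ^ 3 * ((63 / 64 : ℝ) ^ 3 * ‖W‖) := by
            norm_num; ring
          rw [this]; gcongr
      _ ≤ (M * (65 / 60)) * s ^ 5 * 1 := by
          have : 0 ≤ s ^ 5 * M := by positivity
          norm_num
          nlinarith
  have hcont : ContinuousOn f (Set.Icc 0 1) := fun s hs =>
    (hder s hs).continuousAt.continuousWithinAt
  have hf0 : f 0 = 0 := by
    simp only [hf, hLr, hLi]
    have e0 : (⟨p * (Real.log (1 + 0 * x) + Real.log (1 + 0 * y)) + β * Real.log (1 + 0 * z),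
      t * (Real.log (1 + 0 * x) - Real.log (1 + 0 * y))⟩ : ℂ) = 0 := by
      apply Complex.ext <;> simp
    rw [e0]
    simp [hP0]
  have key := image_norm_le_of_norm_deriv_right_le_deriv_boundary (f := f) (f' := f') (a := 0)
    (b := 1) hcont (fun s hs => (hder s ⟨hs.1, hs.2.le⟩).hasDerivWithinAt)
    (B := fun s => (M * (65 / 60)) * (s ^ 6 / 6)) (B' := fun s => (M * (65 / 60)) * s ^ 5 * 1)
    (by rw [hf0]; simp)
    (by
      intro s
      have h1 : HasDerivAt (fun s : ℝ => s ^ 6) (6 * s ^ 5) s := by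
        simpa using hasDerivAt_pow 6 s
      have h2 := (h1.div_const 6).const_mul (M * (65 / 60))
      exact h2.congr_deriv (by ring))
    hbound
  have h1 := key (x := 1) ⟨zero_le_one, le_refl _⟩
  have h2 : ‖f 1‖ ≤ M * (65 / 60) * (1 / 6) := by simpa using h1
  set E : ℂ := Complex.exp (⟨Lr 1, Li 1⟩ : ℂ) with hE
  have hPE : P 1 - E = f 1 * E := by
    simp only [hf, hE]
    rw [Complex.exp_neg]
    have := Complex.exp_ne_zero (⟨Lr 1, Li 1⟩ : ℂ)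
    push_cast
    field_simp
  have hEn : ‖E‖ ≤ 65 / 64 := by
    rw [hE, Complex.norm_exp]
    show Real.exp (Lr 1) ≤ 65 / 64
    have hh := fun (u : ℝ) (hu : |u| ≤ m) => (lbound u hu 1 ⟨zero_le_one, le_refl _⟩).2
    have h4 : Lr 1 ≤ Real.log (65 / 64) := by
      have e : Real.log (65 / 64) = p * (Real.log (65 / 64) + Real.log (65 / 64))
          + β * Real.log (65 / 64) := by
        have : p * (Real.log (65 / 64) + Real.log (65 / 64)) + β * Real.log (65 / 64)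
          = (2 * p + β) * Real.log (65 / 64) := by ring
        rw [this, hsum, one_mul]
      rw [e]
      show p * (Real.log (1 + 1 * x) + Real.log (1 + 1 * y)) + β * Real.log (1 + 1 * z) ≤ _
      have a1 := hh x hx
      have a2 := hh y hy
      have a3 := hh z hz
      gcongr
    calc Real.exp (Lr 1) ≤ Real.exp (Real.log (65 / 64)) := Real.exp_le_exp.mpr h4
      _ = 65 / 64 := Real.exp_log (by norm_num)
  have hEre : E.re = Real.exp (p * (Real.log (1 + x) + Real.log (1 + y)) + β * Real.log (1 + z)) *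
      Real.cos (t * (Real.log (1 + x) - Real.log (1 + y))) := by
    rw [hE, Complex.exp_re]
    simp [hLr, hLi]
  rw [← hEre, ← Complex.sub_re]
  calc |(P 1 - E).re| ≤ ‖P 1 - E‖ := Complex.abs_re_le_norm _
    _ = ‖f 1‖ * ‖E‖ := by rw [hPE, norm_mul]
    _ ≤ (M * (65 / 60) * (1 / 6)) * (65 / 64) := by gcongr
    _ ≤ M / 6 * (67 / 60) := by nlinarith


/-- one character, fifth order -/
theorem char_near {x y z m A B : ℝ} (hx : |x| ≤ m) (hy : |y| ≤ m) (hz : |z| ≤ m)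
    (hm : m ≤ 1 / 64) (hxyz : z = -x - y) {p t : ℝ} (hp : 0 ≤ p) (hp2 : p ≤ 1 / 2)
    (hA : 0 ≤ A) (hA2 : p ^ 2 + t ^ 2 ≤ A ^ 2) (hB : 2 * A + (1 - 2 * p) ≤ B) :
    |1 + rP p t x y z
      - Real.exp (p * (Real.log (1 + x) + Real.log (1 + y)) + (1 - 2 * p) * Real.log (1 + z)) *
      Real.cos (t * (Real.log (1 + x) - Real.log (1 + y)))|
      ≤ (kR5 B + kR6 B / 64 + kR7 B / 4096) * m ^ 6 / 6 * (67 / 60) := by
  have hm0 : 0 ≤ m := le_trans (abs_nonneg _) hx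
  have hB0 : 0 ≤ B := by nlinarith
  set α : ℂ := ⟨p, t⟩ with hα
  set γ : ℂ := ⟨p, -t⟩ with hγ
  set β : ℂ := ((1 - 2 * p : ℝ) : ℂ) with hβ
  set p1 : ℂ := ⟨cA1 p x y z, cB1 t x y⟩ with hp1
  set p2 : ℂ := ⟨cA2 p x y z, cB2 t x y⟩ with hp2'
  set e2 : ℂ := ((ce2 x y z : ℝ) : ℂ) with he2
  set e3 : ℂ := ((ce3 x y z : ℝ) : ℂ) with he3
  set c2 : ℂ := ⟨ra2 p t x y z, rb2 p t x y z⟩ with hc2
  set c3 : ℂ := ⟨ra3 p t x y z, rb3 p t x y z⟩ with hc3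
  set c4 : ℂ := ⟨ra4 p t x y z, rb4 p t x y z⟩ with hc4
  set c5 : ℂ := ⟨ra5 p t x y z, rb5 p t x y z⟩ with hc5
  have E1 : p1 = α * x + γ * y + β * z := by
    apply Complex.ext
    · simp [hp1, hα, hγ, hβ, cA1]; ring
    · simp [hp1, hα, hγ, hβ, cB1]; ring
  have E2 : p2 = α * x ^ 2 + γ * y ^ 2 + β * z ^ 2 := by
    have ex : ((x : ℂ)) ^ 2 = ((x ^ 2 : ℝ) : ℂ) := by push_cast; ring
    have ey : ((y : ℂ)) ^ 2 = ((y ^ 2 : ℝ) : ℂ) := by push_cast; ring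
    have ez : ((z : ℂ)) ^ 2 = ((z ^ 2 : ℝ) : ℂ) := by push_cast; ring
    rw [ex, ey, ez]
    apply Complex.ext
    · simp only [hp2', hα, hγ, hβ, cA2, Complex.add_re, Complex.mul_re, Complex.ofReal_re,
        Complex.ofReal_im]; ring
    · simp only [hp2', hα, hγ, hβ, cB2, Complex.add_im, Complex.mul_im, Complex.ofReal_re,
        Complex.ofReal_im]; ring
  have Ee2 : e2 = (x:ℂ) * y + y * z + z * x := by simp only [he2, ce2]; push_cast; ring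
  have Ee3 : e3 = (x:ℂ) * y * z := by simp only [he3, ce3]; push_cast; ring
  have F2 : 2 * c2 = p1 * p1 - p2 := by
    apply Complex.ext
    · simp only [hc2, hp1, hp2', ra2, Complex.mul_re, Complex.sub_re, Complex.re_ofNat,
        Complex.im_ofNat]; ring
    · simp only [hc2, hp1, hp2', rb2, Complex.mul_im, Complex.sub_im, Complex.re_ofNat,
        Complex.im_ofNat]; ring
  have F3 : 3 * c3 = p1 * c2 - (p2 + e2) * p1 + e3 := by
    apply Complex.ext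
    · simp only [hc3, hc2, hp1, hp2', he2, he3, ra3, Complex.mul_re, Complex.sub_re,
        Complex.add_re, Complex.add_im, Complex.ofReal_re, Complex.ofReal_im, Complex.re_ofNat,
        Complex.im_ofNat]; ring
    · simp only [hc3, hc2, hp1, hp2', he2, he3, rb3, Complex.mul_im, Complex.sub_im,
        Complex.add_re, Complex.add_im, Complex.ofReal_re, Complex.ofReal_im, Complex.re_ofNat,
        Complex.im_ofNat]; ring
  have F4 : 4 * c4 = p1 * c3 - (p2 + 2 * e2) * c2 := by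
    apply Complex.ext
    · simp only [hc4, hc3, hc2, hp1, hp2', he2, ra4, Complex.mul_re, Complex.mul_im,
        Complex.sub_re,
        Complex.add_re, Complex.add_im, Complex.ofReal_re, Complex.ofReal_im, Complex.re_ofNat,
        Complex.im_ofNat]; ring
    · simp only [hc4, hc3, hc2, hp1, hp2', he2, rb4, Complex.mul_im, Complex.mul_re,
        Complex.sub_im,
        Complex.add_re, Complex.add_im, Complex.ofReal_re, Complex.ofReal_im, Complex.re_ofNat,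
        Complex.im_ofNat]; ring
  have F5 : 5 * c5 = p1 * c4 - (p2 + 3 * e2) * c3 - e3 * c2 := by
    apply Complex.ext
    · simp only [hc5, hc4, hc3, hc2, hp1, hp2', he2, he3, ra5, Complex.mul_re, Complex.mul_im,
        Complex.sub_re,
        Complex.add_re, Complex.add_im, Complex.ofReal_re, Complex.ofReal_im, Complex.re_ofNat,
        Complex.im_ofNat]; ring
    · simp only [hc5, hc4, hc3, hc2, hp1, hp2', he2, he3, rb5, Complex.mul_im, Complex.mul_re,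
        Complex.sub_im,
        Complex.add_re, Complex.add_im, Complex.ofReal_re, Complex.ofReal_im, Complex.re_ofNat,
        Complex.im_ofNat]; ring
  -- norms
  have nα : ‖α‖ ≤ A := by
    rw [Complex.norm_def, Complex.normSq_apply]
    exact Real.sqrt_le_iff.mpr ⟨hA, by simp only [hα]; nlinarith⟩
  have nγ : ‖γ‖ ≤ A := by
    rw [Complex.norm_def, Complex.normSq_apply]
    exact Real.sqrt_le_iff.mpr ⟨hA, by simp only [hγ]; nlinarith⟩
  have nβ : ‖β‖ = 1 - 2 * p := by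
    rw [hβ, Complex.norm_real, Real.norm_of_nonneg (by linarith)]
  have nr : ∀ u : ℝ, |u| ≤ m → ‖(u : ℂ)‖ ≤ m := fun u hu => by
    rw [Complex.norm_real]; exact hu
  have np1 : ‖p1‖ ≤ B * m := by
    rw [E1]
    calc ‖α * x + γ * y + β * z‖ ≤ ‖α * x‖ + ‖γ * y‖ + ‖β * z‖ := norm_add₃_le
      _ = ‖α‖ * ‖(x:ℂ)‖ + ‖γ‖ * ‖(y:ℂ)‖ + (1 - 2 * p) * ‖(z:ℂ)‖ := by
        rw [norm_mul, norm_mul, norm_mul, nβ]
      _ ≤ A * m + A * m + (1 - 2 * p) * m := by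
        have := nr x hx; have := nr y hy; have := nr z hz
        have : 0 ≤ 1 - 2 * p := by linarith
        gcongr
      _ = (2 * A + (1 - 2 * p)) * m := by ring
      _ ≤ B * m := by gcongr
  have np2 : ‖p2‖ ≤ B * m ^ 2 := by
    rw [E2]
    calc ‖α * x ^ 2 + γ * y ^ 2 + β * z ^ 2‖ ≤ ‖α * x ^ 2‖ + ‖γ * y ^ 2‖ + ‖β * z ^ 2‖ :=
          norm_add₃_le
      _ = ‖α‖ * ‖(x:ℂ)‖ ^ 2 + ‖γ‖ * ‖(y:ℂ)‖ ^ 2 + (1 - 2 * p) * ‖(z:ℂ)‖ ^ 2 := by
        rw [norm_mul, norm_mul, norm_mul, nβ, norm_pow, norm_pow, norm_pow]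
      _ ≤ A * m ^ 2 + A * m ^ 2 + (1 - 2 * p) * m ^ 2 := by
        have := nr x hx; have := nr y hy; have := nr z hz
        have : 0 ≤ 1 - 2 * p := by linarith
        gcongr
      _ = (2 * A + (1 - 2 * p)) * m ^ 2 := by ring
      _ ≤ B * m ^ 2 := by gcongr
  have sq : ∀ u : ℝ, |u| ≤ m → u ^ 2 ≤ m ^ 2 := fun u hu => by
    rw [← sq_abs]; gcongr
  have ne2 : ‖e2‖ ≤ 3 / 2 * m ^ 2 := by
    rw [he2, Complex.norm_real, Real.norm_eq_abs]
    have e : ce2 x y z = -((x ^ 2 + y ^ 2 + z ^ 2) / 2) := by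
      unfold ce2; rw [hxyz]; ring
    rw [e, abs_neg, abs_of_nonneg (by positivity)]
    have := sq x hx; have := sq y hy; have := sq z hz
    linarith
  have ne3 : ‖e3‖ ≤ m ^ 3 := by
    rw [he3, Complex.norm_real, Real.norm_eq_abs, ce3, abs_mul, abs_mul]
    calc |x| * |y| * |z| ≤ m * m * m := by gcongr
      _ = m ^ 3 := by ring
  obtain ⟨b5, b6, b7⟩ := coeff_bounds (c1 := p1) hB0 hm0 np1 np2 ne2 ne3 rfl F2 F3 F4 F5
  set P : ℂ → ℂ := fun s => 1 + p1 * s + c2 * s ^ 2 + c3 * s ^ 3 + c4 * s ^ 4 + c5 * s ^ 5 with hP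
  set P' : ℂ → ℂ := fun s => p1 + 2 * c2 * s + 3 * c3 * s ^ 2 + 4 * c4 * s ^ 3 + 5 * c5 * s ^ 4
    with hP'
  set ρ : ℝ → ℂ := fun s => -(p1 * c5 - (p2 + 4 * e2) * c4 - 2 * e3 * c3)
          + ((5 * e2 + p2) * c5 + 3 * e3 * c4) * s + 4 * e3 * c5 * s ^ 2 with hρ
  have hder : ∀ s, HasDerivAt P (P' s) s := by
    intro s
    have d1 : HasDerivAt (fun s : ℂ => p1 * s) (p1 * 1) s := (hasDerivAt_id s).const_mul p1
    have d2 := (hasDerivAt_pow 2 s).const_mul c2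
    have d3 := (hasDerivAt_pow 3 s).const_mul c3
    have d4 := (hasDerivAt_pow 4 s).const_mul c4
    have d5 := (hasDerivAt_pow 5 s).const_mul c5
    have h := (((((d1.const_add 1).add d2).add d3).add d4).add d5)
    refine HasDerivAt.congr_deriv h ?_
    simp only [hP']
    push_cast
    ring
  have hρb : ∀ s ∈ Set.Icc (0:ℝ) 1, ‖ρ s‖ ≤ (kR5 B + kR6 B / 64 + kR7 B / 4096) * m ^ 6 := by
    intro s hs
    have hs0 := hs.1
    have hs1 := hs.2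
    have ns : ‖(s:ℂ)‖ = s := by rw [Complex.norm_real, Real.norm_of_nonneg hs0]
    have k2 : 0 ≤ kC2 B := by unfold kC2; positivity
    have k3 : 0 ≤ kC3 B := by unfold kC3; positivity
    have k4 : 0 ≤ kC4 B := by unfold kC4; positivity
    have k5 : 0 ≤ kC5 B := by unfold kC5; positivity
    have k6 : 0 ≤ kR6 B := by unfold kR6; positivity
    have k7 : 0 ≤ kR7 B := by unfold kR7; positivity
    simp only [hρ]
    calc _ ≤ ‖-(p1 * c5 - (p2 + 4 * e2) * c4 - 2 * e3 * c3)‖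
          + ‖((5 * e2 + p2) * c5 + 3 * e3 * c4) * s‖ + ‖4 * e3 * c5 * s ^ 2‖ := norm_add₃_le
      _ = ‖-(p1 * c5 - (p2 + 4 * e2) * c4 - 2 * e3 * c3)‖
          + ‖(5 * e2 + p2) * c5 + 3 * e3 * c4‖ * s + ‖4 * e3 * c5‖ * s ^ 2 := by
          rw [norm_mul, norm_mul _ ((s:ℂ) ^ 2), norm_pow, ns]
      _ ≤ kR5 B * m ^ 6 + kR6 B * m ^ 7 * 1 + kR7 B * m ^ 8 * 1 ^ 2 := by gcongr
      _ = kR5 B * m ^ 6 + kR6 B * (m ^ 6 * m) + kR7 B * (m ^ 6 * (m * m)) := by ring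
      _ ≤ kR5 B * m ^ 6 + kR6 B * (m ^ 6 * (1 / 64)) + kR7 B * (m ^ 6 * (1 / 64 * (1 / 64))) := by
          gcongr
      _ = _ := by ring
  have key := ray_compare hx hy hz hm hp (by linarith : 0 ≤ 1 - 2 * p) (by ring) P P' hder
    (by simp [hP]) ρ hρb (t := t) (by
      intro s
      have := near_ode_alg α γ β x y z s p1 p2 e2 e3 p1 c2 c3 c4 c5
        (by rw [hxyz]; push_cast; ring)
        (by apply Complex.ext <;> simp [hα, hγ, hβ]; ring) E1 E2 Ee2 Ee3 rfl F2 F3 F4 F5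
      simp only [hP, hP', hρ]
      rw [← this])
  have hre : (P 1).re = 1 + rP p t x y z := by
    simp only [hP, hp1, hc2, hc3, hc4, hc5, rP]
    simp
    ring
  rw [hre] at key
  exact key

theorem term_eq {a b c p t : ℝ} (ha : 0 < a) (hb : 0 < b) (hc : 0 < c) :
    (a * b) ^ p * c ^ (1 - 2 * p) * Real.cos (t * (Real.log a - Real.log b))
    = Real.exp (p * (Real.log a + Real.log b) + (1 - 2 * p) * Real.log c) *
      Real.cos (t * (Real.log a - Real.log b)) := by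
  rw [Real.rpow_def_of_pos (mul_pos ha hb), Real.rpow_def_of_pos hc, ← Real.exp_add,
    Real.log_mul ha.ne' hb.ne']
  ring_nf

theorem near_generic {y : Fin 3 → ℝ} {m A B : ℝ} (hm : m ≤ 1 / 64) (hy : ∀ i, |y i - 1| ≤ m)
    (hs : ∑ i, y i = 3) {p t : ℝ} (hp : 0 ≤ p) (hp2 : p ≤ 1 / 2)
    (hA : 0 ≤ A) (hA2 : p ^ 2 + t ^ 2 ≤ A ^ 2) (hB : 2 * A + (1 - 2 * p) ≤ B) {K S : ℝ}
    (hK : (kR5 B + kR6 B / 64 + kR7 B / 4096) / 6 * (67 / 60) ≤ K)
    (hS : rP p t (y 0 - 1) (y 1 - 1) (-(y 0 - 1) - (y 1 - 1))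
      + rP p t (y 1 - 1) (-(y 0 - 1) - (y 1 - 1)) (y 0 - 1)
      + rP p t (-(y 0 - 1) - (y 1 - 1)) (y 0 - 1) (y 1 - 1) = -3 * S) :
    |1 - Fc p t y - S| ≤ K * m ^ 6 := by
  have hm0 : 0 ≤ m := le_trans (abs_nonneg _) (hy 0)
  rw [Fin.sum_univ_three] at hs
  have e2 : y 2 - 1 = -(y 0 - 1) - (y 1 - 1) := by linarith
  rw [← e2] at hS
  have hpos : ∀ i, 0 < y i := fun i => by
    have := (abs_le.mp (hy i)).1
    linarith
  have k0 := char_near (hy 1) (hy 2) (hy 0) hm (by linarith) hp hp2 hA hA2 hB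
  have k1 := char_near (hy 2) (hy 0) (hy 1) hm (by linarith) hp hp2 hA hA2 hB
  have k2 := char_near (hy 0) (hy 1) (hy 2) hm (by linarith) hp hp2 hA hA2 hB
  simp only [add_sub_cancel] at k0 k1 k2
  rw [← term_eq (hpos 1) (hpos 2) (hpos 0)] at k0
  rw [← term_eq (hpos 2) (hpos 0) (hpos 1)] at k1
  rw [← term_eq (hpos 0) (hpos 1) (hpos 2)] at k2
  have hF : Fc p t y = (1 / 3) * (
      (y 1 * y 2) ^ p * y 0 ^ (1 - 2 * p) * Real.cos (t * (Real.log (y 1) - Real.log (y 2)))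
      + (y 2 * y 0) ^ p * y 1 ^ (1 - 2 * p) * Real.cos (t * (Real.log (y 2) - Real.log (y 0)))
      + (y 0 * y 1) ^ p * y 2 ^ (1 - 2 * p) * Real.cos (t * (Real.log (y 0) - Real.log (y 1)))) := by
    unfold Fc
    rw [Fin.sum_univ_three]
    rfl
  have hm6 : 0 ≤ m ^ 6 := by positivity
  have hK' : (kR5 B + kR6 B / 64 + kR7 B / 4096) * m ^ 6 / 6 * (67 / 60) ≤ K * m ^ 6 := by
    calc _ = ((kR5 B + kR6 B / 64 + kR7 B / 4096) / 6 * (67 / 60)) * m ^ 6 := by ring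
      _ ≤ _ := by gcongr
  rw [hF]
  rw [abs_le] at k0 k1 k2 ⊢
  constructor <;> linarith

/-- `1 - F(1+u) = q Q + c R + k Q^2 + v Q R + O(K m^6)`, `Q = QQ`, `R = RR`. -/
theorem near_expand (x : (ℕ × ℕ) × ℚ × ℚ × ℚ × ℚ × ℚ) (hx : x ∈ nearTab)
    (y : Fin 3 → ℝ) (m : ℝ) (hm : m ≤ 1 / 64) (hy : ∀ i, |y i - 1| ≤ m) (hs : ∑ i, y i = 3) :
    |1 - Fn x.1 y - ((x.2.1 : ℝ) * QQ y + (x.2.2.1 : ℝ) * RR y + (x.2.2.2.1 : ℝ) * QQ y ^ 2
      + (x.2.2.2.2.1 : ℝ) * (QQ y * RR y))| ≤ (x.2.2.2.2.2 : ℝ) * m ^ 6 := by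
  have hid := poly_id x hx (y 0 - 1) (y 1 - 1)
  have e2 : y 2 - 1 = -(y 0 - 1) - (y 1 - 1) := by rw [Fin.sum_univ_three] at hs; linarith
  have hQ : QQ y = ((y 0 - 1) ^ 2 + (y 1 - 1) ^ 2 + (-(y 0 - 1) - (y 1 - 1)) ^ 2) / 6 := by
    unfold QQ; rw [e2]
  have hR : RR y = (y 0 - 1) * (y 1 - 1) * (-(y 0 - 1) - (y 1 - 1)) := by
    unfold RR; rw [e2]
  rw [hQ, hR]
  unfold Fn
  simp only [nearTab, List.mem_cons, List.mem_nil_iff, or_false] at hx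
  rcases hx with rfl | rfl | rfl | rfl | rfl | rfl | rfl
  · exact near_generic (A := 1 / 2) (B := 1) hm hy hs (by norm_num) (by norm_num) (by norm_num)
      (by norm_num) (by norm_num)
      (by unfold kR5 kR6 kR7 kC5 kC4 kC3 kC2; norm_num) hid
  · exact near_generic (A := 56 / 100) (B := 112 / 100) hm hy hs (by norm_num) (by norm_num)
      (by norm_num) (by norm_num) (by norm_num)
      (by unfold kR5 kR6 kR7 kC5 kC4 kC3 kC2; norm_num) hid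
  · exact near_generic (A := 71 / 100) (B := 142 / 100) hm hy hs (by norm_num) (by norm_num)
      (by norm_num) (by norm_num) (by norm_num)
      (by unfold kR5 kR6 kR7 kC5 kC4 kC3 kC2; norm_num) hid
  · exact near_generic (A := 112 / 100) (B := 224 / 100) hm hy hs (by norm_num) (by norm_num)
      (by norm_num) (by norm_num) (by norm_num)
      (by unfold kR5 kR6 kR7 kC5 kC4 kC3 kC2; norm_num) hid
  · exact near_generic (A := 67 / 100) (B := 147 / 100) hm hy hs (by norm_num) (by norm_num)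
      (by norm_num) (by norm_num) (by norm_num)
      (by unfold kR5 kR6 kR7 kC5 kC4 kC3 kC2; norm_num) hid
  · exact near_generic (A := 63 / 100) (B := 151 / 100) hm hy hs (by norm_num) (by norm_num)
      (by norm_num) (by norm_num) (by norm_num)
      (by unfold kR5 kR6 kR7 kC5 kC4 kC3 kC2; norm_num) hid
  · exact near_generic (A := 58 / 100) (B := 141 / 100) hm hy hs (by norm_num) (by norm_num)
      (by norm_num) (by norm_num) (by norm_num)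
      (by unfold kR5 kR6 kR7 kC5 kC4 kC3 kC2; norm_num) hid

end Vale.Agent.Lib.P154.Neg
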