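import Vale.Agent.Lib.P154.Neg.CkFacts
import Vale.Agent.Lib.P154.Neg.CkHolds
import Vale.Agent.Lib.P154.Neg.CkNear
import Vale.Agent.Lib.P154.Neg.CkIface

/-! Values of tasks, regions of the runs, and the neighbourhood of the centre. -/

namespace Vale.Agent.Lib.P154.Neg.Ck.LY

open scoped BigOperators

/-- value of a task of a run with the dictionary `dI` and `z = false` -/
theorem val_dI (R : Run) (hD : R.D = dI) (hz : R.z = false) (t : Tk) (y : Fin 3 → ℝ) :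
    R.val t y = ((t.p0 : ℝ) - t.n0) + ((t.p1 : ℝ) - t.n1) * Fn (8, 0) y
      + ((t.p2 : ℝ) - t.n2) * Fn (8, 4) y + ((t.p3 : ℝ) - t.n3) * Fn (8, 8) y
      + ((t.p4 : ℝ) - t.n4) * Fn (8, 16) y + ((t.p5 : ℝ) - t.n5) * Fn (7, 8) y
      + ((t.p6 : ℝ) - t.n6) * Fn (6, 8) y + ((t.p7 : ℝ) - t.n7) * QQ y
      + ((t.p8 : ℝ) - t.n8) * Neg.RR y + ((t.p9 : ℝ) - t.n9) * QQ y ^ 2
      + ((t.p10 : ℝ) - t.n10) * QQ y ^ 4 := by
  obtain ⟨D, z, a, b, c, ts⟩ := R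
  subst hD hz
  unfold Run.val Run.basis Tk.val dI
  simp

theorem sx_le3 {y : Fin 3 → ℝ} (hy : Sx y) (i : Fin 3) : y i ≤ 3 := by
  have hs := hy.2
  rw [Fin.sum_univ_three] at hs
  have a0 := hy.1 0
  have a1 := hy.1 1
  have a2 := hy.1 2
  fin_cases i <;> simp only [Fin.zero_eta, Fin.mk_one, Fin.reduceFinMk] <;> linarith

theorem sx_abs3 {y : Fin 3 → ℝ} (hy : Sx y) (i : Fin 3) : |y i - 1| ≤ 3 := by
  have h1 := sx_le3 hy i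
  have h2 := hy.1 i
  rw [abs_le]
  constructor <;> linarith

theorem reg_of (R : Run) {y : Fin 3 → ℝ} (hy : Sx y) (Y lo hi : ℝ)
    (hY : R.ymax = Y * 2 ^ 64) (hlo : R.rlo = lo * 2 ^ 64) (hhi : R.rhi = hi * 2 ^ 64)
    (h1 : ∀ i, y i ≤ Y) (h2 : ∃ i, lo ≤ |y i - 1|) (h3 : ∀ i, |y i - 1| ≤ hi) : R.Reg y := by
  refine ⟨hy, fun i => ?_, ?_, fun i => ?_⟩
  · rw [hY]
    exact mul_le_mul_of_nonneg_right (h1 i) (by positivity)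
  · obtain ⟨i, hi⟩ := h2
    exact ⟨i, by rw [hlo]; exact mul_le_mul_of_nonneg_right hi (by positivity)⟩
  · rw [hhi]
    exact mul_le_mul_of_nonneg_right (h3 i) (by positivity)

theorem regA {y : Fin 3 → ℝ} (hy : Sx y) (h : ∃ i, 1 / 4 ≤ |y i - 1|) : runA.Reg y :=
  reg_of _ hy 3 (1 / 4) 3 (by norm_num [runA]) (by norm_num [runA]) (by norm_num [runA])
    (sx_le3 hy) h (sx_abs3 hy)

theorem regB {y : Fin 3 → ℝ} (hy : Sx y) (h : ∀ i, |y i - 1| ≤ 1 / 4) : runB.Reg y :=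
  reg_of _ hy 3 0 (1 / 4) (by norm_num [runB]) (by norm_num [runB]) (by norm_num [runB])
    (sx_le3 hy) ⟨0, abs_nonneg _⟩ h

theorem regC {y : Fin 3 → ℝ} (hy : Sx y) (h : ∃ i, 1 / 128 ≤ |y i - 1|)
    (h4 : ∀ i, |y i - 1| ≤ 1 / 4) : runC.Reg y :=
  reg_of _ hy 3 (1 / 128) (1 / 4) (by norm_num [runC]) (by norm_num [runC])
    (by norm_num [runC]) (sx_le3 hy) h h4

theorem regM {y : Fin 3 → ℝ} (hy : Sx y) (h : ∃ i, 1 / 128 ≤ |y i - 1|)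
    (h4 : ∀ i, |y i - 1| ≤ 1 / 4) : runM.Reg y :=
  reg_of _ hy 3 (1 / 128) (1 / 4) (by norm_num [runM]) (by norm_num [runM])
    (by norm_num [runM]) (sx_le3 hy) h h4

theorem regD {y : Fin 3 → ℝ} (hy : Sx y) (hs : ∀ i, y i ≤ 3 / 2)
    (h : ∃ i, 1 / 4 ≤ |y i - 1|) : runD.Reg y :=
  reg_of _ hy (3 / 2) (1 / 4) 3 (by norm_num [runD]) (by norm_num [runD])
    (by norm_num [runD]) hs h (sx_abs3 hy)

theorem regE {y : Fin 3 → ℝ} (hy : Sx y) (hs : ∀ i, y i ≤ 741 / 512)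
    (h : ∃ i, 1 / 4 ≤ |y i - 1|) : runE.Reg y :=
  reg_of _ hy (741 / 512) (1 / 4) 3 (by norm_num [runE]) (by norm_num [runE])
    (by norm_num [runE]) hs h (sx_abs3 hy)

/-- size of `Q` and `R` in terms of the largest coordinate -/
theorem QR_bounds {y : Fin 3 → ℝ} (hs : ∑ i, y i = 3) :
    ∃ m, (∀ i, |y i - 1| ≤ m) ∧ (∃ i, m = |y i - 1|) ∧ m ^ 2 / 4 ≤ QQ y ∧ QQ y ≤ m ^ 2 / 3 ∧
      |Neg.RR y| ≤ m * QQ y := by
  obtain ⟨i, -, hi⟩ := Finset.exists_max_image (Finset.univ : Finset (Fin 3))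
    (fun i => |y i - 1|) ⟨0, Finset.mem_univ _⟩
  refine ⟨|y i - 1|, fun j => hi j (Finset.mem_univ j), ⟨i, rfl⟩, ?_⟩
  rw [Fin.sum_univ_three] at hs
  have key : ∀ a b c : ℝ, a + b + c = 0 → |b| ≤ |a| → |c| ≤ |a| →
      |a| ^ 2 / 4 ≤ (a ^ 2 + b ^ 2 + c ^ 2) / 6 ∧ (a ^ 2 + b ^ 2 + c ^ 2) / 6 ≤ |a| ^ 2 / 3 ∧
      |a * b * c| ≤ |a| * ((a ^ 2 + b ^ 2 + c ^ 2) / 6) := by
    intro a b c h hb hc
    have hc' : c = -a - b := by linarith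
    have hb2 : b ^ 2 ≤ a ^ 2 := sq_le_sq.2 hb
    have hc2 : c ^ 2 ≤ a ^ 2 := sq_le_sq.2 hc
    have hbc : 0 ≤ b * c := by
      rw [hc'] at hc2 ⊢
      nlinarith
    refine ⟨?_, ?_, ?_⟩
    · rw [sq_abs, hc']
      nlinarith [sq_nonneg (a + 2 * b)]
    · rw [sq_abs]
      have : a ^ 2 = b ^ 2 + c ^ 2 + 2 * (b * c) := by
        have : a = -b - c := by linarith
        rw [this]; ring
      linarith
    · rw [mul_assoc, abs_mul, abs_of_nonneg hbc]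
      refine mul_le_mul_of_nonneg_left ?_ (abs_nonneg _)
      have : a ^ 2 = b ^ 2 + c ^ 2 + 2 * (b * c) := by
        have : a = -b - c := by linarith
        rw [this]; ring
      nlinarith [sq_nonneg (b - c)]
  have h0 := hi 0 (Finset.mem_univ 0)
  have h1 := hi 1 (Finset.mem_univ 1)
  have h2 := hi 2 (Finset.mem_univ 2)
  unfold QQ Neg.RR
  fin_cases i
  · simp only [Fin.zero_eta] at h0 h1 h2 ⊢
    exact key _ _ _ (by linarith) h1 h2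
  · simp only [Fin.mk_one] at h0 h1 h2 ⊢
    have := key (y 1 - 1) (y 0 - 1) (y 2 - 1) (by linarith) h0 h2
    rw [add_comm ((y 0 - 1) ^ 2) ((y 1 - 1) ^ 2), mul_comm (y 0 - 1) (y 1 - 1)]
    exact this
  · simp only [Fin.reduceFinMk] at h0 h1 h2 ⊢
    have := key (y 2 - 1) (y 0 - 1) (y 1 - 1) (by linarith) h0 h1
    have e1 : (y 0 - 1) ^ 2 + (y 1 - 1) ^ 2 + (y 2 - 1) ^ 2
      = (y 2 - 1) ^ 2 + (y 0 - 1) ^ 2 + (y 1 - 1) ^ 2 := by ring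
    have e2 : (y 0 - 1) * (y 1 - 1) * (y 2 - 1) = (y 2 - 1) * (y 0 - 1) * (y 1 - 1) := by ring
    rw [e1, e2]
    exact this

/-- the expansions near the centre, explicitly -/
theorem near6 {w : Fin 3 → ℝ} {m : ℝ} (hm : m ≤ 1 / 64) (hy : ∀ i, |w i - 1| ≤ m)
    (hs : ∑ i, w i = 3) :
    |1 - Fn (8, 0) w - (3 / 4 * QQ w - 3 / 16 * Neg.RR w + 39 / 64 * QQ w ^ 2
      - 93 / 256 * (QQ w * Neg.RR w))| ≤ 6 * m ^ 6 ∧
    |1 - Fn (8, 4) w - (15 / 16 * QQ w - 15 / 64 * Neg.RR w + 735 / 1024 * QQ w ^ 2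
      - 1725 / 4096 * (QQ w * Neg.RR w))| ≤ 8 * m ^ 6 ∧
    |1 - Fn (8, 8) w - (3 / 2 * QQ w - 3 / 8 * Neg.RR w + 15 / 16 * QQ w ^ 2
      - 33 / 64 * (QQ w * Neg.RR w))| ≤ 12 * m ^ 6 ∧
    |1 - Fn (8, 16) w - (15 / 4 * QQ w - 15 / 16 * Neg.RR w + 15 / 64 * QQ w ^ 2
      + 75 / 256 * (QQ w * Neg.RR w))| ≤ 48 * m ^ 6 ∧
    |1 - Fn (7, 8) w - (423 / 256 * QQ w - 4401 / 8192 * Neg.RR w + 351855 / 262144 * QQ w ^ 2
      - 7062777 / 8388608 * (QQ w * Neg.RR w))| ≤ 16 * m ^ 6 ∧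
    |1 - Fn (6, 8) w - (111 / 64 * QQ w - 669 / 1024 * Neg.RR w + 26895 / 16384 * QQ w ^ 2
      - 284133 / 262144 * (QQ w * Neg.RR w))| ≤ 16 * m ^ 6 := by
  have h0 := near_expand ((8, 0), 3/4, -3/16, 39/64, -93/256, 6) (by simp [nearTab]) w m hm hy hs
  have h1 := near_expand ((8, 4), 15/16, -15/64, 735/1024, -1725/4096, 8) (by simp [nearTab])
    w m hm hy hs
  have h2 := near_expand ((8, 8), 3/2, -3/8, 15/16, -33/64, 12) (by simp [nearTab]) w m hm hy hs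
  have h3 := near_expand ((8, 16), 15/4, -15/16, 15/64, 75/256, 48) (by simp [nearTab])
    w m hm hy hs
  have h4 := near_expand ((7, 8), 423/256, -4401/8192, 351855/262144, -7062777/8388608, 16)
    (by simp [nearTab]) w m hm hy hs
  have h5 := near_expand ((6, 8), 111/64, -669/1024, 26895/16384, -284133/262144, 16)
    (by simp [nearTab]) w m hm hy hs
  push_cast at h0 h1 h2 h3 h4 h5
  refine ⟨?_, ?_, ?_, ?_, ?_, ?_⟩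
  · convert h0 using 2; ring
  · convert h1 using 2; ring
  · convert h2 using 2; ring
  · convert h3 using 2; ring
  · convert h4 using 2; ring
  · convert h5 using 2; ring

/-- positivity near the centre, abstract form: `x = δ Q + κ R + k Q^2 + v Q R + p Q^4 + e` -/
theorem near_pos {Q R m δ κ k v p E e : ℝ} (hm0 : 0 ≤ m) (hm : m ≤ 1 / 128)
    (hQ1 : m ^ 2 / 4 ≤ Q) (hQ2 : Q ≤ m ^ 2 / 3) (hR : |R| ≤ m * Q) (hp : 0 ≤ p) (hE : 0 ≤ E)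
    (he : |e| ≤ E * m ^ 6)
    (hc : |κ| / 128 + |k| / (3 * 128 ^ 2) + |v| / (3 * 128 ^ 3) + 4 * E / 128 ^ 4 ≤ δ) :
    0 ≤ δ * Q + κ * R + k * Q ^ 2 + v * (Q * R) + p * Q ^ 4 + e := by
  have hQ : 0 ≤ Q := le_trans (by positivity) hQ1
  have a1 : -(|κ| * Q / 128) ≤ κ * R := by
    have h1 : |κ * R| ≤ |κ| * (m * Q) := by
      rw [abs_mul]; exact mul_le_mul_of_nonneg_left hR (abs_nonneg _)
    have h2 : |κ| * (m * Q) ≤ |κ| * (1 / 128 * Q) :=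
      mul_le_mul_of_nonneg_left (mul_le_mul_of_nonneg_right hm hQ) (abs_nonneg _)
    have h3 := (abs_le.1 h1).1
    linarith
  have hm2 : m ^ 2 ≤ (1 / 128) ^ 2 := pow_le_pow_left₀ hm0 hm 2
  have hm3 : m ^ 3 ≤ (1 / 128) ^ 3 := pow_le_pow_left₀ hm0 hm 3
  have hm4 : m ^ 4 ≤ (1 / 128) ^ 4 := pow_le_pow_left₀ hm0 hm 4
  have hQs : Q ≤ (1 / 128) ^ 2 / 3 := by linarith
  have a2 : -(|k| * Q / (3 * 128 ^ 2)) ≤ k * Q ^ 2 := by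
    have h1 : |k * Q ^ 2| ≤ |k| * (Q * ((1 / 128) ^ 2 / 3)) := by
      rw [abs_mul, abs_of_nonneg (sq_nonneg Q), pow_two]
      exact mul_le_mul_of_nonneg_left (mul_le_mul_of_nonneg_left hQs hQ) (abs_nonneg _)
    have h3 := (abs_le.1 h1).1
    linarith
  have a3 : -(|v| * Q / (3 * 128 ^ 3)) ≤ v * (Q * R) := by
    have h0 : |Q * R| ≤ Q * ((1 / 128) ^ 3 / 3) := by
      rw [abs_mul, abs_of_nonneg hQ]
      refine mul_le_mul_of_nonneg_left (hR.trans ?_) hQ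
      have : m * Q ≤ m * (m ^ 2 / 3) := mul_le_mul_of_nonneg_left hQ2 hm0
      nlinarith
    have h1 : |v * (Q * R)| ≤ |v| * (Q * ((1 / 128) ^ 3 / 3)) := by
      rw [abs_mul]
      exact mul_le_mul_of_nonneg_left h0 (abs_nonneg _)
    have h3 := (abs_le.1 h1).1
    linarith
  have a4 : 0 ≤ p * Q ^ 4 := by positivity
  have a5 : -(4 * E * Q / 128 ^ 4) ≤ e := by
    have h1 : m ^ 6 ≤ (1 / 128) ^ 4 * (4 * Q) := by
      calc m ^ 6 = m ^ 4 * m ^ 2 := by ring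
        _ ≤ (1 / 128) ^ 4 * (4 * Q) :=
          mul_le_mul hm4 (by linarith) (by positivity) (by positivity)
    have h2 : E * m ^ 6 ≤ E * ((1 / 128) ^ 4 * (4 * Q)) := mul_le_mul_of_nonneg_left h1 hE
    have h3 := (abs_le.1 he).1
    linarith
  have a6 := mul_le_mul_of_nonneg_right hc hQ
  have a7 : (|κ| / 128 + |k| / (3 * 128 ^ 2) + |v| / (3 * 128 ^ 3) + 4 * E / 128 ^ 4) * Q
    = |κ| * Q / 128 + |k| * Q / (3 * 128 ^ 2) + |v| * Q / (3 * 128 ^ 3) + 4 * E * Q / 128 ^ 4 := by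
    ring
  rw [a7] at a6
  linarith

private theorem lk_mul {G e K m : ℝ} (hG : 0 ≤ G) (h : |e| ≤ K * m ^ 6) :
    -(K * G * m ^ 6) ≤ G * e ∧ G * e ≤ K * G * m ^ 6 := by
  have h1 := (abs_le.1 h).1
  have h2 := (abs_le.1 h).2
  have k1 := mul_le_mul_of_nonneg_left h1 hG
  have k2 := mul_le_mul_of_nonneg_left h2 hG
  constructor <;> linarith

/-- the `Z` inequality of `iface` near the centre -/
theorem near_Z {G0 G1 G2 G3 G4 nu p1 p2 p3 p4 δ κ k v E : ℝ} (g0 : 0 ≤ G0) (g1 : 0 ≤ G1)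
    (g2 : 0 ≤ G2) (g3 : 0 ≤ G3) (g4 : 0 ≤ G4) (hp4 : 0 ≤ p4)
    (hδ : δ = p1 - (3 / 4 * G0 + 15 / 16 * G1 + 3 / 2 * G2 + 15 / 4 * G3 + 423 / 256 * G4)
      + 111 / 64 * nu)
    (hκ : κ = p2 + (3 / 16 * G0 + 15 / 64 * G1 + 3 / 8 * G2 + 15 / 16 * G3 + 4401 / 8192 * G4)
      - 669 / 1024 * nu)
    (hk : k = p3 - (39 / 64 * G0 + 735 / 1024 * G1 + 15 / 16 * G2 + 15 / 64 * G3
      + 351855 / 262144 * G4) + 26895 / 16384 * nu)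
    (hv : v = (93 / 256 * G0 + 1725 / 4096 * G1 + 33 / 64 * G2 - 75 / 256 * G3
      + 7062777 / 8388608 * G4) - 284133 / 262144 * nu)
    (hE : E = 6 * G0 + 8 * G1 + 12 * G2 + 48 * G3 + 16 * G4 + 16 * |nu|)
    (hc : |κ| / 128 + |k| / (3 * 128 ^ 2) + |v| / (3 * 128 ^ 3) + 4 * E / 128 ^ 4 ≤ δ)
    (w : Fin 3 → ℝ) (hs : ∑ i, w i = 3) (hw : ∀ i, |w i - 1| ≤ 1 / 128) :
    0 ≤ p1 * QQ w + p2 * Neg.RR w + p3 * QQ w ^ 2 + p4 * QQ w ^ 4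
      - (G0 * (1 - Fn (8, 0) w) + G1 * (1 - Fn (8, 4) w) + G2 * (1 - Fn (8, 8) w)
        + G3 * (1 - Fn (8, 16) w) + G4 * (1 - Fn (7, 8) w)) + nu * (1 - Fn (6, 8) w) := by
  obtain ⟨m, hm1, ⟨i, hmi⟩, hQ1, hQ2, hR⟩ := QR_bounds hs
  have hm0 : 0 ≤ m := by rw [hmi]; exact abs_nonneg _
  have hm : m ≤ 1 / 128 := by rw [hmi]; exact hw i
  obtain ⟨n0, n1, n2, n3, n4, n5⟩ := near6 (by linarith : m ≤ 1 / 64) hm1 hs
  obtain ⟨e0, h0⟩ : ∃ e, e = 1 - Fn (8, 0) w - (3 / 4 * QQ w - 3 / 16 * Neg.RR w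
    + 39 / 64 * QQ w ^ 2 - 93 / 256 * (QQ w * Neg.RR w)) := ⟨_, rfl⟩
  obtain ⟨e1, h1⟩ : ∃ e, e = 1 - Fn (8, 4) w - (15 / 16 * QQ w - 15 / 64 * Neg.RR w
    + 735 / 1024 * QQ w ^ 2 - 1725 / 4096 * (QQ w * Neg.RR w)) := ⟨_, rfl⟩
  obtain ⟨e2, h2⟩ : ∃ e, e = 1 - Fn (8, 8) w - (3 / 2 * QQ w - 3 / 8 * Neg.RR w
    + 15 / 16 * QQ w ^ 2 - 33 / 64 * (QQ w * Neg.RR w)) := ⟨_, rfl⟩
  obtain ⟨e3, h3⟩ : ∃ e, e = 1 - Fn (8, 16) w - (15 / 4 * QQ w - 15 / 16 * Neg.RR w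
    + 15 / 64 * QQ w ^ 2 + 75 / 256 * (QQ w * Neg.RR w)) := ⟨_, rfl⟩
  obtain ⟨e4, h4⟩ : ∃ e, e = 1 - Fn (7, 8) w - (423 / 256 * QQ w - 4401 / 8192 * Neg.RR w
    + 351855 / 262144 * QQ w ^ 2 - 7062777 / 8388608 * (QQ w * Neg.RR w)) := ⟨_, rfl⟩
  obtain ⟨e5, h5⟩ : ∃ e, e = 1 - Fn (6, 8) w - (111 / 64 * QQ w - 669 / 1024 * Neg.RR w
    + 26895 / 16384 * QQ w ^ 2 - 284133 / 262144 * (QQ w * Neg.RR w)) := ⟨_, rfl⟩
  rw [← h0] at n0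
  rw [← h1] at n1
  rw [← h2] at n2
  rw [← h3] at n3
  rw [← h4] at n4
  rw [← h5] at n5
  have hE0 : 0 ≤ E := by rw [hE]; positivity
  have m0 := lk_mul g0 n0
  have m1 := lk_mul g1 n1
  have m2 := lk_mul g2 n2
  have m3 := lk_mul g3 n3
  have m4 := lk_mul g4 n4
  have m5 : |nu * e5| ≤ 16 * |nu| * m ^ 6 := by
    rw [abs_mul]
    have := mul_le_mul_of_nonneg_left n5 (abs_nonneg nu)
    linarith
  have m5' := abs_le.1 m5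
  have he : |-(G0 * e0 + G1 * e1 + G2 * e2 + G3 * e3 + G4 * e4) + nu * e5| ≤ E * m ^ 6 := by
    have hE' : E * m ^ 6 = 6 * G0 * m ^ 6 + 8 * G1 * m ^ 6 + 12 * G2 * m ^ 6 + 48 * G3 * m ^ 6
      + 16 * G4 * m ^ 6 + 16 * |nu| * m ^ 6 := by rw [hE]; ring
    rw [hE', abs_le]
    constructor <;> linarith [m0.1, m0.2, m1.1, m1.2, m2.1, m2.2, m3.1, m3.2, m4.1, m4.2,
      m5'.1, m5'.2]
  have main := near_pos hm0 hm hQ1 hQ2 hR hp4 hE0 he hc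
  have f0 : 1 - Fn (8, 0) w = 3 / 4 * QQ w - 3 / 16 * Neg.RR w
    + 39 / 64 * QQ w ^ 2 - 93 / 256 * (QQ w * Neg.RR w) + e0 := by rw [h0]; ring
  have f1 : 1 - Fn (8, 4) w = 15 / 16 * QQ w - 15 / 64 * Neg.RR w
    + 735 / 1024 * QQ w ^ 2 - 1725 / 4096 * (QQ w * Neg.RR w) + e1 := by rw [h1]; ring
  have f2 : 1 - Fn (8, 8) w = 3 / 2 * QQ w - 3 / 8 * Neg.RR w
    + 15 / 16 * QQ w ^ 2 - 33 / 64 * (QQ w * Neg.RR w) + e2 := by rw [h2]; ring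
  have f3 : 1 - Fn (8, 16) w = 15 / 4 * QQ w - 15 / 16 * Neg.RR w
    + 15 / 64 * QQ w ^ 2 + 75 / 256 * (QQ w * Neg.RR w) + e3 := by rw [h3]; ring
  have f4 : 1 - Fn (7, 8) w = 423 / 256 * QQ w - 4401 / 8192 * Neg.RR w
    + 351855 / 262144 * QQ w ^ 2 - 7062777 / 8388608 * (QQ w * Neg.RR w) + e4 := by
    rw [h4]; ring
  have f5 : 1 - Fn (6, 8) w = 111 / 64 * QQ w - 669 / 1024 * Neg.RR w
    + 26895 / 16384 * QQ w ^ 2 - 284133 / 262144 * (QQ w * Neg.RR w) + e5 := by rw [h5]; ring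
  rw [f0, f1, f2, f3, f4, f5]
  rw [hδ, hκ, hk, hv] at main
  refine le_of_le_of_eq main ?_
  ring

end Vale.Agent.Lib.P154.Neg.Ck.LY
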