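import Vale.Agent.Lib.P154.Neg.CkNear

/-!
Near the centre (all `|y_i - 1| ≤ 1/128`): bounds of `Q`, `R` and explicit expansions of the seven
functionals with error a multiple of `Q^2`.
-/

namespace Vale.Agent.Lib.P154.Neg

open scoped BigOperators

/-- elementary facts: `m` is the maximum of the `|y_i - 1|` -/
theorem na_m {y : Fin 3 → ℝ} (hs : ∑ i, y i = 3) (h : ∀ i, |y i - 1| ≤ 1 / 128) :
    ∃ m : ℝ, 0 ≤ m ∧ m ≤ 1 / 128 ∧ (∀ i, |y i - 1| ≤ m) ∧ m ^ 2 / 4 ≤ QQ y ∧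
      QQ y ≤ m ^ 2 / 3 ∧ |RR y| ≤ m * QQ y := by
  rw [Fin.sum_univ_three] at hs
  obtain ⟨a, ha⟩ : ∃ a, a = y 0 - 1 := ⟨_, rfl⟩
  obtain ⟨b, hb⟩ : ∃ b, b = y 1 - 1 := ⟨_, rfl⟩
  obtain ⟨c, hc⟩ : ∃ c, c = y 2 - 1 := ⟨_, rfl⟩
  have hsum : a + b + c = 0 := by rw [ha, hb, hc]; linarith
  have e0 := h 0
  have e1 := h 1
  have e2 := h 2
  rw [← ha] at e0
  rw [← hb] at e1
  rw [← hc] at e2
  -- core: if `|a|` is the largest
  have core : ∀ a b c : ℝ, a + b + c = 0 → |b| ≤ |a| → |c| ≤ |a| →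
      |a| ^ 2 / 4 ≤ (a ^ 2 + b ^ 2 + c ^ 2) / 6 ∧ (a ^ 2 + b ^ 2 + c ^ 2) / 6 ≤ |a| ^ 2 / 3 ∧
      |a * b * c| ≤ |a| * ((a ^ 2 + b ^ 2 + c ^ 2) / 6) := by
    intro a b c hsum h1 h2
    have hc : c = -a - b := by linarith
    have s1 : b ^ 2 ≤ a ^ 2 := sq_le_sq.mpr h1
    have s2 : c ^ 2 ≤ a ^ 2 := sq_le_sq.mpr h2
    rw [sq_abs]
    have h3 : a * b + b ^ 2 ≤ 0 := by
      -- c^2 <= a^2 with c = -(a+b): 2ab + b^2 <= 0, and b^2 <= a^2
      rw [hc] at s2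
      -- b (2 a + b) <= 0
      have k1 : b * (2 * a + b) ≤ 0 := by nlinarith
      -- b (a + b) <= 0
      by_contra hcon
      push Not at hcon
      have k2 : 0 < b * (a + b) := by nlinarith
      rcases le_total 0 a with ha0 | ha0
      · rcases le_total 0 b with hb0 | hb0
        · have : 0 ≤ a * b := mul_nonneg ha0 hb0
          have : b = 0 := by nlinarith [sq_nonneg b]
          rw [this] at k2; simp at k2
        · have hab : |b| ≤ |a| := h1
          rw [abs_of_nonneg ha0, abs_of_nonpos hb0] at hab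
          nlinarith
      · rcases le_total 0 b with hb0 | hb0
        · have hab : |b| ≤ |a| := h1
          rw [abs_of_nonpos ha0, abs_of_nonneg hb0] at hab
          nlinarith
        · have : 0 ≤ a * b := mul_nonneg_of_nonpos_of_nonpos ha0 hb0
          have : b = 0 := by nlinarith [sq_nonneg b]
          rw [this] at k2; simp at k2
    refine ⟨?_, ?_, ?_⟩
    · rw [hc]; nlinarith [sq_nonneg (a + 2 * b)]
    · rw [hc]; nlinarith
    · have e : a * b * c = a * (b * c) := by ring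
      rw [e, abs_mul]
      apply mul_le_mul_of_nonneg_left _ (abs_nonneg _)
      rw [hc, abs_le]
      constructor
      · nlinarith [sq_nonneg (a + 2 * b)]
      · nlinarith [sq_nonneg (a + 2 * b), sq_nonneg (a - b)]
  have hQ : QQ y = (a ^ 2 + b ^ 2 + c ^ 2) / 6 := by unfold QQ; rw [ha, hb, hc]
  have hR : RR y = a * b * c := by unfold RR; rw [ha, hb, hc]
  rw [hQ, hR]
  have key : ∀ m : ℝ, |a| ≤ m → |b| ≤ m → |c| ≤ m → ∀ i, |y i - 1| ≤ m := by
    intro m k0 k1 k2 i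
    fin_cases i
    · show |y 0 - 1| ≤ m
      rw [← ha]; exact k0
    · show |y 1 - 1| ≤ m
      rw [← hb]; exact k1
    · show |y 2 - 1| ≤ m
      rw [← hc]; exact k2
  rcases le_total |a| |b| with hab | hab
  · rcases le_total |b| |c| with hbc | hbc
    · obtain ⟨q1, q2, q3⟩ := core c a b (by linarith) (hab.trans hbc) hbc
      refine ⟨|c|, abs_nonneg _, e2, key _ (hab.trans hbc) hbc le_rfl, ?_, ?_, ?_⟩
      · linarith
      · linarith
      · have t1 : a * b * c = c * a * b := by ring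
        have t2 : a ^ 2 + b ^ 2 + c ^ 2 = c ^ 2 + a ^ 2 + b ^ 2 := by ring
        rw [t1, t2]; exact q3
    · obtain ⟨q1, q2, q3⟩ := core b a c (by linarith) hab hbc
      refine ⟨|b|, abs_nonneg _, e1, key _ hab le_rfl hbc, ?_, ?_, ?_⟩
      · linarith
      · linarith
      · have t1 : a * b * c = b * a * c := by ring
        have t2 : a ^ 2 + b ^ 2 + c ^ 2 = b ^ 2 + a ^ 2 + c ^ 2 := by ring
        rw [t1, t2]; exact q3
  · rcases le_total |a| |c| with hac | hac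
    · obtain ⟨q1, q2, q3⟩ := core c a b (by linarith) hac (hab.trans hac)
      refine ⟨|c|, abs_nonneg _, e2, key _ hac (hab.trans hac) le_rfl, ?_, ?_, ?_⟩
      · linarith
      · linarith
      · have t1 : a * b * c = c * a * b := by ring
        have t2 : a ^ 2 + b ^ 2 + c ^ 2 = c ^ 2 + a ^ 2 + b ^ 2 := by ring
        rw [t1, t2]; exact q3
    · obtain ⟨q1, q2, q3⟩ := core a b c hsum hab hac
      exact ⟨|a|, abs_nonneg _, e0, key _ le_rfl hab hac, q1, q2, q3⟩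

/-- bounds of `Q`, `R` near the centre -/
theorem na_QR {y : Fin 3 → ℝ} (hs : ∑ i, y i = 3) (h : ∀ i, |y i - 1| ≤ 1 / 128) :
    0 ≤ QQ y ∧ QQ y ≤ 1 / 49152 ∧ |RR y| ≤ QQ y / 128 ∧ |QQ y * RR y| ≤ QQ y ^ 2 / 128 ∧
      0 ≤ QQ y ^ 2 ∧ QQ y ^ 2 ≤ QQ y / 49152 ∧ 0 ≤ QQ y ^ 4 ∧ QQ y ^ 4 ≤ QQ y ^ 2 / 2415919104 := by
  obtain ⟨m, hm0, hm1, -, q1, q2, q3⟩ := na_m hs h
  have hQ0 : 0 ≤ QQ y := le_trans (by positivity) q1
  have hm2 : m ^ 2 ≤ 1 / 16384 := by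
    have := pow_le_pow_left₀ hm0 hm1 2
    linarith [this, (by norm_num : ((1 : ℝ) / 128) ^ 2 = 1 / 16384)]
  have hQ1 : QQ y ≤ 1 / 49152 := by linarith
  have hR : |RR y| ≤ QQ y / 128 := by
    have := mul_le_mul_of_nonneg_right hm1 hQ0
    linarith
  have hQ2 : QQ y ^ 2 ≤ QQ y / 49152 := by
    have := mul_le_mul_of_nonneg_left hQ1 hQ0
    nlinarith
  refine ⟨hQ0, hQ1, hR, ?_, sq_nonneg _, hQ2, by positivity, ?_⟩
  · rw [abs_mul, abs_of_nonneg hQ0]
    have := mul_le_mul_of_nonneg_left hR hQ0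
    nlinarith
  · have h3 : QQ y ^ 2 ≤ 1 / 2415919104 := by
      have := pow_le_pow_left₀ hQ0 hQ1 2
      linarith [this, (by norm_num : ((1 : ℝ) / 49152) ^ 2 = 1 / 2415919104)]
    have h4 := mul_le_mul_of_nonneg_left h3 (sq_nonneg (QQ y))
    have e : QQ y ^ 4 = QQ y ^ 2 * QQ y ^ 2 := by ring
    rw [e]
    linarith

/-- expansion with error a multiple of `Q^2` -/
theorem na_exp (x : (ℕ × ℕ) × ℚ × ℚ × ℚ × ℚ × ℚ) (hx : x ∈ nearTab) (hK : 0 ≤ x.2.2.2.2.2)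
    {y : Fin 3 → ℝ} (hs : ∑ i, y i = 3) (h : ∀ i, |y i - 1| ≤ 1 / 128) :
    |1 - Fn x.1 y - ((x.2.1 : ℝ) * QQ y + (x.2.2.1 : ℝ) * RR y + (x.2.2.2.1 : ℝ) * QQ y ^ 2
      + (x.2.2.2.2.1 : ℝ) * (QQ y * RR y))| ≤ (x.2.2.2.2.2 : ℝ) / 1024 * QQ y ^ 2 := by
  obtain ⟨m, hm0, hm1, hm, q1, q2, q3⟩ := na_m hs h
  have h1 := near_expand x hx y m (by linarith) hm hs
  refine h1.trans ?_
  have hK' : (0 : ℝ) ≤ (x.2.2.2.2.2 : ℝ) := by exact_mod_cast hK
  have hm2 : m ^ 2 ≤ 1 / 16384 := by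
    have := pow_le_pow_left₀ hm0 hm1 2
    linarith [this, (by norm_num : ((1 : ℝ) / 128) ^ 2 = 1 / 16384)]
  have h4 : m ^ 4 ≤ 16 * QQ y ^ 2 := by
    have := pow_le_pow_left₀ (by positivity : 0 ≤ m ^ 2 / 4) q1 2
    nlinarith
  have h6 : m ^ 6 ≤ QQ y ^ 2 / 1024 := by
    have e : m ^ 6 = m ^ 2 * m ^ 4 := by ring
    rw [e]
    have : m ^ 2 * m ^ 4 ≤ 1 / 16384 * (16 * QQ y ^ 2) :=
      mul_le_mul hm2 h4 (by positivity) (by norm_num)
    linarith
  have := mul_le_mul_of_nonneg_left h6 hK'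
  linarith

section exps

variable {y : Fin 3 → ℝ} (hs : ∑ i, y i = 3) (h : ∀ i, |y i - 1| ≤ 1 / 128)

include hs h

theorem na80 : |1 - Fn (8, 0) y - (3 / 4 * QQ y + -3 / 16 * RR y + 39 / 64 * QQ y ^ 2
    + -93 / 256 * (QQ y * RR y))| ≤ 6 / 1024 * QQ y ^ 2 := by
  have := na_exp ((8, 0), 3/4, -3/16, 39/64, -93/256, 6) (by simp [nearTab]) (by norm_num) hs h
  push_cast at this
  exact this

theorem na84 : |1 - Fn (8, 4) y - (15 / 16 * QQ y + -15 / 64 * RR y + 735 / 1024 * QQ y ^ 2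
    + -1725 / 4096 * (QQ y * RR y))| ≤ 8 / 1024 * QQ y ^ 2 := by
  have := na_exp ((8, 4), 15/16, -15/64, 735/1024, -1725/4096, 8) (by simp [nearTab])
    (by norm_num) hs h
  push_cast at this
  exact this

theorem na88 : |1 - Fn (8, 8) y - (3 / 2 * QQ y + -3 / 8 * RR y + 15 / 16 * QQ y ^ 2
    + -33 / 64 * (QQ y * RR y))| ≤ 12 / 1024 * QQ y ^ 2 := by
  have := na_exp ((8, 8), 3/2, -3/8, 15/16, -33/64, 12) (by simp [nearTab]) (by norm_num) hs h
  push_cast at this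
  exact this

theorem na816 : |1 - Fn (8, 16) y - (15 / 4 * QQ y + -15 / 16 * RR y + 15 / 64 * QQ y ^ 2
    + 75 / 256 * (QQ y * RR y))| ≤ 48 / 1024 * QQ y ^ 2 := by
  have := na_exp ((8, 16), 15/4, -15/16, 15/64, 75/256, 48) (by simp [nearTab])
    (by norm_num) hs h
  push_cast at this
  exact this

theorem na78 : |1 - Fn (7, 8) y - (423 / 256 * QQ y + -4401 / 8192 * RR y
    + 351855 / 262144 * QQ y ^ 2 + -7062777 / 8388608 * (QQ y * RR y))| ≤
      16 / 1024 * QQ y ^ 2 := by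
  have := na_exp ((7, 8), 423/256, -4401/8192, 351855/262144, -7062777/8388608, 16)
    (by simp [nearTab]) (by norm_num) hs h
  push_cast at this
  exact this

theorem na68 : |1 - Fn (6, 8) y - (111 / 64 * QQ y + -669 / 1024 * RR y
    + 26895 / 16384 * QQ y ^ 2 + -284133 / 262144 * (QQ y * RR y))| ≤
      16 / 1024 * QQ y ^ 2 := by
  have := na_exp ((6, 8), 111/64, -669/1024, 26895/16384, -284133/262144, 16)
    (by simp [nearTab]) (by norm_num) hs h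
  push_cast at this
  exact this

theorem na67 : |1 - Fn (6, 7) y - (399 / 256 * QQ y + -2361 / 4096 * RR y
    + 396255 / 262144 * QQ y ^ 2 + -4220193 / 4194304 * (QQ y * RR y))| ≤
      16 / 1024 * QQ y ^ 2 := by
  have := na_exp ((6, 7), 399/256, -2361/4096, 396255/262144, -4220193/4194304, 16)
    (by simp [nearTab]) (by norm_num) hs h
  push_cast at this
  exact this

end exps

end Vale.Agent.Lib.P154.Neg
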