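import Vale.Agent.Lib.P154.Neg.CkFacts
import Vale.Agent.Lib.P154.Neg.CkHolds
import Vale.Agent.Lib.P154.Neg.CkNearAux
import Vale.Agent.Lib.P154.Neg.CkIface

/-!
From the runs to the small family of certificates.
-/

namespace Vale.Agent.Lib.P154.Neg.Ck

open scoped BigOperators

/-- expansion of the sum over the five tangent functionals -/
theorem LS_sumW (y : Fin 3 → ℝ) : ∑ a, sbW a * (1 - Fn (fT a) y) =
    238902 / 100000 * (1 - Fn (8, 4) y) + 13530 / 100000 * (1 - Fn (8, 8) y)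
      + 4550 / 100000 * (1 - Fn (8, 16) y) := by
  simp only [Fin.sum_univ_five]
  have w0 : sbW 0 = 0 := rfl
  have w1 : sbW 1 = 238902 / 100000 := rfl
  have w2 : sbW 2 = 13530 / 100000 := rfl
  have w3 : sbW 3 = 4550 / 100000 := rfl
  have w4 : sbW 4 = 0 := rfl
  have f1 : fT 1 = (8, 4) := rfl
  have f2 : fT 2 = (8, 8) := rfl
  have f3 : fT 3 = (8, 16) := rfl
  rw [w0, w1, w2, w3, w4, f1, f2, f3]
  ring

theorem LS_sumWc (y : Fin 3 → ℝ) : ∑ a, sbW a * sbc a * (1 - Fn (fT a) y) =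
    238902 / 100000 * (54 / 100) * (1 - Fn (8, 4) y)
      + 13530 / 100000 * (865 / 1000) * (1 - Fn (8, 8) y)
      + 4550 / 100000 * (216 / 100) * (1 - Fn (8, 16) y) := by
  simp only [Fin.sum_univ_five]
  have w0 : sbW 0 = 0 := rfl
  have w1 : sbW 1 = 238902 / 100000 := rfl
  have w2 : sbW 2 = 13530 / 100000 := rfl
  have w3 : sbW 3 = 4550 / 100000 := rfl
  have w4 : sbW 4 = 0 := rfl
  have c1 : sbc 1 = 54 / 100 := rfl
  have c2 : sbc 2 = 865 / 1000 := rfl
  have c3 : sbc 3 = 216 / 100 := rfl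
  have f1 : fT 1 = (8, 4) := rfl
  have f2 : fT 2 = (8, 8) := rfl
  have f3 : fT 3 = (8, 16) := rfl
  rw [w0, w1, w2, w3, w4, c1, c2, c3, f1, f2, f3]
  ring

theorem LS_A {y : Fin 3 → ℝ} (hy : Sx y) (h : ∃ i, 1 / 4 ≤ |y i - 1|) : runA.Reg y := by
  refine reg_of hy 3 (1 / 4) 3 (Sx_le hy) h (fun i => (Sx_abs hy i).trans (by norm_num)) ?_ ?_ ?_
  · simp only [runA]; norm_num
  · simp only [runA]; norm_num
  · simp only [runA]; norm_num

theorem LS_D {y : Fin 3 → ℝ} (hy : Sx y) (h32 : ∀ i, y i ≤ 3 / 2) (h : ∃ i, 1 / 4 ≤ |y i - 1|) :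
    runD.Reg y := by
  refine reg_of hy (3 / 2) (1 / 4) 3 h32 h (fun i => (Sx_abs hy i).trans (by norm_num)) ?_ ?_ ?_
  · simp only [runD]; norm_num
  · simp only [runD]; norm_num
  · simp only [runD]; norm_num

theorem LS_C {y : Fin 3 → ℝ} (hy : Sx y) (h4 : ∀ i, |y i - 1| ≤ 1 / 4)
    (h : ∃ i, 1 / 128 ≤ |y i - 1|) : runC.Reg y := by
  refine reg_of hy 3 (1 / 128) (1 / 4) (Sx_le hy) h h4 ?_ ?_ ?_
  · simp only [runC]; norm_num
  · simp only [runC]; norm_num
  · simp only [runC]; norm_num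

/-- the tasks -/
def LS_Y1 : Tk := ⟨50234240, 0, 0, 0, 0, 76448640, 0, 4329600, 0, 1456000, 0, 0, 32000000, 0, 0,
  28125000, 0, 0, 0, 5232696, 0, 14775175, 0, 0, 0, 0⟩
def LS_Y2 : Tk := ⟨50234240, 0, 0, 0, 0, 76448640, 0, 4329600, 0, 1456000, 0, 0, 32000000, 0, 0,
  28167560, 0, 0, 0, 2672696, 0, 14775175, 0, 0, 0, 0⟩
def LS_Z0 : Tk := ⟨0, 1255856, 0, 0, 1911216, 0, 108240, 0, 36400, 0, 0, 0, 0, 800000, 703125, 0,
  0, 0, 200800, 0, 23600000, 0, 0, 0, 0, 0⟩
def LS_Z1 : Tk := ⟨4727853, 0, 0, 0, 0, 12900708, 0, 1170345, 0, 982800, 0, 0, 10326000, 0,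
  700000, 0, 0, 0, 43730000, 0, 26500000, 0, 0, 0, 0, 0⟩

theorem LS_memY1 : LS_Y1 ∈ runC.ts := by
  show LS_Y1 ∈ tsC
  unfold tsC LS_Y1
  exact List.mem_cons_self
theorem LS_memZ0C : LS_Z0 ∈ runC.ts := by
  show LS_Z0 ∈ tsC
  unfold tsC LS_Z0
  exact List.mem_cons_of_mem _ List.mem_cons_self
theorem LS_memZ1C : LS_Z1 ∈ runC.ts := by
  show LS_Z1 ∈ tsC
  unfold tsC LS_Z1
  exact List.mem_cons_of_mem _ (List.mem_cons_of_mem _ List.mem_cons_self)
theorem LS_memY2 : LS_Y2 ∈ runA.ts := by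
  show LS_Y2 ∈ tsA
  have h : tsA.getLast? = some LS_Y2 := rfl
  exact List.mem_of_getLast? h
theorem LS_memZ1D : LS_Z1 ∈ runD.ts := by
  show LS_Z1 ∈ tsD
  have h : tsD.getLast? = some LS_Z1 := rfl
  exact List.mem_of_getLast? h
theorem LS_memZ0D : LS_Z0 ∈ runD.ts := by
  show LS_Z0 ∈ tsD
  have h : tsD.dropLast.getLast? = some LS_Z0 := rfl
  exact List.dropLast_subset _ (List.mem_of_getLast? h)

/-- small-`B` family: first three tasks of `runC`, last task of `runA`, last two of `runD`. -/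
theorem good_small (hA : runA.Holds) (hC : runC.Holds) (hD : runD.Holds) (B : ℝ) (hB0 : 0 ≤ B)
    (hB1 : B ≤ 19 / 1000) :
    GoodC (1 / 2) ⟨sbW, fun a => sbW a * (1 - sbc a * B), 1 - sbNu * B, 49 / 3200 * B ^ 2⟩ := by
  intro lam D hl0 hl1 hD0 hD1 y hy
  have key := iface_small sbW sbc sbNu (225 / 256) (251 / 1000) (59 / 2) (7 / 100) (4373 / 1000)
    (53 / 20) (2 / 25) (19 / 1000) (1 / 4) (by norm_num) (by norm_num) (by norm_num)
    (by norm_num) (by norm_num) (by norm_num) (by norm_num) (by norm_num) (by norm_num)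
    (by
      -- hY1
      intro y hy h4
      rw [LS_sumW]
      by_cases hn : ∀ i, |y i - 1| ≤ 1 / 128
      · obtain ⟨g1, g2, g3, g4, g5, g6, g7, g8⟩ := na_QR hy.2 hn
        have e1 := na84 hy.2 hn
        have e2 := na88 hy.2 hn
        have e3 := na816 hy.2 hn
        have e4 := na68 hy.2 hn
        have hR : fR = (6, 8) := rfl
        rw [hR]
        rw [abs_le] at e1 e2 e3 e4 g3 g4
        linarith [e1.1, e2.1, e3.1, e4.2, g3.1, g3.2, g4.1, g4.2]
      · push Not at hn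
        obtain ⟨i, hi⟩ := hn
        have := hC _ LS_memY1 y (LS_C hy h4 ⟨i, hi.le⟩)
        rw [val_dI rfl rfl] at this
        simp only [LS_Y1] at this
        have hR : fR = (6, 8) := rfl
        rw [hR]
        push_cast at this
        linarith)
    (by
      -- hY2
      intro y hy h4
      rw [LS_sumW]
      have := hA _ LS_memY2 y (LS_A hy h4)
      rw [val_dI rfl rfl] at this
      simp only [LS_Y2] at this
      have hR : fR = (6, 8) := rfl
      rw [hR]
      push_cast at this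
      linarith)
    (by
      -- hZ0
      intro y hy h32
      rw [LS_sumW]
      have hR : fR = (6, 8) := rfl
      rw [hR]
      by_cases hn : ∀ i, |y i - 1| ≤ 1 / 128
      · obtain ⟨g1, g2, g3, g4, g5, g6, g7, g8⟩ := na_QR hy.2 hn
        have e1 := na84 hy.2 hn
        have e2 := na88 hy.2 hn
        have e3 := na816 hy.2 hn
        have e4 := na68 hy.2 hn
        rw [abs_le] at e1 e2 e3 e4 g3 g4
        linarith [e1.2, e2.2, e3.2, e4.1, g3.1, g3.2, g4.1, g4.2]
      · by_cases h4 : ∀ i, |y i - 1| ≤ 1 / 4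
        · push Not at hn
          obtain ⟨i, hi⟩ := hn
          have := hC _ LS_memZ0C y (LS_C hy h4 ⟨i, hi.le⟩)
          rw [val_dI rfl rfl] at this
          simp only [LS_Z0] at this
          push_cast at this
          linarith
        · push Not at h4
          obtain ⟨i, hi⟩ := h4
          have := hD _ LS_memZ0D y (LS_D hy h32 ⟨i, hi.le⟩)
          rw [val_dI rfl rfl] at this
          simp only [LS_Z0] at this
          push_cast at this
          linarith)
    (by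
      -- hZ1
      intro y hy h32
      rw [LS_sumWc]
      have hR : fR = (6, 8) := rfl
      rw [hR]
      unfold sbNu
      by_cases hn : ∀ i, |y i - 1| ≤ 1 / 128
      · obtain ⟨g1, g2, g3, g4, g5, g6, g7, g8⟩ := na_QR hy.2 hn
        have e1 := na84 hy.2 hn
        have e2 := na88 hy.2 hn
        have e3 := na816 hy.2 hn
        have e4 := na68 hy.2 hn
        rw [abs_le] at e1 e2 e3 e4 g3 g4
        linarith [e1.1, e2.1, e3.1, e4.2, g3.1, g3.2, g4.1, g4.2]
      · by_cases h4 : ∀ i, |y i - 1| ≤ 1 / 4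
        · push Not at hn
          obtain ⟨i, hi⟩ := hn
          have := hC _ LS_memZ1C y (LS_C hy h4 ⟨i, hi.le⟩)
          rw [val_dI rfl rfl] at this
          simp only [LS_Z1] at this
          push_cast at this
          linarith
        · push Not at h4
          obtain ⟨i, hi⟩ := h4
          have := hD _ LS_memZ1D y (LS_D hy h32 ⟨i, hi.le⟩)
          rw [val_dI rfl rfl] at this
          simp only [LS_Z1] at this
          push_cast at this
          linarith)
    B hB0 hB1 lam hl0 hl1 D hD0 hD1 y hy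
  have e : (7 / 100 : ℝ) ^ 2 / (4 * (2 / 25)) * B ^ 2 = 49 / 3200 * B ^ 2 := by ring
  rw [e] at key
  exact key

end Vale.Agent.Lib.P154.Neg.Ck
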