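import Vale.Agent.Lib.P154.Neg.CkLinkAux

/-!
From the runs to the inequalities of the separated certificates.
-/

namespace Vale.Agent.Lib.P154.Neg.Ck

open scoped BigOperators

namespace LY

/-- `t` is the first `Y` task of the node -/
def IsY0 (n : Nd) (t : Tk) : Prop :=
  (t.p0 : ℤ) - t.n0 = n.W0 + n.W1 + n.W2 + n.W3 + n.W4 - 2 ^ 30 + n.m0 ∧
  (t.p1 : ℤ) - t.n1 = -n.W0 ∧ (t.p2 : ℤ) - t.n2 = -n.W1 ∧ (t.p3 : ℤ) - t.n3 = -n.W2 ∧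
  (t.p4 : ℤ) - t.n4 = -n.W3 ∧ (t.p5 : ℤ) - t.n5 = -n.W4 ∧ (t.p6 : ℤ) - t.n6 = 2 ^ 30 ∧
  (t.p7 : ℤ) - t.n7 = -n.p1 ∧ (t.p8 : ℤ) - t.n8 = 0 ∧ (t.p9 : ℤ) - t.n9 = 0 ∧
  (t.p10 : ℤ) - t.n10 = 0

/-- `t` is the second `Y` task of the node, `s` in units of `1/512` -/
def IsY1 (s : ℕ) (n : Nd) (t : Tk) : Prop :=
  (t.p0 : ℤ) - t.n0 = 512 * (n.W0 + n.W1 + n.W2 + n.W3 + n.W4 - 2 ^ 30 + n.m0) ∧
  (t.p1 : ℤ) - t.n1 = -512 * n.W0 ∧ (t.p2 : ℤ) - t.n2 = -512 * n.W1 ∧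
  (t.p3 : ℤ) - t.n3 = -512 * n.W2 ∧ (t.p4 : ℤ) - t.n4 = -512 * n.W3 ∧
  (t.p5 : ℤ) - t.n5 = -512 * n.W4 ∧ (t.p6 : ℤ) - t.n6 = 512 * 2 ^ 30 ∧
  (t.p7 : ℤ) - t.n7 = -512 * n.p1 ∧ (t.p8 : ℤ) - t.n8 = s * (n.p2p - n.p2n) ∧
  (s : ℤ) ^ 2 * n.p3 ≤ -512 * (t.p9 - t.n9) ∧ (s : ℤ) ^ 6 * n.p4 ≤ -512 ^ 5 * (t.p10 - t.n10)

/-- `t` is the `Z` task of the node -/
def IsZ (n : Nd) (t : Tk) : Prop :=
  (t.p0 : ℤ) - t.n0 = -(n.G0 + n.G1 + n.G2 + n.G3 + n.G4) + (n.nup - n.nun) ∧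
  (t.p1 : ℤ) - t.n1 = n.G0 ∧ (t.p2 : ℤ) - t.n2 = n.G1 ∧ (t.p3 : ℤ) - t.n3 = n.G2 ∧
  (t.p4 : ℤ) - t.n4 = n.G3 ∧ (t.p5 : ℤ) - t.n5 = n.G4 ∧ (t.p6 : ℤ) - t.n6 = -(n.nup - n.nun) ∧
  (t.p7 : ℤ) - t.n7 = n.p1 ∧ (t.p8 : ℤ) - t.n8 = n.p2p - n.p2n ∧ (t.p9 : ℤ) - t.n9 = n.p3 ∧
  (t.p10 : ℤ) - t.n10 = n.p4

/-- integer form of the condition of `near_Z` -/
def NearOk (n : Nd) : Prop :=
  |8192 * ((n.p2p : ℤ) - n.p2n) + (1536 * n.G0 + 1920 * n.G1 + 3072 * n.G2 + 7680 * n.G3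
      + 4401 * n.G4) - 5352 * (n.nup - n.nun)| * (3 * 2 ^ 24)
    + |262144 * (n.p3 : ℤ) - (159744 * n.G0 + 188160 * n.G1 + 245760 * n.G2 + 61440 * n.G3
      + 351855 * n.G4) + 430320 * (n.nup - n.nun)| * 2 ^ 12
    + |(3047424 * (n.G0 : ℤ) + 3532800 * n.G1 + 4325376 * n.G2 - 2457600 * n.G3
      + 7062777 * n.G4) - 9092256 * (n.nup - n.nun)|
    + (6 * n.G0 + 8 * n.G1 + 12 * n.G2 + 48 * n.G3 + 16 * n.G4 + 16 * |(n.nup : ℤ) - n.nun|)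
      * (3 * 2 ^ 18)
    ≤ (256 * (n.p1 : ℤ) - (192 * n.G0 + 240 * n.G1 + 384 * n.G2 + 960 * n.G3 + 423 * n.G4)
      + 444 * (n.nup - n.nun)) * (3 * 2 ^ 36)

instance (n : Nd) (t : Tk) : Decidable (IsY0 n t) := by unfold IsY0; infer_instance
instance (s : ℕ) (n : Nd) (t : Tk) : Decidable (IsY1 s n t) := by unfold IsY1; infer_instance
instance (n : Nd) (t : Tk) : Decidable (IsZ n t) := by unfold IsZ; infer_instance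
instance (n : Nd) : Decidable (NearOk n) := by unfold NearOk; infer_instance

set_option maxRecDepth 100000

theorem chk_Y0 : ∀ n ∈ ndG ++ nd5, (∃ t ∈ tsA, IsY0 n t) ∧ ∃ t ∈ tsB, IsY0 n t := by
  decide +kernel

theorem chk_Y1G : ∀ n ∈ ndG, (∃ t ∈ tsA, IsY1 256 n t) ∧ ∃ t ∈ tsB, IsY1 256 n t := by
  decide +kernel

theorem chk_Y15 : ∀ n ∈ nd5, (∃ t ∈ tsA, IsY1 229 n t) ∧ ∃ t ∈ tsB, IsY1 229 n t := by
  decide +kernel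

theorem chk_ZG : ∀ n ∈ ndG, (∃ t ∈ tsD, IsZ n t) ∧ ∃ t ∈ tsM, IsZ n t := by
  decide +kernel

theorem chk_Z5 : ∀ n ∈ nd5, (∃ t ∈ tsE, IsZ n t) ∧ ∃ t ∈ tsM, IsZ n t := by
  decide +kernel

theorem chk_near : ∀ n ∈ ndG ++ nd5, NearOk n := by
  decide +kernel

theorem sumW (n : Nd) (y : Fin 3 → ℝ) : ∑ a, n.ct.W a * (1 - Fn (fT a) y)
    = ((n.W0 : ℝ) * (1 - Fn (8, 0) y) + n.W1 * (1 - Fn (8, 4) y) + n.W2 * (1 - Fn (8, 8) y)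
      + n.W3 * (1 - Fn (8, 16) y) + n.W4 * (1 - Fn (7, 8) y)) / 2 ^ 30 := by
  rw [Fin.sum_univ_five]
  simp only [Nd.ct, fT, Matrix.cons_val_zero, Matrix.cons_val_one, Matrix.cons_val]
  ring

theorem sumG (n : Nd) (y : Fin 3 → ℝ) : ∑ a, n.ct.G a * (1 - Fn (fT a) y)
    = ((n.G0 : ℝ) * (1 - Fn (8, 0) y) + n.G1 * (1 - Fn (8, 4) y) + n.G2 * (1 - Fn (8, 8) y)
      + n.G3 * (1 - Fn (8, 16) y) + n.G4 * (1 - Fn (7, 8) y)) / 2 ^ 30 := by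
  rw [Fin.sum_univ_five]
  simp only [Nd.ct, fT, Matrix.cons_val_zero, Matrix.cons_val_one, Matrix.cons_val]
  ring

theorem y0_of {n : Nd} {t : Tk} (h : IsY0 n t) (R : Run) (hD : R.D = dI) (hz : R.z = false)
    (y : Fin 3 → ℝ) (h0 : 0 ≤ R.val t y) :
    0 ≤ ∑ a, n.ct.W a * (1 - Fn (fT a) y) - (1 - Fn fR y) + n.ct.m0
      - ((n.p1 : ℝ) / 2 ^ 30) * QQ y := by
  rw [val_dI R hD hz] at h0
  obtain ⟨e0, e1, e2, e3, e4, e5, e6, e7, e8, e9, e10⟩ := h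
  have f0 : (t.p0 : ℝ) - t.n0 = n.W0 + n.W1 + n.W2 + n.W3 + n.W4 - 2 ^ 30 + n.m0 := by
    exact_mod_cast e0
  have f1 : (t.p1 : ℝ) - t.n1 = -n.W0 := by exact_mod_cast e1
  have f2 : (t.p2 : ℝ) - t.n2 = -n.W1 := by exact_mod_cast e2
  have f3 : (t.p3 : ℝ) - t.n3 = -n.W2 := by exact_mod_cast e3
  have f4 : (t.p4 : ℝ) - t.n4 = -n.W3 := by exact_mod_cast e4
  have f5 : (t.p5 : ℝ) - t.n5 = -n.W4 := by exact_mod_cast e5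
  have f6 : (t.p6 : ℝ) - t.n6 = 2 ^ 30 := by exact_mod_cast e6
  have f7 : (t.p7 : ℝ) - t.n7 = -n.p1 := by exact_mod_cast e7
  have f8 : (t.p8 : ℝ) - t.n8 = 0 := by exact_mod_cast e8
  have f9 : (t.p9 : ℝ) - t.n9 = 0 := by exact_mod_cast e9
  have f10 : (t.p10 : ℝ) - t.n10 = 0 := by exact_mod_cast e10
  rw [f0, f1, f2, f3, f4, f5, f6, f7, f8, f9, f10] at h0
  rw [sumW]
  unfold fR
  have hm : n.ct.m0 = (n.m0 : ℝ) / 2 ^ 30 := rfl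
  rw [hm]
  refine le_of_le_of_eq (div_nonneg h0 (by positivity : (0 : ℝ) ≤ 2 ^ 30)) ?_
  ring

theorem y1_of {n : Nd} {t : Tk} {s : ℕ} (h : IsY1 s n t) (R : Run) (hD : R.D = dI)
    (hz : R.z = false) (y : Fin 3 → ℝ) (h0 : 0 ≤ R.val t y) :
    0 ≤ ∑ a, n.ct.W a * (1 - Fn (fT a) y) - (1 - Fn fR y) + n.ct.m0
      - ((n.p1 : ℝ) / 2 ^ 30 * QQ y - ((s : ℝ) / 512) * (((n.p2p : ℝ) - n.p2n) / 2 ^ 30) * Neg.RR y
        + ((s : ℝ) / 512) ^ 2 * ((n.p3 : ℝ) / 2 ^ 30) * QQ y ^ 2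
        + ((s : ℝ) / 512) ^ 6 * ((n.p4 : ℝ) / 2 ^ 30) * QQ y ^ 4) := by
  rw [val_dI R hD hz] at h0
  obtain ⟨e0, e1, e2, e3, e4, e5, e6, e7, e8, e9, e10⟩ := h
  have f0 : (t.p0 : ℝ) - t.n0 = 512 * (n.W0 + n.W1 + n.W2 + n.W3 + n.W4 - 2 ^ 30 + n.m0) := by
    exact_mod_cast e0
  have f1 : (t.p1 : ℝ) - t.n1 = -512 * n.W0 := by exact_mod_cast e1
  have f2 : (t.p2 : ℝ) - t.n2 = -512 * n.W1 := by exact_mod_cast e2
  have f3 : (t.p3 : ℝ) - t.n3 = -512 * n.W2 := by exact_mod_cast e3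
  have f4 : (t.p4 : ℝ) - t.n4 = -512 * n.W3 := by exact_mod_cast e4
  have f5 : (t.p5 : ℝ) - t.n5 = -512 * n.W4 := by exact_mod_cast e5
  have f6 : (t.p6 : ℝ) - t.n6 = 512 * 2 ^ 30 := by exact_mod_cast e6
  have f7 : (t.p7 : ℝ) - t.n7 = -512 * n.p1 := by exact_mod_cast e7
  have f8 : (t.p8 : ℝ) - t.n8 = s * (n.p2p - n.p2n) := by exact_mod_cast e8
  have f9 : (s : ℝ) ^ 2 * n.p3 ≤ -512 * (t.p9 - t.n9) := by exact_mod_cast e9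
  have f10 : (s : ℝ) ^ 6 * n.p4 ≤ -512 ^ 5 * (t.p10 - t.n10) := by exact_mod_cast e10
  rw [f0, f1, f2, f3, f4, f5, f6, f7, f8] at h0
  rw [sumW]
  unfold fR
  have hm : n.ct.m0 = (n.m0 : ℝ) / 2 ^ 30 := rfl
  rw [hm]
  have g9 := mul_le_mul_of_nonneg_right f9 (sq_nonneg (QQ y))
  have g10 := mul_le_mul_of_nonneg_right f10 (by positivity : (0 : ℝ) ≤ QQ y ^ 4)
  have key : 0 ≤ (512 * (n.W0 + n.W1 + n.W2 + n.W3 + n.W4 - 2 ^ 30 + n.m0)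
      + -512 * n.W0 * Fn (8, 0) y + -512 * n.W1 * Fn (8, 4) y + -512 * n.W2 * Fn (8, 8) y
      + -512 * n.W3 * Fn (8, 16) y + -512 * n.W4 * Fn (7, 8) y + 512 * 2 ^ 30 * Fn (6, 8) y
      + -512 * n.p1 * QQ y + s * (n.p2p - n.p2n) * Neg.RR y
      - (s : ℝ) ^ 2 * n.p3 * QQ y ^ 2 / 512 - (s : ℝ) ^ 6 * n.p4 * QQ y ^ 4 / 512 ^ 5) := by
    have h9 : (t.p9 - t.n9 : ℝ) * QQ y ^ 2 ≤ - ((s : ℝ) ^ 2 * n.p3 * QQ y ^ 2 / 512) := by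
      linarith
    have h10 : (t.p10 - t.n10 : ℝ) * QQ y ^ 4 ≤ - ((s : ℝ) ^ 6 * n.p4 * QQ y ^ 4 / 512 ^ 5) := by
      linarith
    linarith
  refine le_of_le_of_eq (div_nonneg key (by positivity : (0 : ℝ) ≤ 512 * 2 ^ 30)) ?_
  ring

theorem z_of {n : Nd} {t : Tk} (h : IsZ n t) (R : Run) (hD : R.D = dI) (hz : R.z = false)
    (y : Fin 3 → ℝ) (h0 : 0 ≤ R.val t y) :
    0 ≤ (n.p1 : ℝ) / 2 ^ 30 * QQ y + ((n.p2p : ℝ) - n.p2n) / 2 ^ 30 * Neg.RR y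
      + (n.p3 : ℝ) / 2 ^ 30 * QQ y ^ 2 + (n.p4 : ℝ) / 2 ^ 30 * QQ y ^ 4
      - ∑ a, n.ct.G a * (1 - Fn (fT a) y) + n.ct.nu * (1 - Fn fR y) := by
  rw [val_dI R hD hz] at h0
  obtain ⟨e0, e1, e2, e3, e4, e5, e6, e7, e8, e9, e10⟩ := h
  have f0 : (t.p0 : ℝ) - t.n0 = -(n.G0 + n.G1 + n.G2 + n.G3 + n.G4) + (n.nup - n.nun) := by
    exact_mod_cast e0
  have f1 : (t.p1 : ℝ) - t.n1 = n.G0 := by exact_mod_cast e1
  have f2 : (t.p2 : ℝ) - t.n2 = n.G1 := by exact_mod_cast e2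
  have f3 : (t.p3 : ℝ) - t.n3 = n.G2 := by exact_mod_cast e3
  have f4 : (t.p4 : ℝ) - t.n4 = n.G3 := by exact_mod_cast e4
  have f5 : (t.p5 : ℝ) - t.n5 = n.G4 := by exact_mod_cast e5
  have f6 : (t.p6 : ℝ) - t.n6 = -(n.nup - n.nun) := by exact_mod_cast e6
  have f7 : (t.p7 : ℝ) - t.n7 = n.p1 := by exact_mod_cast e7
  have f8 : (t.p8 : ℝ) - t.n8 = n.p2p - n.p2n := by exact_mod_cast e8
  have f9 : (t.p9 : ℝ) - t.n9 = n.p3 := by exact_mod_cast e9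
  have f10 : (t.p10 : ℝ) - t.n10 = n.p4 := by exact_mod_cast e10
  rw [f0, f1, f2, f3, f4, f5, f6, f7, f8, f9, f10] at h0
  rw [sumG]
  unfold fR
  have hm : n.ct.nu = ((n.nup : ℝ) - n.nun) / 2 ^ 30 := rfl
  rw [hm]
  refine le_of_le_of_eq (div_nonneg h0 (by positivity : (0 : ℝ) ≤ 2 ^ 30)) ?_
  ring

/-- the `Z` inequality of a node near the centre -/
theorem z_near {n : Nd} (h : NearOk n) (y : Fin 3 → ℝ) (hs : ∑ i, y i = 3)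
    (hw : ∀ i, |y i - 1| ≤ 1 / 128) :
    0 ≤ (n.p1 : ℝ) / 2 ^ 30 * QQ y + ((n.p2p : ℝ) - n.p2n) / 2 ^ 30 * Neg.RR y
      + (n.p3 : ℝ) / 2 ^ 30 * QQ y ^ 2 + (n.p4 : ℝ) / 2 ^ 30 * QQ y ^ 4
      - ∑ a, n.ct.G a * (1 - Fn (fT a) y) + n.ct.nu * (1 - Fn fR y) := by
  have h' : |8192 * ((n.p2p : ℝ) - n.p2n) + (1536 * n.G0 + 1920 * n.G1 + 3072 * n.G2
        + 7680 * n.G3 + 4401 * n.G4) - 5352 * (n.nup - n.nun)| * (3 * 2 ^ 24)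
      + |262144 * (n.p3 : ℝ) - (159744 * n.G0 + 188160 * n.G1 + 245760 * n.G2 + 61440 * n.G3
        + 351855 * n.G4) + 430320 * (n.nup - n.nun)| * 2 ^ 12
      + |(3047424 * (n.G0 : ℝ) + 3532800 * n.G1 + 4325376 * n.G2 - 2457600 * n.G3
        + 7062777 * n.G4) - 9092256 * (n.nup - n.nun)|
      + (6 * n.G0 + 8 * n.G1 + 12 * n.G2 + 48 * n.G3 + 16 * n.G4 + 16 * |(n.nup : ℝ) - n.nun|)
        * (3 * 2 ^ 18)
      ≤ (256 * (n.p1 : ℝ) - (192 * n.G0 + 240 * n.G1 + 384 * n.G2 + 960 * n.G3 + 423 * n.G4)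
        + 444 * (n.nup - n.nun)) * (3 * 2 ^ 36) := by
    have := h
    unfold NearOk at this
    exact_mod_cast this
  obtain ⟨A, hA⟩ : ∃ A : ℝ, A = 8192 * ((n.p2p : ℝ) - n.p2n) + (1536 * n.G0 + 1920 * n.G1
    + 3072 * n.G2 + 7680 * n.G3 + 4401 * n.G4) - 5352 * (n.nup - n.nun) := ⟨_, rfl⟩
  obtain ⟨B, hB⟩ : ∃ B : ℝ, B = 262144 * (n.p3 : ℝ) - (159744 * n.G0 + 188160 * n.G1
    + 245760 * n.G2 + 61440 * n.G3 + 351855 * n.G4) + 430320 * (n.nup - n.nun) := ⟨_, rfl⟩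
  obtain ⟨C, hC⟩ : ∃ C : ℝ, C = (3047424 * (n.G0 : ℝ) + 3532800 * n.G1 + 4325376 * n.G2
    - 2457600 * n.G3 + 7062777 * n.G4) - 9092256 * (n.nup - n.nun) := ⟨_, rfl⟩
  rw [← hA, ← hB, ← hC] at h'
  have aA : |A / (8192 * 2 ^ 30)| = |A| / (8192 * 2 ^ 30) := by
    rw [abs_div, abs_of_pos (by positivity : (0 : ℝ) < 8192 * 2 ^ 30)]
  have aB : |B / (262144 * 2 ^ 30)| = |B| / (262144 * 2 ^ 30) := by
    rw [abs_div, abs_of_pos (by positivity : (0 : ℝ) < 262144 * 2 ^ 30)]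
  have aC : |C / (8388608 * 2 ^ 30)| = |C| / (8388608 * 2 ^ 30) := by
    rw [abs_div, abs_of_pos (by positivity : (0 : ℝ) < 8388608 * 2 ^ 30)]
  have aN : |((n.nup : ℝ) - n.nun) / 2 ^ 30| = |(n.nup : ℝ) - n.nun| / 2 ^ 30 := by
    rw [abs_div, abs_of_pos (by positivity : (0 : ℝ) < 2 ^ 30)]
  have main := near_Z (G0 := (n.G0 : ℝ) / 2 ^ 30) (G1 := (n.G1 : ℝ) / 2 ^ 30)
    (G2 := (n.G2 : ℝ) / 2 ^ 30) (G3 := (n.G3 : ℝ) / 2 ^ 30) (G4 := (n.G4 : ℝ) / 2 ^ 30)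
    (nu := ((n.nup : ℝ) - n.nun) / 2 ^ 30) (p1 := (n.p1 : ℝ) / 2 ^ 30)
    (p2 := ((n.p2p : ℝ) - n.p2n) / 2 ^ 30) (p3 := (n.p3 : ℝ) / 2 ^ 30)
    (p4 := (n.p4 : ℝ) / 2 ^ 30) (κ := A / (8192 * 2 ^ 30)) (k := B / (262144 * 2 ^ 30))
    (v := C / (8388608 * 2 ^ 30))
    (by positivity) (by positivity) (by positivity) (by positivity) (by positivity)
    (by positivity) rfl (by rw [hA]; ring) (by rw [hB]; ring) (by rw [hC]; ring) rfl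
    (by rw [aA, aB, aC, aN]; linarith) y hs hw
  rw [sumG]
  unfold fR
  have hm : n.ct.nu = ((n.nup : ℝ) - n.nun) / 2 ^ 30 := rfl
  rw [hm]
  refine le_of_le_of_eq main ?_
  ring

/-- general form: `S` is `1/2` (`k = 256`) or `229/512` -/
theorem good_node (k : ℕ) (hk : k ≤ 256) (RZ : Run) (hZD : RZ.D = dI) (hZz : RZ.z = false)
    (regZ : ∀ y, Sx y → (∀ i, y i ≤ 1 + (k : ℝ) / 512) → (∃ i, 1 / 4 ≤ |y i - 1|) → RZ.Reg y)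
    (hA : runA.Holds) (hB : runB.Holds) (hZ : RZ.Holds) (hM : runM.Holds) (n : Nd)
    (c0 : (∃ t ∈ tsA, IsY0 n t) ∧ ∃ t ∈ tsB, IsY0 n t)
    (c1 : (∃ t ∈ tsA, IsY1 k n t) ∧ ∃ t ∈ tsB, IsY1 k n t)
    (cZ : (∃ t ∈ RZ.ts, IsZ n t) ∧ ∃ t ∈ tsM, IsZ n t) (cn : NearOk n) :
    GoodC ((k : ℝ) / 512) n.ct := by
  have hk' : (k : ℝ) ≤ 256 := by exact_mod_cast hk
  intro lam D h0 h1 h2 h3 y hy
  obtain ⟨⟨a0, a0m, a0h⟩, b0, b0m, b0h⟩ := c0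
  obtain ⟨⟨a1, a1m, a1h⟩, b1, b1m, b1h⟩ := c1
  obtain ⟨⟨z0, z0m, z0h⟩, z1, z1m, z1h⟩ := cZ
  refine iface ((k : ℝ) / 512) (by positivity) (by linarith) n.ct.W n.ct.G n.ct.nu n.ct.m0
    ((n.p1 : ℝ) / 2 ^ 30) (((n.p2p : ℝ) - n.p2n) / 2 ^ 30) ((n.p3 : ℝ) / 2 ^ 30)
    ((n.p4 : ℝ) / 2 ^ 30) (by positivity) (by positivity) (by positivity) ?_ ?_ ?_ lam h0 h1 D
    h2 h3 y hy
  · intro y hy
    by_cases hf : ∃ i, 1 / 4 ≤ |y i - 1|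
    · exact y0_of a0h runA rfl rfl y (hA a0 a0m y (regA hy hf))
    · simp only [not_exists, not_le] at hf
      exact y0_of b0h runB rfl rfl y (hB b0 b0m y (regB hy fun i => (hf i).le))
  · intro y hy
    by_cases hf : ∃ i, 1 / 4 ≤ |y i - 1|
    · exact y1_of a1h runA rfl rfl y (hA a1 a1m y (regA hy hf))
    · simp only [not_exists, not_le] at hf
      exact y1_of b1h runB rfl rfl y (hB b1 b1m y (regB hy fun i => (hf i).le))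
  · intro w hw hws
    by_cases hf : ∃ i, 1 / 4 ≤ |w i - 1|
    · exact z_of z0h RZ hZD hZz w (hZ z0 z0m w (regZ w hw hws hf))
    · simp only [not_exists, not_le] at hf
      by_cases hg : ∃ i, 1 / 128 ≤ |w i - 1|
      · exact z_of z1h runM rfl rfl w (hM z1 z1m w (regM hw hg fun i => (hf i).le))
      · simp only [not_exists, not_le] at hg
        exact z_near cn w hw.2 fun i => (hg i).le

end LY

open LY in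
/-- Poisson and small certificates: `runA` (all `|y-1| ≥ 1/4`) and `runB` (`≤ 1/4`) give the `Y`
conditions, `runD` (`≥ 1/4`, `w ≤ 3/2`) and `runM` (`1/128 ≤ .. ≤ 1/4`) with `near_expand`
give the `Z` condition of `iface` with `s = 1/2`. -/
theorem good_half (hA : runA.Holds) (hB : runB.Holds) (hD : runD.Holds) (hM : runM.Holds) :
    ∀ n ∈ ndG, GoodC (1 / 2) n.ct := by
  intro n hn
  have h := good_node 256 le_rfl runD rfl rfl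
    (fun y hy hs hf => regD hy (fun i => (hs i).trans (by norm_num)) hf) hA hB hD hM n
    (chk_Y0 n (List.mem_append_left _ hn)) (chk_Y1G n hn) (chk_ZG n hn)
    (chk_near n (List.mem_append_left _ hn))
  have e : ((256 : ℕ) : ℝ) / 512 = 1 / 2 := by norm_num
  rw [e] at h
  exact h

open LY in
/-- same with `runE` (`w ≤ 741/512`) and `s = 229/512` for the certificates `nd5`. -/
theorem good_five (hA : runA.Holds) (hB : runB.Holds) (hE : runE.Holds) (hM : runM.Holds) :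
    ∀ n ∈ nd5, GoodC (229 / 512) n.ct := by
  intro n hn
  have h := good_node 229 (by norm_num) runE rfl rfl
    (fun y hy hs hf => regE hy (fun i => (hs i).trans (by norm_num)) hf) hA hB hE hM n
    (chk_Y0 n (List.mem_append_right _ hn)) (chk_Y15 n hn) (chk_Z5 n hn)
    (chk_near n (List.mem_append_right _ hn))
  have e : ((229 : ℕ) : ℝ) / 512 = 229 / 512 := by norm_num
  rw [e] at h
  exact h

end Vale.Agent.Lib.P154.Neg.Ck
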