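import Vale.Agent.Lib.P154.Neg.CkJet

/-! Soundness of the packed task check. -/

namespace Vale.Agent.Lib.P154.Neg.Ck

namespace Pack

theorem force_eq {α : Type} (n : ℕ) (k : ℕ → α) : force n k = k n := by
  cases n <;> rfl

/-- `2^128` -/
abbrev B : ℕ := 340282366920938463463374607431768211456

theorem lane_digits : ∀ (L : List ℕ), (∀ d ∈ L, d < B) → ∀ k,
    Nat.ofDigits B L / B ^ k % B = L.getD k 0 := by
  intro L
  induction L with
  | nil => intro _ k; simp [Nat.ofDigits]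
  | cons d L ih =>
    intro hL k
    have hd : d < B := hL d (by simp)
    rw [Nat.ofDigits_cons]
    cases k with
    | zero =>
      rw [pow_zero, Nat.div_one, Nat.add_mul_mod_self_left, Nat.mod_eq_of_lt hd]
      rfl
    | succ k =>
      rw [pow_succ', ← Nat.div_div_eq_div_mul, Nat.add_mul_div_left _ _ (by norm_num),
        Nat.div_eq_of_lt hd, zero_add, ih (fun x hx => hL x (by simp [hx])) k]
      rfl

theorem B_eq : B = 2 ^ 128 := by norm_num [B]

theorem lane_eq (x k : ℕ) : lane x (128 * k) = x / B ^ k % B := by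
  unfold lane
  show (x >>> (128 * k)) % B = _
  rw [Nat.shiftRight_eq_div_pow, pow_mul, ← B_eq]

/-- lanes of a model -/
def LP (j : Jv) : Fin 13 → ℕ :=
  ![j.vp, j.vn, j.ap, j.an, j.bp, j.bn, j.cp, j.cn, j.dp, j.dn, j.fp, j.fn, j.e]

/-- lanes of a negated model -/
def LN (j : Jv) : Fin 13 → ℕ :=
  ![j.vn, j.vp, j.an, j.ap, j.bn, j.bp, j.cn, j.cp, j.dn, j.dp, j.fn, j.fp, j.e]

theorem pk2_eq (a b : ℕ) : pk2 a b = a + B * b := by
  unfold pk2
  show a + b <<< 128 = _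
  rw [Nat.shiftLeft_eq]
  ring

theorem ofDigits_ofFn (b : ℕ) : ∀ (n : ℕ) (f : Fin n → ℕ),
    Nat.ofDigits b (List.ofFn f) = ∑ k : Fin n, f k * b ^ (k : ℕ) := by
  intro n
  induction n with
  | zero => intro f; simp
  | succ n ih =>
    intro f
    rw [List.ofFn_succ, Nat.ofDigits_cons, ih, Fin.sum_univ_succ, Finset.mul_sum]
    simp only [Fin.val_zero, pow_zero, mul_one, Fin.val_succ]
    congr 1
    refine Finset.sum_congr rfl fun i _ => ?_
    ring

theorem pkP_eq (j : Jv) : j.pkP = ∑ k : Fin 13, LP j k * B ^ (k : ℕ) := by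
  have h : List.ofFn (LP j) = [j.vp, j.vn, j.ap, j.an, j.bp, j.bn, j.cp, j.cn, j.dp, j.dn, j.fp,
    j.fn, j.e] := rfl
  rw [← ofDigits_ofFn, h]
  simp only [Jv.pkP, pk2_eq, Nat.ofDigits_cons, Nat.ofDigits_nil, mul_zero, add_zero]

theorem pkN_eq (j : Jv) : j.pkN = ∑ k : Fin 13, LN j k * B ^ (k : ℕ) := by
  have h : List.ofFn (LN j) = [j.vn, j.vp, j.an, j.ap, j.bn, j.bp, j.cn, j.cp, j.dn, j.dp, j.fn,
    j.fp, j.e] := rfl
  rw [← ofDigits_ofFn, h]
  simp only [Jv.pkN, pk2_eq, Nat.ofDigits_cons, Nat.ofDigits_nil, mul_zero, add_zero]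

/-- positive weights -/
def tp (t : Tk) : Fin 13 → ℕ :=
  ![t.p0, t.p1, t.p2, t.p3, t.p4, t.p5, t.p6, t.p7, t.p8, t.p9, t.p10, t.p11, t.p12]

/-- negative weights -/
def tn (t : Tk) : Fin 13 → ℕ :=
  ![t.n0, t.n1, t.n2, t.n3, t.n4, t.n5, t.n6, t.n7, t.n8, t.n9, t.n10, t.n11, t.n12]

theorem dot13_eq (t : Tk) (a b : Fin 13 → ℕ) :
    dot13 t (a 0) (b 0) (a 1) (b 1) (a 2) (b 2) (a 3) (b 3) (a 4) (b 4) (a 5) (b 5) (a 6) (b 6)
      (a 7) (b 7) (a 8) (b 8) (a 9) (b 9) (a 10) (b 10) (a 11) (b 11) (a 12) (b 12)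
      = ∑ i, (tp t i * a i + tn t i * b i) := by
  simp only [dot13, tp, tn, Fin.sum_univ_succ, Nat.add_eq, Nat.mul_eq]
  simp
  ring

theorem nth_eq {α : Type} (d : α) : ∀ (l : List α) (i : ℕ), nth d l i = l.getD i d := by
  intro l
  induction l with
  | nil => intro i; rfl
  | cons a l ih =>
    intro i
    cases i with
    | zero => rfl
    | succ i =>
      have : nth d (a :: l) (i + 1) = nth d l i := rfl
      rw [this, ih]
      rfl

theorem jZero_mem : jZero.Mem (fun _ _ => 0) := by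
  intro s t _ _
  simp [jZero]

theorem nth_mem {fs : List (ℝ → ℝ → ℝ)} {js : List Jv}
    (hf : List.Forall₂ (fun f (j : Jv) => j.Mem f) fs js) :
    ∀ i, (nth jZero js i).Mem (fs.getD i (fun _ _ => 0)) := by
  induction hf with
  | nil => intro i; exact jZero_mem
  | cons h _ ih =>
    intro i
    cases i with
    | zero => exact h
    | succ i => exact ih i

theorem nth_ok {js : List Jv} (h : js.all Jv.ok = true) (i : ℕ) :
    (nth jZero js i).ok = true := by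
  rw [nth_eq]
  by_cases hi : i < js.length
  · rw [List.getD_eq_getElem _ _ hi]
    exact List.all_eq_true.mp h _ (List.getElem_mem hi)
  · rw [List.getD_eq_default _ _ (by omega)]
    rfl

theorem LP_le {j : Jv} (h : j.ok = true) (k : Fin 13) : LP j k ≤ 1208925819614629174706176 := by
  have h1 : (((j.vp + j.vn) + (j.ap + j.an)) + ((j.bp + j.bn) + (j.cp + j.cn)))
      + (((j.dp + j.dn) + (j.fp + j.fn)) + j.e) ≤ 1208925819614629174706176 :=
    Nat.le_of_ble_eq_true h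
  fin_cases k <;> simp only [LP] <;> simp <;> omega

theorem LN_le {j : Jv} (h : j.ok = true) (k : Fin 13) : LN j k ≤ 1208925819614629174706176 := by
  have h1 : (((j.vp + j.vn) + (j.ap + j.an)) + ((j.bp + j.bn) + (j.cp + j.cn)))
      + (((j.dp + j.dn) + (j.fp + j.fn)) + j.e) ≤ 1208925819614629174706176 :=
    Nat.le_of_ble_eq_true h
  fin_cases k <;> simp only [LN] <;> simp <;> omega

theorem wt_le {t : Tk} (h : t.ok = true) : ∑ i, (tp t i + tn t i) ≤ 140737488355328 := by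
  have h1 : ((((t.p0 + t.n0) + (t.p1 + t.n1)) + ((t.p2 + t.n2) + (t.p3 + t.n3)))
      + (((t.p4 + t.n4) + (t.p5 + t.n5)) + ((t.p6 + t.n6) + (t.p7 + t.n7))))
      + ((((t.p8 + t.n8) + (t.p9 + t.n9)) + ((t.p10 + t.n10) + (t.p11 + t.n11)))
        + (t.p12 + t.n12)) ≤ 140737488355328 := Nat.le_of_ble_eq_true h
  have h2 : ∑ i, (tp t i + tn t i) = ((((t.p0 + t.n0) + (t.p1 + t.n1))
      + ((t.p2 + t.n2) + (t.p3 + t.n3)))
      + (((t.p4 + t.n4) + (t.p5 + t.n5)) + ((t.p6 + t.n6) + (t.p7 + t.n7))))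
      + ((((t.p8 + t.n8) + (t.p9 + t.n9)) + ((t.p10 + t.n10) + (t.p11 + t.n11)))
        + (t.p12 + t.n12)) := by
    simp only [tp, tn, Fin.sum_univ_succ]
    simp
    ring
  rw [h2]
  exact h1

/-- lanes of the packed dot product -/
def Y (t : Tk) (J : Fin 13 → Jv) (k : Fin 13) : ℕ :=
  ∑ i, (tp t i * LP (J i) k + tn t i * LN (J i) k)

theorem Y_lt {t : Tk} {J : Fin 13 → Jv} (ht : t.ok = true) (hJ : ∀ i, (J i).ok = true)
    (k : Fin 13) : Y t J k < B := by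
  have h1 : Y t J k ≤ ∑ i, (tp t i + tn t i) * 1208925819614629174706176 := by
    refine Finset.sum_le_sum fun i _ => ?_
    rw [add_mul]
    exact add_le_add (Nat.mul_le_mul_left _ (LP_le (hJ i) k))
      (Nat.mul_le_mul_left _ (LN_le (hJ i) k))
  rw [← Finset.sum_mul] at h1
  have h2 := Nat.mul_le_mul_right 1208925819614629174706176 (wt_le ht)
  calc Y t J k ≤ _ := h1
    _ ≤ _ := h2
    _ < B := by norm_num [B]

theorem dot_eq (t : Tk) (J : Fin 13 → Jv) :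
    ∑ i, (tp t i * (J i).pkP + tn t i * (J i).pkN) = Nat.ofDigits B (List.ofFn (Y t J)) := by
  rw [ofDigits_ofFn]
  simp only [pkP_eq, pkN_eq, Y, Finset.mul_sum, Finset.sum_mul, ← Finset.sum_add_distrib]
  rw [Finset.sum_comm]
  refine Finset.sum_congr rfl fun k _ => Finset.sum_congr rfl fun i _ => ?_
  ring

theorem lane_Y {t : Tk} {J : Fin 13 → Jv} (ht : t.ok = true) (hJ : ∀ i, (J i).ok = true)
    (k : Fin 13) :
    lane (Nat.ofDigits B (List.ofFn (Y t J))) (128 * (k : ℕ)) = Y t J k := by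
  rw [lane_eq, lane_digits]
  · rw [List.getD_eq_getElem _ _ (by simp), List.getElem_ofFn]
  · intro d hd
    obtain ⟨i, rfl⟩ := (List.mem_ofFn' _ _).mp hd
    exact Y_lt ht hJ i

/-- the polynomial with the given lanes -/
noncomputable def pol (L : Fin 13 → ℕ) (u v : ℝ) : ℝ :=
  ((L 0 : ℝ) - L 1) + ((L 2 : ℝ) - L 3) * u + ((L 4 : ℝ) - L 5) * v
    + ((L 6 : ℝ) - L 7) * u ^ 2 + ((L 8 : ℝ) - L 9) * (u * v) + ((L 10 : ℝ) - L 11) * v ^ 2

theorem mem_pol {f : ℝ → ℝ → ℝ} {j : Jv} (h : j.Mem f) {u v : ℝ} (hu : |u| ≤ 1) (hv : |v| ≤ 1) :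
    |f u v * 2 ^ 64 - pol (LP j) u v| ≤ (LP j 12 : ℝ) := h u v hu hv

theorem pol_LN (j : Jv) (u v : ℝ) : pol (LN j) u v = -pol (LP j) u v := by
  have e0 : LN j 0 = LP j 1 := rfl
  have e1 : LN j 1 = LP j 0 := rfl
  have e2 : LN j 2 = LP j 3 := rfl
  have e3 : LN j 3 = LP j 2 := rfl
  have e4 : LN j 4 = LP j 5 := rfl
  have e5 : LN j 5 = LP j 4 := rfl
  have e6 : LN j 6 = LP j 7 := rfl
  have e7 : LN j 7 = LP j 6 := rfl
  have e8 : LN j 8 = LP j 9 := rfl
  have e9 : LN j 9 = LP j 8 := rfl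
  have e10 : LN j 10 = LP j 11 := rfl
  have e11 : LN j 11 = LP j 10 := rfl
  simp only [pol, e0, e1, e2, e3, e4, e5, e6, e7, e8, e9, e10, e11]
  ring

theorem pol_Y (t : Tk) (J : Fin 13 → Jv) (u v : ℝ) :
    pol (Y t J) u v = ∑ i, ((tp t i : ℝ) - tn t i) * pol (LP (J i)) u v := by
  have h : ∀ i, ((tp t i : ℝ) - tn t i) * pol (LP (J i)) u v
      = (tp t i : ℝ) * pol (LP (J i)) u v + (tn t i : ℝ) * pol (LN (J i)) u v := by
    intro i
    rw [pol_LN]
    ring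
  simp only [h]
  simp only [pol, Y, Nat.cast_sum, Nat.cast_add, Nat.cast_mul]
  simp only [← Finset.sum_sub_distrib, Finset.sum_mul, ← Finset.sum_add_distrib]
  refine Finset.sum_congr rfl fun i _ => ?_
  ring

theorem sum13 {M : Type*} [AddCommMonoid M] (F : Fin 13 → M) :
    ∑ i, F i = F 0 + F 1 + F 2 + F 3 + F 4 + F 5 + F 6 + F 7 + F 8 + F 9 + F 10 + F 11 + F 12 := by
  rw [Fin.sum_univ_castSucc, Fin.sum_univ_castSucc, Fin.sum_univ_castSucc, Fin.sum_univ_castSucc,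
    Fin.sum_univ_castSucc, Fin.sum_univ_eight]
  rfl

theorem tkVal_eq (t : Tk) (g : ℕ → ℝ) :
    t.val g = ∑ i : Fin 13, ((tp t i : ℝ) - tn t i) * g i := by
  rw [sum13]
  rfl

theorem term_ge {p n F P e : ℝ} (hp : 0 ≤ p) (hn : 0 ≤ n) (h : |F - P| ≤ e) :
    (p - n) * P - (p + n) * e ≤ (p - n) * F := by
  have hm := abs_le.mp h
  nlinarith [mul_nonneg hp (by linarith [hm.1] : (0 : ℝ) ≤ F - P + e),
    mul_nonneg hn (by linarith [hm.2] : (0 : ℝ) ≤ e - (F - P))]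

theorem Y12 (t : Tk) (J : Fin 13 → Jv) :
    (Y t J 12 : ℝ) = ∑ i, ((tp t i : ℝ) + tn t i) * (LP (J i) 12 : ℝ) := by
  unfold Y
  rw [Nat.cast_sum]
  refine Finset.sum_congr rfl fun i _ => ?_
  have e1 : LN (J i) 12 = (J i).e := rfl
  have e2 : LP (J i) 12 = (J i).e := rfl
  rw [e1, e2, Nat.cast_add, Nat.cast_mul, Nat.cast_mul]
  ring

theorem val_ge {t : Tk} {J : Fin 13 → Jv} {f : Fin 13 → ℝ → ℝ → ℝ}
    (h : ∀ i, (J i).Mem (f i)) {u v : ℝ} (hu : |u| ≤ 1) (hv : |v| ≤ 1) :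
    pol (Y t J) u v - (Y t J 12 : ℝ) ≤ (∑ i, ((tp t i : ℝ) - tn t i) * f i u v) * 2 ^ 64 := by
  rw [pol_Y, Finset.sum_mul, Y12, ← Finset.sum_sub_distrib]
  refine Finset.sum_le_sum fun i _ => ?_
  rw [mul_assoc]
  exact term_ge (Nat.cast_nonneg _) (Nat.cast_nonneg _) (mem_pol (h i) hu hv)

theorem cast_sub_add (a b : ℕ) : (((a - b) + (b - a) : ℕ) : ℝ) = |(a : ℝ) - b| := by
  rcases le_total a b with h | h
  · rw [Nat.sub_eq_zero_of_le h, zero_add, Nat.cast_sub h, abs_of_nonpos (by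
      have : (a : ℝ) ≤ b := by exact_mod_cast h
      linarith)]
    ring
  · rw [Nat.sub_eq_zero_of_le h, add_zero, Nat.cast_sub h, abs_of_nonneg (by
      have : (b : ℝ) ≤ a := by exact_mod_cast h
      linarith)]

theorem cast_sub_ge (a b : ℕ) : (a : ℝ) - b ≤ ((a - b : ℕ) : ℝ) := by
  have : a ≤ (a - b) + b := by omega
  have h2 : (a : ℝ) ≤ ((a - b : ℕ) : ℝ) + b := by exact_mod_cast this
  linarith

theorem pol_nonneg {L : Fin 13 → ℕ} (h : ((L 1 + L 12)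
      + (((L 2 - L 3) + (L 3 - L 2)) + ((L 4 - L 5) + (L 5 - L 4))))
      + (((L 7 - L 6) + (L 11 - L 10)) + ((L 8 - L 9) + (L 9 - L 8))) ≤ L 0)
    {u v : ℝ} (hu : |u| ≤ 1) (hv : |v| ≤ 1) : (L 12 : ℝ) ≤ pol L u v := by
  have h1 : (((L 1 + L 12)
      + (((L 2 - L 3) + (L 3 - L 2)) + ((L 4 - L 5) + (L 5 - L 4))))
      + (((L 7 - L 6) + (L 11 - L 10)) + ((L 8 - L 9) + (L 9 - L 8))) : ℕ) ≤ (L 0 : ℝ) := by
    exact_mod_cast h
  rw [Nat.cast_add, Nat.cast_add, Nat.cast_add (L 1), Nat.cast_add ((L 2 - L 3) + (L 3 - L 2)),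
    cast_sub_add, cast_sub_add, Nat.cast_add ((L 7 - L 6) + (L 11 - L 10)), cast_sub_add,
    Nat.cast_add (L 7 - L 6)] at h1
  have h76 := cast_sub_ge (L 7) (L 6)
  have h1110 := cast_sub_ge (L 11) (L 10)
  have p76 : (0 : ℝ) ≤ ((L 7 - L 6 : ℕ) : ℝ) := Nat.cast_nonneg _
  have p1110 : (0 : ℝ) ≤ ((L 11 - L 10 : ℕ) : ℝ) := Nat.cast_nonneg _
  have key : ∀ x y : ℝ, |y| ≤ 1 → -|x| ≤ x * y := by
    intro x y hy
    have h3 : |x * y| ≤ |x| := by
      rw [abs_mul]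
      exact mul_le_of_le_one_right (abs_nonneg x) hy
    linarith [neg_abs_le (x * y)]
  have k1 := key ((L 2 : ℝ) - L 3) u hu
  have k2 := key ((L 4 : ℝ) - L 5) v hv
  have k3 := key ((L 8 : ℝ) - L 9) (u * v) (by
    rw [abs_mul]
    exact mul_le_one₀ hu (abs_nonneg v) hv)
  have hu2 : u ^ 2 ≤ 1 := by
    rw [← sq_abs]
    exact pow_le_one₀ (abs_nonneg u) hu
  have hv2 : v ^ 2 ≤ 1 := by
    rw [← sq_abs]
    exact pow_le_one₀ (abs_nonneg v) hv
  have k4 : -((L 7 - L 6 : ℕ) : ℝ) ≤ ((L 6 : ℝ) - L 7) * u ^ 2 := by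
    nlinarith [sq_nonneg u, mul_nonneg p76 (by linarith : (0 : ℝ) ≤ 1 - u ^ 2),
      mul_nonneg (by linarith : (0 : ℝ) ≤ ((L 7 - L 6 : ℕ) : ℝ) - ((L 7 : ℝ) - L 6)) (sq_nonneg u)]
  have k5 : -((L 11 - L 10 : ℕ) : ℝ) ≤ ((L 10 : ℝ) - L 11) * v ^ 2 := by
    nlinarith [sq_nonneg v, mul_nonneg p1110 (by linarith : (0 : ℝ) ≤ 1 - v ^ 2),
      mul_nonneg (by linarith : (0 : ℝ) ≤ ((L 11 - L 10 : ℕ) : ℝ) - ((L 11 : ℝ) - L 10))
        (sq_nonneg v)]
  unfold pol
  linarith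

theorem posS_le {x : ℕ} (h : posS x = true) :
    ((lane x 128 + lane x 1536)
      + (((lane x 256 - lane x 384) + (lane x 384 - lane x 256))
        + ((lane x 512 - lane x 640) + (lane x 640 - lane x 512))))
      + (((lane x 896 - lane x 768) + (lane x 1408 - lane x 1280))
        + ((lane x 1024 - lane x 1152) + (lane x 1152 - lane x 1024))) ≤ lane x 0 := by
  rw [posS, force_eq] at h
  exact Nat.le_of_ble_eq_true h

end Pack

open Pack

/-- soundness of the packed check: lanes of 128 bits do not overflow because of `Jv.ok`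
(entries at most `2^80`) and `Tk.ok` (weights sum at most `2^47`) -/
theorem tasksOk_sound (ts : List Tk) (js : List Jv) (fs : List (ℝ → ℝ → ℝ))
    (hf : List.Forall₂ (fun f (j : Jv) => j.Mem f) fs js) (hts : ts.all Tk.ok = true)
    (hk : tasksOk ts js = true) (t : Tk) (ht : t ∈ ts) (u v : ℝ) (hu : |u| ≤ 1) (hv : |v| ≤ 1) :
    0 ≤ t.val (fun i => (fs.getD i (fun _ _ => 0)) u v) := by
  have hok : t.ok = true := List.all_eq_true.mp hts t ht
  simp only [tasksOk, force_eq] at hk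
  rw [Bool.and_eq_true] at hk
  obtain ⟨hjs, hall⟩ := hk
  have hp := List.all_eq_true.mp hall t ht
  set J : Fin 13 → Jv := fun i => nth jZero js i with hJ
  have hJok : ∀ i, (J i).ok = true := fun i => nth_ok hjs i
  have hd := dot13_eq t (fun i => (J i).pkP) (fun i => (J i).pkN)
  rw [dot_eq] at hd
  have hp' : posS (Nat.ofDigits B (List.ofFn (Y t J))) = true := by
    rw [← hd]
    exact hp
  have hle := posS_le hp'
  have hl := fun k => lane_Y (J := J) hok hJok k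
  generalize Nat.ofDigits B (List.ofFn (Y t J)) = X at hle hl
  have l0 : lane X 0 = Y t J 0 := hl 0
  have l1 : lane X 128 = Y t J 1 := hl 1
  have l2 : lane X 256 = Y t J 2 := hl 2
  have l3 : lane X 384 = Y t J 3 := hl 3
  have l4 : lane X 512 = Y t J 4 := hl 4
  have l5 : lane X 640 = Y t J 5 := hl 5
  have l6 : lane X 768 = Y t J 6 := hl 6
  have l7 : lane X 896 = Y t J 7 := hl 7
  have l8 : lane X 1024 = Y t J 8 := hl 8
  have l9 : lane X 1152 = Y t J 9 := hl 9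
  have l10 : lane X 1280 = Y t J 10 := hl 10
  have l11 : lane X 1408 = Y t J 11 := hl 11
  have l12 : lane X 1536 = Y t J 12 := hl 12
  rw [l0, l1, l2, l3, l4, l5, l6, l7, l8, l9, l10, l11, l12] at hle
  have hpol := pol_nonneg hle hu hv
  have hval := val_ge (t := t) (J := J) (f := fun i => fs.getD i (fun _ _ => 0))
    (fun i => nth_mem hf i) hu hv
  rw [tkVal_eq]
  have h64 : (0 : ℝ) < 2 ^ 64 := by positivity
  by_contra hneg
  push Not at hneg
  have := mul_neg_of_neg_of_pos hneg h64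
  linarith

end Vale.Agent.Lib.P154.Neg.Ck
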