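import Vale.Agent.Lib.P154.Neg.CkBallExp
import Vale.Agent.Lib.P154.Neg.CkScal

/-! The scaled link functions and the scalar certificates. -/

namespace Vale.Agent.Lib.P154.Neg.Ck

open scoped BigOperators

/-- scaled link function: `d = 0` Poisson, otherwise the regular tree with `d` children in the
variable `X = (1 - 1/d) L` -/
noncomputable def Phi (d : ℕ) (x : ℝ) : ℝ :=
  if d = 0 then 1 - Real.exp (-x) else ((d : ℝ) - 1) / d * (1 - (1 - x / ((d : ℝ) - 1)) ^ d)

/-- `1` or `(d-1)/d` -/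
noncomputable def fac1 (d : ℕ) : ℝ := if d = 0 then 1 else ((d : ℝ) - 1) / d

/-- real certificate -/
structure Ct where
  W : Fin 5 → ℝ
  G : Fin 5 → ℝ
  nu : ℝ
  m0 : ℝ

noncomputable def Nd.ct (n : Nd) : Ct :=
  ⟨fun a => ((![n.W0, n.W1, n.W2, n.W3, n.W4] a : ℕ) : ℝ) / 2 ^ 30,
   fun a => ((![n.G0, n.G1, n.G2, n.G3, n.G4] a : ℕ) : ℝ) / 2 ^ 30,
   ((n.nup : ℝ) - n.nun) / 2 ^ 30, (n.m0 : ℝ) / 2 ^ 30⟩

noncomputable def Ct.mix (t : ℝ) (c c' : Ct) : Ct :=
  ⟨fun a => (1 - t) * c.W a + t * c'.W a, fun a => (1 - t) * c.G a + t * c'.G a,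
   (1 - t) * c.nu + t * c'.nu, (1 - t) * c.m0 + t * c'.m0⟩

/-- mixtures of two neighbouring certificates -/
def Hull (L : List Nd) (c : Ct) : Prop :=
  ∃ (i : ℕ) (t : ℝ), i + 1 < L.length ∧ 0 ≤ t ∧ t ≤ 1 ∧
    c = Ct.mix t (nthN L i).ct (nthN L (i + 1)).ct

/-- the certificate contradicts the limit value `B` of the reference functional -/
def Kills (d : ℕ) (B : ℝ) (c : Ct) : Prop :=
  ∀ X : Fin 5 → ℝ, (∀ a, 0 ≤ X a) → (d = 0 ∨ Even d ∨ ∀ a, X a ≤ (d : ℝ) - 1) →
    ∑ a, (c.W a * Phi d (X a) - c.G a * X a) < Phi d B - c.nu * B - fac1 d * c.m0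

/-- end of a table -/
def lastB : List Pc → ℕ → ℕ
  | [], B => B
  | p :: l, _ => lastB l p.B

/-! ### facts about `Phi` -/

/-- derivative of `Phi` -/
noncomputable def dPhi (d : ℕ) (x : ℝ) : ℝ :=
  if d = 0 then Real.exp (-x) else (1 - x / ((d : ℝ) - 1)) ^ (d - 1)

/-- admissible link functions -/
def Adm (d : ℕ) : Prop := d = 0 ∨ 2 ≤ d

/-- domain of concavity -/
def Dom (d : ℕ) (x : ℝ) : Prop := 0 ≤ x ∧ (d ≠ 0 → x ≤ (d : ℝ) - 1)

theorem pow_tangent (n : ℕ) {u v : ℝ} (hu : 0 ≤ u) (hv : 0 ≤ v) :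
    v ^ (n + 1) + (n + 1) * v ^ n * (u - v) ≤ u ^ (n + 1) := by
  induction n with
  | zero => simp
  | succ n ih =>
    have h1 : u * (v ^ (n + 1) + (n + 1) * v ^ n * (u - v)) ≤ u * u ^ (n + 1) :=
      mul_le_mul_of_nonneg_left ih hu
    have h2 : 0 ≤ ((n : ℝ) + 1) * v ^ n * (u - v) ^ 2 := by positivity
    have h3 : u ^ (n + 1 + 1) = u * u ^ (n + 1) := by ring
    rw [h3]
    push_cast
    refine le_trans ?_ h1
    have h4 : u * (v ^ (n + 1) + (n + 1) * v ^ n * (u - v)) =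
        v ^ (n + 1 + 1) + (n + 1 + 1) * v ^ (n + 1) * (u - v)
          + (n + 1) * v ^ n * (u - v) ^ 2 := by ring
    rw [h4]
    linarith

theorem fac1_nonneg {d : ℕ} (hd : Adm d) : 0 ≤ fac1 d := by
  unfold fac1
  split
  · norm_num
  · rcases hd with h | h
    · contradiction
    · have : (2 : ℝ) ≤ d := by exact_mod_cast h
      apply div_nonneg <;> linarith

theorem fac1_le_one {d : ℕ} (hd : Adm d) : fac1 d ≤ 1 := by
  unfold fac1
  split
  · norm_num
  · rcases hd with h | h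
    · contradiction
    · have : (2 : ℝ) ≤ d := by exact_mod_cast h
      rw [div_le_one (by linarith)]
      linarith

/-- `d ≤ d'` where `0` is infinity -/
def Lei (d d' : ℕ) : Prop := d' = 0 ∨ (d ≠ 0 ∧ d ≤ d')

theorem fac1_mono {d d' : ℕ} (hd : Adm d) (_hd' : Adm d') (h : Lei d d') : fac1 d ≤ fac1 d' := by
  rcases h with h | ⟨h0, h⟩
  · subst h
    have := fac1_le_one hd
    simpa [fac1] using this
  · have h2 : 2 ≤ d := by
      rcases hd with h | h
      · contradiction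
      · exact h
    have h2' : (2 : ℝ) ≤ d := by exact_mod_cast h2
    have h3 : (d : ℝ) ≤ d' := by exact_mod_cast h
    have h4 : d' ≠ 0 := by omega
    unfold fac1
    rw [if_neg h0, if_neg h4, div_le_div_iff₀ (by linarith) (by linarith)]
    nlinarith

theorem Phi_zero (d : ℕ) : Phi d 0 = 0 := by
  unfold Phi
  split <;> simp

theorem dPhi_nonneg {d : ℕ} {x : ℝ} (hd : Adm d) (hx : Dom d x) : 0 ≤ dPhi d x := by
  unfold dPhi
  split
  · exact (Real.exp_pos _).le
  · rename_i h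
    apply pow_nonneg
    have h1 := hx.2 h
    have h2 : (2 : ℝ) ≤ d := by
      rcases hd with h' | h'
      · contradiction
      · exact_mod_cast h'
    rw [sub_nonneg, div_le_one (by linarith)]
    exact h1

/-- the tangent lies above -/
theorem Phi_tangent {d : ℕ} (hd : Adm d) {x y : ℝ} (hx : Dom d x) (hy : Dom d y) :
    Phi d x ≤ Phi d y + dPhi d y * (x - y) := by
  unfold Phi dPhi
  split
  · have h1 : Real.exp (-x) = Real.exp (-y) * Real.exp (-(x - y)) := by
      rw [← Real.exp_add]; congr 1; ring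
    have h2 := Real.add_one_le_exp (-(x - y))
    have h3 := mul_le_mul_of_nonneg_left h2 (Real.exp_pos (-y)).le
    rw [← h1] at h3
    linarith
  · rename_i h
    have h2 : 2 ≤ d := by
      rcases hd with h' | h'
      · contradiction
      · exact h'
    have h2' : (2 : ℝ) ≤ d := by exact_mod_cast h2
    obtain ⟨n, rfl⟩ : ∃ n, d = n + 1 := ⟨d - 1, by omega⟩
    have hn : (0 : ℝ) < ((n + 1 : ℕ) : ℝ) - 1 := by linarith
    have hx1 := hx.2 h
    have hy1 := hy.2 h
    set e : ℝ := ((n + 1 : ℕ) : ℝ) - 1 with he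
    have hu : 0 ≤ 1 - x / e := by rw [sub_nonneg, div_le_one hn]; exact hx1
    have hv : 0 ≤ 1 - y / e := by rw [sub_nonneg, div_le_one hn]; exact hy1
    have h3 := pow_tangent n hu hv
    have hd0 : (0 : ℝ) < ((n + 1 : ℕ) : ℝ) := by linarith
    have hsub : n + 1 - 1 = n := by omega
    rw [hsub]
    have e1 : ((n + 1 : ℕ) : ℝ) = (n : ℝ) + 1 := by push_cast; ring
    rw [← e1] at h3
    set D : ℝ := ((n + 1 : ℕ) : ℝ) with hD
    set u := 1 - x / e with hu'
    set v := 1 - y / e with hv'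
    have e2 : x - y = e * (v - u) := by
      rw [hu', hv']
      field_simp
      ring
    rw [e2]
    have h4 : (v ^ (n + 1) - u ^ (n + 1)) ≤ D * v ^ n * (v - u) := by
      have : D * v ^ n * (u - v) = - (D * v ^ n * (v - u)) := by ring
      rw [this] at h3
      linarith
    have h5 : e / D * (v ^ (n + 1) - u ^ (n + 1)) ≤ e / D * (D * v ^ n * (v - u)) :=
      mul_le_mul_of_nonneg_left h4 (by positivity)
    have h6 : e / D * (D * v ^ n * (v - u)) = v ^ n * (e * (v - u)) := by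
      field_simp
    rw [h6] at h5
    linarith

theorem Phi_hasDeriv {d : ℕ} (hd : Adm d) (x : ℝ) : HasDerivAt (Phi d) (dPhi d x) x := by
  unfold dPhi
  split
  · rename_i h
    subst h
    have h1 : Phi 0 = fun x => 1 - Real.exp (-x) := by
      funext x; simp [Phi]
    rw [h1]
    have h2 := ((hasDerivAt_id x).neg.exp).const_sub 1
    convert! h2 using 1
    simp
  · rename_i h
    have h2 : 2 ≤ d := by
      rcases hd with h' | h'
      · contradiction
      · exact h'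
    have h2' : (2 : ℝ) ≤ d := by exact_mod_cast h2
    have h1 : Phi d = fun x => ((d : ℝ) - 1) / d * (1 - (1 - x / ((d : ℝ) - 1)) ^ d) := by
      funext x; simp [Phi, h]
    rw [h1]
    have h3 := ((((hasDerivAt_id x).div_const ((d : ℝ) - 1)).const_sub 1).pow d).const_sub 1
      |>.const_mul (((d : ℝ) - 1) / d)
    convert! h3 using 1
    have hd1 : (d : ℝ) - 1 ≠ 0 := by linarith
    have hd0 : (d : ℝ) ≠ 0 := by linarith
    simp only [id]
    field_simp

theorem one_sub_pow_mono {n m : ℕ} (hn : 0 < n) (h : n ≤ m) {s : ℝ} (hs : s ≤ n) (hs0 : 0 ≤ s) :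
    (1 - s / n) ^ n ≤ (1 - s / m) ^ m := by
  have hn' : (0 : ℝ) < n := by exact_mod_cast hn
  have hm' : (0 : ℝ) < m := by
    have : 0 < m := by omega
    exact_mod_cast this
  have hnm : (n : ℝ) ≤ m := by exact_mod_cast h
  have h1 : 1 + (m / n : ℝ) * (-(s / m)) ≤ (1 + -(s / m)) ^ (m / n : ℝ) := by
    apply one_add_mul_self_le_rpow_one_add
    · have : s / m ≤ 1 := by rw [div_le_one hm']; linarith
      linarith
    · rw [le_div_iff₀ hn']; linarith
  have h2 : 1 + (m / n : ℝ) * (-(s / m)) = 1 - s / n := by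
    field_simp
    ring
  rw [h2] at h1
  have h3 : 0 ≤ 1 - s / n := by rw [sub_nonneg, div_le_one hn']; exact hs
  have h4 : 0 ≤ 1 + -(s / m) := by
    have : s / m ≤ 1 := by rw [div_le_one hm']; linarith
    linarith
  calc (1 - s / n) ^ n ≤ ((1 + -(s / m)) ^ (m / n : ℝ)) ^ n := pow_le_pow_left₀ h3 h1 n
    _ = (1 + -(s / m)) ^ ((m / n : ℝ) * n) := by rw [Real.rpow_mul h4, Real.rpow_natCast]
    _ = (1 - s / m) ^ m := by
      rw [div_mul_cancel₀ _ hn'.ne', Real.rpow_natCast]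
      rfl

theorem dPhi_mono {d d' : ℕ} (hd : Adm d) (_hd' : Adm d') (h : Lei d d') {x : ℝ}
    (hx : Dom d x) : dPhi d x ≤ dPhi d' x := by
  by_cases h0 : d = 0
  · subst h0
    rcases h with h | ⟨h1, _⟩
    · subst h; exact le_rfl
    · exact absurd rfl h1
  have h2 : 2 ≤ d := by
    rcases hd with h' | h'
    · contradiction
    · exact h'
  obtain ⟨n, rfl⟩ : ∃ n, d = n + 1 := ⟨d - 1, by omega⟩
  have hx1 := hx.2 h0
  have e1 : ((n + 1 : ℕ) : ℝ) - 1 = n := by push_cast; ring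
  rw [e1] at hx1
  rcases h with h | ⟨_, h⟩
  · subst h
    unfold dPhi
    rw [if_neg h0, if_pos rfl, e1]
    exact Real.one_sub_div_pow_le_exp_neg hx1
  · obtain ⟨m, rfl⟩ : ∃ m, d' = m + 1 := ⟨d' - 1, by omega⟩
    have e2 : ((m + 1 : ℕ) : ℝ) - 1 = m := by push_cast; ring
    unfold dPhi
    rw [if_neg h0, if_neg (by omega), e1, e2]
    exact one_sub_pow_mono (by omega) (by omega) hx1 hx.1

theorem Phi_mono_d {d d' : ℕ} (hd : Adm d) (hd' : Adm d') (h : Lei d d') {x : ℝ}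
    (hx : Dom d x) : Phi d x ≤ Phi d' x := by
  have hm : MonotoneOn (fun y => Phi d' y - Phi d y) (Set.Icc 0 x) := by
    apply monotoneOn_of_hasDerivWithinAt_nonneg (convex_Icc 0 x)
      (fun y _ => ((Phi_hasDeriv hd' y).sub (Phi_hasDeriv hd y)).continuousAt.continuousWithinAt)
      (fun y _ => ((Phi_hasDeriv hd' y).sub (Phi_hasDeriv hd y)).hasDerivWithinAt)
    intro y hy
    rw [interior_Icc] at hy
    have := dPhi_mono hd hd' h (x := y) ⟨hy.1.le, fun h0 => hy.2.le.trans (hx.2 h0)⟩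
    linarith
  have := hm ⟨le_rfl, hx.1⟩ ⟨hx.1, le_rfl⟩ hx.1
  simp only [Phi_zero] at this
  linarith

theorem Phi_mono_x {d : ℕ} (hd : Adm d) {x y : ℝ} (hx : Dom d x) (hy : Dom d y) (h : x ≤ y) :
    Phi d x ≤ Phi d y := by
  have h1 := Phi_tangent hd hx hy
  have h2 := mul_nonneg (dPhi_nonneg hd hy) (sub_nonneg.mpr h)
  linarith

theorem Phi_nonneg {d : ℕ} (hd : Adm d) {x : ℝ} (hx : Dom d x) : 0 ≤ Phi d x := by
  have h0 : Dom d 0 := ⟨le_rfl, fun h => hx.1.trans (hx.2 h)⟩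
  have := Phi_mono_x hd h0 hx hx.1
  rwa [Phi_zero] at this

/-- beyond the domain, even degree -/
theorem Phi_beyond {d : ℕ} (hd : Adm d) (he : Even d) (h0 : d ≠ 0) (x : ℝ) :
    Phi d x ≤ Phi d ((d : ℝ) - 1) := by
  have h2 : (2 : ℝ) ≤ d := by
    rcases hd with h' | h'
    · contradiction
    · exact_mod_cast h'
  unfold Phi
  rw [if_neg h0, if_neg h0]
  apply mul_le_mul_of_nonneg_left
  · have h3 : 1 - ((d : ℝ) - 1) / ((d : ℝ) - 1) = 0 := by
      rw [div_self (by linarith), sub_self]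
    rw [h3, zero_pow h0]
    have := he.pow_nonneg (1 - x / ((d : ℝ) - 1))
    linarith
  · apply div_nonneg <;> linarith

/-- intercept of the tangent -/
noncomputable def ipt (d : ℕ) (y : ℝ) : ℝ := Phi d y - dPhi d y * y

theorem ipt_eq {d : ℕ} (hd : Adm d) (y : ℝ) : ipt d y = fac1 d * (1 - dPhi d y * (1 + y)) := by
  unfold ipt fac1 Phi dPhi
  split
  · ring
  · rename_i h
    have h2 : 2 ≤ d := by
      rcases hd with h' | h'
      · contradiction
      · exact h'
    have h2' : (2 : ℝ) ≤ d := by exact_mod_cast h2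
    obtain ⟨n, rfl⟩ : ∃ n, d = n + 1 := ⟨d - 1, by omega⟩
    have hsub : n + 1 - 1 = n := by omega
    rw [hsub]
    have e1 : ((n + 1 : ℕ) : ℝ) - 1 = n := by push_cast; ring
    have hn : (0 : ℝ) < n := by rw [← e1]; linarith
    rw [e1, pow_succ]
    push_cast
    field_simp
    ring

/-- single term bound -/
theorem term_bound {d d2 : ℕ} (hd : Adm d) (hd2 : Adm d2) (h : Lei d d2) {W G X y : ℝ}
    (hW : 0 ≤ W) (hX : 0 ≤ X) (hcase : d = 0 ∨ Even d ∨ X ≤ (d : ℝ) - 1) (hG : 0 ≤ G)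
    (hy : Dom d2 y) (hs : W * dPhi d2 y ≤ G) : W * Phi d X - G * X ≤ W * ipt d2 y := by
  -- the case of the domain
  have key : ∀ Z, Dom d Z → W * Phi d Z - G * Z ≤ W * ipt d2 y := by
    intro Z hZ
    have hZ2 : Dom d2 Z := by
      refine ⟨hZ.1, fun h0 => ?_⟩
      rcases h with h | ⟨h1, h3⟩
      · contradiction
      · have : (d : ℝ) ≤ d2 := by exact_mod_cast h3
        linarith [hZ.2 h1]
    have h1 := Phi_mono_d hd hd2 h hZ
    have h2 := Phi_tangent hd2 hZ2 hy
    have h3 : W * Phi d Z ≤ W * (Phi d2 y + dPhi d2 y * (Z - y)) :=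
      mul_le_mul_of_nonneg_left (h1.trans h2) hW
    have h4 : W * dPhi d2 y * Z ≤ G * Z := mul_le_mul_of_nonneg_right hs hZ.1
    unfold ipt
    nlinarith
  by_cases hin : d ≠ 0 → X ≤ (d : ℝ) - 1
  · exact key X ⟨hX, hin⟩
  · rw [Classical.not_imp] at hin
    obtain ⟨h0, h1⟩ := hin
    have he : Even d := by
      rcases hcase with h2 | h2 | h2
      · contradiction
      · exact h2
      · contradiction
    have h2 : (2 : ℝ) ≤ d := by
      rcases hd with h' | h'
      · contradiction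
      · exact_mod_cast h'
    have h3 := key ((d : ℝ) - 1) ⟨by linarith, fun _ => le_rfl⟩
    have h4 := Phi_beyond hd he h0 X
    have h5 := mul_le_mul_of_nonneg_left h4 hW
    have h6 : G * ((d : ℝ) - 1) ≤ G * X := mul_le_mul_of_nonneg_left (by linarith) hG
    linarith

/-- real form of the check -/
theorem kills_of {d d2 : ℕ} (hd : Adm d) (hd2 : Adm d2) (h : Lei d d2) (c : Ct)
    (hW : ∀ a, 0 ≤ c.W a) (hG : ∀ a, 0 ≤ c.G a) (y : Fin 5 → ℝ) (hy : ∀ a, Dom d2 (y a))
    (hs : ∀ a, c.W a * dPhi d2 (y a) ≤ c.G a) (B : ℝ)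
    (hB : ∑ a, c.W a * ipt d2 (y a) < Phi d B - c.nu * B - fac1 d * c.m0) : Kills d B c := by
  intro X hX hc
  refine lt_of_le_of_lt ?_ hB
  apply Finset.sum_le_sum
  intro a _
  apply term_bound hd hd2 h (hW a) (hX a) _ (hG a) (hy a) (hs a)
  rcases hc with hc | hc | hc
  · exact Or.inl hc
  · exact Or.inr (Or.inl hc)
  · exact Or.inr (Or.inr (hc a))

/-- interpolation between the end points of a piece -/
theorem Phi_interp {d : ℕ} (hd : Adm d) {B1 B2 B : ℝ} (h1 : Dom d B1) (h2 : Dom d B2)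
    (hB1 : B1 ≤ B) (hB2 : B ≤ B2) (nu K : ℝ) (hK1 : K < Phi d B1 - nu * B1)
    (hK2 : K < Phi d B2 - nu * B2) : K < Phi d B - nu * B := by
  have hB : Dom d B := ⟨h1.1.trans hB1, fun h0 => hB2.trans (h2.2 h0)⟩
  have t1 := Phi_tangent hd h1 hB
  have t2 := Phi_tangent hd h2 hB
  -- the linear function `Phi d B + dPhi d B (z - B) - nu z` exceeds `K` at both ends
  rcases le_or_gt 0 (dPhi d B - nu) with h | h
  · -- increasing: use the left end point
    have : (dPhi d B - nu) * (B1 - B) ≤ 0 := mul_nonpos_of_nonneg_of_nonpos h (by linarith)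
    nlinarith
  · have : (dPhi d B - nu) * (B2 - B) ≤ 0 := mul_nonpos_of_nonpos_of_nonneg h.le (by linarith)
    nlinarith

end Vale.Agent.Lib.P154.Neg.Ck
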