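import Vale.Agent.Lib.P154.Neg.CkCellS
import Vale.Agent.Lib.P154.Neg.CkPack

/-! Soundness of the run. -/

namespace Vale.Agent.Lib.P154.Neg.Ck

open scoped BigOperators

/-- basis functions of a run -/
noncomputable def Run.basis (R : Run) : List ((Fin 3 → ℝ) → ℝ) :=
  (fun _ => 1) :: (R.D.fs.map fun s => Fn (s.P, s.T)) ++
    (if R.z then R.D.fs.map fun s y => Fn (s.P, s.T) (fun i => (3 - y i) / 2)
     else [QQ, Neg.RR, fun y => QQ y ^ 2, fun y => QQ y ^ 4])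

/-- the function that a task asserts to be nonnegative -/
noncomputable def Run.val (R : Run) (t : Tk) (y : Fin 3 → ℝ) : ℝ :=
  t.val (fun i => R.basis.getD i (fun _ => 0) y)

/-- the region of the run (symmetric in the coordinates) -/
def Run.Reg (R : Run) (y : Fin 3 → ℝ) : Prop :=
  Sx y ∧ (∀ i, y i * 2 ^ 64 ≤ R.ymax) ∧ (∃ i, (R.rlo : ℝ) ≤ |y i - 1| * 2 ^ 64) ∧
    ∀ i, |y i - 1| * 2 ^ 64 ≤ R.rhi

theorem jOne_mem : jOne.Mem (fun _ _ => (1 : ℝ)) := by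
  intro s t _ _
  simp only [jOne]
  norm_num

theorem val_eq (R : Run) (t : Tk) (m2 h2 m3 h3 : ℕ) (u v : ℝ) :
    R.val t (bx m2 h2 m3 h3 u v) = t.val (fun i =>
      ((R.basis.map (fun (f : (Fin 3 → ℝ) → ℝ) (u v : ℝ) => f (bx m2 h2 m3 h3 u v))).getD i
        (fun _ _ => 0)) u v) := by
  unfold Run.val
  congr 1
  funext i
  have h := List.getD_map (l := R.basis) (d := fun _ => (0 : ℝ)) (n := i)
    (f := fun (f : (Fin 3 → ℝ) → ℝ) (u v : ℝ) => f (bx m2 h2 m3 h3 u v))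
  rw [h]

theorem leaf_sound (R : Run) (hD : R.D.ok = true) (hts : R.ts.all Tk.ok = true)
    (m2 h2 m3 h3 : ℕ) (h2m : h2 ≤ m2) (h3m : h3 ≤ m3) (hr : leaf R m2 h2 m3 h3 = true)
    (t : Tk) (ht : t ∈ R.ts) (u v : ℝ) (hu : |u| ≤ 1) (hv : |v| ≤ 1) :
    0 ≤ R.val t (bx m2 h2 m3 h3 u v) := by
  rw [val_eq]
  unfold leaf at hr
  rcases hz : R.z with _ | _
  · rw [hz] at hr
    simp only [cond_false, Bool.and_eq_true] at hr
    refine tasksOk_sound R.ts (jOne :: ((cellY R.D m2 h2 m3 h3).2 ++ cellP m2 h2 m3 h3)) _ ?_ hts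
      hr.2 t ht u v hu hv
    rw [List.forall₂_map_left_iff]
    unfold Run.basis
    rw [hz]
    rw [List.cons_append]
    refine List.Forall₂.cons jOne_mem (List.rel_append ?_ ?_)
    · rw [List.forall₂_map_left_iff]
      exact cellY_sound R.D hD m2 h2 m3 h3 h2m h3m hr.1
    · simpa using cellP_sound m2 h2 m3 h3
  · rw [hz] at hr
    simp only [cond_true, Bool.and_eq_true] at hr
    refine tasksOk_sound R.ts (jOne :: ((cellY R.D m2 h2 m3 h3).2 ++ (cellZ R.D m2 h2 m3 h3).2)) _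
      ?_ hts hr.2.2 t ht u v hu hv
    rw [List.forall₂_map_left_iff]
    unfold Run.basis
    rw [hz]
    rw [List.cons_append]
    refine List.Forall₂.cons jOne_mem (List.rel_append ?_ ?_)
    · rw [List.forall₂_map_left_iff]
      exact cellY_sound R.D hD m2 h2 m3 h3 h2m h3m hr.1
    · simp only [if_true]
      rw [List.forall₂_map_left_iff]
      exact cellZ_sound R.D hD m2 h2 m3 h3 h2m h3m hr.2.1

theorem one64_cast : ((one64 : ℕ) : ℝ) = 2 ^ 64 := by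
  unfold one64
  norm_num

theorem three_cast : ((three : ℕ) : ℝ) = 3 * 2 ^ 64 := by
  unfold three
  norm_num

/-- arithmetic of `skip`: no ordered relevant point in the half open box -/
theorem skip_arith (R : Run) (m2 h2 m3 h3 : ℕ) (h2m : h2 ≤ m2)
    (h3m : h3 ≤ m3) (hr : skip R m2 h2 m3 h3 = true)
    (X0 X1 X2 : ℝ) (e0 : X0 + X1 + X2 = 3 * 2 ^ 64) (m0 : X0 ≤ R.ymax)
    (hlo : (R.rlo : ℝ) ≤ |X0 - 2 ^ 64| ∨ (R.rlo : ℝ) ≤ |X1 - 2 ^ 64| ∨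
      (R.rlo : ℝ) ≤ |X2 - 2 ^ 64|)
    (k0 : |X0 - 2 ^ 64| ≤ (R.rhi : ℝ)) (k1 : |X1 - 2 ^ 64| ≤ (R.rhi : ℝ))
    (k2 : |X2 - 2 ^ 64| ≤ (R.rhi : ℝ))
    (f21 : X1 ≤ X0) (f32 : X2 ≤ X1)
    (ha2 : (m2 : ℝ) - h2 ≤ X1) (hb2 : X1 < (m2 : ℝ) + h2)
    (ha3 : (m3 : ℝ) - h3 ≤ X2) (hb3 : X2 < (m3 : ℝ) + h3) : False := by
  have c2 : ((m2 - h2 : ℕ) : ℝ) = (m2 : ℝ) - h2 := Nat.cast_sub h2m
  have c3 : ((m3 - h3 : ℕ) : ℝ) = (m3 : ℝ) - h3 := Nat.cast_sub h3m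
  simp only [skip, Bool.or_eq_true, Bool.and_eq_true, Nat.ble_eq, Nat.add_eq, Nat.sub_eq,
    Nat.mul_eq] at hr
  simp only [← Nat.cast_le (α := ℝ), Nat.cast_add, Nat.cast_mul, Nat.cast_ofNat, Nat.cast_one,
    c2, c3, one64_cast, three_cast] at hr
  rw [abs_le] at k0 k1 k2
  obtain ⟨k0a, k0b⟩ := k0
  obtain ⟨k1a, k1b⟩ := k1
  obtain ⟨k2a, k2b⟩ := k2
  rcases hr with hr | hr | hr | hr | hr
  · linarith
  · linarith
  · linarith
  · obtain ⟨a1, a2, ⟨a3, a4⟩, a5, a6⟩ := hr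
    rw [le_abs, le_abs, le_abs] at hlo
    rcases hlo with (h | h) | (h | h) | (h | h) <;> linarith
  · rcases hr with (hr | hr) | (hr | hr) | (hr | hr) <;> linarith

theorem skip_sound (R : Run) (m2 h2 m3 h3 : ℕ) (h2m : h2 ≤ m2)
    (h3m : h3 ≤ m3) (hr : skip R m2 h2 m3 h3 = true)
    (y : Fin 3 → ℝ) (hy : R.Reg y) (h21 : y 1 ≤ y 0) (h32 : y 2 ≤ y 1)
    (ha2 : (m2 : ℝ) - h2 ≤ y 1 * 2 ^ 64) (hb2 : y 1 * 2 ^ 64 < (m2 : ℝ) + h2)
    (ha3 : (m3 : ℝ) - h3 ≤ y 2 * 2 ^ 64) (hb3 : y 2 * 2 ^ 64 < (m3 : ℝ) + h3) : False := by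
  obtain ⟨⟨hy0, hys⟩, hmax, ⟨i, hlo⟩, hhi⟩ := hy
  rw [Fin.sum_univ_three] at hys
  have habs : ∀ z : ℝ, |z - 1| * 2 ^ 64 = |z * 2 ^ 64 - 2 ^ 64| := by
    intro z
    rw [show z * 2 ^ 64 - 2 ^ 64 = (z - 1) * 2 ^ 64 by ring, abs_mul,
      abs_of_pos (show (0 : ℝ) < 2 ^ 64 by norm_num)]
  simp only [habs] at hlo hhi
  refine skip_arith R m2 h2 m3 h3 h2m h3m hr (y 0 * 2 ^ 64) (y 1 * 2 ^ 64) (y 2 * 2 ^ 64) ?_
    (hmax 0) ?_ (hhi 0) (hhi 1) (hhi 2) (mul_le_mul_of_nonneg_right h21 (by norm_num))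
    (mul_le_mul_of_nonneg_right h32 (by norm_num)) ha2 hb2 ha3 hb3
  · rw [← hys]; ring
  · fin_cases i
    · exact Or.inl hlo
    · exact Or.inr (Or.inl hlo)
    · exact Or.inr (Or.inr hlo)

/-- a point of the half open box is given by parameters -/
theorem bx_point (m2 h2 m3 h3 : ℕ) (y : Fin 3 → ℝ) (hy : Sx y)
    (ha2 : (m2 : ℝ) - h2 ≤ y 1 * 2 ^ 64) (hb2 : y 1 * 2 ^ 64 < (m2 : ℝ) + h2)
    (ha3 : (m3 : ℝ) - h3 ≤ y 2 * 2 ^ 64) (hb3 : y 2 * 2 ^ 64 < (m3 : ℝ) + h3) :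
    ∃ u v : ℝ, |u| ≤ 1 ∧ |v| ≤ 1 ∧ bx m2 h2 m3 h3 u v = y := by
  have p2 : (0 : ℝ) < h2 := by linarith
  have p3 : (0 : ℝ) < h3 := by linarith
  have hs := hy.2
  rw [Fin.sum_univ_three] at hs
  have e2 : ((m2 : ℝ) + h2 * ((y 1 * 2 ^ 64 - m2) / h2)) / 2 ^ 64 = y 1 := by
    field_simp
    ring
  have e3 : ((m3 : ℝ) + h3 * ((y 2 * 2 ^ 64 - m3) / h3)) / 2 ^ 64 = y 2 := by
    field_simp
    ring
  refine ⟨(y 1 * 2 ^ 64 - m2) / h2, (y 2 * 2 ^ 64 - m3) / h3, ?_, ?_, ?_⟩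
  · rw [abs_le, le_div_iff₀ p2, div_le_iff₀ p2]
    constructor <;> linarith
  · rw [abs_le, le_div_iff₀ p3, div_le_iff₀ p3]
    constructor <;> linarith
  · unfold bx
    rw [e2, e3]
    funext i
    fin_cases i
    · simp only [Fin.zero_eta, Matrix.cons_val_zero]
      linarith
    · simp
    · simp

/-- soundness on a half open box, ordered points -/
theorem run_box (R : Run) (hD : R.D.ok = true) (hts : R.ts.all Tk.ok = true) (T : Tr)
    (m2 h2 m3 h3 : ℕ) (h2m : h2 ≤ m2) (h3m : h3 ≤ m3) (hr : run R T m2 h2 m3 h3 = true)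
    (t : Tk) (ht : t ∈ R.ts) (y : Fin 3 → ℝ) (hy : R.Reg y) (h21 : y 1 ≤ y 0) (h32 : y 2 ≤ y 1)
    (ha2 : (m2 : ℝ) - h2 ≤ y 1 * 2 ^ 64) (hb2 : y 1 * 2 ^ 64 < (m2 : ℝ) + h2)
    (ha3 : (m3 : ℝ) - h3 ≤ y 2 * 2 ^ 64) (hb3 : y 2 * 2 ^ 64 < (m3 : ℝ) + h3) :
    0 ≤ R.val t y := by
  induction T generalizing m2 h2 m3 h3 with
  | lf =>
    obtain ⟨u, v, hu, hv, e⟩ := bx_point m2 h2 m3 h3 y hy.1 ha2 hb2 ha3 hb3
    rw [← e]
    exact leaf_sound R hD hts m2 h2 m3 h3 h2m h3m hr t ht u v hu hv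
  | sk =>
    exact (skip_sound R m2 h2 m3 h3 h2m h3m hr y hy h21 h32 ha2 hb2 ha3 hb3).elim
  | s2 l r ihl ihr =>
    simp only [run, Bool.and_eq_true] at hr
    obtain ⟨he, hl, hrr⟩ := hr
    have he' : h2 % 2 = 0 := Nat.eq_of_beq_eq_true he
    change run R l (m2 - h2 / 2) (h2 / 2) m3 h3 = true at hl
    change run R r (m2 + h2 / 2) (h2 / 2) m3 h3 = true at hrr
    obtain ⟨k, rfl⟩ : ∃ k, h2 = 2 * k := ⟨h2 / 2, by omega⟩
    have hk : 2 * k / 2 = k := by omega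
    rw [hk] at hl hrr
    push_cast at ha2 hb2
    rcases lt_or_ge (y 1 * 2 ^ 64) (m2 : ℝ) with hlt | hge
    · refine ihl (m2 - k) k m3 h3 (by omega) h3m hl ?_ ?_ ha3 hb3
      · rw [Nat.cast_sub (by omega)]
        linarith
      · rw [Nat.cast_sub (by omega)]
        linarith
    · refine ihr (m2 + k) k m3 h3 (by omega) h3m hrr ?_ ?_ ha3 hb3
      · push_cast
        linarith
      · push_cast
        linarith
  | s3 l r ihl ihr =>
    simp only [run, Bool.and_eq_true] at hr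
    obtain ⟨he, hl, hrr⟩ := hr
    have he' : h3 % 2 = 0 := Nat.eq_of_beq_eq_true he
    change run R l m2 h2 (m3 - h3 / 2) (h3 / 2) = true at hl
    change run R r m2 h2 (m3 + h3 / 2) (h3 / 2) = true at hrr
    obtain ⟨k, rfl⟩ : ∃ k, h3 = 2 * k := ⟨h3 / 2, by omega⟩
    have hk : 2 * k / 2 = k := by omega
    rw [hk] at hl hrr
    push_cast at ha3 hb3
    rcases lt_or_ge (y 2 * 2 ^ 64) (m3 : ℝ) with hlt | hge
    · refine ihl m2 h2 (m3 - k) k h2m (by omega) hl ha2 hb2 ?_ ?_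
      · rw [Nat.cast_sub (by omega)]
        linarith
      · rw [Nat.cast_sub (by omega)]
        linarith
    · refine ihr m2 h2 (m3 + k) k h2m (by omega) hrr ha2 hb2 ?_ ?_
      · push_cast
        linarith
      · push_cast
        linarith

theorem run_s2 (R : Run) (l r : Tr) (m2 h2 m3 h3 : ℕ) (h : h2 % 2 = 0)
    (hl : run R l (m2 - h2 / 2) (h2 / 2) m3 h3 = true)
    (hr : run R r (m2 + h2 / 2) (h2 / 2) m3 h3 = true) :
    run R (.s2 l r) m2 h2 m3 h3 = true := by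
  simp only [run, Bool.and_eq_true]
  exact ⟨by rw [Nat.beq_eq]; exact h, hl, hr⟩

theorem run_s3 (R : Run) (l r : Tr) (m2 h2 m3 h3 : ℕ) (h : h3 % 2 = 0)
    (hl : run R l m2 h2 (m3 - h3 / 2) (h3 / 2) = true)
    (hr : run R r m2 h2 (m3 + h3 / 2) (h3 / 2) = true) :
    run R (.s3 l r) m2 h2 m3 h3 = true := by
  simp only [run, Bool.and_eq_true]
  exact ⟨by rw [Nat.beq_eq]; exact h, hl, hr⟩

theorem perm3 (σ : Equiv.Perm (Fin 3)) (k : Fin 3) :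
    (σ (k + 1) = σ k + 1 ∧ σ (k + 2) = σ k + 2) ∨ (σ (k + 1) = σ k + 2 ∧ σ (k + 2) = σ k + 1) := by
  revert σ k
  decide

theorem Fc_perm (p t : ℝ) (σ : Equiv.Perm (Fin 3)) (y : Fin 3 → ℝ) :
    Fc p t (fun i => y (σ i)) = Fc p t y := by
  unfold Fc
  congr 1
  rw [← Equiv.sum_comp σ (fun k => (y (k + 1) * y (k + 2)) ^ p * (y k) ^ (1 - 2 * p) *
    Real.cos (t * (Real.log (y (k + 1)) - Real.log (y (k + 2)))))]
  refine Finset.sum_congr rfl fun k _ => ?_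
  beta_reduce
  rcases perm3 σ k with ⟨h1, h2⟩ | ⟨h1, h2⟩
  · rw [h1, h2]
  · rw [h1, h2, mul_comm (y (σ k + 2)) (y (σ k + 1)),
      show t * (Real.log (y (σ k + 2)) - Real.log (y (σ k + 1))) =
        -(t * (Real.log (y (σ k + 1)) - Real.log (y (σ k + 2)))) by ring, Real.cos_neg]

theorem Fn_perm (a : ℕ × ℕ) (σ : Equiv.Perm (Fin 3)) (y : Fin 3 → ℝ) :
    Fn a (fun i => y (σ i)) = Fn a y := Fc_perm _ _ σ y

theorem QQ_perm (σ : Equiv.Perm (Fin 3)) (y : Fin 3 → ℝ) : QQ (fun i => y (σ i)) = QQ y := by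
  have h : ∀ z : Fin 3 → ℝ, QQ z = (∑ i, (z i - 1) ^ 2) / 6 := by
    intro z
    rw [Fin.sum_univ_three]
    rfl
  rw [h, h, Equiv.sum_comp σ (fun i => (y i - 1) ^ 2)]

theorem RR_perm (σ : Equiv.Perm (Fin 3)) (y : Fin 3 → ℝ) :
    Neg.RR (fun i => y (σ i)) = Neg.RR y := by
  have h : ∀ z : Fin 3 → ℝ, Neg.RR z = ∏ i, (z i - 1) := by
    intro z
    rw [Fin.prod_univ_three]
    rfl
  rw [h, h, Equiv.prod_comp σ (fun i => y i - 1)]

theorem Sx_perm (σ : Equiv.Perm (Fin 3)) {y : Fin 3 → ℝ} (h : Sx y) : Sx (fun i => y (σ i)) :=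
  ⟨fun i => h.1 (σ i), by rw [Equiv.sum_comp σ (fun i => y i)]; exact h.2⟩

theorem Reg_perm (R : Run) (σ : Equiv.Perm (Fin 3)) {y : Fin 3 → ℝ} (h : R.Reg y) :
    R.Reg (fun i => y (σ i)) := by
  obtain ⟨h1, h2, ⟨i, h3⟩, h4⟩ := h
  exact ⟨Sx_perm σ h1, fun i => h2 (σ i), ⟨σ.symm i, by simpa using h3⟩, fun i => h4 (σ i)⟩

theorem basis_perm (R : Run) (σ : Equiv.Perm (Fin 3)) (y : Fin 3 → ℝ) :
    ∀ f ∈ R.basis, f (fun i => y (σ i)) = f y := by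
  intro f hf
  unfold Run.basis at hf
  rw [List.mem_append, List.mem_cons, List.mem_map] at hf
  rcases hf with (rfl | ⟨s, _, rfl⟩) | hf
  · rfl
  · exact Fn_perm _ σ y
  · rcases hz : R.z with _ | _
    · rw [hz] at hf
      simp only [Bool.false_eq_true, if_false, List.mem_cons, List.not_mem_nil, or_false] at hf
      rcases hf with rfl | rfl | rfl | rfl
      · exact QQ_perm σ y
      · exact RR_perm σ y
      · simp only [QQ_perm]
      · simp only [QQ_perm]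
    · rw [hz] at hf
      simp only [if_true, List.mem_map] at hf
      obtain ⟨s, _, rfl⟩ := hf
      exact Fn_perm _ σ (fun i => (3 - y i) / 2)

theorem val_perm (R : Run) (t : Tk) (σ : Equiv.Perm (Fin 3)) (y : Fin 3 → ℝ) :
    R.val t (fun i => y (σ i)) = R.val t y := by
  unfold Run.val
  congr 1
  funext i
  rcases lt_or_ge i R.basis.length with hi | hi
  · rw [List.getD_eq_getElem _ _ hi]
    exact basis_perm R σ y _ (List.getElem_mem hi)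
  · rw [List.getD_eq_default _ _ hi]

theorem sort3 (y : Fin 3 → ℝ) :
    ∃ σ : Equiv.Perm (Fin 3), y (σ 1) ≤ y (σ 0) ∧ y (σ 2) ≤ y (σ 1) := by
  refine ⟨Tuple.sort (fun i => -y i), ?_, ?_⟩
  · have h := Tuple.monotone_sort (fun i => -y i) (show (0 : Fin 3) ≤ 1 by decide)
    simpa using h
  · have h := Tuple.monotone_sort (fun i => -y i) (show (1 : Fin 3) ≤ 2 by decide)
    simpa using h

/-- soundness of a complete run -/
theorem run_sound (R : Run) (hD : R.D.ok = true) (hts : R.ts.all Tk.ok = true) (T : Tr)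
    (hr : run R T one64 one64 one64 one64 = true)
    (t : Tk) (ht : t ∈ R.ts) (y : Fin 3 → ℝ) (hy : R.Reg y) : 0 ≤ R.val t y := by
  obtain ⟨σ, h1, h2⟩ := sort3 y
  rw [← val_perm R t σ y]
  have hs := (Reg_perm R σ hy).1
  obtain ⟨hs1, hs2⟩ := hs
  rw [Fin.sum_univ_three] at hs2
  have k1 := hs1 0
  have k2 := hs1 1
  have k3 := hs1 2
  have e := one64_cast
  refine run_box R hD hts T one64 one64 one64 one64 le_rfl le_rfl hr t ht _ (Reg_perm R σ hy)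
    h1 h2 ?_ ?_ ?_ ?_
  · rw [e, sub_self]
    positivity
  · rw [e, ← two_mul]
    exact mul_lt_mul_of_pos_right (by linarith) (by norm_num)
  · rw [e, sub_self]
    positivity
  · rw [e, ← two_mul]
    exact mul_lt_mul_of_pos_right (by linarith) (by norm_num)

end Vale.Agent.Lib.P154.Neg.Ck
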