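import Vale.Agent.Lib.P154.Neg.NDefs

/-! N-CONV. Concavity of `Fc p t + C * Fc p 0`. -/

namespace Vale.Agent.Lib.P154.Neg

open scoped BigOperators
open Filter Topology

namespace ConvAux

/-- one term of `Fc` -/
noncomputable def E (p t u v w : ℝ) : ℝ :=
  (u * v) ^ p * w ^ (1 - 2 * p) * Real.cos (t * (Real.log u - Real.log v))

theorem Fc_eq (p t : ℝ) (y : Fin 3 → ℝ) :
    Fc p t y = (1 / 3) * ∑ k : Fin 3, E p t (y (k + 1)) (y (k + 2)) (y k) := rfl

theorem abs_sub_sin_le (x : ℝ) : |x - Real.sin x| ≤ 2 * x ^ 2 := by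
  have key : ∀ y : ℝ, 0 ≤ y → |y - Real.sin y| ≤ 2 * y ^ 2 := by
    intro y hy
    rcases hy.eq_or_lt with h | h
    · rw [← h]; simp
    rcases le_or_gt y 1 with h1 | h1
    · have h2 := Real.sin_gt_sub_cube h
      have h3 := Real.sin_le hy
      rw [abs_of_nonneg (by linarith)]
      nlinarith [mul_nonneg hy (sub_nonneg.2 h1), mul_nonneg (sq_nonneg y) (sub_nonneg.2 h1)]
    · have h2 := Real.neg_one_le_sin y
      have h3 := Real.sin_le_one y
      rw [abs_of_nonneg (by linarith)]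
      nlinarith
  rcases le_total 0 x with h | h
  · exact key x h
  · have := key (-x) (by linarith)
    rw [Real.sin_neg, neg_sq] at this
    rwa [show -x - -Real.sin x = -(x - Real.sin x) by ring, abs_neg] at this

theorem cos_bound (θ x : ℝ) :
    Real.cos (θ + x) - Real.cos θ + x * Real.sin θ ≤ 3 * x ^ 2 := by
  rw [Real.cos_add]
  have h1 : |Real.cos x - 1| ≤ x ^ 2 / 2 := by
    rw [abs_le]
    constructor
    · have := Real.one_sub_sq_div_two_le_cos (x := x); linarith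
    · have := Real.cos_le_one x
      have := sq_nonneg x
      linarith
  have h2 := abs_sub_sin_le x
  have h3 : Real.cos θ * Real.cos x - Real.sin θ * Real.sin x - Real.cos θ + x * Real.sin θ
      = Real.cos θ * (Real.cos x - 1) + Real.sin θ * (x - Real.sin x) := by ring
  rw [h3]
  have h4 : Real.cos θ * (Real.cos x - 1) ≤ 1 * (x ^ 2 / 2) := by
    refine (le_abs_self _).trans ?_
    rw [abs_mul]
    exact mul_le_mul (Real.abs_cos_le_one θ) h1 (abs_nonneg _) zero_le_one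
  have h5 : Real.sin θ * (x - Real.sin x) ≤ 1 * (2 * x ^ 2) := by
    refine (le_abs_self _).trans ?_
    rw [abs_mul]
    exact mul_le_mul (Real.abs_sin_le_one θ) h2 (abs_nonneg _) zero_le_one
  have := sq_nonneg x
  linarith

/-- the constant -/
noncomputable def CC (p t : ℝ) : ℝ := 1 + |t| / p + 48 * t ^ 2 / p ^ 2

theorem one_le_CC {p : ℝ} (hp0 : 0 < p) (t : ℝ) : 1 ≤ CC p t := by
  unfold CC
  have h1 : 0 ≤ |t| / p := div_nonneg (abs_nonneg _) hp0.le
  have h2 : 0 ≤ 48 * t ^ 2 / p ^ 2 := by positivity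
  linarith

theorem exp_gap_nonneg (s : ℝ) : 0 ≤ Real.exp s - 1 - s := by
  have := Real.add_one_le_exp s; linarith

theorem posPart_sq_le (s : ℝ) : (max s 0) ^ 2 ≤ 2 * (Real.exp s - 1 - s) := by
  rcases le_total s 0 with h | h
  · rw [max_eq_right h]
    have := exp_gap_nonneg s
    nlinarith
  · rw [max_eq_left h]
    have := Real.quadratic_le_exp_of_nonneg h
    linarith

/-- quadratic control of one coordinate -/
theorem coord_sq_le {p : ℝ} (hp0 : 0 < p) (hp1 : p ≤ 1 / 2) {s1 s2 s3 : ℝ}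
    (hs : p * s1 + p * s2 + (1 - 2 * p) * s3 = 0) :
    p ^ 2 * s2 ^ 2 ≤ 4 * (p * (Real.exp s1 - 1 - s1) + p * (Real.exp s2 - 1 - s2)
      + (1 - 2 * p) * (Real.exp s3 - 1 - s3)) := by
  obtain ⟨g1, hg1⟩ : ∃ g, g = Real.exp s1 - 1 - s1 := ⟨_, rfl⟩
  obtain ⟨g2, hg2⟩ : ∃ g, g = Real.exp s2 - 1 - s2 := ⟨_, rfl⟩
  obtain ⟨g3, hg3⟩ : ∃ g, g = Real.exp s3 - 1 - s3 := ⟨_, rfl⟩
  have n1 : 0 ≤ g1 := by rw [hg1]; exact exp_gap_nonneg _
  have n2 : 0 ≤ g2 := by rw [hg2]; exact exp_gap_nonneg _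
  have n3 : 0 ≤ g3 := by rw [hg3]; exact exp_gap_nonneg _
  have q1 : (max s1 0) ^ 2 ≤ 2 * g1 := by rw [hg1]; exact posPart_sq_le _
  have q2 : (max s2 0) ^ 2 ≤ 2 * g2 := by rw [hg2]; exact posPart_sq_le _
  have q3 : (max s3 0) ^ 2 ≤ 2 * g3 := by rw [hg3]; exact posPart_sq_le _
  rw [← hg1, ← hg2, ← hg3]
  have hp2 : 0 ≤ 1 - 2 * p := by linarith
  have m1 : 0 ≤ p * g1 := mul_nonneg hp0.le n1
  have m2 : 0 ≤ p * g2 := mul_nonneg hp0.le n2
  have m3 : 0 ≤ (1 - 2 * p) * g3 := mul_nonneg hp2 n3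
  rcases le_total 0 s2 with h | h
  · rw [max_eq_left h] at q2
    have h3 : p ^ 2 * s2 ^ 2 ≤ p ^ 2 * (2 * g2) := mul_le_mul_of_nonneg_left q2 (sq_nonneg p)
    have h4 : p ^ 2 * (2 * g2) ≤ 1 * (p * g2) := by
      have : p ^ 2 * (2 * g2) = (2 * p) * (p * g2) := by ring
      rw [this]
      exact mul_le_mul_of_nonneg_right (by linarith) m2
    linarith
  · obtain ⟨a, ha⟩ : ∃ a, a = p * max s1 0 := ⟨_, rfl⟩
    obtain ⟨b, hb⟩ : ∃ b, b = (1 - 2 * p) * max s3 0 := ⟨_, rfl⟩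
    have ha0 : 0 ≤ a := by rw [ha]; exact mul_nonneg hp0.le (le_max_right _ _)
    have hb0 : 0 ≤ b := by rw [hb]; exact mul_nonneg hp2 (le_max_right _ _)
    have h2 : -(p * s2) ≤ a + b := by
      have e1 : p * s1 ≤ a := by rw [ha]; exact mul_le_mul_of_nonneg_left (le_max_left _ _) hp0.le
      have e2 : (1 - 2 * p) * s3 ≤ b := by
        rw [hb]; exact mul_le_mul_of_nonneg_left (le_max_left _ _) hp2
      linarith
    have h3 : 0 ≤ -(p * s2) := by nlinarith
    have h4 : p ^ 2 * s2 ^ 2 ≤ (a + b) ^ 2 := by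
      have : p ^ 2 * s2 ^ 2 = (-(p * s2)) ^ 2 := by ring
      rw [this]
      exact pow_le_pow_left₀ h3 h2 2
    have h5 : (a + b) ^ 2 ≤ 2 * a ^ 2 + 2 * b ^ 2 := by nlinarith [sq_nonneg (a - b)]
    have h6 : a ^ 2 ≤ 1 * (p * g1) := by
      have e : a ^ 2 = p ^ 2 * (max s1 0) ^ 2 := by rw [ha]; ring
      rw [e]
      have h7 : p ^ 2 * (max s1 0) ^ 2 ≤ p ^ 2 * (2 * g1) :=
        mul_le_mul_of_nonneg_left q1 (sq_nonneg p)
      refine h7.trans ?_
      have : p ^ 2 * (2 * g1) = (2 * p) * (p * g1) := by ring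
      rw [this]
      exact mul_le_mul_of_nonneg_right (by linarith) m1
    have h7 : b ^ 2 ≤ 2 * ((1 - 2 * p) * g3) := by
      have e : b ^ 2 = (1 - 2 * p) ^ 2 * (max s3 0) ^ 2 := by rw [hb]; ring
      rw [e]
      have h8 : (1 - 2 * p) ^ 2 * (max s3 0) ^ 2 ≤ (1 - 2 * p) ^ 2 * (2 * g3) :=
        mul_le_mul_of_nonneg_left q3 (sq_nonneg _)
      refine h8.trans ?_
      have : (1 - 2 * p) ^ 2 * (2 * g3) = (2 * (1 - 2 * p)) * ((1 - 2 * p) * g3) := by ring
      rw [this]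
      exact mul_le_mul_of_nonneg_right (by linarith) m3
    linarith

theorem key0 {p : ℝ} (hp0 : 0 < p) (hp1 : p ≤ 1 / 2) (t θ : ℝ) {s1 s2 s3 : ℝ}
    (hs : p * s1 + p * s2 + (1 - 2 * p) * s3 = 0) :
    Real.cos (θ + t * (s1 - s2))
        - ((p * Real.cos θ - t * Real.sin θ) * Real.exp s1
          + (p * Real.cos θ + t * Real.sin θ) * Real.exp s2
          + (1 - 2 * p) * Real.cos θ * Real.exp s3)
      ≤ CC p t * (p * Real.exp s1 + p * Real.exp s2 + (1 - 2 * p) * Real.exp s3 - 1) := by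
  have c2 := coord_sq_le hp0 hp1 hs
  have c1 := coord_sq_le (s1 := s2) (s2 := s1) (s3 := s3) hp0 hp1 (by linarith)
  have n1 := exp_gap_nonneg s1
  have n2 := exp_gap_nonneg s2
  have n3 := exp_gap_nonneg s3
  have hp2 : 0 ≤ 1 - 2 * p := by linarith
  obtain ⟨G, hG⟩ : ∃ G, G = p * (Real.exp s1 - 1 - s1) + p * (Real.exp s2 - 1 - s2)
      + (1 - 2 * p) * (Real.exp s3 - 1 - s3) := ⟨_, rfl⟩
  have hGe : p * Real.exp s1 + p * Real.exp s2 + (1 - 2 * p) * Real.exp s3 - 1 = G := by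
    rw [hG]; linear_combination hs
  have m1 := mul_nonneg hp0.le n1
  have m2 := mul_nonneg hp0.le n2
  have m3 := mul_nonneg hp2 n3
  have hG0 : 0 ≤ G := by rw [hG]; linarith
  rw [← hG] at c2
  have c1' : p ^ 2 * s1 ^ 2 ≤ 4 * G := by rw [hG]; linarith
  have hd : (s1 - s2) ^ 2 ≤ 16 * G / p ^ 2 := by
    rw [le_div_iff₀ (by positivity)]
    nlinarith [sq_nonneg (p * (s1 + s2))]
  have hb := cos_bound θ (t * (s1 - s2))
  obtain ⟨x1, hx1⟩ : ∃ x, x = Real.exp s1 - 1 - s1 := ⟨_, rfl⟩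
  obtain ⟨x2, hx2⟩ : ∃ x, x = Real.exp s2 - 1 - s2 := ⟨_, rfl⟩
  have hg : |x1 - x2| ≤ G / p := by
    rw [← hx1] at n1 m1
    rw [← hx2] at n2 m2
    have hG1 : G = p * x1 + p * x2 + (1 - 2 * p) * (Real.exp s3 - 1 - s3) := by
      rw [hG, hx1, hx2]
    rw [le_div_iff₀ hp0]
    have e : |x1 - x2| * p = |p * x1 - p * x2| := by
      rw [← mul_sub, abs_mul, abs_of_pos hp0, mul_comm]
    rw [e, abs_le]
    constructor <;> linarith
  have hb2 : 3 * (t * (s1 - s2)) ^ 2 ≤ 48 * t ^ 2 / p ^ 2 * G := by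
    have : 3 * (t * (s1 - s2)) ^ 2 = 3 * t ^ 2 * (s1 - s2) ^ 2 := by ring
    rw [this]
    refine (mul_le_mul_of_nonneg_left hd (by positivity)).trans (le_of_eq ?_)
    ring
  have hsin : -(t * Real.sin θ * (x2 - x1)) ≤ |t| / p * G := by
    refine (le_abs_self _).trans ?_
    rw [abs_neg, abs_mul, abs_mul, abs_sub_comm]
    have e1 : |t| * |Real.sin θ| ≤ |t| * 1 :=
      mul_le_mul_of_nonneg_left (Real.abs_sin_le_one θ) (abs_nonneg t)
    have e2 := mul_le_mul e1 hg (abs_nonneg _) (by positivity)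
    refine e2.trans (le_of_eq ?_)
    ring
  have hcos : -(Real.cos θ * G) ≤ G := by
    have := mul_le_mul_of_nonneg_right (Real.neg_one_le_cos θ) hG0
    linarith
  rw [hGe]
  have e : Real.cos (θ + t * (s1 - s2))
        - ((p * Real.cos θ - t * Real.sin θ) * Real.exp s1
          + (p * Real.cos θ + t * Real.sin θ) * Real.exp s2
          + (1 - 2 * p) * Real.cos θ * Real.exp s3)
      = (Real.cos (θ + t * (s1 - s2)) - Real.cos θ + t * (s1 - s2) * Real.sin θ)
        + -(Real.cos θ * G) + -(t * Real.sin θ * (x2 - x1)) := by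
    rw [hx1, hx2, ← hGe]
    ring
  rw [e]
  unfold CC
  have : (1 + |t| / p + 48 * t ^ 2 / p ^ 2) * G = G + |t| / p * G + 48 * t ^ 2 / p ^ 2 * G := by
    ring
  rw [this]
  linarith

/-- the linearisation inequality -/
theorem key1 {p : ℝ} (hp0 : 0 < p) (hp1 : p ≤ 1 / 2) (t θ a b c : ℝ) :
    Real.exp (p * a + p * b + (1 - 2 * p) * c) * Real.cos (θ + t * (a - b))
        - ((p * Real.cos θ - t * Real.sin θ) * Real.exp a
          + (p * Real.cos θ + t * Real.sin θ) * Real.exp b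
          + (1 - 2 * p) * Real.cos θ * Real.exp c)
      ≤ CC p t * (p * Real.exp a + p * Real.exp b + (1 - 2 * p) * Real.exp c
          - Real.exp (p * a + p * b + (1 - 2 * p) * c)) := by
  obtain ⟨m, hm⟩ : ∃ m, m = p * a + p * b + (1 - 2 * p) * c := ⟨_, rfl⟩
  have h := key0 hp0 hp1 t θ (s1 := a - m) (s2 := b - m) (s3 := c - m) (by rw [hm]; ring)
  have e1 : a - m - (b - m) = a - b := by ring
  rw [e1] at h
  have h2 := mul_le_mul_of_nonneg_left h (Real.exp_pos m).le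
  have ea : Real.exp m * Real.exp (a - m) = Real.exp a := by rw [← Real.exp_add]; congr 1; ring
  have eb : Real.exp m * Real.exp (b - m) = Real.exp b := by rw [← Real.exp_add]; congr 1; ring
  have ec : Real.exp m * Real.exp (c - m) = Real.exp c := by rw [← Real.exp_add]; congr 1; ring
  rw [← hm]
  rw [← ea, ← eb, ← ec]
  refine le_trans (le_of_eq ?_) (h2.trans (le_of_eq ?_)) <;> ring

theorem E_pos (p t : ℝ) {u v w : ℝ} (hu : 0 < u) (hv : 0 < v) (hw : 0 < w) :
    E p t u v w = Real.exp (p * Real.log u + p * Real.log v + (1 - 2 * p) * Real.log w)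
      * Real.cos (t * (Real.log u - Real.log v)) := by
  unfold E
  rw [Real.rpow_def_of_pos (mul_pos hu hv), Real.rpow_def_of_pos hw, ← Real.exp_add,
    Real.log_mul hu.ne' hv.ne']
  congr 2
  ring

theorem lin_bound {p : ℝ} (hp0 : 0 < p) (hp1 : p ≤ 1 / 2) (t : ℝ) {u v w U V W : ℝ}
    (hu : 0 < u) (hv : 0 < v) (hw : 0 < w) (hU : 0 < U) (hV : 0 < V) (hW : 0 < W) :
    E p t u v w + CC p t * E p 0 u v w ≤
      E p 0 U V W * (((p * Real.cos (t * (Real.log U - Real.log V))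
            - t * Real.sin (t * (Real.log U - Real.log V))) * (u / U)
          + (p * Real.cos (t * (Real.log U - Real.log V))
            + t * Real.sin (t * (Real.log U - Real.log V))) * (v / V)
          + (1 - 2 * p) * Real.cos (t * (Real.log U - Real.log V)) * (w / W))
        + CC p t * (p * (u / U) + p * (v / V) + (1 - 2 * p) * (w / W))) := by
  have h := key1 hp0 hp1 t (t * (Real.log U - Real.log V)) (Real.log u - Real.log U)
    (Real.log v - Real.log V) (Real.log w - Real.log W)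
  have ea : Real.exp (Real.log u - Real.log U) = u / U := by
    rw [Real.exp_sub, Real.exp_log hu, Real.exp_log hU]
  have eb : Real.exp (Real.log v - Real.log V) = v / V := by
    rw [Real.exp_sub, Real.exp_log hv, Real.exp_log hV]
  have ec : Real.exp (Real.log w - Real.log W) = w / W := by
    rw [Real.exp_sub, Real.exp_log hw, Real.exp_log hW]
  rw [ea, eb, ec] at h
  have hΨ : E p 0 U V W
      = Real.exp (p * Real.log U + p * Real.log V + (1 - 2 * p) * Real.log W) := by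
    rw [E_pos p 0 hU hV hW]; simp
  have hψ0 : E p 0 u v w
      = Real.exp (p * Real.log u + p * Real.log v + (1 - 2 * p) * Real.log w) := by
    rw [E_pos p 0 hu hv hw]; simp
  have h2 := mul_le_mul_of_nonneg_left h
    (Real.exp_pos (p * Real.log U + p * Real.log V + (1 - 2 * p) * Real.log W)).le
  rw [← hΨ] at h2
  have e1 : E p 0 U V W * Real.exp (p * (Real.log u - Real.log U) + p * (Real.log v - Real.log V)
      + (1 - 2 * p) * (Real.log w - Real.log W)) = E p 0 u v w := by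
    rw [hΨ, hψ0, ← Real.exp_add]; congr 1; ring
  have e2 : E p 0 u v w * Real.cos (t * (Real.log U - Real.log V)
      + t * (Real.log u - Real.log U - (Real.log v - Real.log V))) = E p t u v w := by
    rw [hψ0, E_pos p t hu hv hw]
    congr 2
    ring
  obtain ⟨X, hX⟩ : ∃ X, X = Real.exp (p * (Real.log u - Real.log U)
    + p * (Real.log v - Real.log V) + (1 - 2 * p) * (Real.log w - Real.log W)) := ⟨_, rfl⟩
  rw [← hX] at h2 e1
  rw [← e2, ← e1]
  obtain ⟨co, hco⟩ : ∃ co, co = Real.cos (t * (Real.log U - Real.log V)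
      + t * (Real.log u - Real.log U - (Real.log v - Real.log V))) := ⟨_, rfl⟩
  rw [← hco] at h2 ⊢
  linarith

theorem super_pos {p : ℝ} (hp0 : 0 < p) (hp1 : p ≤ 1 / 2) (t : ℝ) {u v w u' v' w' : ℝ}
    (hu : 0 < u) (hv : 0 < v) (hw : 0 < w) (hu' : 0 < u') (hv' : 0 < v') (hw' : 0 < w') :
    (E p t u v w + CC p t * E p 0 u v w) + (E p t u' v' w' + CC p t * E p 0 u' v' w')
      ≤ E p t (u + u') (v + v') (w + w') + CC p t * E p 0 (u + u') (v + v') (w + w') := by
  have hU := add_pos hu hu'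
  have hV := add_pos hv hv'
  have hW := add_pos hw hw'
  have h1 := lin_bound hp0 hp1 t hu hv hw hU hV hW
  have h2 := lin_bound hp0 hp1 t hu' hv' hw' hU hV hW
  have eU : u / (u + u') + u' / (u + u') = 1 := by rw [← add_div, div_self hU.ne']
  have eV : v / (v + v') + v' / (v + v') = 1 := by rw [← add_div, div_self hV.ne']
  have eW : w / (w + w') + w' / (w + w') = 1 := by rw [← add_div, div_self hW.ne']
  have eX : E p t (u + u') (v + v') (w + w') = E p 0 (u + u') (v + v') (w + w')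
      * Real.cos (t * (Real.log (u + u') - Real.log (v + v'))) := by
    rw [E_pos p t hU hV hW, E_pos p 0 hU hV hW]; simp
  refine (add_le_add h1 h2).trans (le_of_eq ?_)
  rw [eX]
  obtain ⟨a, ha⟩ : ∃ a, a = u / (u + u') := ⟨_, rfl⟩
  obtain ⟨b, hb⟩ : ∃ b, b = v / (v + v') := ⟨_, rfl⟩
  obtain ⟨c, hc⟩ : ∃ c, c = w / (w + w') := ⟨_, rfl⟩
  have ha' : u' / (u + u') = 1 - a := by rw [ha]; linarith
  have hb' : v' / (v + v') = 1 - b := by rw [hb]; linarith
  have hc' : w' / (w + w') = 1 - c := by rw [hc]; linarith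
  rw [← ha, ← hb, ← hc, ha', hb', hc']
  ring

theorem tendsto_E {p : ℝ} (hp0 : 0 < p) (hp1 : p ≤ 1 / 2) (t : ℝ) {u v w : ℝ}
    (hu : 0 ≤ u) (hv : 0 ≤ v) (hw : 0 ≤ w) (cu cv cw : ℝ) :
    Tendsto (fun e : ℝ => E p t (u + cu * e) (v + cv * e) (w + cw * e)) (𝓝[>] 0)
      (𝓝 (E p t u v w)) := by
  have hid : Tendsto (fun e : ℝ => e) (𝓝[>] 0) (𝓝 0) := tendsto_nhdsWithin_of_tendsto_nhds tendsto_id
  have hlin : ∀ x c : ℝ, Tendsto (fun e : ℝ => x + c * e) (𝓝[>] 0) (𝓝 x) := fun x c => by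
    have := (hid.const_mul c).const_add x
    simpa using this
  have h1 : Tendsto (fun e : ℝ => ((u + cu * e) * (v + cv * e)) ^ p * (w + cw * e) ^ (1 - 2 * p))
      (𝓝[>] 0) (𝓝 ((u * v) ^ p * w ^ (1 - 2 * p))) := by
    refine Tendsto.mul ?_ ?_
    · exact ((Real.continuousAt_rpow_const (u * v) p (Or.inr hp0.le)).tendsto).comp
        ((hlin u cu).mul (hlin v cv))
    · exact ((Real.continuousAt_rpow_const w (1 - 2 * p) (Or.inr (by linarith))).tendsto).comp
        (hlin w cw)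
  by_cases h : u = 0 ∨ v = 0
  · have hz : (u * v) ^ p * w ^ (1 - 2 * p) = 0 := by
      have : u * v = 0 := by rcases h with h | h <;> simp [h]
      rw [this, Real.zero_rpow hp0.ne', zero_mul]
    have hz2 : E p t u v w = 0 := by unfold E; rw [hz, zero_mul]
    rw [hz] at h1
    rw [hz2]
    have h2 : Tendsto (fun e : ℝ => |((u + cu * e) * (v + cv * e)) ^ p
        * (w + cw * e) ^ (1 - 2 * p)|) (𝓝[>] 0) (𝓝 0) := by
      have := h1.abs
      simpa using this
    refine squeeze_zero_norm (fun e => ?_) h2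
    rw [Real.norm_eq_abs]
    unfold E
    rw [abs_mul]
    exact mul_le_of_le_one_right (abs_nonneg _) (Real.abs_cos_le_one _)
  · have hu' : u ≠ 0 := fun h' => h (Or.inl h')
    have hv' : v ≠ 0 := fun h' => h (Or.inr h')
    unfold E
    refine h1.mul ((Real.continuous_cos.tendsto _).comp (Tendsto.const_mul t ?_))
    exact ((Real.continuousAt_log hu').tendsto.comp (hlin u cu)).sub
      ((Real.continuousAt_log hv').tendsto.comp (hlin v cv))

theorem super_nonneg {p : ℝ} (hp0 : 0 < p) (hp1 : p ≤ 1 / 2) (t : ℝ) {u v w u' v' w' : ℝ}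
    (hu : 0 ≤ u) (hv : 0 ≤ v) (hw : 0 ≤ w) (hu' : 0 ≤ u') (hv' : 0 ≤ v') (hw' : 0 ≤ w') :
    (E p t u v w + CC p t * E p 0 u v w) + (E p t u' v' w' + CC p t * E p 0 u' v' w')
      ≤ E p t (u + u') (v + v') (w + w') + CC p t * E p 0 (u + u') (v + v') (w + w') := by
  have l1 := ((tendsto_E hp0 hp1 t hu hv hw 1 1 1).add
    ((tendsto_E hp0 hp1 0 hu hv hw 1 1 1).const_mul (CC p t))).add
    ((tendsto_E hp0 hp1 t hu' hv' hw' 1 1 1).add
    ((tendsto_E hp0 hp1 0 hu' hv' hw' 1 1 1).const_mul (CC p t)))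
  have l2 := (tendsto_E hp0 hp1 t (add_nonneg hu hu') (add_nonneg hv hv') (add_nonneg hw hw')
    2 2 2).add ((tendsto_E hp0 hp1 0 (add_nonneg hu hu') (add_nonneg hv hv') (add_nonneg hw hw')
    2 2 2).const_mul (CC p t))
  refine le_of_tendsto_of_tendsto l1 l2 ?_
  filter_upwards [self_mem_nhdsWithin] with e he
  have he' : (0:ℝ) < e := he
  have h := super_pos hp0 hp1 t (u := u + 1 * e) (v := v + 1 * e) (w := w + 1 * e)
    (u' := u' + 1 * e) (v' := v' + 1 * e) (w' := w' + 1 * e)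
    (by linarith) (by linarith) (by linarith) (by linarith) (by linarith) (by linarith)
  have e1 : ∀ x y : ℝ, x + 1 * e + (y + 1 * e) = x + y + 2 * e := fun x y => by ring
  rw [e1, e1, e1] at h
  exact h

theorem E_hom {p : ℝ} (hp0 : 0 < p) (t : ℝ) {c u v w : ℝ} (hc : 0 ≤ c)
    (hu : 0 ≤ u) (hv : 0 ≤ v) (hw : 0 ≤ w) : E p t (c * u) (c * v) (c * w) = c * E p t u v w := by
  rcases hc.eq_or_lt with h | h
  · unfold E
    rw [← h, zero_mul, zero_mul, zero_mul, zero_mul, Real.zero_rpow hp0.ne', zero_mul, zero_mul,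
      zero_mul]
  · by_cases hz : u = 0 ∨ v = 0
    · have e1 : u * v = 0 := by rcases hz with hz | hz <;> simp [hz]
      have e2 : c * u * (c * v) = 0 := by rcases hz with hz | hz <;> simp [hz]
      unfold E
      rw [e1, e2, Real.zero_rpow hp0.ne', zero_mul, zero_mul, zero_mul, zero_mul, mul_zero]
    · have hu' : u ≠ 0 := fun h' => hz (Or.inl h')
      have hv' : v ≠ 0 := fun h' => hz (Or.inr h')
      unfold E
      rw [Real.log_mul h.ne' hu', Real.log_mul h.ne' hv']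
      have e1 : (c * u * (c * v)) ^ p = c ^ (2 * p) * (u * v) ^ p := by
        rw [show c * u * (c * v) = (c * c) * (u * v) by ring,
          Real.mul_rpow (by positivity) (mul_nonneg hu hv), Real.mul_rpow hc hc,
          ← Real.rpow_add h]
        congr 2
        ring
      have e2 : (c * w) ^ (1 - 2 * p) = c ^ (1 - 2 * p) * w ^ (1 - 2 * p) :=
        Real.mul_rpow hc hw
      have e3 : c ^ (2 * p) * c ^ (1 - 2 * p) = c := by
        rw [← Real.rpow_add h]
        rw [show 2 * p + (1 - 2 * p) = 1 by ring, Real.rpow_one]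
      have e4 : Real.log c + Real.log u - (Real.log c + Real.log v)
          = Real.log u - Real.log v := by ring
      rw [e1, e2, e4]
      calc c ^ (2 * p) * (u * v) ^ p * (c ^ (1 - 2 * p) * w ^ (1 - 2 * p))
            * Real.cos (t * (Real.log u - Real.log v))
          = (c ^ (2 * p) * c ^ (1 - 2 * p)) * ((u * v) ^ p * w ^ (1 - 2 * p)
            * Real.cos (t * (Real.log u - Real.log v))) := by ring
        _ = _ := by rw [e3]

end ConvAux

open ConvAux

/-- `|Fc p t y| ≤ Fc p 0 y` -/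
theorem Fc_abs_le (p t : ℝ) (y : Fin 3 → ℝ) (hy : ∀ i, 0 ≤ y i) : |Fc p t y| ≤ Fc p 0 y := by
  rw [Fc_eq, Fc_eq, abs_mul, abs_of_pos (by norm_num : (0:ℝ) < 1 / 3)]
  refine mul_le_mul_of_nonneg_left ((Finset.abs_sum_le_sum_abs _ _).trans
    (Finset.sum_le_sum fun k _ => ?_)) (by norm_num)
  unfold E
  rw [zero_mul, Real.cos_zero, mul_one, abs_mul, abs_of_nonneg (mul_nonneg (Real.rpow_nonneg
    (mul_nonneg (hy _) (hy _)) _) (Real.rpow_nonneg (hy _) _))]
  exact mul_le_of_le_one_right (mul_nonneg (Real.rpow_nonneg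
    (mul_nonneg (hy _) (hy _)) _) (Real.rpow_nonneg (hy _) _)) (Real.abs_cos_le_one _)

/-- weighted AM-GM -/
theorem Fc0_le_mean (p : ℝ) (hp0 : 0 < p) (hp1 : p ≤ 1 / 2) (y : Fin 3 → ℝ) (hy : ∀ i, 0 ≤ y i) :
    Fc p 0 y ≤ mean 3 y := by
  have h : ∀ u v w : ℝ, 0 ≤ u → 0 ≤ v → 0 ≤ w → E p 0 u v w ≤ p * u + p * v + (1 - 2 * p) * w := by
    intro u v w hu hv hw
    unfold E
    rw [zero_mul, Real.cos_zero, mul_one, Real.mul_rpow hu hv]
    exact Real.geom_mean_le_arith_mean3_weighted hp0.le hp0.le (by linarith) hu hv hw (by ring)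
  rw [Fc_eq]
  unfold mean
  rw [Fin.sum_univ_three, Fin.sum_univ_three]
  have h0 := h (y (0 + 1)) (y (0 + 2)) (y 0) (hy _) (hy _) (hy _)
  have h1 := h (y (1 + 1)) (y (1 + 2)) (y 1) (hy _) (hy _) (hy _)
  have h2 := h (y (2 + 1)) (y (2 + 2)) (y 2) (hy _) (hy _) (hy _)
  have e1 : (0 : Fin 3) + 1 = 1 := rfl
  have e2 : (0 : Fin 3) + 2 = 2 := rfl
  have e3 : (1 : Fin 3) + 1 = 2 := rfl
  have e4 : (1 : Fin 3) + 2 = 0 := rfl
  have e5 : (2 : Fin 3) + 1 = 0 := rfl
  have e6 : (2 : Fin 3) + 2 = 1 := rfl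
  rw [e1, e2] at h0 ⊢
  rw [e3, e4] at h1 ⊢
  rw [e5, e6] at h2 ⊢
  have e7 : (((3 : ℕ) : ℝ)) = 3 := by norm_num
  rw [e7]
  linarith

theorem Fc_hom (p t : ℝ) (hp0 : 0 < p) (hp1 : p ≤ 1 / 2) (c : ℝ) (x : Fin 3 → ℝ) (hc : 0 ≤ c)
    (hx : ∀ i, 0 ≤ x i) : Fc p t (fun i => c * x i) = c * Fc p t x := by
  rw [Fc_eq, Fc_eq]
  have : ∀ k : Fin 3, E p t (c * x (k + 1)) (c * x (k + 2)) (c * x k)
      = c * E p t (x (k + 1)) (x (k + 2)) (x k) := fun k =>
    E_hom hp0 t hc (hx _) (hx _) (hx _)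
  simp only [this]
  rw [← Finset.mul_sum]
  ring

/-- Key point: for real `x1 x2 x3` and `a = (p + i t, p - i t, 1 - 2 p)`, weights `p1 = p2 = p`,
`p3 = 1 - 2 p`: `|exp (∑ a x) - ∑ a exp x| ≤ C * (∑ p exp x - exp (∑ p x))` (divide by
`exp (∑ p x)`, put `s_i = x_i - ∑ p x`, so `∑ p s = 0`; the left side is at most
`G + t^2 (s1-s2)^2 / 2 + (t / p) G` with `G = ∑ p (exp s - 1 - s)`, and `(s1-s2)^2 ≤ C' G`).
So at every positive point `c` the linearisation at `c` of `Fc p t + C Fc p 0` is above it; this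
gives superadditivity at positive points, and zero coordinates follow by continuity. -/
theorem Fc_concH (p t : ℝ) (hp0 : 0 < p) (hp1 : p ≤ 1 / 2) :
    ∃ C : ℝ, 1 ≤ C ∧ ConcH (fun y => Fc p t y + C * Fc p 0 y) := by
  refine ⟨CC p t, one_le_CC hp0 t, fun c x hc hx => ?_, fun x y hx hy => ?_⟩
  · show Fc p t _ + CC p t * Fc p 0 _ = c * (Fc p t x + CC p t * Fc p 0 x)
    rw [Fc_hom p t hp0 hp1 c x hc hx, Fc_hom p 0 hp0 hp1 c x hc hx]
    ring
  · show Fc p t x + CC p t * Fc p 0 x + (Fc p t y + CC p t * Fc p 0 y)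
      ≤ Fc p t (fun i => x i + y i) + CC p t * Fc p 0 (fun i => x i + y i)
    simp only [Fc_eq]
    have h : ∑ k : Fin 3, ((E p t (x (k + 1)) (x (k + 2)) (x k)
          + CC p t * E p 0 (x (k + 1)) (x (k + 2)) (x k))
        + (E p t (y (k + 1)) (y (k + 2)) (y k) + CC p t * E p 0 (y (k + 1)) (y (k + 2)) (y k)))
        ≤ ∑ k : Fin 3, (E p t (x (k + 1) + y (k + 1)) (x (k + 2) + y (k + 2)) (x k + y k)
          + CC p t * E p 0 (x (k + 1) + y (k + 1)) (x (k + 2) + y (k + 2)) (x k + y k)) :=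
      Finset.sum_le_sum fun k _ =>
        super_nonneg hp0 hp1 t (hx _) (hx _) (hx _) (hy _) (hy _) (hy _)
    simp only [Finset.sum_add_distrib, ← Finset.mul_sum] at h
    linarith

theorem Fc0_concH (p : ℝ) (hp0 : 0 < p) (hp1 : p ≤ 1 / 2) : ConcH (Fc p 0) := by
  obtain ⟨C, hC, hh, ha⟩ := Fc_concH p 0 hp0 hp1
  refine ⟨fun c x hc hx => Fc_hom p 0 hp0 hp1 c x hc hx, fun x y hx hy => ?_⟩
  have h := ha x y hx hy
  have e : ∀ z : Fin 3 → ℝ, Fc p 0 z + C * Fc p 0 z = (1 + C) * Fc p 0 z := fun z => by ring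
  simp only [e] at h
  rw [← mul_add] at h
  exact le_of_mul_le_mul_left h (by linarith)

/-- composition with the channel -/
theorem ConcH.chan {G : (Fin 3 → ℝ) → ℝ} (hG : ConcH G) (lam : ℝ) (h0 : -(1 / 2) ≤ lam)
    (h1 : lam ≤ 1) : ConcH (fun y => G (chan 3 lam y)) := by
  have hpos : ∀ i j : Fin 3, 0 ≤ potts 3 lam i j := fun i j => by
    refine Subcrit.potts_nonneg' (q := 3) (by norm_num) ?_ h1 i j
    norm_num
    linarith
  have hcn : ∀ W : Fin 3 → ℝ, (∀ i, 0 ≤ W i) → ∀ i, 0 ≤ Vale.Agent.Lib.P154.chan 3 lam W i :=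
    fun W hW i => Finset.sum_nonneg fun j _ => mul_nonneg (hpos i j) (hW j)
  refine ⟨fun c x hc hx => ?_, fun x y hx hy => ?_⟩
  · have e : Vale.Agent.Lib.P154.chan 3 lam (fun i => c * x i)
        = fun i => c * Vale.Agent.Lib.P154.chan 3 lam x i := by
      funext i
      unfold Vale.Agent.Lib.P154.chan
      rw [Finset.mul_sum]
      exact Finset.sum_congr rfl fun j _ => by ring
    show G _ = c * G _
    rw [e]
    exact hG.hom c _ hc (hcn x hx)
  · have e : Vale.Agent.Lib.P154.chan 3 lam (fun i => x i + y i)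
        = fun i => Vale.Agent.Lib.P154.chan 3 lam x i + Vale.Agent.Lib.P154.chan 3 lam y i := by
      funext i
      unfold Vale.Agent.Lib.P154.chan
      rw [← Finset.sum_add_distrib]
      exact Finset.sum_congr rfl fun j _ => by ring
    show G _ + G _ ≤ G _
    rw [e]
    exact hG.add _ _ (hcn x hx) (hcn y hy)

end Vale.Agent.Lib.P154.Neg
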