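import Vale.Agent.Lib.P154.Pot2Tree
import Vale.Agent.Lib.P154.Subcrit

/-! Hellinger-type functionals with complex exponents, for three states and `lam < 0`. -/

namespace Vale.Agent.Lib.P154.Neg

open scoped BigOperators
open Filter Topology

/-- Functional with exponents `p + i t, p - i t, 1 - 2 p`, averaged over the colours. -/
noncomputable def Fc (p t : ℝ) (y : Fin 3 → ℝ) : ℝ :=
  (1 / 3) * ∑ k : Fin 3, (y (k + 1) * y (k + 2)) ^ p * (y k) ^ (1 - 2 * p) *
    Real.cos (t * (Real.log (y (k + 1)) - Real.log (y (k + 2))))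

/-- positively homogeneous superadditive functionals on nonnegative vectors -/
structure ConcH (G : (Fin 3 → ℝ) → ℝ) : Prop where
  hom : ∀ (c : ℝ) (x : Fin 3 → ℝ), 0 ≤ c → (∀ i, 0 ≤ x i) → G (fun i => c * x i) = c * G x
  add : ∀ x y : Fin 3 → ℝ, (∀ i, 0 ≤ x i) → (∀ i, 0 ≤ y i) → G x + G y ≤ G (fun i => x i + y i)

end Vale.Agent.Lib.P154.Neg
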