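import Vale.Agent.Lib.P154.Neg.NDefs

/-! N-MULT. `Fc p t` is multiplicative over products of symmetric ensembles. -/

namespace Vale.Agent.Lib.P154.Neg

open scoped BigOperators
open Filter Topology

private theorem nm_potts_nonneg {lam : ℝ} (h0 : -(1 / 2) ≤ lam) (h1 : lam ≤ 1) (i j : Fin 3) :
    0 ≤ potts 3 lam i j := by
  refine Subcrit.potts_nonneg' (by norm_num) ?_ h1 i j
  norm_num
  linarith

theorem chan_nonneg' {lam : ℝ} (h0 : -(1 / 2) ≤ lam) (h1 : lam ≤ 1) {W : Fin 3 → ℝ}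
    (h : ∀ i, 0 ≤ W i) (i : Fin 3) : 0 ≤ chan 3 lam W i :=
  Finset.sum_nonneg fun j _ => mul_nonneg (nm_potts_nonneg h0 h1 i j) (h j)

theorem ens_chan (lam : ℝ) (h0 : -(1 / 2) ≤ lam) (h1 : lam ≤ 1) {S : Type*} [Fintype S]
    {L : S → Fin 3 → ℝ} (h : Ens L) : Ens (fun s => chan 3 lam (L s)) := by
  refine ⟨fun s i => chan_nonneg' h0 h1 (h.nonneg s) i, ?_, ?_⟩
  · intro G g
    have h2 := h.symm (fun W => G (chan 3 lam W)) g
    rw [h2]
    refine Finset.sum_congr rfl fun s _ => ?_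
    rw [chan_perm]
  · intro i
    unfold chan
    rw [Finset.sum_comm]
    simp only [← Finset.mul_sum, h.one, mul_one]
    exact potts_sum (by norm_num) i

private theorem nm_of_equiv {S S' : Type*} [Fintype S] [Fintype S'] (e : S ≃ S')
    {L : S → Fin 3 → ℝ} {L' : S' → Fin 3 → ℝ} (hL : ∀ s, L s = L' (e s)) (h : Ens L) :
    Ens L' := by
  have key : ∀ G : (Fin 3 → ℝ) → ℝ, ∑ s, G (L s) = ∑ s', G (L' s') := fun G =>
    Fintype.sum_equiv e _ _ fun s => by rw [hL]
  refine ⟨?_, ?_, ?_⟩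
  · intro s' i
    have := h.nonneg (e.symm s') i
    rwa [hL, Equiv.apply_symm_apply] at this
  · intro G g
    rw [← key, ← key (fun W => G (fun i => W (g i)))]
    exact h.symm G g
  · intro i
    rw [← key (fun W => W i)]
    exact h.one i

private theorem nm_ens_pi : ∀ (k : ℕ) (S : Fin k → Type) (inst : ∀ c, Fintype (S c))
    (L : ∀ c, S c → Fin 3 → ℝ), (∀ c, @Ens 3 (S c) (inst c) (L c)) →
    Ens (fun (s : ∀ c, S c) (i : Fin 3) => ∏ c, L c (s c) i)
  | 0, S, inst, L, h => by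
    simp only [Finset.univ_eq_empty, Finset.prod_empty]
    exact ⟨fun _ _ => zero_le_one, fun G g => by simp, fun i => by simp⟩
  | k + 1, S, inst, L, h => by
    have ih1 := nm_ens_pi k (fun c => S c.succ) (fun c => inst c.succ)
      (fun c => L c.succ) (fun c => h c.succ)
    have m1 := (h 0).merge ih1
    have hL : ∀ p : S 0 × (∀ c : Fin k, S c.succ),
        mergeL (L 0) (fun (s : ∀ c : Fin k, S c.succ) (i : Fin 3) => ∏ c, L c.succ (s c) i) p
        = (fun i => ∏ c, L c ((Fin.consEquiv S) p c) i) := by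
      intro p
      funext i
      rw [Fin.prod_univ_succ]
      rfl
    exact nm_of_equiv (Fin.consEquiv S) hL m1

private theorem nm_ens_zero (lam : ℝ) (T : Tr 0) : Ens (likL 3 lam 0 T) := by
  let e : Fin 3 ≃ (Lvl 0 T → Fin 3) :=
    { toFun := fun j _ => j
      invFun := fun s => s ()
      left_inv := fun _ => rfl
      right_inv := fun s => by funext u; cases u; rfl }
  refine nm_of_equiv (L := fun j : Fin 3 => fun i => if j = i then (1:ℝ) else 0) e
    (fun j => ?_) ⟨?_, ?_, ?_⟩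
  · funext i
    rfl
  · intro j i
    show (0:ℝ) ≤ if j = i then (1:ℝ) else 0
    split_ifs <;> norm_num
  · intro G g
    rw [← Equiv.sum_comp g (fun j : Fin 3 => G (fun i => if j = g i then (1:ℝ) else 0))]
    refine Finset.sum_congr rfl fun j _ => ?_
    congr 1
    funext i
    simp [g.injective.eq_iff]
  · intro i
    simp

/-- likelihood ensembles are symmetric also for `lam < 0` (compare `good2_likL`) -/
theorem ens_likL (lam : ℝ) (h0 : -(1 / 2) ≤ lam) (h1 : lam ≤ 1) :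
    ∀ (n : ℕ) (T : Tr n), Ens (likL 3 lam n T)
  | 0, T => nm_ens_zero lam T
  | n + 1, T => by
    have hc := fun c : Fin T.1 => ens_chan lam h0 h1 (ens_likL lam h0 h1 n (T.2 c))
    have g1 := nm_ens_pi T.1 (fun c => Lvl n (T.2 c) → Fin 3)
      (fun c => inferInstance) (fun c s => chan 3 lam (likL 3 lam n (T.2 c) s)) hc
    exact nm_of_equiv (spinEquiv 3 n T).symm (fun s => likL_prod n T s) g1

/-! ### Characters -/

/-- modulus -/
private noncomputable def nmM (p : ℝ) (y : Fin 3 → ℝ) : ℝ :=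
  (y 1 * y 2) ^ p * (y 0) ^ (1 - 2 * p)

private noncomputable def nmC (p t : ℝ) (y : Fin 3 → ℝ) : ℝ :=
  nmM p y * Real.cos (t * (Real.log (y 1) - Real.log (y 2)))

private noncomputable def nmS (p t : ℝ) (y : Fin 3 → ℝ) : ℝ :=
  nmM p y * Real.sin (t * (Real.log (y 1) - Real.log (y 2)))

private theorem nmM_mul (p : ℝ) (y y' : Fin 3 → ℝ) (hy : ∀ i, 0 ≤ y i) (hy' : ∀ i, 0 ≤ y' i) :
    nmM p (fun i => y i * y' i) = nmM p y * nmM p y' := by
  unfold nmM
  rw [show y 1 * y' 1 * (y 2 * y' 2) = (y 1 * y 2) * (y' 1 * y' 2) by ring,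
    Real.mul_rpow (mul_nonneg (hy 1) (hy 2)) (mul_nonneg (hy' 1) (hy' 2)),
    Real.mul_rpow (hy 0) (hy' 0)]
  ring

private theorem nmM_eq_zero {p : ℝ} (hp0 : 0 < p) {y : Fin 3 → ℝ} (h : y 1 = 0 ∨ y 2 = 0) :
    nmM p y = 0 := by
  have h2 : y 1 * y 2 = 0 := by
    rcases h with h | h <;> rw [h] <;> simp
  unfold nmM
  rw [h2, Real.zero_rpow hp0.ne', zero_mul]

private theorem nmC_mul {p : ℝ} (t : ℝ) (hp0 : 0 < p) (y y' : Fin 3 → ℝ) (hy : ∀ i, 0 ≤ y i)
    (hy' : ∀ i, 0 ≤ y' i) :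
    nmC p t (fun i => y i * y' i) = nmC p t y * nmC p t y' - nmS p t y * nmS p t y' := by
  unfold nmC nmS
  rw [nmM_mul p y y' hy hy']
  by_cases h : y 1 = 0 ∨ y 2 = 0
  · rw [nmM_eq_zero hp0 h]
    ring
  by_cases h' : y' 1 = 0 ∨ y' 2 = 0
  · rw [nmM_eq_zero hp0 h']
    ring
  push Not at h h'
  rw [Real.log_mul h.1 h'.1, Real.log_mul h.2 h'.2,
    show t * (Real.log (y 1) + Real.log (y' 1) - (Real.log (y 2) + Real.log (y' 2)))
      = t * (Real.log (y 1) - Real.log (y 2)) + t * (Real.log (y' 1) - Real.log (y' 2)) by ring,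
    Real.cos_add]
  ring

private theorem nm_sum_S (p t : ℝ) {S : Type*} [Fintype S] {L : S → Fin 3 → ℝ} (h : Ens L) :
    ∑ s, nmS p t (L s) = 0 := by
  have h2 := h.symm (nmS p t) (Equiv.swap 1 2)
  have h3 : ∀ y : Fin 3 → ℝ, nmS p t (fun i => y (Equiv.swap 1 2 i)) = - nmS p t y := by
    intro y
    unfold nmS nmM
    have e0 : Equiv.swap (1 : Fin 3) 2 0 = 0 := by decide
    have e1 : Equiv.swap (1 : Fin 3) 2 1 = 2 := by decide
    have e2 : Equiv.swap (1 : Fin 3) 2 2 = 1 := by decide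
    beta_reduce
    rw [e0, e1, e2, mul_comm (y 2) (y 1),
      show t * (Real.log (y 2) - Real.log (y 1)) = -(t * (Real.log (y 1) - Real.log (y 2))) by ring,
      Real.sin_neg]
    ring
  simp only [h3, Finset.sum_neg_distrib] at h2
  linarith

private theorem nm_sum_Fc (p t : ℝ) {S : Type*} [Fintype S] {L : S → Fin 3 → ℝ} (h : Ens L) :
    ∑ s, Fc p t (L s) = ∑ s, nmC p t (L s) := by
  have h1 : ∀ k : Fin 3, ∑ s, nmC p t (L s) = ∑ s, (L s (k + 1) * L s (k + 2)) ^ p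
      * (L s k) ^ (1 - 2 * p) * Real.cos (t * (Real.log (L s (k + 1)) - Real.log (L s (k + 2)))) := by
    intro k
    rw [h.symm (nmC p t) (Equiv.addLeft k)]
    refine Finset.sum_congr rfl fun s _ => ?_
    unfold nmC nmM
    simp only [Equiv.coe_addLeft, add_zero]
  unfold Fc
  rw [← Finset.mul_sum, Finset.sum_comm]
  simp only [← h1]
  rw [Finset.sum_const, Finset.card_univ, Fintype.card_fin, nsmul_eq_mul]
  push_cast
  ring

/-- The complex character `y ↦ (y_{k+1} y_{k+2})^p y_k^{1-2p} exp (i t (log y_{k+1} - log y_{k+2}))`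
is multiplicative on nonnegative vectors; by symmetry its sum over a symmetric ensemble does not
depend on `k` and is real (swap `k+1, k+2`), equal to the sum of `Fc p t`. -/
theorem Fc_merge (p t : ℝ) (hp0 : 0 < p) (hp1 : p ≤ 1 / 2) {S S' : Type*} [Fintype S]
    [Fintype S'] {L : S → Fin 3 → ℝ} {L' : S' → Fin 3 → ℝ} (h : Ens L) (h' : Ens L') :
    ∑ x, Fc p t (mergeL L L' x) = (∑ s, Fc p t (L s)) * ∑ s', Fc p t (L' s') := by
  have _hp1 := hp1
  rw [nm_sum_Fc p t (h.merge h'), nm_sum_Fc p t h, nm_sum_Fc p t h', Fintype.sum_prod_type]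
  simp only [mergeL_eq]
  have h1 : ∀ s s', nmC p t (fun i => L s i * L' s' i)
      = nmC p t (L s) * nmC p t (L' s') - nmS p t (L s) * nmS p t (L' s') := fun s s' =>
    nmC_mul t hp0 _ _ (h.nonneg s) (h'.nonneg s')
  simp only [h1, Finset.sum_sub_distrib, ← Finset.mul_sum, nm_sum_S p t h', mul_zero,
    sub_zero]
  rw [Finset.sum_mul]

private theorem nm_Fc_pi (p t : ℝ) (hp0 : 0 < p) (hp1 : p ≤ 1 / 2) :
    ∀ (k : ℕ) (S : Fin k → Type) (inst : ∀ c, Fintype (S c))
    (L : ∀ c, S c → Fin 3 → ℝ), (∀ c, @Ens 3 (S c) (inst c) (L c)) →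
    ∑ s : (∀ c, S c), Fc p t (fun i => ∏ c, L c (s c) i) = ∏ c, ∑ s, Fc p t (L c s)
  | 0, S, inst, L, h => by
    simp only [Finset.univ_eq_empty, Finset.prod_empty, Finset.univ_unique, Finset.sum_const,
      Finset.card_singleton, one_smul]
    unfold Fc
    simp
  | k + 1, S, inst, L, h => by
    have ih := nm_Fc_pi p t hp0 hp1 k (fun c => S c.succ) (fun c => inst c.succ)
      (fun c => L c.succ) (fun c => h c.succ)
    have ih1 := nm_ens_pi k (fun c => S c.succ) (fun c => inst c.succ)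
      (fun c => L c.succ) (fun c => h c.succ)
    have m1 := Fc_merge p t hp0 hp1 (h 0) ih1
    have hL : ∀ p : S 0 × (∀ c : Fin k, S c.succ),
        mergeL (L 0) (fun (s : ∀ c : Fin k, S c.succ) (i : Fin 3) => ∏ c, L c.succ (s c) i) p
        = (fun i => ∏ c, L c ((Fin.consEquiv S) p c) i) := by
      intro p
      funext i
      rw [Fin.prod_univ_succ]
      rfl
    rw [Fin.prod_univ_succ, ← ih, ← m1]
    exact (Fintype.sum_equiv (Fin.consEquiv S) _ _ fun p => by rw [hL p]).symm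

theorem val_Fc_succ (p t : ℝ) (hp0 : 0 < p) (hp1 : p ≤ 1 / 2) (lam : ℝ) (h0 : -(1 / 2) ≤ lam)
    (h1 : lam ≤ 1) (n : ℕ) (T : Tr (n + 1)) :
    val 3 lam (n + 1) T (Fc p t)
      = ∏ c : Fin T.1, val 3 lam n (T.2 c) (fun W => Fc p t (chan 3 lam W)) := by
  rw [val_prod]
  exact nm_Fc_pi p t hp0 hp1 T.1 (fun c => Lvl n (T.2 c) → Fin 3)
      (fun c => inferInstance) (fun c s => chan 3 lam (likL 3 lam n (T.2 c) s))
      (fun c => ens_chan lam h0 h1 (ens_likL lam h0 h1 n (T.2 c)))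

end Vale.Agent.Lib.P154.Neg
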