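import Vale.Agent.Lib.P154.Neg.NDefs

/-! N-TV. Total variation is controlled by the deficit of `Fc`. -/

namespace Vale.Agent.Lib.P154.Neg

open scoped BigOperators
open Filter Topology

/-- weighted AM-GM for one term -/
private theorem ntv_term_le {p a b c x : ℝ} (hp0 : 0 < p) (hp1 : p ≤ 1 / 2) (ha : 0 ≤ a)
    (hb : 0 ≤ b) (hc : 0 ≤ c) :
    (a * b) ^ p * c ^ (1 - 2 * p) * Real.cos x
      ≤ 2 * p * (Real.sqrt a * Real.sqrt b) + (1 - 2 * p) * c := by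
  have h1 : (a * b) ^ p = (Real.sqrt a * Real.sqrt b) ^ (2 * p) := by
    rw [← Real.sqrt_mul ha, Real.sqrt_eq_rpow, ← Real.rpow_mul (mul_nonneg ha hb)]
    congr 1
    ring
  have h2 : (Real.sqrt a * Real.sqrt b) ^ (2 * p) * c ^ (1 - 2 * p)
      ≤ 2 * p * (Real.sqrt a * Real.sqrt b) + (1 - 2 * p) * c :=
    Real.geom_mean_le_arith_mean2_weighted (by positivity) (by linarith) (by positivity) hc
      (by ring)
  have h3 : 0 ≤ (a * b) ^ p * c ^ (1 - 2 * p) := by positivity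
  calc (a * b) ^ p * c ^ (1 - 2 * p) * Real.cos x
      ≤ (a * b) ^ p * c ^ (1 - 2 * p) * 1 := mul_le_mul_of_nonneg_left (Real.cos_le_one _) h3
    _ = (Real.sqrt a * Real.sqrt b) ^ (2 * p) * c ^ (1 - 2 * p) := by rw [mul_one, h1]
    _ ≤ _ := h2

private theorem ntv_deficit_ge {p t : ℝ} (hp0 : 0 < p) (hp1 : p ≤ 1 / 2) (z : Fin 3 → ℝ)
    (hz : ∀ i, 0 ≤ z i) :
    p / 3 * ((Real.sqrt (z 0) - Real.sqrt (z 1)) ^ 2 + (Real.sqrt (z 1) - Real.sqrt (z 2)) ^ 2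
      + (Real.sqrt (z 2) - Real.sqrt (z 0)) ^ 2) ≤ mean 3 z - Fc p t z := by
  have e0 := Real.sq_sqrt (hz 0)
  have e1 := Real.sq_sqrt (hz 1)
  have e2 := Real.sq_sqrt (hz 2)
  have t0 := ntv_term_le (x := t * (Real.log (z 1) - Real.log (z 2))) hp0 hp1 (hz 1) (hz 2) (hz 0)
  have t1 := ntv_term_le (x := t * (Real.log (z 2) - Real.log (z 0))) hp0 hp1 (hz 2) (hz 0) (hz 1)
  have t2 := ntv_term_le (x := t * (Real.log (z 0) - Real.log (z 1))) hp0 hp1 (hz 0) (hz 1) (hz 2)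
  have hF : Fc p t z = (1 / 3) * ((z 1 * z 2) ^ p * (z 0) ^ (1 - 2 * p) *
        Real.cos (t * (Real.log (z 1) - Real.log (z 2)))
      + (z 2 * z 0) ^ p * (z 1) ^ (1 - 2 * p) *
        Real.cos (t * (Real.log (z 2) - Real.log (z 0)))
      + (z 0 * z 1) ^ p * (z 2) ^ (1 - 2 * p) *
        Real.cos (t * (Real.log (z 0) - Real.log (z 1)))) := by
    unfold Fc
    rw [Fin.sum_univ_three]
    rfl
  have hM : mean 3 z = (z 0 + z 1 + z 2) / 3 := by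
    unfold mean
    rw [Fin.sum_univ_three]
    norm_num
  rw [hF, hM]
  nlinarith [t0, t1, t2, e0, e1, e2]

private theorem ntv_mean_chan (lam : ℝ) (W : Fin 3 → ℝ) : mean 3 (chan 3 lam W) = mean 3 W := by
  unfold mean chan potts
  simp only [Fin.sum_univ_three]
  simp
  ring

private theorem ntv_chan_sub (lam : ℝ) (W : Fin 3 → ℝ) (i j : Fin 3) :
    chan 3 lam W i - chan 3 lam W j = lam * (W i - W j) := by
  unfold chan potts
  simp only [add_mul, Finset.sum_add_distrib, ite_mul, zero_mul, Finset.sum_ite_eq,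
    Finset.mem_univ, if_true]
  ring

private theorem ntv_sq_diff {a b m : ℝ} (ha : 0 ≤ a) (hb : 0 ≤ b) (hm : a + b ≤ 3 * m) :
    (a - b) ^ 2 ≤ 6 * m * (Real.sqrt a - Real.sqrt b) ^ 2 := by
  have e0 := Real.sq_sqrt ha
  have e1 := Real.sq_sqrt hb
  have h1 : (a - b) ^ 2 = (Real.sqrt a - Real.sqrt b) ^ 2 * (Real.sqrt a + Real.sqrt b) ^ 2 := by
    nth_rewrite 1 [← e0, ← e1]
    ring
  have h2 : (Real.sqrt a + Real.sqrt b) ^ 2 ≤ 6 * m := by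
    have : (Real.sqrt a + Real.sqrt b) ^ 2 ≤ 2 * (a + b) := by
      nlinarith [sq_nonneg (Real.sqrt a - Real.sqrt b)]
    linarith
  rw [h1, mul_comm]
  exact mul_le_mul_of_nonneg_right h2 (sq_nonneg _)

private theorem ntv_abs_sum (W : Fin 3 → ℝ) :
    (∑ i, |W i - mean 3 W|) ^ 2
      ≤ 4 / 3 * ((W 0 - W 1) ^ 2 + (W 1 - W 2) ^ 2 + (W 2 - W 0) ^ 2) := by
  have hM : mean 3 W = (W 0 + W 1 + W 2) / 3 := by
    unfold mean
    rw [Fin.sum_univ_three]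
    norm_num
  rw [Fin.sum_univ_three, hM]
  have a0 : |W 0 - (W 0 + W 1 + W 2) / 3| ≤ (|W 0 - W 1| + |W 2 - W 0|) / 3 := by
    rw [show W 0 - (W 0 + W 1 + W 2) / 3 = (W 0 - W 1) / 3 - (W 2 - W 0) / 3 by ring]
    refine (abs_sub _ _).trans (le_of_eq ?_)
    rw [abs_div, abs_div, abs_of_pos (by norm_num : (0:ℝ) < 3)]
    ring
  have a1 : |W 1 - (W 0 + W 1 + W 2) / 3| ≤ (|W 1 - W 2| + |W 0 - W 1|) / 3 := by
    rw [show W 1 - (W 0 + W 1 + W 2) / 3 = (W 1 - W 2) / 3 - (W 0 - W 1) / 3 by ring]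
    refine (abs_sub _ _).trans (le_of_eq ?_)
    rw [abs_div, abs_div, abs_of_pos (by norm_num : (0:ℝ) < 3)]
    ring
  have a2 : |W 2 - (W 0 + W 1 + W 2) / 3| ≤ (|W 2 - W 0| + |W 1 - W 2|) / 3 := by
    rw [show W 2 - (W 0 + W 1 + W 2) / 3 = (W 2 - W 0) / 3 - (W 1 - W 2) / 3 by ring]
    refine (abs_sub _ _).trans (le_of_eq ?_)
    rw [abs_div, abs_div, abs_of_pos (by norm_num : (0:ℝ) < 3)]
    ring
  have s0 := sq_abs (W 0 - W 1)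
  have s1 := sq_abs (W 1 - W 2)
  have s2 := sq_abs (W 2 - W 0)
  obtain ⟨x, hx⟩ : ∃ x, x = |W 0 - W 1| := ⟨_, rfl⟩
  obtain ⟨y, hy⟩ : ∃ y, y = |W 1 - W 2| := ⟨_, rfl⟩
  obtain ⟨w, hw⟩ : ∃ w, w = |W 2 - W 0| := ⟨_, rfl⟩
  rw [← hx] at a0 a1 s0
  rw [← hy] at a1 a2 s1
  rw [← hw] at a0 a2 s2
  have hsum : |W 0 - (W 0 + W 1 + W 2) / 3| + |W 1 - (W 0 + W 1 + W 2) / 3|
      + |W 2 - (W 0 + W 1 + W 2) / 3| ≤ 2 / 3 * (x + y + w) := by linarith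
  have hnn : 0 ≤ |W 0 - (W 0 + W 1 + W 2) / 3| + |W 1 - (W 0 + W 1 + W 2) / 3|
      + |W 2 - (W 0 + W 1 + W 2) / 3| := by positivity
  calc (|W 0 - (W 0 + W 1 + W 2) / 3| + |W 1 - (W 0 + W 1 + W 2) / 3|
      + |W 2 - (W 0 + W 1 + W 2) / 3|) ^ 2 ≤ (2 / 3 * (x + y + w)) ^ 2 :=
        pow_le_pow_left₀ hnn hsum 2
    _ ≤ 4 / 3 * (x ^ 2 + y ^ 2 + w ^ 2) := by
        nlinarith [sq_nonneg (x - y), sq_nonneg (y - w), sq_nonneg (w - x)]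
    _ = _ := by rw [s0, s1, s2]

private theorem ntv_potts_nonneg {lam : ℝ} (h0 : -(1 / 2) ≤ lam) (h1 : lam ≤ 1) (i j : Fin 3) :
    0 ≤ potts 3 lam i j := by
  refine Subcrit.potts_nonneg' (by norm_num) ?_ h1 i j
  norm_num
  linarith

private theorem ntv_point {p t lam : ℝ} (hp0 : 0 < p) (hp1 : p ≤ 1 / 2) (h0 : -(1 / 2) ≤ lam)
    (h1 : lam < 0) (W : Fin 3 → ℝ) (hW : ∀ i, 0 ≤ W i) :
    0 ≤ mean 3 W - Fc p t (chan 3 lam W) ∧
    (∑ i, |W i - mean 3 W|) ^ 2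
      ≤ mean 3 W * (24 / (p * lam ^ 2) * (mean 3 W - Fc p t (chan 3 lam W))) := by
  have hz : ∀ i, 0 ≤ chan 3 lam W i := fun i =>
    Finset.sum_nonneg fun j _ => mul_nonneg (ntv_potts_nonneg h0 (by linarith) i j) (hW j)
  have hd := ntv_deficit_ge (t := t) hp0 hp1 (chan 3 lam W) hz
  rw [ntv_mean_chan] at hd
  have d01 := ntv_chan_sub lam W 0 1
  have d12 := ntv_chan_sub lam W 1 2
  have d20 := ntv_chan_sub lam W 2 0
  have hM : mean 3 (chan 3 lam W) = mean 3 W := ntv_mean_chan lam W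
  have hM' : mean 3 (chan 3 lam W)
      = (chan 3 lam W 0 + chan 3 lam W 1 + chan 3 lam W 2) / 3 := by
    unfold mean
    rw [Fin.sum_univ_three]
    norm_num
  rw [hM] at hM'
  obtain ⟨m, hm⟩ : ∃ m, m = mean 3 W := ⟨_, rfl⟩
  obtain ⟨z, hzz⟩ : ∃ z, z = chan 3 lam W := ⟨_, rfl⟩
  have habs := ntv_abs_sum W
  rw [← hzz] at hz hd d01 d12 d20 hM' ⊢
  rw [← hm] at hd hM' habs ⊢
  have q01 := ntv_sq_diff (hz 0) (hz 1) (m := m) (by linarith [hz 2])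
  have q12 := ntv_sq_diff (hz 1) (hz 2) (m := m) (by linarith [hz 0])
  have q20 := ntv_sq_diff (hz 2) (hz 0) (m := m) (by linarith [hz 1])
  have hm0 : 0 ≤ m := by rw [hM']; linarith [hz 0, hz 1, hz 2]
  have hl2 : 0 < lam ^ 2 := by nlinarith
  obtain ⟨S, hS⟩ : ∃ S, S = (Real.sqrt (z 0) - Real.sqrt (z 1)) ^ 2
    + (Real.sqrt (z 1) - Real.sqrt (z 2)) ^ 2 + (Real.sqrt (z 2) - Real.sqrt (z 0)) ^ 2 := ⟨_, rfl⟩
  have hS0 : 0 ≤ S := by rw [hS]; positivity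
  rw [← hS] at hd
  have hdef0 : 0 ≤ m - Fc p t z := le_trans (by positivity) hd
  refine ⟨hdef0, ?_⟩
  have h2 : lam ^ 2 * ((W 0 - W 1) ^ 2 + (W 1 - W 2) ^ 2 + (W 2 - W 0) ^ 2) ≤ 6 * m * S := by
    have : lam ^ 2 * ((W 0 - W 1) ^ 2 + (W 1 - W 2) ^ 2 + (W 2 - W 0) ^ 2)
        = (z 0 - z 1) ^ 2 + (z 1 - z 2) ^ 2 + (z 2 - z 0) ^ 2 := by
      rw [d01, d12, d20]; ring
    rw [this, hS]
    linarith
  have h3 : S ≤ 3 / p * (m - Fc p t z) := by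
    rw [div_mul_eq_mul_div, le_div_iff₀ hp0]
    linarith
  have h4 : (W 0 - W 1) ^ 2 + (W 1 - W 2) ^ 2 + (W 2 - W 0) ^ 2 ≤ 6 * m * S / lam ^ 2 := by
    rw [le_div_iff₀ hl2]
    linarith
  calc (∑ i, |W i - m|) ^ 2 ≤ 4 / 3 * ((W 0 - W 1) ^ 2 + (W 1 - W 2) ^ 2 + (W 2 - W 0) ^ 2) :=
        habs
    _ ≤ 4 / 3 * (6 * m * S / lam ^ 2) := by linarith
    _ ≤ 4 / 3 * (6 * m * (3 / p * (m - Fc p t z)) / lam ^ 2) := by gcongr
    _ = m * (24 / (p * lam ^ 2) * (m - Fc p t z)) := by field_simp; ring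

/-- `Fc p t z ≤ Fc p 0 z ≤ 2 p * (average of sqrt (z_i z_j)) + (1 - 2 p) * mean z`, and
`mean z - average of sqrt (z_i z_j) = (1/6) ∑ (sqrt z_i - sqrt z_j)^2`; with `z = chan 3 lam W`,
`z_i - z_j = lam (W_i - W_j)`. Then Cauchy-Schwarz as in `tvTree_sq_le2`. -/
theorem tv_le (p t : ℝ) (hp0 : 0 < p) (hp1 : p ≤ 1 / 2) (lam : ℝ) (h0 : -(1 / 2) ≤ lam)
    (h1 : lam < 0) : ∃ C : ℝ, 0 ≤ C ∧ ∀ (n : ℕ) (T : Tr n),
      0 ≤ 1 - val 3 lam n T (fun W => Fc p t (chan 3 lam W)) ∧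
      tvTree 3 lam n T
        ≤ C * Real.sqrt (1 - val 3 lam n T (fun W => Fc p t (chan 3 lam W))) := by
  have hl2 : 0 < lam ^ 2 := by nlinarith
  refine ⟨Real.sqrt (24 / (p * lam ^ 2)), Real.sqrt_nonneg _, fun n T => ?_⟩
  have hnn : ∀ s i, 0 ≤ likL 3 lam n T s i := fun s i =>
    Subcrit.lik_nonneg (ntv_potts_nonneg h0 (by linarith)) n T i s
  have hsum : ∑ s, mean 3 (likL 3 lam n T s) = 1 := by
    unfold mean
    rw [← Finset.sum_div, Finset.sum_comm]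
    have : ∀ i : Fin 3, ∑ s, likL 3 lam n T s i = 1 := fun i =>
      Subcrit.lik_sum (by norm_num) n T i
    simp only [this]
    norm_num
  have hval : 1 - val 3 lam n T (fun W => Fc p t (chan 3 lam W))
      = ∑ s, (mean 3 (likL 3 lam n T s) - Fc p t (chan 3 lam (likL 3 lam n T s))) := by
    rw [Finset.sum_sub_distrib, hsum]
    rfl
  have hdef : 0 ≤ 1 - val 3 lam n T (fun W => Fc p t (chan 3 lam W)) := by
    rw [hval]
    exact Finset.sum_nonneg fun s _ => (ntv_point hp0 hp1 h0 h1 _ (hnn s)).1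
  refine ⟨hdef, ?_⟩
  have h2 : (∑ s, ∑ i, |likL 3 lam n T s i - mean 3 (likL 3 lam n T s)|) ^ 2
      ≤ (∑ s, mean 3 (likL 3 lam n T s)) * ∑ s, (24 / (p * lam ^ 2) *
        (mean 3 (likL 3 lam n T s) - Fc p t (chan 3 lam (likL 3 lam n T s)))) := by
    refine Finset.sum_sq_le_sum_mul_sum_of_sq_le_mul _ (fun s _ => mean_nonneg 3 (hnn s))
      (fun s _ => mul_nonneg (by positivity) (ntv_point hp0 hp1 h0 h1 _ (hnn s)).1) fun s _ => ?_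
    exact (ntv_point hp0 hp1 h0 h1 _ (hnn s)).2
  rw [hsum, one_mul, ← Finset.mul_sum, ← hval] at h2
  rw [tvTree_eq' (by norm_num) n T hnn, ← Real.sqrt_mul (by positivity)]
  have h3 : (∑ s, ∑ i, |likL 3 lam n T s i - mean 3 (likL 3 lam n T s)|)
      ≤ Real.sqrt (24 / (p * lam ^ 2) *
        (1 - val 3 lam n T (fun W => Fc p t (chan 3 lam W)))) := Real.le_sqrt_of_sq_le h2
  have h4 : 0 ≤ ∑ s, ∑ i, |likL 3 lam n T s i - mean 3 (likL 3 lam n T s)| := by positivity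
  refine le_trans ?_ h3
  norm_num
  linarith

end Vale.Agent.Lib.P154.Neg
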