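import Vale.Agent.Lib.P154.Neg.NConv
import Vale.Agent.Lib.P154.Neg.NMult
import Vale.Agent.Lib.P154.Neg.NTv
import Vale.Agent.Lib.P154.Subcrit

/-! Common lemmas for the limit laws on regular and on Galton-Watson trees. -/

namespace Vale.Agent.Lib.P154.Neg

open scoped BigOperators
open Filter Topology

theorem potts3_nonneg {lam : ℝ} (h0 : -(1 / 2) ≤ lam) (h1 : lam ≤ 1) (i j : Fin 3) :
    0 ≤ potts 3 lam i j :=
  Subcrit.potts_nonneg' (q := 3) (by norm_num) (by norm_num; linarith) h1 i j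

theorem lik3_nonneg {lam : ℝ} (h0 : -(1 / 2) ≤ lam) (h1 : lam ≤ 1) (n : ℕ) (T : Tr n)
    (s : Lvl n T → Fin 3) (i : Fin 3) : 0 ≤ lik 3 lam n T i s :=
  Subcrit.lik_nonneg (potts3_nonneg h0 h1) n T i s

theorem mean3_chan (lam : ℝ) (W : Fin 3 → ℝ) : mean 3 (chan 3 lam W) = mean 3 W := by
  unfold mean chan potts
  simp only [Fin.sum_univ_three]
  simp
  ring

theorem chan3_smul (lam c : ℝ) (y : Fin 3 → ℝ) :
    chan 3 lam (fun i => c * y i) = fun i => c * chan 3 lam y i := by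
  funext i
  unfold chan
  rw [Finset.mul_sum]
  refine Finset.sum_congr rfl fun j _ => ?_
  ring

theorem val_mean (lam : ℝ) (n : ℕ) (T : Tr n) : val 3 lam n T (mean 3) = 1 := by
  unfold val mean
  rw [← Finset.sum_div, Finset.sum_comm]
  simp only [Subcrit.lik_sum (q := 3) (by norm_num)]
  simp

theorem val_add (lam : ℝ) (n : ℕ) (T : Tr n) (F G : (Fin 3 → ℝ) → ℝ) :
    val 3 lam n T (fun W => F W + G W) = val 3 lam n T F + val 3 lam n T G := by
  unfold val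
  rw [← Finset.sum_add_distrib]

theorem val_cmul (lam : ℝ) (n : ℕ) (T : Tr n) (c : ℝ) (F : (Fin 3 → ℝ) → ℝ) :
    val 3 lam n T (fun W => c * F W) = c * val 3 lam n T F := by
  unfold val
  rw [← Finset.mul_sum]

theorem val_le {lam : ℝ} (h0 : -(1 / 2) ≤ lam) (h1 : lam ≤ 1) (n : ℕ) (T : Tr n)
    {F G : (Fin 3 → ℝ) → ℝ} (h : ∀ W : Fin 3 → ℝ, (∀ i, 0 ≤ W i) → F W ≤ G W) :
    val 3 lam n T F ≤ val 3 lam n T G :=
  Finset.sum_le_sum fun s _ => h _ fun i => lik3_nonneg h0 h1 n T s i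

theorem val_congr3 {lam : ℝ} (h0 : -(1 / 2) ≤ lam) (h1 : lam ≤ 1) (n : ℕ) (T : Tr n)
    {F G : (Fin 3 → ℝ) → ℝ} (h : ∀ W : Fin 3 → ℝ, (∀ i, 0 ≤ W i) → F W = G W) :
    val 3 lam n T F = val 3 lam n T G :=
  Finset.sum_congr rfl fun s _ => h _ fun i => lik3_nonneg h0 h1 n T s i

theorem exists_normal (W : Fin 3 → ℝ) (hW : ∀ i, 0 ≤ W i) :
    ∃ (c : ℝ) (y : Fin 3 → ℝ), 0 ≤ c ∧ (∀ i, 0 ≤ y i) ∧ ∑ i, y i = 3 ∧ W = fun i => c * y i := by
  have hm := mean_nonneg 3 hW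
  rcases hm.eq_or_lt with h | h
  · refine ⟨0, fun _ => 1, le_refl _, fun _ => zero_le_one, by simp, ?_⟩
    have h2 : ∑ j, W j = 0 := by
      have h3 : (∑ j, W j) / ((3 : ℕ) : ℝ) = 0 := h.symm
      rcases div_eq_zero_iff.1 h3 with h4 | h4
      · exact h4
      · norm_num at h4
    funext i
    rw [(Finset.sum_eq_zero_iff_of_nonneg fun j _ => hW j).1 h2 i (Finset.mem_univ i)]
    simp
  · refine ⟨mean 3 W, fun i => W i / mean 3 W, h.le, fun i => div_nonneg (hW i) h.le, ?_, ?_⟩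
    · rw [← Finset.sum_div, div_eq_iff h.ne']
      unfold mean
      push_cast
      ring
    · funext i
      field_simp

/-- pointwise inequalities on the simplex give inequalities for ensembles -/
theorem pw_val {ι : Type} [Fintype ι] (p t : ι → ℝ) (hp : ∀ a, 0 < p a ∧ p a ≤ 1 / 2)
    {lam : ℝ} (h0 : -(1 / 2) ≤ lam) (h1 : lam ≤ 1) (D : ℝ) (α β : ι → ℝ) (m : ℝ)
    (h : ∀ y : Fin 3 → ℝ, (∀ i, 0 ≤ y i) → ∑ i, y i = 3 →
        0 ≤ ∑ a, (α a * (1 - Fc (p a) (t a) y)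
          + β a * (D * (1 - Fc (p a) (t a) (chan 3 lam y)))) + m) (n : ℕ) (T : Tr n) :
    0 ≤ ∑ a, (α a * (1 - val 3 lam n T (Fc (p a) (t a)))
      + β a * (D * (1 - val 3 lam n T (fun W => Fc (p a) (t a) (chan 3 lam W))))) + m := by
  have key : ∀ W : Fin 3 → ℝ, (∀ i, 0 ≤ W i) →
      0 ≤ ∑ a, (α a * (mean 3 W - Fc (p a) (t a) W)
          + β a * (D * (mean 3 W - Fc (p a) (t a) (chan 3 lam W)))) + m * mean 3 W := by
    intro W hW
    obtain ⟨c, y, hc, hy, hs, rfl⟩ := exists_normal W hW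
    have hmean : mean 3 (fun i => c * y i) = c := by
      unfold mean
      rw [← Finset.mul_sum, hs]
      push_cast
      ring
    have h2 := mul_nonneg hc (h y hy hs)
    refine le_of_le_of_eq h2 ?_
    rw [hmean, mul_add, Finset.mul_sum, mul_comm m c]
    congr 1
    refine Finset.sum_congr rfl fun a _ => ?_
    rw [Fc_hom (p a) (t a) (hp a).1 (hp a).2 c y hc hy, chan3_smul,
      Fc_hom (p a) (t a) (hp a).1 (hp a).2 c _ hc (fun i => chan_nonneg' h0 h1 hy i)]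
    ring
  have h3 : 0 ≤ val 3 lam n T (fun W => ∑ a, (α a * (mean 3 W - Fc (p a) (t a) W)
          + β a * (D * (mean 3 W - Fc (p a) (t a) (chan 3 lam W)))) + m * mean 3 W) :=
    Finset.sum_nonneg fun s _ => key _ fun i => lik3_nonneg h0 h1 n T s i
  refine le_of_le_of_eq h3 ?_
  have hm := val_mean lam n T
  unfold val at hm ⊢
  rw [Finset.sum_add_distrib, ← Finset.mul_sum, hm, mul_one, Finset.sum_comm]
  congr 1
  refine Finset.sum_congr rfl fun a _ => ?_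
  rw [Finset.sum_add_distrib, ← Finset.mul_sum, ← Finset.mul_sum, ← Finset.mul_sum,
    Finset.sum_sub_distrib, Finset.sum_sub_distrib, hm]

/-- `|val (Fc ∘ chan)| ≤ 1` and similar bounds -/
theorem Fc_chan_le {p t lam : ℝ} (hp0 : 0 < p) (hp1 : p ≤ 1 / 2) (h0 : -(1 / 2) ≤ lam)
    (h1 : lam ≤ 1) (W : Fin 3 → ℝ) (hW : ∀ i, 0 ≤ W i) :
    |Fc p t (chan 3 lam W)| ≤ mean 3 W := by
  have h2 := fun i => chan_nonneg' h0 h1 hW i
  refine (Fc_abs_le p t _ h2).trans ?_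
  rw [← mean3_chan lam W]
  exact Fc0_le_mean p hp0 hp1 _ h2

theorem abs_val_le {p t lam : ℝ} (hp0 : 0 < p) (hp1 : p ≤ 1 / 2) (h0 : -(1 / 2) ≤ lam)
    (h1 : lam ≤ 1) (n : ℕ) (T : Tr n) :
    |val 3 lam n T (fun W => Fc p t (chan 3 lam W))| ≤ 1 := by
  unfold val
  refine (Finset.abs_sum_le_sum_abs _ _).trans ?_
  rw [← val_mean lam n T]
  exact Finset.sum_le_sum fun s _ =>
    Fc_chan_le hp0 hp1 h0 h1 _ fun i => lik3_nonneg h0 h1 n T s i

/-- monotone bounded sequences -/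
theorem exists_lim_of_mono {u : ℕ → ℝ} {M : ℝ} (hu : ∀ n, u n ≤ u (n + 1)) (hM : ∀ n, u n ≤ M) :
    ∃ l, Tendsto u atTop (𝓝 l) :=
  ⟨_, tendsto_atTop_ciSup (monotone_nat_of_le_succ hu) ⟨M, by rintro _ ⟨n, rfl⟩; exact hM n⟩⟩

end Vale.Agent.Lib.P154.Neg
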